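import Vale.Agent.P173.CellInd

/-!
P173 task Approx: cellular approximation in a graph, from `Stage.cell_induction`.
A path in `A` is constant since all subsets of `A` are closed.  A path in a closed edge with end
points in `{±1}` is homotopic to `edge`, `edge.symm` or a constant path.
-/

namespace Vale.Agent.P173

open Set Metric unitInterval

theorem ap_const {Z : Type*} [TopologicalSpace Z] {A : Set Z} (hd : ∀ C ⊆ A, IsClosed C)
    {x y : Z} (γ : Path x y) (h : ∀ t, γ t ∈ A) (t : I) : γ t = x := by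
  have hx : x ∈ A := γ.source ▸ h 0
  have h1 : IsClosed (γ ⁻¹' {x}) :=
    (hd _ (singleton_subset_iff.2 hx)).preimage γ.continuous
  have h2 : IsClosed (γ ⁻¹' (A \ {x})) := (hd _ sdiff_subset).preimage γ.continuous
  have e : (γ ⁻¹' {x})ᶜ = γ ⁻¹' (A \ {x}) := by
    ext s
    simp [h s]
  have h3 : IsClopen (γ ⁻¹' {x}) := ⟨h1, by rw [← isClosed_compl_iff, e]; exact h2⟩
  have h4 := h3.eq_univ ⟨0, γ.source⟩
  exact (h4 ▸ mem_univ t : t ∈ γ ⁻¹' {x})

theorem Stage.ap_edge {Z : Type*} [TopologicalSpace Z] {S : Type*} (st : Stage ℝ Z S) (s : S) :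
    CiLift (st.χ s) (closedBall 0 1) (st.edge s) (-1) 1 := by
  refine CiLift.mk' (fun t => 2 * (t : ℝ) - 1) (by fun_prop) (by simp) (by norm_num)
    (fun t => ?_) fun t => rfl
  rw [mem_closedBall_zero_iff, Real.norm_eq_abs, abs_le]
  constructor <;> linarith [t.2.1, t.2.2]

theorem Stage.approx {Z : Type*} [TopologicalSpace Z] {S : Type*} (st : Stage ℝ Z S)
    (hd : ∀ C ⊆ st.A, IsClosed C) {x y : Z} (hx : x ∈ st.A) (hy : y ∈ st.A) (γ : Path x y) :
    ∃ w, Rep st γ w := by
  refine st.cell_induction 1 norm_one (fun γ => ∃ w, Rep st γ w) ?_ ?_ ?_ ?_ hx hy γ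
  · intro x y γ h
    have hc := ap_const hd γ h
    obtain rfl : x = y := by rw [← γ.target, hc]
    rw [ci_eq_refl γ hc]
    exact ⟨1, Rep.refl x (γ.source ▸ h 0)⟩
  · intro s x y γ u v hu hv h
    obtain rfl := h.source
    obtain rfl := h.target
    have hh : ∀ {u v : ℝ} {α β : Path (st.χ s u) (st.χ s v)},
        CiLift (st.χ s) (closedBall 0 1) α u v → CiLift (st.χ s) (closedBall 0 1) β u v →
          α.Homotopic β := fun h1 h2 => h1.homotopic (convex_closedBall 0 1) (st.cont s) h2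
    by_cases e : u = v
    · subst e
      refine ⟨1, (Rep.refl _ (st.bdry s u hu)).htpy (hh ?_ h)⟩
      exact CiLift.mk' (fun _ => u) continuous_const rfl rfl
        (fun _ => mem_closedBall_zero_iff.2 hu.le) fun _ => rfl
    · rw [Real.norm_eq_abs, abs_eq zero_le_one] at hu hv
      rcases hu with rfl | rfl <;> rcases hv with rfl | rfl
      · exact absurd rfl e
      · exact ⟨_, (Rep.edge s).symm.htpy (hh (st.ap_edge s).symm h)⟩
      · exact ⟨_, (Rep.edge s).htpy (hh (st.ap_edge s) h)⟩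
      · exact absurd rfl e
  · rintro x y z γ γ' ⟨w, h⟩ ⟨w', h'⟩
    exact ⟨_, h.trans h'⟩
  · rintro x y γ γ' h ⟨w, h'⟩
    exact ⟨_, h'.htpy h⟩

end Vale.Agent.P173
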