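import Vale.Agent.P173.Fill

/-!
P173 task Area (about 200 lines): some face has a nonzero `ℤ²`-periodised coefficient in the
filling of the commutator.
Let `x g = toAdd (X g)`, `y g = toAdd (Y g)`, `α (g, e) = x g * y (ℓ (of e))` (real cochain) and
`I g w = expo α (lw ℓ g w)`.  Then `I g (w w') = I g w + I (g ℓ w) w'` (`hol_mul`) and
`I g w = x g * y (ℓ w) + I 1 w` (induction on `w`, or `hol_unique`).  So `I g (bd r) = I 1 (bd r)`,
and `I 1 (a b a⁻¹ b⁻¹) = x s * y t - x t * y s = 1`.  By `Fill.expo_eq`,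
`∑ f, c f * Ω f.2 = 1` with `Ω r = I 1 (bd r)`.  Group the support of `c` by the equivalence relation
`f ~ f'` iff `f' = mv (s^i t^j) f` for some integers `i, j` (`Finset.sum_fiberwise_of_maps_to` with
the quotient map, or `Finsupp.mapDomain`): `Ω` is constant on classes, so some class has a nonzero
total `K = ∑ f ∈ support, f ~ f₀, c f`, with `f₀` in the support.  Finally the double sum in the
statement equals `K`: `(mapDomain (mv g) c) (mv g f) = c f` (`Finsupp.mapDomain_apply`), the term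
`(x, y)` is `c (mv (s^(m-x) t^(m-y)) f₀)`; `(i, j) ↦ s^i t^j` is injective (apply `X`, `Y`) and
`|i|, |j| ≤ 2 κ₀ < m` for support elements (`Finset.sum_bij_ne_zero` or `Finset.sum_nbij'`).
-/

namespace Vale.Agent.P173

section aux

variable {Γ : Type*} [Group Γ] {S : Type*} (ℓ : FreeGroup S →* Γ) (X Y : Γ →* Multiplicative ℤ)

/-- the area cochain -/
def areaAl (e : Γ × S) : ℝ :=
  ((Multiplicative.toAdd (X e.1) : ℤ) : ℝ) * ((Multiplicative.toAdd (Y (ℓ (FreeGroup.of e.2))) : ℤ) : ℝ)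

/-- its integral along a lifted word -/
def areaI (g : Γ) (w : FreeGroup S) : ℝ := expo (areaAl ℓ X Y) (lw ℓ g w)

theorem areaI_mul (g : Γ) (w w' : FreeGroup S) :
    areaI ℓ X Y g (w * w') = areaI ℓ X Y g w + areaI ℓ X Y (g * ℓ w) w' := by
  simp only [areaI, lw, hol_mul, expo_mul]

theorem areaI_inv (g : Γ) (w : FreeGroup S) :
    areaI ℓ X Y g w⁻¹ = - areaI ℓ X Y (g * (ℓ w)⁻¹) w := by
  simp only [areaI, lw, hol_inv, expo_inv]

theorem areaI_shift (h g : Γ) (w : FreeGroup S) :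
    areaI ℓ X Y (h * g) w = ((Multiplicative.toAdd (X h) : ℤ) : ℝ) *
      ((Multiplicative.toAdd (Y (ℓ w)) : ℤ) : ℝ) + areaI ℓ X Y g w := by
  induction w using FreeGroup.induction_on generalizing g with
  | C1 => simp [areaI, lw]
  | of e =>
    simp only [areaI, lw, hol_of, expo_of, areaAl, map_mul, toAdd_mul, Int.cast_add]
    ring
  | inv_of e ih =>
    rw [areaI_inv, areaI_inv, mul_assoc, ih]
    simp only [map_inv, toAdd_inv, Int.cast_neg]
    ring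
  | mul a b iha ihb =>
    rw [areaI_mul, areaI_mul, mul_assoc, iha, ihb]
    simp only [map_mul, toAdd_mul, Int.cast_add]
    ring

theorem areaI_base (h : Γ) (w : FreeGroup S) :
    areaI ℓ X Y h w = ((Multiplicative.toAdd (X h) : ℤ) : ℝ) *
      ((Multiplicative.toAdd (Y (ℓ w)) : ℤ) : ℝ) + areaI ℓ X Y 1 w := by
  rw [← areaI_shift, mul_one]

theorem areaI_comm {a b : FreeGroup S}
    (hXa : X (ℓ a) = Multiplicative.ofAdd 1) (hXb : X (ℓ b) = 1) (hYa : Y (ℓ a) = 1)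
    (hYb : Y (ℓ b) = Multiplicative.ofAdd 1) : areaI ℓ X Y 1 (a * b * a⁻¹ * b⁻¹) = 1 := by
  rw [areaI_mul, areaI_mul, areaI_mul, areaI_inv, areaI_inv,
    areaI_base ℓ X Y (1 * ℓ a) b, areaI_base ℓ X Y (1 * ℓ (a * b) * (ℓ a)⁻¹) a,
    areaI_base ℓ X Y (1 * ℓ (a * b * a⁻¹) * (ℓ b)⁻¹) b]
  simp [hXa, hXb, hYa, hYb]

end aux

theorem area_class {ι : Type*} (r : Setoid ι) (c : ι →₀ ℤ) (Ω : ι → ℝ)
    (hΩ : ∀ f f', r f f' → Ω f = Ω f') (h : (c.sum fun f k => (k : ℝ) * Ω f) ≠ 0)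
    [DecidableRel r] : ∃ f₀ ∈ c.support, ∑ f ∈ c.support.filter (r f₀), c f ≠ 0 := by
  classical
  by_contra hn
  push Not at hn
  apply h
  rw [Finsupp.sum, ← Finset.sum_fiberwise_of_maps_to (t := c.support.image (Quotient.mk r))
    (g := Quotient.mk r) fun f hf => Finset.mem_image_of_mem _ hf]
  refine Finset.sum_eq_zero fun q hq => ?_
  obtain ⟨f₀, hf₀, rfl⟩ := Finset.mem_image.1 hq
  have h1 : c.support.filter (fun f => Quotient.mk r f = Quotient.mk r f₀) =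
      c.support.filter (r f₀) :=
    Finset.filter_congr fun f _ => by rw [Quotient.eq]; exact ⟨r.symm', r.symm'⟩
  rw [h1, Finset.sum_congr rfl (g := fun f => (c f : ℝ) * Ω f₀) fun f hf => by
    rw [hΩ _ _ (Finset.mem_filter.1 hf).2], ← Finset.sum_mul, ← Int.cast_sum, hn f₀ hf₀]
  simp

theorem exists_face_ne_zero {Γ : Type*} [Group Γ] {S R : Type*} {ℓ : FreeGroup S →* Γ}
    {bd : R → FreeGroup S} (hbd : ∀ r, ℓ (bd r) = 1) {a b : FreeGroup S}
    (hc : Commute (ℓ a) (ℓ b)) (X Y : Γ →* Multiplicative ℤ)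
    (hXa : X (ℓ a) = Multiplicative.ofAdd 1) (hXb : X (ℓ b) = 1) (hYa : Y (ℓ a) = 1)
    (hYb : Y (ℓ b) = Multiplicative.ofAdd 1) {F : Set (Γ × R)} {c : Γ × R →₀ ℤ}
    (h : Fill ℓ bd F (a * b * a⁻¹ * b⁻¹) c) (κ₀ : ℕ)
    (hκ : ∀ f ∈ F, |Multiplicative.toAdd (X f.1)| ≤ κ₀ ∧ |Multiplicative.toAdd (Y f.1)| ≤ κ₀) :
    ∃ f₀ ∈ F, ∀ m : ℕ, 2 * κ₀ < m →
      (∑ x ∈ Finset.range (2 * m), ∑ y ∈ Finset.range (2 * m),
        c.mapDomain (mv (ℓ a ^ x * ℓ b ^ y))) (mv (ℓ a ^ m * ℓ b ^ m) f₀) ≠ 0 := by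
  classical
  set s := ℓ a with hs
  set t := ℓ b with ht
  let φ : ℤ × ℤ → Γ := fun p => s ^ p.1 * t ^ p.2
  have φadd : ∀ p q, φ (p + q) = φ p * φ q := by
    intro p q
    simp only [φ, Prod.fst_add, Prod.snd_add, zpow_add]
    have := (hc.zpow_zpow q.1 p.2).eq
    calc s ^ p.1 * s ^ q.1 * (t ^ p.2 * t ^ q.2) = s ^ p.1 * (s ^ q.1 * t ^ p.2) * t ^ q.2 := by
          simp only [mul_assoc]
      _ = s ^ p.1 * t ^ p.2 * (s ^ q.1 * t ^ q.2) := by
          rw [this]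
          simp only [mul_assoc]
  have φ0 : φ 0 = 1 := by simp [φ]
  have φX : ∀ p, Multiplicative.toAdd (X (φ p)) = p.1 := by
    intro p
    simp [φ, hXa, hXb]
  have φY : ∀ p, Multiplicative.toAdd (Y (φ p)) = p.2 := by
    intro p
    simp [φ, hYa, hYb]
  let r : Setoid (Γ × R) :=
    ⟨fun f f' => ∃ p, f' = mv (φ p) f, fun f => ⟨0, by rw [φ0, mv_one]⟩, by
      rintro f f' ⟨p, rfl⟩
      exact ⟨-p, by rw [mv_mv, ← φadd, neg_add_cancel, φ0, mv_one]⟩, by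
      rintro f f' f'' ⟨p, rfl⟩ ⟨q, rfl⟩
      exact ⟨q + p, by rw [mv_mv, φadd]⟩⟩
  have h1 := h.expo_eq hbd (areaAl ℓ X Y) 1
  have h2 : (c.sum fun f k => (k : ℝ) * areaI ℓ X Y 1 (bd f.2)) ≠ 0 := by
    have h3 : (c.sum fun f k => (k : ℝ) * areaI ℓ X Y 1 (bd f.2)) = 1 := by
      rw [← areaI_comm ℓ X Y hXa hXb hYa hYb, areaI, h1]
      refine Finsupp.sum_congr fun f _ => ?_
      change _ = _ * areaI ℓ X Y (1 * f.1) (bd f.2)
      rw [areaI_base ℓ X Y (1 * f.1), hbd]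
      simp
    rw [h3]
    exact one_ne_zero
  obtain ⟨f₀, hf₀, hK⟩ := area_class r c (fun f => areaI ℓ X Y 1 (bd f.2))
    (by rintro f f' ⟨p, rfl⟩; rfl) h2
  have hF₀ : f₀ ∈ F := h.support (Finsupp.mem_support_iff.1 hf₀)
  refine ⟨f₀, hF₀, fun m hm => ?_⟩
  have hterm : ∀ x y : ℕ, c.mapDomain (mv (s ^ x * t ^ y)) (mv (s ^ m * t ^ m) f₀) =
      c (mv (φ ((m : ℤ) - x, (m : ℤ) - y)) f₀) := by
    intro x y
    have e1 : s ^ x * t ^ y = φ (x, y) := by simp [φ]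
    have e2 : s ^ m * t ^ m = φ (x, y) * φ ((m : ℤ) - x, (m : ℤ) - y) := by
      rw [← φadd]
      simp [φ]
    rw [e2, e1, ← mv_mv, Finsupp.mapDomain_apply (mv_injective _)]
  simp only [Finsupp.finsetSum_apply, hterm]
  rw [← Finset.sum_product']
  rw [Finset.sum_bij_ne_zero (t := c.support.filter (r f₀)) (g := fun f => c f)
    (fun p _ _ => mv (φ ((m : ℤ) - p.1, (m : ℤ) - p.2)) f₀)]
  · exact hK
  · intro p _ hp
    exact Finset.mem_filter.2 ⟨Finsupp.mem_support_iff.2 hp, _, rfl⟩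
  · intro p _ _ q _ _ he
    have h4 : φ ((m : ℤ) - p.1, (m : ℤ) - p.2) = φ ((m : ℤ) - q.1, (m : ℤ) - q.2) :=
      mul_right_cancel (congrArg Prod.fst he)
    have h5 := φX ((m : ℤ) - p.1, (m : ℤ) - p.2)
    have h6 := φY ((m : ℤ) - p.1, (m : ℤ) - p.2)
    rw [h4, φX] at h5
    rw [h4, φY] at h6
    simp only at h5 h6
    ext <;> omega
  · intro f hf hcf
    obtain ⟨-, p, rfl⟩ := Finset.mem_filter.1 hf
    have b0 := hκ f₀ hF₀
    have b1 := hκ _ (h.support hcf)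
    simp only [mv_fst, map_mul, toAdd_mul, φX, φY, abs_le] at b0 b1
    have e : (((m : ℤ) - ((m : ℤ) - p.1).toNat, (m : ℤ) - ((m : ℤ) - p.2).toNat) : ℤ × ℤ) = p := by
      ext <;> simp only <;> omega
    refine ⟨(((m : ℤ) - p.1).toNat, ((m : ℤ) - p.2).toNat), ?_, ?_, ?_⟩
    · simp only [Finset.mem_product, Finset.mem_range]
      constructor <;> omega
    · simp only [e]
      exact hcf
    · simp only [e]
  · intro p _ _
    rfl

end Vale.Agent.P173
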