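import Vale.Agent.P173.StageBasic

/-!
P173 task Atlas1 (about 150 lines): the tautological flat bundle over a graph.
`U none = punct`, `φ none = 1`; `U (some s) = χ s '' ball 0 1`, `φ (some s) z = if 0 < ψ s z then of s else 1`
with `ψ s` from `exists_coord`.  Different open edges are disjoint (`st.inj`); on
`U none ∩ U (some s)` the coordinate is nonzero and continuous, so its sign is locally constant.
For the edge path: it is homotopic to the concatenation of the subpaths over `[0, 1/4]`, `[1/4, 3/4]`,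
`[3/4, 1]` (`Path.Homotopy.subpathTransSubpath`, `Path.subpath_zero_one`, `PathHom.cast`), which lie in
`U none`, `U (some s)`, `U none`, giving `1 * (1⁻¹ * of s) * 1`.
-/

namespace Vale.Agent.P173

theorem Stage.exists_atlas {Z : Type*} [TopologicalSpace Z] {S : Type*} (st : Stage ℝ Z S) :
    ∃ 𝒜 : Atlas Z (FreeGroup S) (Option S), ∀ m : PathHom Z (FreeGroup S), 𝒜.Compat m →
      ∀ s, m.μ (st.edge s) = FreeGroup.of s := by
  classical
  choose ψ hψc hψ using st.exists_coord
  let U : Option S → Set Z := fun i => i.elim st.punct fun s => st.χ s '' Metric.ball 0 1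
  let φ : Option S → Z → FreeGroup S := fun i z =>
    i.elim 1 fun s => if 0 < ψ s z then FreeGroup.of s else 1
  have hU : ∀ s, IsOpen (st.χ s '' Metric.ball 0 1) := fun s =>
    st.isOpen_image s Metric.isOpen_ball subset_rfl
  have hlc : ∀ s z, z ∈ st.punct → z ∈ st.χ s '' Metric.ball 0 1 →
      ∀ᶠ z' in nhds z, φ (some s) z' = φ (some s) z := by
    intro s z hz hz'
    have hc : ContinuousAt (ψ s) z := (hψc s).continuousAt ((hU s).mem_nhds hz')
    obtain ⟨y, hy, rfl⟩ := hz'
    have hy' := mem_ball_zero_iff.1 hy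
    have hy0 : y ≠ 0 := fun h => hz s (by rw [h])
    rcases lt_or_gt_of_ne hy0 with h | h
    · have h1 : ψ s (st.χ s y) < 0 := by rwa [hψ s y hy']
      filter_upwards [hc.eventually_lt continuousAt_const h1] with z' hz'
      simp only [φ, Option.elim_some, if_neg hz'.not_gt, if_neg h1.not_gt]
    · have h1 : 0 < ψ s (st.χ s y) := by rwa [hψ s y hy']
      filter_upwards [continuousAt_const.eventually_lt hc h1] with z' hz'
      simp only [φ, Option.elim_some, if_pos hz', if_pos h1]
  refine ⟨⟨U, ?_, ?_, φ, ?_⟩, fun m hm s => ?_⟩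
  · rintro (_ | s)
    · exact st.isOpen_punct
    · exact hU s
  · intro z
    rcases st.cover z with hz | ⟨s, y, hy, rfl⟩
    · exact ⟨none, st.subset_punct hz⟩
    · exact ⟨some s, y, mem_ball_zero_iff.2 hy, rfl⟩
  · rintro (_ | s) (_ | s') z hz hz'
    · simp [φ]
    · filter_upwards [hlc s' z hz hz'] with z' h
      rw [h]
      rfl
    · filter_upwards [hlc s z hz' hz] with z' h
      rw [h]
      rfl
    · obtain ⟨y, hy, rfl⟩ := hz
      obtain ⟨y', hy', h⟩ := hz'
      obtain ⟨rfl, -⟩ := st.inj _ _ _ _ (mem_ball_zero_iff.1 hy') (mem_ball_zero_iff.1 hy) h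
      simp
  · let a : unitInterval := ⟨1 / 4, by norm_num, by norm_num⟩
    let b : unitInterval := ⟨3 / 4, by norm_num, by norm_num⟩
    have hr : ∀ t₀ t₁ : unitInterval, t₀ ≤ t₁ → ∀ t, ∃ y : ℝ, 2 * (t₀ : ℝ) - 1 ≤ y ∧
        y ≤ 2 * (t₁ : ℝ) - 1 ∧ (st.edge s).subpath t₀ t₁ t = st.χ s y := by
      intro t₀ t₁ h t
      have h1 : (st.edge s).subpath t₀ t₁ t ∈ Set.range ((st.edge s).subpath t₀ t₁) := ⟨t, rfl⟩
      rw [Path.range_subpath_of_le _ _ _ h] at h1
      obtain ⟨u, ⟨h2, h3⟩, h4⟩ := h1
      have h2' : (t₀ : ℝ) ≤ u := h2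
      have h3' : (u : ℝ) ≤ t₁ := h3
      exact ⟨2 * (u : ℝ) - 1, by linarith, by linarith, h4.symm⟩
    have e1 := hm none ((st.edge s).subpath 0 a) fun t => by
      obtain ⟨y, h1, h2, h3⟩ := hr 0 a a.2.1 t
      norm_num [a] at h1 h2
      rw [h3]
      exact st.mem_punct s (by linarith) (by rw [Real.norm_eq_abs, abs_le]; constructor <;> linarith)
    have e2 := hm (some s) ((st.edge s).subpath a b) fun t => by
      obtain ⟨y, h1, h2, h3⟩ := hr a b (by change (1 / 4 : ℝ) ≤ 3 / 4; norm_num) t
      norm_num [a, b] at h1 h2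
      rw [h3]
      exact ⟨y, by rw [mem_ball_zero_iff, Real.norm_eq_abs, abs_lt]; constructor <;> linarith, rfl⟩
    have e3 := hm none ((st.edge s).subpath b 1) fun t => by
      obtain ⟨y, h1, h2, h3⟩ := hr b 1 b.2.2 t
      norm_num [b] at h1 h2
      rw [h3]
      exact st.mem_punct s (by linarith) (by rw [Real.norm_eq_abs, abs_le]; constructor <;> linarith)
    have ha : φ (some s) (st.edge s a) = 1 := by
      have : ψ s (st.edge s a) = 2 * (1 / 4) - 1 := hψ s _ (by norm_num [abs_lt])
      simp only [φ, Option.elim_some, this]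
      rw [if_neg (by norm_num)]
    have hb : φ (some s) (st.edge s b) = FreeGroup.of s := by
      have : ψ s (st.edge s b) = 2 * (3 / 4) - 1 := hψ s _ (by norm_num [abs_lt])
      simp only [φ, Option.elim_some, this]
      rw [if_pos (by norm_num)]
    have e2' : m.μ ((st.edge s).subpath a b) = FreeGroup.of s := by
      rw [e2]
      change (φ (some s) _)⁻¹ * φ (some s) _ = _
      rw [ha, hb, inv_one, one_mul]
    have e1' : m.μ ((st.edge s).subpath 0 a) = 1 := by
      rw [e1]
      exact inv_mul_cancel (1 : FreeGroup S)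
    have e3' : m.μ ((st.edge s).subpath b 1) = 1 := by
      rw [e3]
      exact inv_mul_cancel (1 : FreeGroup S)
    have h1 := m.htpy ⟨Path.Homotopy.subpathTransSubpath (st.edge s) 0 a b⟩
    have h2 := m.htpy ⟨Path.Homotopy.subpathTransSubpath (st.edge s) 0 b 1⟩
    rw [m.trans, ← h1, m.trans, e1', e2', e3', Path.subpath_zero_one, m.cast, one_mul,
      mul_one] at h2
    exact h2.symm

end Vale.Agent.P173
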