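import Vale.Agent.P173.TopDefs

/-!
P173 task PathInd (about 250 lines): two general tools.
* `path_induction`: Lebesgue subdivision (`exists_monotone_Icc_subset_open_cover_unitInterval`),
  `Path.subpath`, `Path.Homotopy.subpathTransSubpath`, induction on `n` for `γ.subpath 0 (t n)`, and
  finally `Path.subpath_zero_one` (transport along `γ.source`, `γ.target`: generalise the end points,
  `obtain rfl`).
* `exists_pathHom`: give `G` the discrete topology; build `Zc : FiberBundleCore ι Z G` with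
  `baseSet = U`, `indexAt z = (cover z).choose`, `coordChange i j z k = k * φ i z * (φ j z)⁻¹`;
  the projection of the total space is a covering map (`FiberBundle.isCoveringMap`, or
  `IsCoveringMap.mk` with the local trivialisations).  The absolute coordinate of the point `⟨z, k⟩` is
  `k * φ (indexAt z) z`.  Left multiplication by `h : G` is a continuous self map of the total space
  over `Z`.  Let `μ γ` be the absolute coordinate of `monodromy ⟦γ⟧` applied to the point of absolute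
  coordinate `1`; `monodromy_trans_apply` and uniqueness of lifts (`eq_liftPath_iff`) give
  multiplicativity; for `γ` inside `U i` the lift is `t ↦ (localTriv i).symm (γ t, (φ i x)⁻¹)`.
  Alternative without bundles: call `m : I → G` adapted to `γ` if `t ↦ m t * (φ i (γ t))⁻¹` is
  locally constant on `γ ⁻¹' U i` for every `i`; prove existence and uniqueness given `m 0`, and the
  square version for homotopies.
-/

namespace Vale.Agent.P173

variable {Z : Type*} [TopologicalSpace Z]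

theorem path_induction {ι : Type*} (U : ι → Set Z) (hU : ∀ i, IsOpen (U i))
    (hc : ∀ z, ∃ i, z ∈ U i) (Q : ∀ {x y : Z}, Path x y → Prop)
    (hs : ∀ (i : ι) {x y : Z} (γ : Path x y), (∀ t, γ t ∈ U i) → Q γ)
    (ht : ∀ {x y z : Z} (γ : Path x y) (γ' : Path y z), Q γ → Q γ' → Q (γ.trans γ'))
    (hh : ∀ {x y : Z} {γ γ' : Path x y}, γ.Homotopic γ' → Q γ → Q γ')
    {x y : Z} (γ : Path x y) : Q γ := by
  obtain ⟨t, t0, tm, ⟨n, hn⟩, hsub⟩ :=
    exists_monotone_Icc_subset_open_cover_unitInterval (c := fun i => γ ⁻¹' U i)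
      (fun i => (hU i).preimage γ.continuous) fun s _ => by
        obtain ⟨i, hi⟩ := hc (γ s)
        exact Set.mem_iUnion.2 ⟨i, hi⟩
  have key : ∀ k, Q (γ.subpath 0 (t k)) := by
    intro k
    induction k with
    | zero =>
      obtain ⟨i, hi⟩ := hc (γ 0)
      rw [t0, Path.subpath_self]
      exact hs i _ fun s => hi
    | succ k ih =>
      obtain ⟨i, hi⟩ := hsub k
      refine hh ⟨Path.Homotopy.subpathTransSubpath γ 0 (t k) (t (k + 1))⟩ (ht _ _ ih
        (hs i _ fun s => ?_))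
      have : γ.subpath (t k) (t (k + 1)) s ∈ Set.range (γ.subpath (t k) (t (k + 1))) := ⟨s, rfl⟩
      rw [Path.range_subpath_of_le _ _ _ (tm k.le_succ)] at this
      obtain ⟨u, hu, he⟩ := this
      rw [← he]
      exact hi hu
  have h1 := key n
  have cast : ∀ {a b a' b' : Z} (δ : Path a b) (ha : a' = a) (hb : b' = b),
      Q (δ.cast ha hb) → Q δ := by
    intro a b a' b' δ ha hb h
    subst ha hb
    exact h
  have h2 : ∀ u : unitInterval, u = 1 → Q (γ.subpath 0 u) → Q (γ.subpath 0 1) := by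
    rintro u rfl h
    exact h
  have h3 := h2 _ (hn n le_rfl) h1
  rw [Path.subpath_zero_one] at h3
  exact cast _ _ _ h3

/-- the fibre bundle with discrete fibre defined by an atlas -/
noncomputable def Atlas.piCore {G : Type*} [Group G] [TopologicalSpace G] [DiscreteTopology G]
    {ι : Type*} (𝒜 : Atlas Z G ι) : FiberBundleCore ι Z G where
  baseSet := 𝒜.U
  isOpen_baseSet := 𝒜.isOpen
  indexAt z := (𝒜.cover z).choose
  mem_baseSet_at z := (𝒜.cover z).choose_spec
  coordChange i j z k := k * (𝒜.φ i z * (𝒜.φ j z)⁻¹)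
  coordChange_self i z _ k := by simp
  continuousOn_coordChange i j := by
    intro q hq
    have h1 : ContinuousAt (fun z => 𝒜.φ i z * (𝒜.φ j z)⁻¹) q.1 :=
      continuousAt_const.congr ((𝒜.lc i j q.1 hq.1.1 hq.1.2).mono fun z hz => hz.symm)
    have h2 : Continuous fun r : G × G => r.1 * r.2 := continuous_of_discreteTopology
    exact (h2.continuousAt.comp (continuousAt_snd.prodMk
      (h1.comp continuousAt_fst))).continuousWithinAt
  coordChange_comp i j k z _ v := by group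

/-- the point of absolute coordinate `g` over `x` -/
noncomputable def Atlas.piPt {G : Type*} [Group G] [TopologicalSpace G] [DiscreteTopology G]
    {ι : Type*} (𝒜 : Atlas Z G ι) (x : Z) (g : G) : 𝒜.piCore.proj ⁻¹' {x} :=
  ⟨⟨x, g * (𝒜.φ (𝒜.piCore.indexAt x) x)⁻¹⟩, rfl⟩

theorem Atlas.piPt_inj {G : Type*} [Group G] [TopologicalSpace G] [DiscreteTopology G]
    {ι : Type*} (𝒜 : Atlas Z G ι) (x : Z) {g g' : G} (h : 𝒜.piPt x g = 𝒜.piPt x g') : g = g' := by
  have h1 : (g * (𝒜.φ (𝒜.piCore.indexAt x) x)⁻¹ : G) = g' * (𝒜.φ (𝒜.piCore.indexAt x) x)⁻¹ :=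
    congrArg (fun e : 𝒜.piCore.proj ⁻¹' {x} => (show G from e.1.2)) h
  exact mul_right_cancel h1

theorem Atlas.piCov {G : Type*} [Group G] [TopologicalSpace G] [DiscreteTopology G]
    {ι : Type*} (𝒜 : Atlas Z G ι) : IsCoveringMap 𝒜.piCore.proj :=
  IsFiberBundle.isCoveringMap fun x =>
    ⟨𝒜.piCore.localTriv (𝒜.piCore.indexAt x), 𝒜.piCore.mem_baseSet_at x⟩

theorem Atlas.pi_monodromy_small {G : Type*} [Group G] [TopologicalSpace G] [DiscreteTopology G]
    {ι : Type*} (𝒜 : Atlas Z G ι) (i : ι) {x y : Z} (γ : Path x y) (h : ∀ t, γ t ∈ 𝒜.U i) (g : G) :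
    𝒜.piCov.monodromy (.mk γ) (𝒜.piPt x g) = 𝒜.piPt y (g * ((𝒜.φ i x)⁻¹ * 𝒜.φ i y)) := by
  let Γ : unitInterval → 𝒜.piCore.TotalSpace := fun t =>
    (𝒜.piCore.localTriv i).toOpenPartialHomeomorph.symm (γ t, g * (𝒜.φ i x)⁻¹)
  have hc : Continuous Γ :=
    (𝒜.piCore.localTriv i).toOpenPartialHomeomorph.continuousOn_symm.comp_continuous
      (γ.continuous.prodMk continuous_const) fun t => ⟨h t, trivial⟩
  have hv : ∀ t z, γ t = z → Γ t = (𝒜.piPt z (g * ((𝒜.φ i x)⁻¹ * 𝒜.φ i z))).1 := by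
    rintro t z rfl
    change (⟨γ t, (g * (𝒜.φ i x)⁻¹ * (𝒜.φ i (γ t) * (𝒜.φ (𝒜.piCore.indexAt (γ t)) (γ t))⁻¹) : G)⟩ :
      𝒜.piCore.TotalSpace) = ⟨γ t, (g * ((𝒜.φ i x)⁻¹ * 𝒜.φ i (γ t)) *
        (𝒜.φ (𝒜.piCore.indexAt (γ t)) (γ t))⁻¹ : G)⟩
    simp only [mul_assoc]
  have h0 : Γ 0 = (𝒜.piPt x g).1 := by
    rw [hv 0 x γ.source]
    simp
  have hl : Γ = 𝒜.piCov.liftPath γ (𝒜.piPt x g).1 (γ.source.trans (𝒜.piPt x g).2.symm) :=
    (𝒜.piCov.eq_liftPath_iff _).2 ⟨hc, rfl, h0⟩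
  apply Subtype.ext
  change 𝒜.piCov.liftPath γ (𝒜.piPt x g).1 (γ.source.trans (𝒜.piPt x g).2.symm) 1 = _
  rw [← hl, hv 1 y γ.target]

theorem exists_pathHom {G : Type*} [Group G] {ι : Type*} (𝒜 : Atlas Z G ι) :
    ∃ m : PathHom Z G, 𝒜.Compat m := by
  let _ : TopologicalSpace G := ⊥
  have : DiscreteTopology G := ⟨rfl⟩
  have key : ∀ {x y : Z} (γ : Path x y), ∃ h : G, ∀ g : G,
      𝒜.piCov.monodromy (.mk γ) (𝒜.piPt x g) = 𝒜.piPt y (g * h) := by
    intro x y γ
    refine path_induction 𝒜.U 𝒜.isOpen 𝒜.cover (fun {x y} γ => ∃ h : G, ∀ g : G,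
      𝒜.piCov.monodromy (.mk γ) (𝒜.piPt x g) = 𝒜.piPt y (g * h)) ?_ ?_ ?_ γ
    · intro i x y γ h
      exact ⟨_, 𝒜.pi_monodromy_small i γ h⟩
    · rintro x y z γ γ' ⟨h, hh⟩ ⟨h', hh'⟩
      refine ⟨h * h', fun g => ?_⟩
      rw [Path.Homotopic.Quotient.mk_trans, IsCoveringMap.monodromy_trans_apply, hh, hh',
        mul_assoc]
    · rintro x y γ γ' he ⟨h, hh⟩
      refine ⟨h, fun g => ?_⟩
      rw [← Path.Homotopic.Quotient.eq.2 he, hh]
  choose μ hμ using @key
  refine ⟨⟨fun γ => μ γ, ?_, ?_⟩, ?_⟩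
  · intro x y z γ γ'
    apply 𝒜.piPt_inj z
    have := hμ (γ.trans γ') 1
    rw [Path.Homotopic.Quotient.mk_trans, IsCoveringMap.monodromy_trans_apply, hμ, hμ] at this
    simpa using this.symm
  · intro x y γ γ' he
    apply 𝒜.piPt_inj y
    have := hμ γ 1
    rw [Path.Homotopic.Quotient.eq.2 he, hμ] at this
    simpa using this.symm
  · intro i x y γ h
    apply 𝒜.piPt_inj y
    have := hμ γ 1
    rw [𝒜.pi_monodromy_small i γ h] at this
    simpa using this.symm

end Vale.Agent.P173
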