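import Vale.Agent.P173.StageBasic
import Vale.Agent.P173.PathInd

/-!
P173 task Atlas2 (about 300 lines): a flat bundle on the 1-skeleton with trivial monodromy along
the attaching loops extends over the 2-cells.
Let `ρ : X → st.A` be `D 1` on `punct` (junk elsewhere; if `A` is empty the statement is trivial with
the constant functor), continuous on the open set `punct`, the identity on `A`, and
`ρ (χ r y) = χ r (y / ‖y‖)`.  For real `θ` let `b r θ = ⟨χ r (exp (θ i)), _⟩ : st.A` and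
`arc r θ₀ θ₁ : Path (b r θ₀) (b r θ₁)`, `t ↦ b r ((1 - t) θ₀ + t θ₁)`.  Then
`m (arc θ₀ θ₁) * m (arc θ₁ θ₂) = m (arc θ₀ θ₂)` (images of paths in the convex set `ℝ`),
`m (arc (θ₀ + 2π) (θ₁ + 2π)) = m (arc θ₀ θ₁)` and `m (arc 0 (2π)) = m (att r) = 1` (`PathHom.congr`), so
`M r θ = m (arc 0 θ)` is `2π`-periodic.  Atlas on `X` indexed by `ι ⊕ R`:
`U (inl i) = punct ∩ ρ ⁻¹' U i`, `φ (inl i) = φ i ∘ ρ`; `U (inr r) = χ r '' ball 0 1`,
`φ (inr r) z = M r (arg (ψ r z))`.  Local constancy of `M r (arg y) * (φ i (b r (arg y)))⁻¹` near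
`y₀ ≠ 0`: with `θ y = arg y₀ + arg (y / y₀)` (continuous at `y₀`, `exp (θ y i) = y / ‖y‖`, differs from
`arg y` by an integer multiple of `2π`), `M (θ y) = M θ₀ * m (arc θ₀ (θ y)) = M θ₀ * (φ i (b θ₀))⁻¹ * φ i (b (θ y))`
as soon as the short arc stays in `U i`.  The other order of the indices follows by taking inverses.
Take `m'` from `exists_pathHom`; compare with `m` by `path_induction` on `st.A` for the cover `U i`
(`Path.map_trans`, `Path.Homotopic.map`).
-/

namespace Vale.Agent.P173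

open Set Metric Topology

/-- the point of the attaching circle with argument `θ` -/
noncomputable def Stage.circ {X : Type*} [TopologicalSpace X] {R : Type*} (st : Stage ℂ X R)
    (r : R) (θ : ℝ) : st.A :=
  ⟨st.χ r (Complex.exp (θ * Complex.I)), st.bdry r _ (Complex.norm_exp_ofReal_mul_I θ)⟩

theorem Stage.continuous_circ {X : Type*} [TopologicalSpace X] {R : Type*} (st : Stage ℂ X R)
    (r : R) : Continuous (st.circ r) :=
  Continuous.subtype_mk ((st.cont r).comp_continuous (by fun_prop) fun θ => by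
    rw [mem_closedBall_zero_iff, Complex.norm_exp_ofReal_mul_I]) _

theorem atlas2_exp_arg {y : ℂ} (hy : y ≠ 0) :
    Complex.exp (y.arg * Complex.I) = (1 / ‖y‖ : ℝ) • y := by
  have h0 : (‖y‖ : ℂ) ≠ 0 := by exact_mod_cast norm_ne_zero_iff.2 hy
  have h1 := Complex.norm_mul_exp_arg_mul_I y
  rw [Complex.real_smul]
  push_cast
  field_simp
  rw [mul_comm]
  exact h1

theorem atlas2_exp_add {y y₀ : ℂ} (hy : y ≠ 0) (hy₀ : y₀ ≠ 0) :
    Complex.exp ((y₀.arg + (y / y₀).arg : ℝ) * Complex.I) = Complex.exp (y.arg * Complex.I) := by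
  have h0 : (‖y‖ : ℂ) ≠ 0 := by exact_mod_cast norm_ne_zero_iff.2 hy
  have h1 : (‖y₀‖ : ℂ) ≠ 0 := by exact_mod_cast norm_ne_zero_iff.2 hy₀
  rw [Complex.ofReal_add, add_mul, Complex.exp_add, atlas2_exp_arg hy, atlas2_exp_arg hy₀,
    atlas2_exp_arg (div_ne_zero hy hy₀), norm_div]
  simp only [Complex.real_smul]
  push_cast
  field_simp

theorem Stage.exists_potential {X : Type*} [TopologicalSpace X] {R : Type*} (st : Stage ℂ X R)
    {G : Type*} [Group G] (m : PathHom st.A G) (r : R) (hatt : m.μ (st.att r) = 1) :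
    ∃ M : ℝ → G, (∀ θ θ' : ℝ, Complex.exp (θ * Complex.I) = Complex.exp (θ' * Complex.I) →
      M θ = M θ') ∧
      ∀ θ θ', M θ' = M θ * m.μ ((Path.segment θ θ').map (st.continuous_circ r)) := by
  let mr := m.comap (st.continuous_circ r)
  have hN : ∀ a b c : ℝ, mr.μ (Path.segment a c) =
      mr.μ (Path.segment a b) * mr.μ (Path.segment b c) := fun a b c => by
    rw [← mr.trans]
    exact mr.htpy (SimplyConnectedSpace.paths_homotopic _ _)
  have h1 : mr.μ (Path.segment 0 (2 * Real.pi)) = 1 := by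
    rw [← hatt]
    refine m.congr fun t => Subtype.ext ?_
    change st.χ r (Complex.exp ((AffineMap.lineMap (0 : ℝ) (2 * Real.pi) (t : ℝ) : ℝ) * Complex.I)) =
      st.χ r (Complex.exp (2 * Real.pi * (t : ℝ) * Complex.I))
    rw [AffineMap.lineMap_apply]
    congr 2
    simp only [vsub_eq_sub, sub_zero, smul_eq_mul, vadd_eq_add, add_zero]
    push_cast
    ring
  have h2 : ∀ θ : ℝ, mr.μ (Path.segment (2 * Real.pi) (θ + 2 * Real.pi)) =
      mr.μ (Path.segment 0 θ) := fun θ => by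
    refine m.congr fun t => Subtype.ext ?_
    change st.χ r (Complex.exp ((AffineMap.lineMap (2 * Real.pi) (θ + 2 * Real.pi) (t : ℝ) : ℝ) *
      Complex.I)) = st.χ r (Complex.exp ((AffineMap.lineMap (0 : ℝ) θ (t : ℝ) : ℝ) * Complex.I))
    rw [AffineMap.lineMap_apply, AffineMap.lineMap_apply]
    simp only [vsub_eq_sub, sub_zero, smul_eq_mul, vadd_eq_add, add_zero, add_sub_cancel_right]
    push_cast
    rw [add_mul, Complex.exp_add, Complex.exp_two_pi_mul_I, mul_one]
  have hper : Function.Periodic (fun θ : ℝ => mr.μ (Path.segment 0 θ)) (2 * Real.pi) := fun θ => by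
    simp only
    rw [hN 0 (2 * Real.pi), h1, h2, one_mul]
  refine ⟨fun θ => mr.μ (Path.segment 0 θ), fun θ θ' h => ?_, fun θ θ' => hN 0 θ θ'⟩
  obtain ⟨n, hn⟩ := Complex.exp_eq_exp_iff_exists_int.1 h
  have : θ = θ' + n * (2 * Real.pi) := by
    have := congrArg Complex.im hn
    simpa using this
  rw [this]
  exact hper.int_mul n θ'

theorem Stage.extend_pathHom {X : Type*} [TopologicalSpace X] {R : Type*} (st : Stage ℂ X R)
    {G : Type*} [Group G] {ι : Type*} (𝒜 : Atlas st.A G ι) (m : PathHom st.A G)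
    (hm : 𝒜.Compat m) (hatt : ∀ r, m.μ (st.att r) = 1) :
    ∃ m' : PathHom X G, ∀ {x y : st.A} (γ : Path x y),
      m'.μ (γ.map continuous_subtype_val) = m.μ γ := by
  rcases isEmpty_or_nonempty st.A with hA | ⟨⟨a₀⟩⟩
  · exact ⟨⟨fun _ => 1, fun _ _ => (one_mul 1).symm, fun _ => rfl⟩, fun {x} => (hA.false x).elim⟩
  obtain ⟨D, hDc, hDA, hDχ, -, hD1⟩ := st.exists_deform
  have hex : ∀ z, ∃ a : st.A, z ∈ st.punct → (a : X) = D 1 z := fun z => by
    by_cases hz : z ∈ st.punct
    · exact ⟨⟨_, hD1 z hz⟩, fun _ => rfl⟩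
    · exact ⟨a₀, fun h => absurd h hz⟩
  choose ρ hρ using hex
  have hρc : ContinuousOn ρ st.punct := by
    rw [IsInducing.subtypeVal.continuousOn_iff]
    refine (hDc.comp (f := fun z => ((1 : ℝ), z)) (by fun_prop) fun z hz => ?_).congr hρ
    exact ⟨⟨zero_le_one, le_rfl⟩, hz⟩
  have hρA : ∀ a : st.A, ρ a = a := fun a =>
    Subtype.ext ((hρ _ (st.subset_punct a.2)).trans (hDA 1 _ a.2))
  have hρχ : ∀ r y, y ≠ 0 → ‖y‖ ≤ 1 → ρ (st.χ r y) = st.circ r y.arg := fun r y h0 h1 => by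
    refine Subtype.ext ?_
    rw [hρ _ (st.mem_punct r h0 h1), hDχ 1 r y h0 h1, sub_self, zero_add]
    exact congrArg _ (atlas2_exp_arg h0).symm
  choose ψ hψc hψ using st.exists_coord
  choose M hM1 hM2 using fun r => st.exists_potential m r (hatt r)
  have hopen : ∀ r, IsOpen (st.χ r '' ball 0 1) := fun r =>
    st.isOpen_image r isOpen_ball subset_rfl
  have key : ∀ r i z, z ∈ st.χ r '' ball 0 1 → z ∈ st.punct ∩ ρ ⁻¹' 𝒜.U i →
      ∀ᶠ z' in 𝓝 z, M r (ψ r z').arg * (𝒜.φ i (ρ z'))⁻¹ = M r (ψ r z).arg * (𝒜.φ i (ρ z))⁻¹ := by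
    intro r i z hz hz'
    have hc : ContinuousAt (ψ r) z := (hψc r).continuousAt ((hopen r).mem_nhds hz)
    have e1 := (hopen r).mem_nhds hz
    have e2 := st.isOpen_punct.mem_nhds hz'.1
    obtain ⟨y₀, hy₀, rfl⟩ := hz
    rw [mem_ball_zero_iff] at hy₀
    have h0 : y₀ ≠ 0 := fun h => hz'.1 r (by rw [h])
    have hU : st.circ r y₀.arg ∈ 𝒜.U i := hρχ r y₀ h0 hy₀.le ▸ hz'.2
    obtain ⟨ε, hε, hb⟩ := Metric.isOpen_iff.1 ((𝒜.isOpen i).preimage (st.continuous_circ r)) _ hU
    have hθ : ContinuousAt (fun z => y₀.arg + (ψ r z / y₀).arg) (st.χ r y₀) := by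
      refine continuousAt_const.add (ContinuousAt.comp (g := Complex.arg) ?_ (hc.div_const y₀))
      rw [hψ r y₀ hy₀, div_self h0]
      exact Complex.continuousAt_arg Complex.one_mem_slitPlane
    have e3 := hθ.eventually (ball_mem_nhds _ hε)
    simp only [hψ r y₀ hy₀, div_self h0, Complex.arg_one, add_zero] at e3
    filter_upwards [e1, e2, e3] with z hz hzp hz3
    obtain ⟨y, hy, rfl⟩ := hz
    rw [mem_ball_zero_iff] at hy
    have h1 : y ≠ 0 := fun h => hzp r (by rw [h])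
    rw [hψ r y hy] at hz3
    have h2 := atlas2_exp_add h1 h0
    have h3 : st.circ r y.arg = st.circ r (y₀.arg + (y / y₀).arg) :=
      Subtype.ext (congrArg (st.χ r) h2.symm)
    have h4 : ∀ t, (Path.segment y₀.arg (y₀.arg + (y / y₀).arg)).map (st.continuous_circ r) t ∈
        𝒜.U i := fun t => by
      refine hb ((convex_ball _ _).segment_subset (mem_ball_self hε) hz3 ?_)
      rw [← Path.range_segment]
      exact mem_range_self t
    rw [hψ r y hy, hψ r y₀ hy₀, hρχ r y h1 hy.le, hρχ r y₀ h0 hy₀.le, ← hM1 r _ _ h2, h3,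
      hM2 r y₀.arg (y₀.arg + (y / y₀).arg), hm i _ h4]
    group
  let 𝒜' : Atlas X G (ι ⊕ R) :=
    { U := Sum.elim (fun i => st.punct ∩ ρ ⁻¹' 𝒜.U i) fun r => st.χ r '' ball 0 1
      isOpen := by
        rintro (i | r)
        · exact hρc.isOpen_inter_preimage st.isOpen_punct (𝒜.isOpen i)
        · exact hopen r
      cover := fun z => by
        by_cases hz : z ∈ st.punct
        · obtain ⟨i, hi⟩ := 𝒜.cover (ρ z)
          exact ⟨Sum.inl i, hz, hi⟩
        · simp only [Stage.punct, mem_ofPred_eq, not_forall, not_not] at hz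
          obtain ⟨r, rfl⟩ := hz
          exact ⟨Sum.inr r, 0, mem_ball_self one_pos, rfl⟩
      φ := Sum.elim (fun i z => 𝒜.φ i (ρ z)) fun r z => M r (ψ r z).arg
      lc := by
        rintro (i | r) (j | r') z hz hz'
        · exact (hρc.continuousAt (st.isOpen_punct.mem_nhds hz.1)).eventually
            (𝒜.lc i j (ρ z) hz.2 hz'.2)
        · filter_upwards [key r' i z hz' hz] with z' h
          have := congrArg (fun g => g⁻¹) h
          simp only [mul_inv_rev, inv_inv] at this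
          exact this
        · exact key r j z hz hz'
        · obtain ⟨y, hy, rfl⟩ := hz
          obtain ⟨y', hy', h⟩ := hz'
          obtain rfl : r' = r :=
            (st.inj _ _ _ _ (mem_ball_zero_iff.1 hy') (mem_ball_zero_iff.1 hy) h).1
          exact Filter.Eventually.of_forall fun z' => by rw [mul_inv_cancel, mul_inv_cancel] }
  obtain ⟨m', hm'⟩ := exists_pathHom 𝒜'
  refine ⟨m', fun γ => path_induction 𝒜.U 𝒜.isOpen 𝒜.cover
    (fun γ => m'.μ (γ.map continuous_subtype_val) = m.μ γ) (fun i x y γ h => ?_)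
    (fun γ γ' h h' => ?_) (fun hh h => ?_) γ⟩
  · rw [hm i γ h, hm' (Sum.inl i) _ fun t => ⟨st.subset_punct (γ t).2, ?_⟩]
    · change (𝒜.φ i (ρ x))⁻¹ * 𝒜.φ i (ρ y) = _
      rw [hρA, hρA]
    · change ρ (γ t) ∈ 𝒜.U i
      rw [hρA]
      exact h t
  · rw [Path.map_trans, m'.trans, m.trans, h, h']
  · rw [← m.htpy hh, ← h]
    exact (m'.htpy (hh.map ⟨_, continuous_subtype_val⟩)).symm

end Vale.Agent.P173
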