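import Mathlib

/-!
P173 shared algebraic definitions (complete, no gaps).
* `S3`: unit quaternions.
* `hol ℓ B g w`: holonomy of the connection `B` (a value for each edge `(g, s)` of the Cayley
  graph) along the lift of the word `w` that starts at the vertex `g`.
* `Pres`: a presentation whose Cayley 2-complex has independent faces.
* `Cplx`: the finite flag 2-complex with its certificates.
-/

namespace Vale.Agent.P173

open scoped Quaternion

abbrev S3 : Type := Metric.sphere (0 : ℍ) 1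

theorem S3.norm_coe (z : S3) : ‖(z : ℍ)‖ = 1 := by
  simp

section hol

variable {Γ : Type*} [Group Γ] {S : Type*} {W : Type*} [Group W]

def holAux (ℓ : FreeGroup S →* Γ) (B : Γ × S → W) : FreeGroup S →* RegularWreathProduct W Γ :=
  FreeGroup.lift fun s => ⟨fun x => B (x⁻¹, s), ℓ (FreeGroup.of s)⟩

def hol (ℓ : FreeGroup S →* Γ) (B : Γ × S → W) (g : Γ) (w : FreeGroup S) : W :=
  (holAux ℓ B w).left g⁻¹

theorem holAux_right (ℓ : FreeGroup S →* Γ) (B : Γ × S → W) (w : FreeGroup S) :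
    (holAux ℓ B w).right = ℓ w := by
  have : RegularWreathProduct.rightHom.comp (holAux ℓ B) = ℓ := by
    ext s
    simp [holAux]
  exact DFunLike.congr_fun this w

@[simp] theorem hol_one (ℓ : FreeGroup S →* Γ) (B : Γ × S → W) (g : Γ) : hol ℓ B g 1 = 1 := by
  simp [hol]

@[simp] theorem hol_of (ℓ : FreeGroup S →* Γ) (B : Γ × S → W) (g : Γ) (s : S) :
    hol ℓ B g (FreeGroup.of s) = B (g, s) := by
  simp [hol, holAux]

theorem hol_mul (ℓ : FreeGroup S →* Γ) (B : Γ × S → W) (g : Γ) (w w' : FreeGroup S) :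
    hol ℓ B g (w * w') = hol ℓ B g w * hol ℓ B (g * ℓ w) w' := by
  simp [hol, holAux_right]

theorem hol_inv (ℓ : FreeGroup S →* Γ) (B : Γ × S → W) (g : Γ) (w : FreeGroup S) :
    hol ℓ B g w⁻¹ = (hol ℓ B (g * (ℓ w)⁻¹) w)⁻¹ := by
  have h := hol_mul ℓ B g w⁻¹ w
  rw [inv_mul_cancel, hol_one, map_inv] at h
  exact eq_inv_of_mul_eq_one_left h.symm

theorem hol_conj (ℓ : FreeGroup S →* Γ) (B : Γ × S → W) (g : Γ) (γ w : FreeGroup S)
    (hw : ℓ w = 1) :
    hol ℓ B g (γ * w * γ⁻¹) = hol ℓ B g γ * hol ℓ B (g * ℓ γ) w * (hol ℓ B g γ)⁻¹ := by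
  rw [hol_mul, hol_mul, hol_inv]
  simp [hw]

theorem hol_unique (ℓ : FreeGroup S →* Γ) (B : Γ × S → W) (h : Γ → FreeGroup S → W)
    (hmul : ∀ g w w', h g (w * w') = h g w * h (g * ℓ w) w')
    (hof : ∀ g s, h g (FreeGroup.of s) = B (g, s)) (g : Γ) (w : FreeGroup S) :
    h g w = hol ℓ B g w := by
  have h1 : ∀ g, h g 1 = 1 := fun g => by
    have := hmul g 1 1
    simpa using this
  induction w using FreeGroup.induction_on generalizing g with
  | C1 => simp [h1]
  | of s => simp [hof]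
  | inv_of s ih =>
    rw [hol_inv, ← ih]
    have h2 := hmul g (FreeGroup.of s)⁻¹ (FreeGroup.of s)
    rw [inv_mul_cancel, h1, map_inv] at h2
    exact eq_inv_of_mul_eq_one_left h2.symm
  | mul a b iha ihb => rw [hmul, hol_mul, iha, ihb]

theorem map_hol {W' : Type*} [Group W'] (f : W →* W') (ℓ : FreeGroup S →* Γ) (B : Γ × S → W)
    (g : Γ) (w : FreeGroup S) : f (hol ℓ B g w) = hol ℓ (fun p => f (B p)) g w :=
  hol_unique ℓ (fun p => f (B p)) (fun g w => f (hol ℓ B g w))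
    (fun g w w' => by rw [hol_mul, map_mul]) (fun g s => by rw [hol_of]) g w

/-- the lifted word, in the free group on the edges of the Cayley graph -/
def lw (ℓ : FreeGroup S →* Γ) (g : Γ) (w : FreeGroup S) : FreeGroup (Γ × S) :=
  hol ℓ FreeGroup.of g w

theorem lift_lw (ℓ : FreeGroup S →* Γ) (B : Γ × S → W) (g : Γ) (w : FreeGroup S) :
    FreeGroup.lift B (lw ℓ g w) = hol ℓ B g w := by
  rw [lw, map_hol]
  simp

end hol

/-- total of the real cochain `α` along the word `w` -/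
def expo {S : Type*} (α : S → ℝ) (w : FreeGroup S) : ℝ :=
  Multiplicative.toAdd (FreeGroup.lift (fun s => Multiplicative.ofAdd (α s)) w)

@[simp] theorem expo_one {S : Type*} (α : S → ℝ) : expo α 1 = 0 := by simp [expo]

@[simp] theorem expo_of {S : Type*} (α : S → ℝ) (s : S) : expo α (FreeGroup.of s) = α s := by
  simp [expo]

@[simp] theorem expo_mul {S : Type*} (α : S → ℝ) (w w' : FreeGroup S) :
    expo α (w * w') = expo α w + expo α w' := by simp [expo]

@[simp] theorem expo_inv {S : Type*} (α : S → ℝ) (w : FreeGroup S) :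
    expo α w⁻¹ = - expo α w := by simp [expo]

/-- A presentation `⟨S | bd r⟩` of `Γ` such that the faces `(g, r)` of the Cayley complex are
independent (detected by real 1-cochains). -/
structure Pres (Γ : Type*) [Group Γ] (S R : Type*) where
  ℓ : FreeGroup S →* Γ
  surj : Function.Surjective ℓ
  bd : R → FreeGroup S
  bd_one : ∀ r, ℓ (bd r) = 1
  ker : ∀ w, ℓ w = 1 → w ∈ Subgroup.normalClosure (Set.range bd)
  dual : ∀ (F : Finset (Γ × R)) (f₀ : Γ × R), ∃ α : Γ × S → ℝ,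
    expo α (lw ℓ f₀.1 (bd f₀.2)) ≠ 0 ∧ ∀ f ∈ F, f ≠ f₀ → expo α (lw ℓ f.1 (bd f.2)) = 0

/-- The same with several vertices: only the words in `L` are closed edge paths, and `θ` is a
retraction onto `L`. -/
structure PresL (Γ : Type*) [Group Γ] (S R : Type*) where
  ℓ : FreeGroup S →* Γ
  L : Subgroup (FreeGroup S)
  surj : ∀ g, ∃ w ∈ L, ℓ w = g
  bd : R → FreeGroup S
  bd_mem : ∀ r, bd r ∈ L
  bd_one : ∀ r, ℓ (bd r) = 1
  θ : FreeGroup S →* FreeGroup S
  θ_mem : ∀ w, θ w ∈ L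
  θ_id : ∀ w ∈ L, θ w = w
  ker : ∀ w ∈ L, ℓ w = 1 → w ∈ Subgroup.normalClosure (Set.range bd)
  dual : ∀ (F : Finset (Γ × R)) (f₀ : Γ × R), ∃ α : Γ × S → ℝ,
    expo α (lw ℓ f₀.1 (bd f₀.2)) ≠ 0 ∧ ∀ f ∈ F, f ≠ f₀ → expo α (lw ℓ f.1 (bd f.2)) = 0

/-- A finite flag 2-complex (clique complex of `G`) with triangles `u σ < v σ < w σ`, a spanning
tree `par`, an enumeration `nt` of the non-tree edges by the triangles, an integral inverse `N` of
the boundary matrix (acyclicity) and a nontrivial flat unit quaternion connection `ρ`. -/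
structure Cplx (V T : Type) [LinearOrder V] [Fintype T] [DecidableEq T] where
  G : SimpleGraph V
  u : T → V
  v : T → V
  w : T → V
  uv : ∀ σ, u σ < v σ
  vw : ∀ σ, v σ < w σ
  auv : ∀ σ, G.Adj (u σ) (v σ)
  avw : ∀ σ, G.Adj (v σ) (w σ)
  auw : ∀ σ, G.Adj (u σ) (w σ)
  tri : ∀ a b c, a < b → b < c → G.Adj a b → G.Adj b c → G.Adj a c →
    ∃ σ, u σ = a ∧ v σ = b ∧ w σ = c
  inj : ∀ σ σ', u σ = u σ' → v σ = v σ' → w σ = w σ' → σ = σ'
  root : V
  par : V → V
  par_lt : ∀ a, a ≠ root → par a < a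
  par_adj : ∀ a, a ≠ root → G.Adj (par a) a
  nt : T → V × V
  nt_adj : ∀ σ, G.Adj (nt σ).1 (nt σ).2
  idx : V → V → Option T
  idx_none : ∀ a b, a < b → G.Adj a b → idx a b = none → b ≠ root ∧ par b = a
  idx_some : ∀ a b σ, idx a b = some σ → nt σ = (a, b)
  N : T → T → ℤ
  BN : ∀ σ σ', (idx (u σ) (v σ)).elim 0 (fun τ => N τ σ') + (idx (v σ) (w σ)).elim 0 (fun τ => N τ σ')
    - (idx (u σ) (w σ)).elim 0 (fun τ => N τ σ') = if σ = σ' then 1 else 0
  ρ : T → S3
  flat : ∀ σ, (idx (u σ) (v σ)).elim 1 ρ * (idx (v σ) (w σ)).elim 1 ρ = (idx (u σ) (w σ)).elim 1 ρ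
  ne : ∃ σ, ρ σ ≠ 1

end Vale.Agent.P173
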