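import Vale.Agent.P173.RaagDefs

/-!
P173 task LeftInv (about 250 lines): a left inverse of the top boundary map that commutes with the
Bestvina-Brady group.
Let `Mx τ' e` be the integer matrix.  `lowInv (g, e) = ∑ τ' (3-cliques), Mx τ' e • single (g, τ') 1`, so
`lowInv (low x) = x` on `cd 3`.  For a clique `τ` let `top τ = τ.noncommProd gen` (or, for arbitrary
`τ`, the product of `gen` along `τ.sort`); for a 3-clique `τ = {a < b < c}` (use `Finset.card_eq_three`
or sort) and `z ∈ τ`: `gen z * top (τ.erase z) = top τ` (`gen_comm`).  With the linear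
equivalence `tp (g, τ) = (g * top τ, τ)` one has `tp (up x) = low (tp x)` on `cd 3`, so
`upInv = tp⁻¹ ∘ lowInv ∘ tp` satisfies `upInv (up x) = x` on `cd 3`.  All these maps commute with
`act h` for every `h`, and `lowInv, upInv` land in `cd 3`.  Let `α = upInv ∘ low`, `β = lowInv ∘ up`
(endomorphisms preserving `cd 3`), and for `m : ℤ`
`Pm m = ∑ j ∈ range m.toNat, α ^ j * upInv - ∑ j ∈ range (-m).toNat, β ^ j * lowInv`.
Define `lam (g, e) = Pm (ht g) (single (g, e) 1)`.  For `x = single (g, τ) 1` with `ht g = h`, `up x` is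
supported in height `h + 1`, `low x` in height `h`, so
`lam (bdy x) = Pm (h + 1) (up x) - Pm h (low x) = x` (telescoping: `Finset.sum_range_succ'`; cases
`h ≥ 0`, `h ≤ -1`).  Equivariance under `h ∈ ker ht` since heights are preserved.
-/

namespace Vale.Agent.P173

theorem li_tele {M : Type} [AddCommGroup M] (U L u l : Module.End ℤ M) :
    ∃ P : ℤ → Module.End ℤ M,
      (∀ x, u (U x) = x → l (L x) = x → ∀ m, P (m + 1) (U x) - P m (L x) = x) ∧
      (∀ N : Submodule ℤ M, (∀ y, u y ∈ N) → (∀ y, l y ∈ N) → ∀ m y, P m y ∈ N) ∧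
      ∀ t, Commute t U → Commute t L → Commute t u → Commute t l → ∀ m, Commute t (P m) := by
  refine ⟨fun m => ∑ j ∈ Finset.range m.toNat, (u * L) ^ j * u -
    ∑ j ∈ Finset.range (-m).toNat, (l * U) ^ j * l, fun x h1 h2 m => ?_, fun N h1 h2 m y => ?_,
    fun t h1 h2 h3 h4 m => ?_⟩
  · simp only [LinearMap.sub_apply, LinearMap.sum_apply, Module.End.mul_apply, h1, h2]
    rcases m with n | n
    · have e1 : (Int.ofNat n + 1).toNat = n + 1 := by simp
      have e2 : (-(Int.ofNat n + 1)).toNat = 0 := by simp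
      have e3 : (Int.ofNat n).toNat = n := by simp
      have e4 : (-(Int.ofNat n)).toNat = 0 := by simp
      rw [e1, e2, e3, e4, Finset.sum_range_succ']
      simp [pow_succ]
    · have e1 : (Int.negSucc n + 1).toNat = 0 := by omega
      have e2 : (-(Int.negSucc n + 1)).toNat = n := by omega
      have e3 : (Int.negSucc n).toNat = 0 := by omega
      have e4 : (-(Int.negSucc n)).toNat = n + 1 := by omega
      rw [e1, e2, e3, e4, Finset.sum_range_succ']
      simp [pow_succ]
  · have key : ∀ (w K : Module.End ℤ M), (∀ y, w y ∈ N) → ∀ j : ℕ, ((w * K) ^ j * w) y ∈ N := by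
      intro w K hw j
      rcases j with _ | j
      · simpa using hw y
      · rw [pow_succ', mul_assoc, mul_assoc]
        exact hw _
    simp only [LinearMap.sub_apply, LinearMap.sum_apply]
    exact N.sub_mem (N.sum_mem fun j _ => key _ _ h1 j) (N.sum_mem fun j _ => key _ _ h2 j)
  · exact (Commute.sum_right _ _ _ fun j _ => ((h3.mul_right h2).pow_right j).mul_right h3).sub_right
      (Commute.sum_right _ _ _ fun j _ => ((h4.mul_right h1).pow_right j).mul_right h4)

theorem li_top {V : Type} [DecidableEq V] (G : SimpleGraph V) : ∃ top : Finset V → Raag G,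
    ∀ τ : Finset V, G.IsClique (τ : Set V) → ∀ z ∈ τ, gen G z * top (τ.erase z) = top τ := by
  classical
  refine ⟨fun τ => if h : G.IsClique (τ : Set V) then
    τ.noncommProd (gen G) (fun a ha b hb hab => gen_comm (h ha hb hab)) else 1, fun τ h z hz => ?_⟩
  dsimp only
  rw [dif_pos h, dif_pos (h.subset (Finset.coe_subset.2 (τ.erase_subset z)))]
  exact Finset.mul_noncommProd_erase τ hz (gen G) _ _

theorem li_act_single {V : Type} {G : SimpleGraph V} (h g : Raag G) (τ : Finset V) (n : ℤ) :
    act G h (Finsupp.single (g, τ) n) = Finsupp.single (h * g, τ) n := by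
  simp [act]

theorem li_inv {V : Type} [LinearOrder V] [Fintype V] {G : SimpleGraph V}
    (Mx : Finset V → Finset V → ℤ)
    (hM : ∀ τ τ' : Finset V, τ.card = 3 → G.IsClique (τ : Set V) → τ'.card = 3 →
      G.IsClique (τ' : Set V) →
      ∑ a ∈ τ, sgn a τ * Mx τ' (τ.erase a) = if τ = τ' then 1 else 0) (s : Finset V → Raag G) :
    ∃ w : Module.End ℤ (Chain G), (∀ h, Commute (act G h) w) ∧ (∀ y, w y ∈ cd G 3) ∧
      ∀ (g : Raag G) (τ : Finset V) (k : V → Raag G), τ.card = 3 → G.IsClique (τ : Set V) →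
        (∀ a ∈ τ, k a * s (τ.erase a) = g * s τ) →
        w (∑ a ∈ τ, sgn a τ • Finsupp.single (k a, τ.erase a) 1) = Finsupp.single (g, τ) 1 := by
  classical
  let T : Finset (Finset V) := Finset.univ.filter fun τ => τ.card = 3 ∧ G.IsClique (τ : Set V)
  refine ⟨Finsupp.linearCombination ℤ fun p =>
    ∑ τ' ∈ T, Mx τ' p.2 • Finsupp.single (p.1 * s p.2 * (s τ')⁻¹, τ') 1, fun h => ?_, fun y => ?_,
    fun g τ k h1 h2 hk => ?_⟩
  · refine Finsupp.lhom_ext' fun ⟨g, τ⟩ => LinearMap.ext_ring ?_
    simp only [LinearMap.comp_apply, Finsupp.lsingle_apply, Module.End.mul_apply, li_act_single,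
      Finsupp.linearCombination_single, one_smul, map_sum, map_smul, mul_assoc]
  · rw [Finsupp.linearCombination_apply]
    exact Submodule.sum_mem _ fun p _ => Submodule.smul_mem _ _ (Submodule.sum_mem _ fun τ' hτ' =>
      Submodule.smul_mem _ _ (Finsupp.single_mem_supported ℤ 1 (Finset.mem_filter.1 hτ').2))
  · simp only [map_sum, map_smul, Finsupp.linearCombination_single, one_mul, Finset.smul_sum,
      smul_smul]
    rw [Finset.sum_comm, Finset.sum_eq_single_of_mem τ (by simp [T, h1, h2])]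
    · rw [Finset.sum_congr rfl fun a ha => by rw [hk a ha, mul_inv_cancel_right], ← Finset.sum_smul,
        hM τ τ h1 h2 h1 h2, if_pos rfl, one_smul]
    · intro τ' h3 h4
      obtain ⟨h5, h6⟩ := (Finset.mem_filter.1 h3).2
      rw [Finset.sum_congr rfl fun a ha => by rw [hk a ha], ← Finset.sum_smul,
        hM τ τ' h1 h2 h5 h6, if_neg h4.symm, zero_smul]

theorem exists_left_inv {V : Type} [LinearOrder V] [Fintype V] {G : SimpleGraph V}
    (Mx : Finset V → Finset V → ℤ)
    (hM : ∀ τ τ' : Finset V, τ.card = 3 → G.IsClique (τ : Set V) → τ'.card = 3 →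
      G.IsClique (τ' : Set V) →
      ∑ a ∈ τ, sgn a τ * Mx τ' (τ.erase a) = if τ = τ' then 1 else 0) :
    ∃ lam : Chain G →ₗ[ℤ] Chain G, (∀ h : Raag G, ht G h = 1 → ∀ c, lam (act G h c) = act G h (lam c)) ∧
      (∀ c, lam c ∈ cd G 3) ∧ ∀ c ∈ cd G 3, lam (bdy G c) = c := by
  obtain ⟨top, htop⟩ := li_top G
  obtain ⟨u, u1, u2, u3⟩ := li_inv Mx hM top
  obtain ⟨l, l1, l2, l3⟩ := li_inv Mx hM fun _ => 1
  obtain ⟨P, P1, P2, P3⟩ := li_tele (up G) (low G) u l
  have hU : ∀ g τ, up G (Finsupp.single (g, τ) 1) =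
      ∑ a ∈ τ, sgn a τ • Finsupp.single (g * gen G a, τ.erase a) (1 : ℤ) := fun g τ => by
    simp only [up, Finsupp.linearCombination_single, one_smul]
  have hL : ∀ g τ, low G (Finsupp.single (g, τ) 1) =
      ∑ a ∈ τ, sgn a τ • Finsupp.single (g, τ.erase a) (1 : ℤ) := fun g τ => by
    simp only [low, Finsupp.linearCombination_single, one_smul]
  let lam : Chain G →ₗ[ℤ] Chain G :=
    Finsupp.linearCombination ℤ fun p => P (ht G p.1).toAdd (Finsupp.single p 1)
  have hl : ∀ g τ, lam (Finsupp.single (g, τ) 1) = P (ht G g).toAdd (Finsupp.single (g, τ) 1) :=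
    fun g τ => by simp only [lam, Finsupp.linearCombination_single, one_smul]
  refine ⟨lam, fun h hh => ?_, fun c => ?_, fun c hc => ?_⟩
  · have c1 : Commute (act G h) (up G) := by
      refine Finsupp.lhom_ext' fun ⟨g, τ⟩ => LinearMap.ext_ring ?_
      simp only [LinearMap.comp_apply, Finsupp.lsingle_apply, Module.End.mul_apply, li_act_single,
        hU, map_sum, map_smul, mul_assoc]
    have c2 : Commute (act G h) (low G) := by
      refine Finsupp.lhom_ext' fun ⟨g, τ⟩ => LinearMap.ext_ring ?_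
      simp only [LinearMap.comp_apply, Finsupp.lsingle_apply, Module.End.mul_apply, li_act_single,
        hL, map_sum, map_smul]
    refine LinearMap.congr_fun (f := lam ∘ₗ act G h) (g := act G h ∘ₗ lam)
      (Finsupp.lhom_ext' fun ⟨g, τ⟩ => LinearMap.ext_ring ?_)
    simp only [LinearMap.comp_apply, Finsupp.lsingle_apply, li_act_single, hl]
    rw [map_mul, hh, one_mul, ← li_act_single]
    exact (LinearMap.congr_fun (P3 _ c1 c2 (u1 h) (l1 h) _).eq _).symm
  · rw [Finsupp.linearCombination_apply]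
    exact Submodule.sum_mem _ fun p _ => Submodule.smul_mem _ _ (P2 _ u2 l2 _ _)
  · refine (?_ : cd G 3 ≤ LinearMap.eqLocus (lam ∘ₗ bdy G) LinearMap.id) hc
    rw [cd, Finsupp.supported_eq_span_single, Submodule.span_le]
    rintro _ ⟨⟨g, τ⟩, ⟨h1, h2⟩, rfl⟩
    change lam (up G _ - low G _) = Finsupp.single (g, τ) 1
    have e1 : lam (up G (Finsupp.single (g, τ) 1)) =
        P ((ht G g).toAdd + 1) (up G (Finsupp.single (g, τ) 1)) := by
      simp only [hU, map_sum, map_smul, hl, map_mul, ht, raagLift_gen, toAdd_mul, toAdd_ofAdd]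
    have e2 : lam (low G (Finsupp.single (g, τ) 1)) =
        P (ht G g).toAdd (low G (Finsupp.single (g, τ) 1)) := by
      simp only [hL, map_sum, map_smul, hl]
    rw [map_sub, e1, e2]
    refine P1 _ ?_ ?_ _
    · rw [hU]
      exact u3 g τ _ h1 h2 fun a ha => by rw [mul_assoc, htop τ h2 a ha]
    · rw [hL]
      exact l3 g τ _ h1 h2 fun a _ => rfl

end Vale.Agent.P173
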