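import Vale.Agent.P173.Defs
import Vale.Agent.P173.Basic

/-!
P173 task ProjLE (about 250 lines): cohomological dimension at most two from an equivariant complex.
Let `ρ : Representation ℤ H (Ω →₀ ℤ)`, `ρ h = Finsupp.lmapDomain ℤ ℤ (h • ·)`, `M = ρ.asModule`.
* `M` is projective over `ℤ[H]`: either it is free (choose orbit representatives,
  `MulAction.selfEquivSigmaOrbits`-style bijection `Ω ≃ (orbits) × H`), or check the lifting property
  `Module.Projective.of_lifting_property'`: given a surjection `f : A → B` and `g : M → B` choose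
  preimages on orbit representatives and extend by `single (h • rep) 1 ↦ h • preimage`.
* A `ℤ`-linear map commuting with `ρ h` is `ℤ[H]`-linear (`Representation.IntertwiningMap.equivLinearMapAsModule`
  or `MonoidAlgebra.induction_linear`).  The invariant submodules `W k = supported (Ω k)` are ranges
  of the equivariant idempotents `Finsupp.filter`, hence projective (`Module.Projective.of_split`).
* `K₀ = ker (ε | W 0)`, `K₁ = ker (d | W 1)`; short exact sequences `0 → K₀ → W 0 → ℤ → 0`,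
  `0 → K₁ → W 1 → K₀ → 0` in `ModuleCat` (`ModuleCat.shortComplex_shortExact` /
  `LinearMap.shortComplexKer`, `ShortComplex.ShortExact.hasProjectiveDimensionLT_X₃_iff`).
* `K₁` is projective: `d : W 2 → K₁` is onto and `x ↦ x - e x` kills its kernel, so it induces a
  section `s` with `d (s y) = y` (`LinearMap.quotKerEquivOfSurjective`, `Submodule.liftQ`, or define
  `s y = x - e x` for a chosen preimage `x` and prove additivity).
Finish with `projectiveDimension_le_iff`.
-/

namespace Vale.Agent.P173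

open CategoryTheory

theorem pl_proj_sub {R M : Type} [Ring R] [AddCommGroup M] [Module R M] [Module.Projective R M]
    (W : Submodule R M) (p : M →ₗ[R] M) (h1 : ∀ c, p c ∈ W) (h2 : ∀ c ∈ W, p c = c) :
    Module.Projective R W :=
  Module.Projective.of_split W.subtype (p.codRestrict W h1)
    (LinearMap.ext fun c => Subtype.ext (h2 c.1 c.2))

theorem pl_abs {R M Z : Type} [Ring R] [AddCommGroup M] [Module R M] [AddCommGroup Z] [Module R Z]
    (W₀ W₁ W₂ : Submodule R M) [Module.Projective R W₀] [Module.Projective R W₁]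
    [Module.Projective R W₂] (ε : M →ₗ[R] Z) (d e : M →ₗ[R] M) (hε : ∀ z, ∃ c ∈ W₀, ε c = z)
    (hd₁ : ∀ c ∈ W₁, d c ∈ W₀ ∧ ε (d c) = 0) (hd₂ : ∀ c ∈ W₂, d c ∈ W₁ ∧ d (d c) = 0)
    (ex₀ : ∀ c ∈ W₀, ε c = 0 → ∃ b ∈ W₁, d b = c) (ex₁ : ∀ c ∈ W₁, d c = 0 → ∃ b ∈ W₂, d b = c)
    (he₂ : ∀ c ∈ W₂, e c ∈ W₂ ∧ d (e c) = 0 ∧ (d c = 0 → e c = c)) :
    projectiveDimension (ModuleCat.of R Z) ≤ 2 := by
  let f₀ : W₀ →ₗ[R] Z := ε ∘ₗ W₀.subtype
  have s₀ : Function.Surjective f₀ := fun z => by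
    obtain ⟨c, hc, h⟩ := hε z
    exact ⟨⟨c, hc⟩, h⟩
  let f₁ : W₁ →ₗ[R] LinearMap.ker f₀ :=
    (d.restrict fun c hc => (hd₁ c hc).1).codRestrict _ fun c => (hd₁ c.1 c.2).2
  have s₁ : Function.Surjective f₁ := fun z => by
    obtain ⟨b, hb, h⟩ := ex₀ z.1.1 z.1.2 z.2
    exact ⟨⟨b, hb⟩, Subtype.ext (Subtype.ext h)⟩
  let f₂ : W₂ →ₗ[R] LinearMap.ker f₁ :=
    (d.restrict fun c hc => (hd₂ c hc).1).codRestrict _ fun c =>
      Subtype.ext (Subtype.ext (hd₂ c.1 c.2).2)
  have s₂ : Function.Surjective f₂ := fun z => by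
    obtain ⟨b, hb, h⟩ := ex₁ z.1.1 z.1.2 (congrArg (fun x => x.1.1) z.2)
    exact ⟨⟨b, hb⟩, Subtype.ext (Subtype.ext h)⟩
  let q : W₂ →ₗ[R] W₂ := LinearMap.id - e.restrict fun c hc => (he₂ c hc).1
  have hq : LinearMap.ker f₂ ≤ LinearMap.ker q := fun c hc => by
    have h : d c.1 = 0 := congrArg (fun x => x.1.1) hc
    apply Subtype.ext
    show c.1 - e c.1 = 0
    rw [(he₂ c.1 c.2).2.2 h, sub_self]
  have p₂ : Module.Projective R (LinearMap.ker f₁) := by
    refine Module.Projective.of_split (((LinearMap.ker f₂).liftQ q hq) ∘ₗ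
      (f₂.quotKerEquivOfSurjective s₂).symm.toLinearMap) f₂ (LinearMap.ext fun y => ?_)
    obtain ⟨x, rfl⟩ := s₂ y
    have h : (f₂.quotKerEquivOfSurjective s₂).symm (f₂ x) = Submodule.Quotient.mk x := by
      rw [LinearEquiv.symm_apply_eq]
      rfl
    simp only [LinearMap.comp_apply, LinearEquiv.coe_coe, h, Submodule.liftQ_apply,
      LinearMap.id_apply]
    apply Subtype.ext
    apply Subtype.ext
    show d (x.1 - e x.1) = d x.1
    rw [map_sub, (he₂ x.1 x.2).2.1, sub_zero]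
  have k₁ : HasProjectiveDimensionLT (ModuleCat.of R (LinearMap.ker f₁)) 1 := inferInstance
  have w₁ : HasProjectiveDimensionLT (ModuleCat.of R W₁) 1 := inferInstance
  have w₀ : HasProjectiveDimensionLT (ModuleCat.of R W₀) 1 := inferInstance
  have k₀ := (LinearMap.shortExact_shortComplexKer s₁).hasProjectiveDimensionLT_X₃ 1 k₁
    (hasProjectiveDimensionLT_of_ge _ 1 2 (by norm_num))
  have z₀ := (LinearMap.shortExact_shortComplexKer s₀).hasProjectiveDimensionLT_X₃ 2 k₀
    (hasProjectiveDimensionLT_of_ge _ 1 3 (by norm_num))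
  exact (projectiveDimension_le_iff _ 2).2 z₀

section

variable {H : Type} [Group H] {Ω : Type} [MulAction H Ω]

variable (H Ω) in
/-- the permutation representation -/
noncomputable def plRep : Representation ℤ H (Ω →₀ ℤ) where
  toFun h := Finsupp.lmapDomain ℤ ℤ (h • ·)
  map_one' := by
    ext
    simp
  map_mul' g h := by
    ext
    simp [mul_smul]

/-- an equivariant additive map is linear over the group ring -/
noncomputable def plLin {N : Type} [AddCommGroup N] [Module (MonoidAlgebra ℤ H) N] (f : (Ω →₀ ℤ) →+ N)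
    (hf : ∀ (h : H) c, f (Finsupp.mapDomain (h • ·) c) = MonoidAlgebra.single h (1 : ℤ) • f c) :
    (plRep H Ω).asModule →ₗ[MonoidAlgebra ℤ H] N where
  toFun := f
  map_add' := f.map_add
  map_smul' r c := by
    induction r using MonoidAlgebra.induction_linear with
    | zero =>
      rw [zero_smul, RingHom.id_apply, zero_smul]
      exact f.map_zero
    | add x y hx hy =>
      rw [add_smul, RingHom.id_apply, add_smul]
      exact (f.map_add _ _).trans (congrArg₂ (· + ·) hx hy)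
    | single g a =>
      have e : MonoidAlgebra.single g a = a • MonoidAlgebra.single g (1 : ℤ) := by simp
      rw [Representation.single_smul, RingHom.id_apply, e, smul_assoc]
      exact (map_zsmul f a _).trans (congrArg (a • ·) (hf g c))

theorem pl_smul (h : H) (c : (plRep H Ω).asModule) :
    MonoidAlgebra.single h (1 : ℤ) • c = Finsupp.mapDomain (h • ·) c := by
  rw [Representation.single_smul, one_smul]
  rfl

/-- an equivariant endomorphism -/
noncomputable def plEnd (f : (Ω →₀ ℤ) →+ (Ω →₀ ℤ))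
    (hf : ∀ (h : H) c, f (Finsupp.mapDomain (h • ·) c) = Finsupp.mapDomain (h • ·) (f c)) :
    (plRep H Ω).asModule →ₗ[MonoidAlgebra ℤ H] (plRep H Ω).asModule :=
  plLin (N := (plRep H Ω).asModule) f fun h c => (hf h c).trans (pl_smul h (f c)).symm

theorem pl_projective (hfree : ∀ (h : H) (ω : Ω), h • ω = ω → h = 1) :
    Module.Projective (MonoidAlgebra ℤ H) (plRep H Ω).asModule := by
  let rep : Ω → Ω := fun ω => (Quotient.mk (MulAction.orbitRel H Ω) ω).out
  have hrep : ∀ (h : H) ω, rep (h • ω) = rep ω := fun h ω =>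
    congrArg Quotient.out (Quotient.sound (MulAction.orbitRel_apply.2 ⟨h, rfl⟩))
  have hex : ∀ ω, ∃ g : H, g • rep ω = ω := fun ω => by
    have h : (MulAction.orbitRel H Ω) ω (rep ω) :=
      (MulAction.orbitRel H Ω).symm (Quotient.mk_out (s := MulAction.orbitRel H Ω) ω)
    exact MulAction.orbitRel_apply.1 h
  choose el hel using hex
  have hmul : ∀ (h : H) ω, el (h • ω) = h * el ω := fun h ω => by
    have h1 := hel (h • ω)
    rw [hrep] at h1
    have h2 : ((h * el ω)⁻¹ * el (h • ω)) • rep ω = rep ω := by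
      rw [mul_smul, h1, inv_smul_eq_iff, mul_smul, hel]
    exact (inv_mul_eq_one.1 (hfree _ _ h2)).symm
  let i₀ : (Ω →₀ ℤ) →ₗ[ℤ] (Ω →₀ MonoidAlgebra ℤ H) := Finsupp.linearCombination ℤ fun ω =>
    Finsupp.single (rep ω) (MonoidAlgebra.single (el ω) (1 : ℤ))
  have hi : ∀ (h : H) c, i₀ (Finsupp.mapDomain (h • ·) c) =
      MonoidAlgebra.single h (1 : ℤ) • i₀ c := fun h c => by
    induction c using Finsupp.induction_linear with
    | zero => simp
    | add x y hx hy => rw [Finsupp.mapDomain_add, map_add, map_add, smul_add, hx, hy]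
    | single ω k =>
      simp only [i₀, Finsupp.mapDomain_single, Finsupp.linearCombination_single, hrep, hmul]
      rw [smul_comm, Finsupp.smul_single (MonoidAlgebra.single h (1 : ℤ)), smul_eq_mul,
        MonoidAlgebra.single_mul_single, one_mul]
  let s : (Ω →₀ MonoidAlgebra ℤ H) →ₗ[MonoidAlgebra ℤ H] (plRep H Ω).asModule :=
    Finsupp.linearCombination _ fun ω => (plRep H Ω).asModuleEquiv.symm (Finsupp.single ω 1)
  refine Module.Projective.of_split (plLin i₀.toAddMonoidHom hi) s (LinearMap.ext fun c => ?_)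
  obtain ⟨c, rfl⟩ := (plRep H Ω).asModuleEquiv.symm.surjective c
  show s (i₀ c) = (plRep H Ω).asModuleEquiv.symm c
  induction c using Finsupp.induction_linear with
  | zero => simp
  | add x y hx hy => rw [map_add, map_add, map_add, hx, hy]
  | single ω k =>
    simp only [i₀, s, Finsupp.linearCombination_single, map_zsmul]
    rw [pl_smul]
    show k • Finsupp.mapDomain (el ω • ·) (Finsupp.single (rep ω) (1 : ℤ)) = Finsupp.single ω k
    rw [Finsupp.mapDomain_single, hel, Finsupp.smul_single, smul_eq_mul, mul_one]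

/-- the chains supported on an invariant set -/
noncomputable def plSub (A : Set Ω) (hA : ∀ (h : H) ω, ω ∈ A → h • ω ∈ A) :
    Submodule (MonoidAlgebra ℤ H) (plRep H Ω).asModule where
  carrier := {c | (plRep H Ω).asModuleEquiv c ∈ Finsupp.supported ℤ ℤ A}
  add_mem' ha hb := (Finsupp.supported ℤ ℤ A).add_mem ha hb
  zero_mem' := (Finsupp.supported ℤ ℤ A).zero_mem
  smul_mem' r c hc := by
    induction r using MonoidAlgebra.induction_linear with
    | zero =>
      rw [zero_smul]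
      exact (Finsupp.supported ℤ ℤ A).zero_mem
    | add x y hx hy =>
      rw [add_smul]
      exact (Finsupp.supported ℤ ℤ A).add_mem hx hy
    | single g a =>
      rw [Representation.single_smul]
      refine (Finsupp.supported ℤ ℤ A).smul_mem a ?_
      refine Finsupp.supported_comap_lmapDomain ℤ ℤ (g • ·) A ?_
      exact Finsupp.supported_mono (fun ω hω => hA g ω hω) hc

theorem plSub_projective (hfree : ∀ (h : H) (ω : Ω), h • ω = ω → h = 1) (A : Set Ω)
    (hA : ∀ (h : H) ω, ω ∈ A → h • ω ∈ A) :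
    Module.Projective (MonoidAlgebra ℤ H) (plSub A hA) := by
  classical
  have := pl_projective hfree
  have hA' : ∀ (h : H) ω, h • ω ∈ A ↔ ω ∈ A := fun h ω =>
    ⟨fun h1 => by simpa using hA h⁻¹ _ h1, hA h ω⟩
  refine pl_proj_sub _ (plEnd (Finsupp.filterAddHom (· ∈ A)) fun h c => ?_) (fun c => ?_)
    fun c hc => ?_
  · induction c using Finsupp.induction_linear with
    | zero => simp
    | add x y hx hy =>
      rw [Finsupp.mapDomain_add, map_add, map_add, Finsupp.mapDomain_add, hx, hy]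
    | single ω k =>
      rw [Finsupp.mapDomain_single]
      show Finsupp.filter (· ∈ A) _ = Finsupp.mapDomain _ (Finsupp.filter (· ∈ A) _)
      by_cases h1 : ω ∈ A
      · rw [Finsupp.filter_single_of_pos _ h1, Finsupp.filter_single_of_pos _ (hA h ω h1),
          Finsupp.mapDomain_single]
      · rw [Finsupp.filter_single_of_neg _ h1,
          Finsupp.filter_single_of_neg _ (fun h2 => h1 ((hA' h ω).1 h2)), Finsupp.mapDomain_zero]
  · show Finsupp.filter (· ∈ A) ((plRep H Ω).asModuleEquiv c) ∈ Finsupp.supported ℤ ℤ A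
    rw [Finsupp.mem_supported']
    intro ω hω
    exact Finsupp.filter_apply_neg _ _ hω
  · show Finsupp.filter (· ∈ A) ((plRep H Ω).asModuleEquiv c) = (plRep H Ω).asModuleEquiv c
    rw [Finsupp.filter_eq_self_iff]
    intro ω hω
    by_contra h1
    exact hω ((Finsupp.mem_supported' ℤ _).1 hc ω h1)

end

theorem cohomDim_le_two {H : Type} [Group H] {Ω : Type} [MulAction H Ω]
    (hfree : ∀ (h : H) (ω : Ω), h • ω = ω → h = 1) (Ω₀ Ω₁ Ω₂ : Set Ω)
    (h₀ : ∀ (h : H) ω, ω ∈ Ω₀ → h • ω ∈ Ω₀) (h₁ : ∀ (h : H) ω, ω ∈ Ω₁ → h • ω ∈ Ω₁)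
    (h₂ : ∀ (h : H) ω, ω ∈ Ω₂ → h • ω ∈ Ω₂) (hne : Ω₀.Nonempty)
    (d e : (Ω →₀ ℤ) →ₗ[ℤ] (Ω →₀ ℤ))
    (hd : ∀ (h : H) c, d (Finsupp.mapDomain (h • ·) c) = Finsupp.mapDomain (h • ·) (d c))
    (he : ∀ (h : H) c, e (Finsupp.mapDomain (h • ·) c) = Finsupp.mapDomain (h • ·) (e c))
    (hd₁ : ∀ c ∈ Finsupp.supported ℤ ℤ Ω₁, d c ∈ Finsupp.supported ℤ ℤ Ω₀ ∧
      (d c).sum (fun _ k => k) = 0)
    (hd₂ : ∀ c ∈ Finsupp.supported ℤ ℤ Ω₂, d c ∈ Finsupp.supported ℤ ℤ Ω₁ ∧ d (d c) = 0)
    (ex₀ : ∀ c ∈ Finsupp.supported ℤ ℤ Ω₀, c.sum (fun _ k => k) = 0 →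
      ∃ b ∈ Finsupp.supported ℤ ℤ Ω₁, d b = c)
    (ex₁ : ∀ c ∈ Finsupp.supported ℤ ℤ Ω₁, d c = 0 → ∃ b ∈ Finsupp.supported ℤ ℤ Ω₂, d b = c)
    (he₂ : ∀ c ∈ Finsupp.supported ℤ ℤ Ω₂, e c ∈ Finsupp.supported ℤ ℤ Ω₂ ∧ d (e c) = 0 ∧
      (d c = 0 → e c = c)) :
    cohomDim H ≤ 2 := by
  have := plSub_projective hfree Ω₀ h₀
  have := plSub_projective hfree Ω₁ h₁
  have := plSub_projective hfree Ω₂ h₂
  let ε₀ : (Ω →₀ ℤ) →+ (Representation.trivial ℤ H ℤ).asModule :=
    Finsupp.liftAddHom fun _ => AddMonoidHom.id ℤ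
  have hε₀ : ∀ c : Ω →₀ ℤ, ε₀ c = c.sum (fun _ k => k) := fun _ => rfl
  have hε : ∀ (h : H) c, ε₀ (Finsupp.mapDomain (h • ·) c) =
      MonoidAlgebra.single h (1 : ℤ) • ε₀ c := fun h c => by
    rw [Representation.single_smul, one_smul, hε₀, hε₀,
      Finsupp.sum_mapDomain_index (fun _ => rfl) fun _ _ _ => rfl]
    rfl
  refine pl_abs (plSub Ω₀ h₀) (plSub Ω₁ h₁) (plSub Ω₂ h₂) (plLin ε₀ hε)
    (plEnd d.toAddMonoidHom hd) (plEnd e.toAddMonoidHom he) (fun z => ?_) hd₁ hd₂ ex₀ ex₁ he₂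
  obtain ⟨ω, hω⟩ := hne
  refine ⟨Finsupp.single ω (show ℤ from z), Finsupp.single_mem_supported ℤ _ hω, ?_⟩
  exact (hε₀ _).trans (Finsupp.sum_single_index rfl)

end Vale.Agent.P173
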