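import Vale.Agent.P173.Salv
import Vale.Agent.P173.LeftInv
import Vale.Agent.P173.ProjLE

/-!
P173 task CdLE (about 300 lines): the Bestvina-Brady group of `K` has dimension at most two.
Apply `cohomDim_le_two` with `H = BB K.G`, `Ω = Raag K.G × Finset V`, the action
`h • (g, τ) = (h * g, τ)` (a local `MulAction` instance; `mapDomain (h • ·) = act K.G h`),
`Ω k = {p | p.2.card = k ∧ IsClique}` (so `supported (Ω k) = cd K.G k`), `d = bdy`, `e = bdy ∘ lam`.
* grading: `bdy` maps `cd (k + 1)` to `cd k`, and if `b ∈ cl univ`, `bdy b = c ∈ cd k` then the part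
  `b.filter (card = k + 1)` also bounds `c` (filter by cardinality commutes with `bdy` with a shift;
  check on `single`).  `cd k ≤ cl univ`; `sub univ = ⊤` so the quotient is a subsingleton and
  the augmentation vanishes iff the coefficient sum of `res0 c` vanishes; `res0 = 0` on `cd (k+1)`.
* `he₂`: if `c ∈ cd 2` is a cycle then `c = bdy b` with `b ∈ cd 3`, `lam c = b`.
* `exists_Mx`: every 3-clique is `{u σ, v σ, w σ}` for a unique `σ` (`K.tri`, `K.inj`);
  `Mx τ' e = ∑ σ', if τ' = {u σ', v σ', w σ'} then ∑ a, ∑ b, if a < b ∧ e = {a, b} then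
  (K.idx a b).elim 0 (fun τ => K.N τ σ') else 0 else 0`; the three signs are `+ - +` for erasing
  `u, v, w`, and `K.BN` is the claim.
-/

namespace Vale.Agent.P173

variable {V T : Type} [LinearOrder V] [Fintype V] [Fintype T] [DecidableEq T]

omit [Fintype V] in
theorem exists_Mx (K : Cplx V T) : ∃ Mx : Finset V → Finset V → ℤ,
    ∀ τ τ' : Finset V, τ.card = 3 → K.G.IsClique (τ : Set V) → τ'.card = 3 →
      K.G.IsClique (τ' : Set V) →
      ∑ a ∈ τ, sgn a τ * Mx τ' (τ.erase a) = if τ = τ' then 1 else 0 := by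
  let t : T → Finset V := fun σ => {K.u σ, K.v σ, K.w σ}
  have t0 : ∀ σ, ∀ x ∈ t σ, K.u σ ≤ x ∧ x ≤ K.w σ := fun σ x hx => by
    have h1 := (K.uv σ).le
    have h2 := (K.vw σ).le
    simp only [t, Finset.mem_insert, Finset.mem_singleton] at hx
    rcases hx with rfl | rfl | rfl
    exacts [⟨le_rfl, h1.trans h2⟩, ⟨h1, h2⟩, ⟨h1.trans h2, le_rfl⟩]
  have t1 : Function.Injective t := fun σ σ' h => by
    have h1 : K.u σ = K.u σ' := le_antisymm (t0 σ _ (h ▸ by simp [t])).1
      (t0 σ' _ (h ▸ by simp [t])).1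
    have h3 : K.w σ = K.w σ' := le_antisymm (t0 σ' _ (h ▸ by simp [t])).2
      (t0 σ _ (h ▸ by simp [t])).2
    have h2 : K.v σ ∈ t σ' := h ▸ by simp [t]
    simp only [t, Finset.mem_insert, Finset.mem_singleton, ← h1, ← h3, (K.uv σ).ne',
      (K.vw σ).ne, false_or, or_false] at h2
    exact K.inj _ _ h1 h2 h3
  have t2 : ∀ τ : Finset V, τ.card = 3 → K.G.IsClique (τ : Set V) → ∃ σ, t σ = τ := by
    intro τ h1 h2
    let f := τ.orderEmbOfFin h1
    have hf : ∀ i j, i < j → K.G.Adj (f i) (f j) := fun i j h =>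
      h2 (τ.orderEmbOfFin_mem h1 i) (τ.orderEmbOfFin_mem h1 j) (f.strictMono h).ne
    obtain ⟨σ, e1, e2, e3⟩ := K.tri (f 0) (f 1) (f 2) (f.strictMono (by decide))
      (f.strictMono (by decide)) (hf _ _ (by decide)) (hf _ _ (by decide)) (hf _ _ (by decide))
    refine ⟨σ, Finset.ext fun x => ?_⟩
    rw [← Finset.mem_coe (s := τ), ← τ.range_orderEmbOfFin h1, Set.mem_range, Fin.exists_fin_succ,
      Fin.exists_fin_succ, Fin.exists_fin_one]
    simp only [t, e1, e2, e3, Finset.mem_insert, Finset.mem_singleton, @eq_comm _ x]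
    rfl
  let E : T → Finset V → ℤ := fun σ' e =>
    if h : e.Nonempty then (K.idx (e.min' h) (e.max' h)).elim 0 fun τ => K.N τ σ' else 0
  have hE : ∀ σ' a b, a < b → E σ' {a, b} = (K.idx a b).elim 0 fun τ => K.N τ σ' := by
    intro σ' a b h
    simp [E, h.le]
  refine ⟨Function.extend t E 0, fun τ τ' h1 h2 h3 h4 => ?_⟩
  obtain ⟨σ, rfl⟩ := t2 τ h1 h2
  obtain ⟨σ', rfl⟩ := t2 τ' h3 h4
  have h5 := K.uv σ
  have h6 := K.vw σ
  have h7 := h5.trans h6
  have e1 : (t σ).erase (K.u σ) = {K.v σ, K.w σ} := Finset.erase_insert (by simp [h5.ne, h7.ne])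
  have e2 : (t σ).erase (K.v σ) = {K.u σ, K.w σ} := by
    rw [Finset.erase_insert_of_ne h5.ne, Finset.erase_insert (by simp [h6.ne])]
  have e3 : (t σ).erase (K.w σ) = {K.u σ, K.v σ} := by
    rw [Finset.erase_insert_of_ne h7.ne, Finset.erase_insert_of_ne h6.ne]
    simp
  have s1 : sgn (K.u σ) (t σ) = 1 := by
    simp [sgn, t, Finset.filter_insert, Finset.filter_singleton, h5.not_gt, h7.not_gt]
  have s2 : sgn (K.v σ) (t σ) = -1 := by
    simp [sgn, t, Finset.filter_insert, Finset.filter_singleton, h5, h6.not_gt]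
  have s3 : sgn (K.w σ) (t σ) = 1 := by
    simp [sgn, t, Finset.filter_insert, Finset.filter_singleton, h7, h6, h5.ne]
  rw [t1.extend_apply, Finset.sum_insert (by simp [h5.ne, h7.ne]), Finset.sum_pair h6.ne, e1, e2, e3,
    s1, s2, s3, hE _ _ _ h5, hE _ _ _ h6, hE _ _ _ h7, if_congr t1.eq_iff rfl rfl, ← K.BN]
  ring

section grading

variable {G : SimpleGraph V}

omit [LinearOrder V] [Fintype V] in
theorem cdle_ext {k : ℕ} {M : Type} [AddCommGroup M] {f f' : Chain G →ₗ[ℤ] M}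
    (h : ∀ g (τ : Finset V), τ.card = k →
      f (Finsupp.single (g, τ) 1) = f' (Finsupp.single (g, τ) 1)) {c : Chain G}
    (hc : c ∈ cd G k) : f c = f' c := by
  refine (?_ : cd G k ≤ LinearMap.eqLocus f f') hc
  rw [cd, Finsupp.supported_eq_span_single, Submodule.span_le]
  rintro _ ⟨⟨g, τ⟩, ⟨h1, -⟩, rfl⟩
  exact h g τ h1

omit [LinearOrder V] in
theorem cdle_le (k : ℕ) : cd G k ≤ cl G Finset.univ :=
  Finsupp.supported_mono fun _ h => ⟨Finset.subset_univ _, h.2⟩

theorem cdle_proj : ∃ F : ℕ → Chain G →ₗ[ℤ] Chain G, (∀ k c, F k (bdy G c) = bdy G (F (k + 1) c)) ∧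
    (∀ k, ∀ c ∈ cd G k, F k c = c) ∧ ∀ k, ∀ c ∈ cl G Finset.univ, F k c ∈ cd G k := by
  obtain ⟨F, hF⟩ : ∃ F : ℕ → Chain G →ₗ[ℤ] Chain G, ∀ k g τ, F k (Finsupp.single (g, τ) 1) =
      if τ.card = k then Finsupp.single (g, τ) 1 else 0 :=
    ⟨fun k => Finsupp.linearCombination ℤ fun p => if p.2.card = k then Finsupp.single p 1 else 0,
      fun k g τ => by simp only [Finsupp.linearCombination_single, one_smul]⟩
  refine ⟨F, fun k c => ?_, fun k c hc => ?_, fun k c hc => ?_⟩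
  · rw [← LinearMap.comp_apply, ← LinearMap.comp_apply (bdy G)]
    refine LinearMap.congr_fun (Finsupp.lhom_ext' fun ⟨g, τ⟩ => LinearMap.ext_ring ?_) c
    simp only [LinearMap.comp_apply, Finsupp.lsingle_apply, sv_bdy_single, map_sum, map_smul,
      map_sub, hF]
    split_ifs with h
    · rw [sv_bdy_single]
      refine Finset.sum_congr rfl fun a ha => ?_
      have : (τ.erase a).card = k := by
        have := Finset.card_erase_add_one ha
        omega
      rw [if_pos this, if_pos this]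
    · rw [map_zero]
      refine Finset.sum_eq_zero fun a ha => ?_
      have : (τ.erase a).card ≠ k := by
        have := Finset.card_erase_add_one ha
        omega
      rw [if_neg this, if_neg this, sub_self, smul_zero]
  · exact cdle_ext (f' := LinearMap.id) (fun g τ h => by rw [hF, if_pos h]; rfl) hc
  · refine sv_cl_le (N := (cd G k).comap (F k)) (fun g τ _ h2 => ?_) hc
    rw [Submodule.mem_comap, hF]
    split_ifs with h
    · exact Finsupp.single_mem_supported ℤ 1 ⟨h, h2⟩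
    · exact Submodule.zero_mem _

theorem cdle_bdy {k : ℕ} {c : Chain G} (hc : c ∈ cd G (k + 1)) : bdy G c ∈ cd G k := by
  obtain ⟨F, h1, h2, h3⟩ := cdle_proj (G := G)
  rw [← h2 _ c hc, ← h1]
  exact h3 _ _ (sv_bdy_mem (cdle_le _ hc))

theorem cdle_exact {k : ℕ} {c : Chain G} (hc : c ∈ cd G k) (h0 : bdy G c = 0)
    (ha : Finsupp.mapDomain (QuotientGroup.mk : Raag G → Raag G ⧸ sub G Finset.univ)
      (res0 G c) = 0) : ∃ b ∈ cd G (k + 1), bdy G b = c := by
  obtain ⟨F, h1, h2, h3⟩ := cdle_proj (G := G)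
  obtain ⟨b, hb, rfl⟩ := salv_exact _ (cdle_le _ hc) h0 ha
  exact ⟨F _ b, h3 _ _ hb, by rw [← h1, h2 _ _ hc]⟩

theorem cdle_exact_succ {k : ℕ} {c : Chain G} (hc : c ∈ cd G (k + 1)) (h0 : bdy G c = 0) :
    ∃ b ∈ cd G (k + 2), bdy G b = c := by
  refine cdle_exact hc h0 ?_
  rw [cdle_ext (f := res0 G) (f' := 0) (fun g τ h => ?_) hc, LinearMap.zero_apply,
    Finsupp.mapDomain_zero]
  rw [sv_res0_single, if_neg (by rintro rfl; simp at h), LinearMap.zero_apply]

theorem cdle_exact_zero {c : Chain G} (hc : c ∈ cd G 0) (h0 : c.sum (fun _ k => k) = 0) :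
    ∃ b ∈ cd G 1, bdy G b = c := by
  refine cdle_exact hc (cdle_ext (f' := 0) (fun g τ h => ?_) hc) ?_
  · rw [Finset.card_eq_zero.1 h, sv_bdy_single, Finset.sum_empty, LinearMap.zero_apply]
  have h1 : ∀ g : Raag G, g ∈ sub G Finset.univ :=
    raag_induction (one_mem _) (fun a => gen_mem_sub (Finset.mem_univ a)) (fun _ => inv_mem)
      fun _ _ => mul_mem
  have h2 := cdle_ext (f := Finsupp.lmapDomain ℤ ℤ
      (QuotientGroup.mk : Raag G → Raag G ⧸ sub G Finset.univ) ∘ₗ res0 G)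
    (f' := Finsupp.lsingle ((1 : Raag G) : Raag G ⧸ sub G Finset.univ) ∘ₗ
      Finsupp.lsum ℤ fun _ => LinearMap.id) (fun g τ h => by
      rw [Finset.card_eq_zero.1 h]
      simp [sv_res0_single, QuotientGroup.eq.2 (h1 (g⁻¹ * 1))]) hc
  refine h2.trans ?_
  change Finsupp.single _ (c.sum fun _ k => k) = 0
  rw [h0, Finsupp.single_zero]

omit [Fintype V] in
theorem cdle_sum (c : Chain G) : (bdy G c).sum (fun _ k => k) = 0 := by
  refine LinearMap.congr_fun (f := (Finsupp.lsum ℤ fun _ => LinearMap.id) ∘ₗ bdy G) (g := 0)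
    (Finsupp.lhom_ext' fun ⟨g, τ⟩ => LinearMap.ext_ring ?_) c
  simp only [LinearMap.comp_apply, Finsupp.lsingle_apply, sv_bdy_single, map_sum, map_smul,
    map_sub, Finsupp.lsum_single, sub_self, smul_zero, Finset.sum_const_zero, LinearMap.zero_apply]

omit [Fintype V] in
theorem cdle_act (h : Raag G) (c : Chain G) : bdy G (act G h c) = act G h (bdy G c) := by
  refine LinearMap.congr_fun (f := bdy G ∘ₗ act G h) (g := act G h ∘ₗ bdy G)
    (Finsupp.lhom_ext' fun ⟨g, τ⟩ => LinearMap.ext_ring ?_) c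
  simp only [LinearMap.comp_apply, Finsupp.lsingle_apply, sv_bdy_single, map_sum, map_smul,
    map_sub, li_act_single, mul_assoc]

end grading

theorem bb_cohomDim_le (K : Cplx V T) : cohomDim (BB K.G) ≤ 2 := by
  obtain ⟨Mx, hM⟩ := exists_Mx K
  obtain ⟨lam, l1, l2, l3⟩ := exists_left_inv Mx hM
  let inst : MulAction (BB K.G) (Raag K.G × Finset V) :=
    { smul := fun h p => (h.1 * p.1, p.2)
      one_smul := fun p => Prod.ext (one_mul p.1) rfl
      mul_smul := fun h h' p => Prod.ext (mul_assoc h.1 h'.1 p.1) rfl }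
  have hact : ∀ (h : BB K.G) (c : Chain K.G), Finsupp.mapDomain (h • ·) c = act K.G h.1 c :=
    fun _ _ => rfl
  refine cohomDim_le_two (Ω := Raag K.G × Finset V)
    (fun h p e => Subtype.ext (mul_eq_right.1 (congrArg Prod.fst e)))
    {p | p.2.card = 0 ∧ K.G.IsClique (p.2 : Set V)} {p | p.2.card = 1 ∧ K.G.IsClique (p.2 : Set V)}
    {p | p.2.card = 2 ∧ K.G.IsClique (p.2 : Set V)} (fun _ _ h => h) (fun _ _ h => h)
    (fun _ _ h => h) ⟨(1, ∅), by simp⟩ (bdy K.G) (bdy K.G ∘ₗ lam) (fun h c => ?_) (fun h c => ?_)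
    (fun c hc => ⟨cdle_bdy hc, cdle_sum c⟩)
    (fun c hc => ⟨cdle_bdy hc, bdy_bdy _ (cdle_le _ hc)⟩) (fun c hc => cdle_exact_zero hc)
    (fun c hc => cdle_exact_succ hc) fun c hc => ?_
  · rw [hact, hact, cdle_act]
  · rw [hact, hact, LinearMap.comp_apply, LinearMap.comp_apply, l1 h.1 h.2, cdle_act]
  · rw [LinearMap.comp_apply]
    refine ⟨cdle_bdy (l2 c), bdy_bdy _ (cdle_le _ (l2 c)), fun h0 => ?_⟩
    obtain ⟨b, hb, rfl⟩ := cdle_exact_succ hc h0
    rw [l3 b hb]

end Vale.Agent.P173
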