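import Vale.Agent.P173.StageBasic
import Vale.Agent.P173.PathInd

/-!
P173: an induction principle for paths with end points in the closed part `A` of a stage.  It is
used for the cellular approximation theorems of `Push` and `Approx`.
-/

namespace Vale.Agent.P173

open Set Metric unitInterval

/-- `γ` is the image under `f` of a path from `u` to `v` inside `K` -/
def CiLift {F Z : Type*} [TopologicalSpace F] [TopologicalSpace Z] (f : F → Z) (K : Set F)
    {x y : Z} (γ : Path x y) (u v : F) : Prop :=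
  ∃ g : Path u v, (∀ t, g t ∈ K) ∧ ∀ t, γ t = f (g t)

section Lift

variable {F Z : Type*} [TopologicalSpace F] [TopologicalSpace Z] {f : F → Z} {K : Set F}

theorem CiLift.mk' {x y : Z} {γ : Path x y} (g : I → F) (hg : Continuous g) {u v : F}
    (h0 : g 0 = u) (h1 : g 1 = v) (hK : ∀ t, g t ∈ K) (h : ∀ t, γ t = f (g t)) :
    CiLift f K γ u v :=
  ⟨⟨⟨g, hg⟩, h0, h1⟩, hK, h⟩

theorem CiLift.symm {x y : Z} {γ : Path x y} {u v : F} (h : CiLift f K γ u v) :
    CiLift f K γ.symm v u := by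
  obtain ⟨g, h1, h2⟩ := h
  exact ⟨g.symm, fun t => h1 _, fun t => h2 _⟩

theorem CiLift.trans {x y z : Z} {γ : Path x y} {γ' : Path y z} {u v w : F}
    (h : CiLift f K γ u v) (h' : CiLift f K γ' v w) : CiLift f K (γ.trans γ') u w := by
  obtain ⟨g, h1, h2⟩ := h
  obtain ⟨g', h1', h2'⟩ := h'
  refine ⟨g.trans g', fun t => ?_, fun t => ?_⟩
  · rw [Path.trans_apply]
    split_ifs
    · exact h1 _
    · exact h1' _
  · rw [Path.trans_apply, Path.trans_apply]
    split_ifs
    · exact h2 _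
    · exact h2' _

theorem CiLift.source {x y : Z} {γ : Path x y} {u v : F} (h : CiLift f K γ u v) : x = f u := by
  obtain ⟨g, -, h2⟩ := h
  rw [← γ.source, h2, g.source]

theorem CiLift.target {x y : Z} {γ : Path x y} {u v : F} (h : CiLift f K γ u v) : y = f v := by
  obtain ⟨g, -, h2⟩ := h
  rw [← γ.target, h2, g.target]

end Lift

theorem CiLift.homotopic {F Z : Type*} [NormedAddCommGroup F] [NormedSpace ℝ F]
    [TopologicalSpace Z] {f : F → Z} {K : Set F} (hK : Convex ℝ K) (hf : ContinuousOn f K)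
    {x y : Z} {γ γ' : Path x y} {u v : F} (h : CiLift f K γ u v) (h' : CiLift f K γ' u v) :
    γ.Homotopic γ' := by
  obtain ⟨g, h1, h2⟩ := h
  obtain ⟨g', h1', h2'⟩ := h'
  refine ⟨⟨⟨⟨fun p => f ((1 - (p.1 : ℝ)) • g p.2 + (p.1 : ℝ) • g' p.2), ?_⟩, ?_, ?_⟩, ?_⟩⟩
  · refine hf.comp_continuous (by fun_prop) fun p => ?_
    exact hK (h1 _) (h1' _) (by linarith [p.1.2.2]) p.1.2.1 (by ring)
  · intro t
    simp [h2]
  · intro t
    simp [h2']
  · intro s t ht
    show f ((1 - (s : ℝ)) • g t + (s : ℝ) • g' t) = γ t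
    have e : g' t = g t := by
      rcases ht with rfl | rfl
      · rw [g.source, g'.source]
      · rw [g.target, g'.target]
    rw [e, ← add_smul, sub_add_cancel, one_smul, h2]

theorem ci_conj_trans {Z : Type*} [TopologicalSpace Z] {x y z x' y' z' : Z} (a : Path x x')
    (b : Path y y') (c : Path z z') (γ : Path x y) (γ' : Path y z) :
    ((a.symm.trans (γ.trans b)).trans (b.symm.trans (γ'.trans c))).Homotopic
      (a.symm.trans ((γ.trans γ').trans c)) := by
  apply Path.Homotopic.Quotient.exact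
  simp only [Path.Homotopic.Quotient.mk_trans, Path.Homotopic.Quotient.mk_symm,
    Path.Homotopic.Quotient.trans_assoc]
  rw [← Path.Homotopic.Quotient.trans_assoc (Path.Homotopic.Quotient.mk b),
    Path.Homotopic.Quotient.trans_symm, Path.Homotopic.Quotient.refl_trans]

theorem ci_eq_refl {Z : Type*} [TopologicalSpace Z] {x : Z} (a : Path x x) (h : ∀ t, a t = x) :
    a = Path.refl x := by
  ext t
  exact h t

variable {F : Type} [NormedAddCommGroup F] [NormedSpace ℝ F] {Z : Type*} [TopologicalSpace Z]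
  {J : Type*}

theorem ci_norm_radial {y : F} (h0 : y ≠ 0) {t : ℝ} (ht0 : 0 ≤ t) (ht1 : t ≤ 1) :
    ‖((1 - t) + t / ‖y‖) • y‖ = (1 - t) * ‖y‖ + t := by
  have hy : 0 < ‖y‖ := norm_pos_iff.2 h0
  have h1 : 0 ≤ 1 - t := by linarith
  rw [norm_smul, Real.norm_of_nonneg (by positivity)]
  field_simp

theorem Stage.cell_induction (st : Stage F Z J) (e₀ : F) (he₀ : ‖e₀‖ = 1)
    (Q : ∀ {x y : Z}, Path x y → Prop)
    (hA : ∀ {x y : Z} (γ : Path x y), (∀ t, γ t ∈ st.A) → Q γ)
    (hc : ∀ (j : J) {x y : Z} (γ : Path x y) (u v : F), ‖u‖ = 1 → ‖v‖ = 1 →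
      CiLift (st.χ j) (closedBall 0 1) γ u v → Q γ)
    (ht : ∀ {x y z : Z} (γ : Path x y) (γ' : Path y z), Q γ → Q γ' → Q (γ.trans γ'))
    (hh : ∀ {x y : Z} {γ γ' : Path x y}, γ.Homotopic γ' → Q γ → Q γ')
    {x y : Z} (hx : x ∈ st.A) (hy : y ∈ st.A) (γ : Path x y) : Q γ := by
  obtain ⟨D, hD, dA, dχ, d0, d1⟩ := st.exists_deform
  have hne : ∀ t : I, (t : ℝ) • e₀ ∈ closedBall (0 : F) 1 := fun t => by
    rw [mem_closedBall_zero_iff, norm_smul, he₀, mul_one, Real.norm_of_nonneg t.2.1]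
    exact t.2.2
  have anchor : ∀ z : Z, ∃ (n : Z) (a : Path z n), (z ∈ st.punct → ∀ t, a t = D t z) ∧
      ∀ j, z = st.χ j 0 → ∀ t, a t = st.χ j ((t : ℝ) • e₀) := by
    intro z
    by_cases hz : z ∈ st.punct
    · refine ⟨D 1 z, ⟨⟨fun t => D t z, ?_⟩, d0 z hz, rfl⟩, fun _ _ => rfl,
        fun j hj => absurd hj (hz j)⟩
      exact hD.comp_continuous (f := fun t : I => ((t : ℝ), z)) (by fun_prop) fun t => ⟨t.2, hz⟩
    · obtain ⟨j, hj⟩ : ∃ j, z = st.χ j 0 := by
        by_contra hcon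
        exact hz fun j hj => hcon ⟨j, hj⟩
      refine ⟨st.χ j e₀, ⟨⟨fun t => st.χ j ((t : ℝ) • e₀), ?_⟩, by simp [hj], by simp⟩,
        fun h => absurd h hz, fun j' hj' t => ?_⟩
      · exact (st.cont j).comp_continuous (by fun_prop) hne
      · obtain ⟨rfl, -⟩ := st.inj j j' 0 0 (by simp) (by simp) (hj.symm.trans hj')
        rfl
  choose n a ha1 ha2 using anchor
  have hcell : ∀ j (u : F), ‖u‖ < 1 →
      ∃ e, ‖e‖ = 1 ∧ CiLift (st.χ j) (closedBall 0 1) (a (st.χ j u)) u e := by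
    intro j u hu
    by_cases h0 : u = 0
    · subst h0
      exact ⟨e₀, he₀, CiLift.mk' (fun t => (t : ℝ) • e₀) (by fun_prop) (by simp) (by simp) hne
        (ha2 _ j rfl)⟩
    · refine ⟨((1 - (1 : ℝ)) + 1 / ‖u‖) • u, ?_,
        CiLift.mk' (fun t => ((1 - (t : ℝ)) + t / ‖u‖) • u) (by fun_prop) (by simp) rfl
          (fun t => ?_) fun t => ?_⟩
      · rw [ci_norm_radial h0 zero_le_one le_rfl]
        ring
      · rw [mem_closedBall_zero_iff, ci_norm_radial h0 t.2.1 t.2.2]
        nlinarith [t.2.1, t.2.2]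
      · rw [ha1 _ (st.mem_punct j h0 hu.le), dχ _ _ _ h0 hu.le]
  have key : Q ((a x).symm.trans (γ.trans (a y))) := by
    refine path_induction (fun i : Option J => i.elim st.punct fun j => st.χ j '' ball 0 1)
      ?_ ?_ (fun {x y} γ => Q ((a x).symm.trans (γ.trans (a y)))) ?_ ?_ ?_ γ
    · rintro (_ | j)
      · exact st.isOpen_punct
      · exact st.isOpen_image j isOpen_ball Subset.rfl
    · intro z
      rcases st.cover z with h | ⟨j, u, hu, rfl⟩
      · exact ⟨none, st.subset_punct h⟩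
      · exact ⟨some j, u, mem_ball_zero_iff.2 hu, rfl⟩
    · rintro (_ | j) x y γ hγ
      · have hγ' : ∀ t, γ t ∈ st.punct := hγ
        have hx : x ∈ st.punct := γ.source ▸ hγ' 0
        have hy : y ∈ st.punct := γ.target ▸ hγ' 1
        have hext : ∀ s : ℝ, γ.extend s ∈ st.punct := fun s => hγ' _
        have hf : ContinuousOn (fun p : ℝ × ℝ => D p.1 (γ.extend p.2)) (Icc 0 1 ×ˢ univ) :=
          hD.comp (f := fun p : ℝ × ℝ => (p.1, γ.extend p.2)) (by fun_prop)
            fun p hp => ⟨hp.1, hext _⟩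
        let δ : Path (n x) (n y) :=
          ⟨⟨fun t => D 1 (γ t), hD.comp_continuous (f := fun t : I => ((1 : ℝ), γ t))
            (by fun_prop) fun t => ⟨⟨zero_le_one, le_rfl⟩, hγ' t⟩⟩,
            by rw [← (a x).target, ha1 x hx]; simp, by rw [← (a y).target, ha1 y hy]; simp⟩
        refine hh (γ := δ) ?_ (hA δ fun t => d1 _ (hγ' t))
        refine CiLift.homotopic ((convex_Icc 0 1).prod convex_univ) hf (u := (1, 0)) (v := (1, 1))
          (CiLift.mk' (fun t => ((1 : ℝ), (t : ℝ))) (by fun_prop) rfl rfl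
            (fun t => ⟨⟨zero_le_one, le_rfl⟩, mem_univ _⟩) fun t => ?_)
          (CiLift.trans (v := (0, 0)) (CiLift.symm ?_) (CiLift.trans (v := (0, 1)) ?_ ?_))
        · show D 1 (γ t) = D 1 (γ.extend t)
          rw [Path.extend_extends']
        · refine CiLift.mk' (fun t => ((t : ℝ), (0 : ℝ))) (by fun_prop) rfl rfl
            (fun t => ⟨t.2, mem_univ _⟩) fun t => ?_
          rw [ha1 x hx]
          simp
        · refine CiLift.mk' (fun t => ((0 : ℝ), (t : ℝ))) (by fun_prop) rfl rfl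
            (fun t => ⟨⟨le_rfl, zero_le_one⟩, mem_univ _⟩) fun t => ?_
          show γ t = D 0 (γ.extend t)
          rw [Path.extend_extends', d0 _ (hγ' t)]
        · refine CiLift.mk' (fun t => ((t : ℝ), (1 : ℝ))) (by fun_prop) rfl rfl
            (fun t => ⟨t.2, mem_univ _⟩) fun t => ?_
          rw [ha1 y hy]
          simp
      · have hγ' : ∀ t, γ t ∈ st.χ j '' ball 0 1 := hγ
        obtain ⟨ψ, hψ, hψ'⟩ := st.exists_coord j
        obtain ⟨u, hu, rfl⟩ : x ∈ st.χ j '' ball 0 1 := γ.source ▸ hγ' 0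
        obtain ⟨v, hv, rfl⟩ : y ∈ st.χ j '' ball 0 1 := γ.target ▸ hγ' 1
        rw [mem_ball_zero_iff] at hu hv
        obtain ⟨e, he, h1⟩ := hcell j u hu
        obtain ⟨e', he', h2⟩ := hcell j v hv
        refine hc j _ e e' he he' (h1.symm.trans (CiLift.trans ?_ h2))
        refine CiLift.mk' (fun t => ψ (γ t)) (hψ.comp_continuous γ.continuous hγ')
          (by rw [γ.source, hψ' u hu]) (by rw [γ.target, hψ' v hv]) (fun t => ?_) fun t => ?_
        · obtain ⟨w, hw, e⟩ := hγ' t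
          rw [← e, hψ' w (mem_ball_zero_iff.1 hw)]
          exact ball_subset_closedBall hw
        · obtain ⟨w, hw, e⟩ := hγ' t
          rw [← e, hψ' w (mem_ball_zero_iff.1 hw)]
    · intro x y z γ γ' h1 h2
      exact hh (ci_conj_trans _ _ _ _ _) (ht _ _ h1 h2)
    · intro x y γ γ' h h1
      exact hh ((Path.Homotopic.refl _).hcomp (h.hcomp (Path.Homotopic.refl _))) h1
  have cx : ∀ t, a x t = x := fun t => by rw [ha1 x (st.subset_punct hx), dA _ _ hx]
  have cy : ∀ t, a y t = y := fun t => by rw [ha1 y (st.subset_punct hy), dA _ _ hy]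
  generalize a x = α at key cx
  generalize a y = β at key cy
  generalize n x = x' at α key cx
  generalize n y = y' at β key cy
  obtain rfl : x = x' := by rw [← α.target, cx]
  obtain rfl : y = y' := by rw [← β.target, cy]
  rw [ci_eq_refl α cx, ci_eq_refl β cy, Path.refl_symm] at key
  exact hh ((Path.Homotopic.refl_trans _).trans (Path.Homotopic.trans_refl _)) key

end Vale.Agent.P173
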