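import Vale.Agent.P173.DegDefs

/-!
P173 task DegTheta (about 100 lines): a `C^1` squashing map whose Jacobian determinant is a bump.
Take a continuous linear equivalence `e : E ≃L[ℝ] (Fin d → ℝ)` (from `Module.finBasis`), `c > 0`
with `‖y‖ ≤ c⁻¹ * ‖e y‖`-type bound so that `1 ≤ ‖y‖` forces some `|e y k| ≥ c`, a monotone smooth
`θ : ℝ → ℝ` that is locally constant on `|t| ≥ c / 2` with `θ' 0 > 0` (for instance
`θ t = Real.smoothTransition (t / c + 1 / 2)`, or any `C^1` primitive of a bump; positivity of the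
derivative at one point can also be obtained from the primitive `t ↦ ∫ x in 0..t, bump x`), and
`Θ y = e.symm (fun k => θ (e y k))`.  The derivative is conjugate to the diagonal matrix
`θ' (e y k)`, so the determinant is `∏ k, θ' (e y k)` (`LinearMap.det_conj`, `LinearMap.det_pi` or
`Matrix.det_diagonal`).  If `d = 0` then `‖y‖ = 0` for all `y` and the determinant is `1`.
-/

namespace Vale.Agent.P173

theorem exists_theta_real : ∃ θ φ : ℝ → ℝ, (∀ t, HasDerivAt θ (φ t) t) ∧ ContDiff ℝ 1 θ ∧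
    (∀ t, 0 ≤ φ t) ∧ 0 < φ 0 ∧ ∀ t, 1 ≤ |t| → φ t = 0 := by
  have hφ : Continuous fun t : ℝ => max (1 - |t|) 0 := by fun_prop
  have hd : ∀ t, HasDerivAt (fun t => ∫ x in (0 : ℝ)..t, max (1 - |x|) 0) (max (1 - |t|) 0) t :=
    fun t => (hφ.integral_hasStrictDerivAt 0 t).hasDerivAt
  refine ⟨_, _, hd, ?_, fun t => le_max_right _ _, by simp, fun t ht => max_eq_right (by linarith)⟩
  rw [contDiff_one_iff_deriv]
  exact ⟨fun t => (hd t).differentiableAt, by rwa [funext fun t => (hd t).deriv]⟩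

theorem exists_theta (E : Type*) [NormedAddCommGroup E] [NormedSpace ℝ E]
    [FiniteDimensional ℝ E] :
    ∃ Θ : E → E, ContDiff ℝ 1 Θ ∧ (∀ y, 0 ≤ (fderiv ℝ Θ y).det) ∧ 0 < (fderiv ℝ Θ 0).det ∧
      ∀ y, 1 ≤ ‖y‖ → (fderiv ℝ Θ y).det = 0 := by
  obtain ⟨θ, φ, hd, hθ, h0, h1, h2⟩ := exists_theta_real
  set d := Module.finrank ℝ E
  let e0 : E ≃L[ℝ] (Fin d → ℝ) := (Module.finBasis ℝ E).equivFunL
  set c : ℝ := ‖(e0.symm : (Fin d → ℝ) →L[ℝ] E)‖ + 1 with hc
  have hc0 : 0 < c := by positivity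
  let e : E ≃L[ℝ] (Fin d → ℝ) :=
    e0.trans (LinearEquiv.smulOfNeZero ℝ (Fin d → ℝ) c hc0.ne').toContinuousLinearEquiv
  have he : ∀ y, e y = c • e0 y := fun y => rfl
  have hdet : ∀ y, (fderiv ℝ (fun y => e.symm fun k => θ (e y k)) y).det = ∏ k, φ (e y k) := by
    intro y
    have hin : HasFDerivAt (fun z : Fin d → ℝ => fun k => θ (z k))
        (ContinuousLinearMap.pi fun k => φ (e y k) • ContinuousLinearMap.proj k) (e y) :=
      hasFDerivAt_pi.2 fun k => HasDerivAt.comp_hasFDerivAt (f := fun z : Fin d → ℝ => z k)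
        (e y) (hd (e y k)) (hasFDerivAt_apply (𝕜 := ℝ) k (e y))
    have h3 : HasFDerivAt (fun y => e.symm fun k => θ (e y k)) _ y :=
      e.symm.hasFDerivAt.comp y (hin.comp y e.hasFDerivAt)
    rw [h3.fderiv]
    refine (LinearMap.det_conj _ e.symm.toLinearEquiv).trans ?_
    rw [← LinearMap.det_toMatrix', ← Matrix.det_diagonal]
    congr 1
    ext i j
    simp [Matrix.diagonal_apply, Pi.single_apply]
  refine ⟨fun y => e.symm fun k => θ (e y k), ?_, fun y => ?_, ?_, fun y hy => ?_⟩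
  · exact e.symm.contDiff.comp (contDiff_pi.2 fun k =>
      hθ.comp ((contDiff_apply ℝ ℝ k).comp e.contDiff))
  · rw [hdet]
    exact Finset.prod_nonneg fun k _ => h0 _
  · rw [hdet]
    exact Finset.prod_pos fun k _ => by simpa using h1
  · rw [hdet]
    by_contra hne
    have h3 : ‖e y‖ < 1 := (pi_norm_lt_iff one_pos).2 fun k => not_le.1 fun h =>
      hne (Finset.prod_eq_zero (Finset.mem_univ k) (h2 _ h))
    have h4 := (e0.symm : (Fin d → ℝ) →L[ℝ] E).le_opNorm (e0 y)
    rw [he, norm_smul, Real.norm_of_nonneg hc0.le, hc] at h3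
    simp only [ContinuousLinearEquiv.coe_coe, ContinuousLinearEquiv.symm_apply_apply] at h4
    nlinarith [norm_nonneg (e0 y)]

end Vale.Agent.P173
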