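import Vale.Agent.P173.DegLC
import Vale.Agent.P173.DegTheta

/-!
P173 task Deg (about 250 lines): existence of the degree.
Fix `borel E`, `μ = Measure.addHaar`, `Θ` from `exists_theta`, and let
`I Ω f = ∫ x in Ω, (fderiv ℝ (Θ ∘ f) x).det ∂μ`.  Say `c > 0` is good for `(Ω, f)` if
`1 < ‖c • f x‖` on `frontier Ω`.  For admissible `f` (nonzero and continuous on the compact frontier)
all large `c` are good, and `I Ω (c • f)` does not depend on the good `c`
(`integral_det_segment`: the segment between `c • f` and `c' • f` is `c'' • f`, `c'' ≥ min c c'`).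
Define `deg Ω f = I Ω (c • f)` for a chosen good `c` (and `0` if there is none).
* `htpy`: `‖H‖ ≥ r > 0` on the compact `[0,1] × frontier Ω`; with `c = 4 / r` and uniform continuity,
  `t ↦ I Ω (c • H t)` is locally constant on `Icc 0 1` by `integral_det_segment`; use
  `IsPreconnected.constant` / `IsLocallyConstant` or induction along `k / n`.
* `add`: `‖f‖ ≥ r > 0` on the compact `closure Ω \ (Ω₁ ∪ Ω₂)`, which contains the three frontiers;
  with `c = 2 / r` the integrand vanishes on `Ω \ (Ω₁ ∪ Ω₂)` (chain rule), it is integrable on `Ω`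
  (continuous on `Ω`, zero off the compact `{x ∈ closure Ω | ‖c • f x‖ ≤ 1} ⊆ Ω`);
  `setIntegral_union`, `setIntegral_eq_of_subset_of_forall_diff_eq_zero`.
* `norm`: the integrand is `φ (c • (x - y)) * c ^ d ≥ 0` (`det_smul`), continuous, positive at `y`;
  `setIntegral_pos_iff_support_of_nonneg_ae` or `ContinuousOn` plus `IsOpen.measure_pos`.
-/

namespace Vale.Agent.P173

open MeasureTheory Set Filter Topology

section aux

variable {E : Type*} [NormedAddCommGroup E] [NormedSpace ℝ E] [FiniteDimensional ℝ E]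
  {Θ : E → E} {Ω : Set E} {f : E → E}

/-- the scaling constant `c` pushes the frontier values outside the closed unit ball -/
def DegGood (Ω : Set E) (f : E → E) (c : ℝ) : Prop :=
  0 < c ∧ ∀ x ∈ frontier Ω, 1 < ‖c • f x‖

omit [FiniteDimensional ℝ E] in
theorem deg_det_comp (hΘ : ContDiff ℝ 1 Θ) (ho : IsOpen Ω) (hf : ContDiffOn ℝ 1 f Ω) {x : E}
    (hx : x ∈ Ω) :
    (fderiv ℝ (Θ ∘ f) x).det = (fderiv ℝ Θ (f x)).det * (fderiv ℝ f x).det := by
  rw [fderiv_comp x (hΘ.differentiable one_ne_zero _)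
    ((hf.contDiffAt (ho.mem_nhds hx)).differentiableAt one_ne_zero)]
  exact LinearMap.det_comp _ _

omit [FiniteDimensional ℝ E] in
theorem deg_continuousOn (hΘ : ContDiff ℝ 1 Θ) (ho : IsOpen Ω) (hf : ContDiffOn ℝ 1 f Ω) :
    ContinuousOn (fun x => (fderiv ℝ (Θ ∘ f) x).det) Ω :=
  ContinuousLinearMap.continuous_det.comp_continuousOn
    ((hΘ.comp_contDiffOn hf).continuousOn_fderiv_of_isOpen ho le_rfl)

theorem deg_compact_closure (hb : Bornology.IsBounded Ω) : IsCompact (closure Ω) :=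
  have := FiniteDimensional.proper_real E
  hb.isCompact_closure

theorem deg_compact_frontier (hb : Bornology.IsBounded Ω) : IsCompact (frontier Ω) :=
  (deg_compact_closure hb).of_isClosed_subset isClosed_frontier frontier_subset_closure

omit [FiniteDimensional ℝ E] in
theorem deg_exists_scale {P : Type*} [TopologicalSpace P] {K : Set P} (hK : IsCompact K)
    {g : P → E} (hg : ContinuousOn g K) (h0 : ∀ p ∈ K, g p ≠ 0) :
    ∃ c : ℝ, 0 < c ∧ ∀ p ∈ K, 2 ≤ ‖c • g p‖ := by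
  obtain ⟨r, hr, h⟩ := hK.exists_forall_le' hg.norm fun p hp => norm_pos_iff.2 (h0 p hp)
  refine ⟨2 / r, by positivity, fun p hp => ?_⟩
  rw [norm_smul, Real.norm_of_nonneg (by positivity), div_mul_eq_mul_div, le_div_iff₀ hr]
  linarith [h p hp]

variable [MeasurableSpace E] [BorelSpace E] (μ : Measure E) [μ.IsAddHaarMeasure]

theorem deg_integrableOn (hΘ : ContDiff ℝ 1 Θ)
    (hΘ0 : ∀ y, 1 ≤ ‖y‖ → (fderiv ℝ Θ y).det = 0) (ho : IsOpen Ω) (hb : Bornology.IsBounded Ω)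
    (hf : ContDiffOn ℝ 1 f Ω) (hc : ContinuousOn f (closure Ω))
    (hz : ∀ x ∈ frontier Ω, 1 < ‖f x‖) :
    IntegrableOn (fun x => (fderiv ℝ (Θ ∘ f) x).det) Ω μ := by
  have hN : IsCompact (closure Ω ∩ f ⁻¹' Metric.closedBall 0 1) :=
    (deg_compact_closure hb).of_isClosed_subset
      (hc.preimage_isClosed_of_isClosed isClosed_closure Metric.isClosed_closedBall)
      inter_subset_left
  have hs : closure Ω ∩ f ⁻¹' Metric.closedBall 0 1 ⊆ Ω := by
    rintro x ⟨h1, h2⟩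
    by_contra h
    exact absurd (hz x ⟨h1, by rwa [ho.interior_eq]⟩) (by simpa using h2)
  refine (((deg_continuousOn hΘ ho hf).mono hs).integrableOn_compact hN).of_forall_sdiff_eq_zero
    ho.measurableSet fun x hx => ?_
  have h1 : 1 ≤ ‖f x‖ := by
    by_contra h
    exact hx.2 ⟨subset_closure hx.1, by simpa using (not_le.1 h).le⟩
  rw [deg_det_comp hΘ ho hf hx.1, hΘ0 _ h1, zero_mul]

open Classical in
/-- the analytic degree -/
noncomputable def degFun (Θ : E → E) (Ω : Set E) (f : E → E) : ℝ :=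
  if h : ∃ c, DegGood Ω f c then
    ∫ x in Ω, (fderiv ℝ (Θ ∘ fun x => choose h • f x) x).det ∂μ else 0

theorem degFun_eq (hΘ : ContDiff ℝ 1 Θ) (hΘ0 : ∀ y, 1 ≤ ‖y‖ → (fderiv ℝ Θ y).det = 0)
    (ho : IsOpen Ω) (hb : Bornology.IsBounded Ω) (hf : ContDiffOn ℝ 1 f Ω)
    (hc : ContinuousOn f (closure Ω)) {c : ℝ} (h : DegGood Ω f c) :
    degFun μ Θ Ω f = ∫ x in Ω, (fderiv ℝ (Θ ∘ fun x => c • f x) x).det ∂μ := by
  have he : ∃ c, DegGood Ω f c := ⟨c, h⟩
  have h' := Classical.choose_spec he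
  rw [degFun, dif_pos he]
  refine integral_det_segment μ hΘ hΘ0 ho hb (hf.const_smul _) (hc.const_smul _)
    (hf.const_smul _) (hc.const_smul _) fun t ht x hx => ?_
  have h1 := h.2 x hx
  have h2 := h'.2 x hx
  have h3 : 0 ≤ (1 - t) * Classical.choose he + t * c :=
    add_nonneg (mul_nonneg (sub_nonneg.2 ht.2) h'.1.le) (mul_nonneg ht.1 h.1.le)
  rw [norm_smul, Real.norm_of_nonneg h.1.le] at h1
  rw [norm_smul, Real.norm_of_nonneg h'.1.le] at h2
  rw [smul_smul, smul_smul, ← add_smul, norm_smul, Real.norm_of_nonneg h3]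
  rcases le_total (c * ‖f x‖) (Classical.choose he * ‖f x‖) with h4 | h4
  · nlinarith [ht.2]
  · nlinarith [ht.1]

theorem degFun_norm (hΘ : ContDiff ℝ 1 Θ) (hΘ0 : ∀ y, 1 ≤ ‖y‖ → (fderiv ℝ Θ y).det = 0)
    (hΘ1 : ∀ y, 0 ≤ (fderiv ℝ Θ y).det) (hΘ2 : 0 < (fderiv ℝ Θ 0).det) (y : E) (ho : IsOpen Ω)
    (hb : Bornology.IsBounded Ω) (hy : y ∈ Ω) : degFun μ Θ Ω (fun x => x - y) ≠ 0 := by
  obtain ⟨c, hc, h⟩ := deg_exists_scale (deg_compact_frontier hb) (g := fun x => x - y)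
    (by fun_prop) fun x hx h0 => hx.2 (by rwa [sub_eq_zero.1 h0, ho.interior_eq])
  have hz : ∀ x ∈ frontier Ω, 1 < ‖c • (x - y)‖ := fun x hx => by linarith [h x hx]
  have hf : ContDiffOn ℝ 1 (fun x => c • (x - y)) Ω := by fun_prop
  rw [degFun_eq μ hΘ hΘ0 ho hb (by fun_prop) (by fun_prop) ⟨hc, hz⟩]
  have hd : ∀ x, 0 < (fderiv ℝ (fun x => c • (x - y)) x).det := fun x => by
    have e : HasFDerivAt (fun x => c • (x - y)) (c • ContinuousLinearMap.id ℝ E) x :=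
      ((hasFDerivAt_id x).sub_const y).fun_const_smul c
    rw [e.fderiv]
    show 0 < LinearMap.det (c • (LinearMap.id : E →ₗ[ℝ] E))
    rw [LinearMap.det_smul, LinearMap.det_id]
    positivity
  refine ((setIntegral_pos_iff_support_of_nonneg_ae ?_
    (deg_integrableOn μ hΘ hΘ0 ho hb hf (by fun_prop) hz)).2 ?_).ne'
  · refine (ae_restrict_iff' ho.measurableSet).2 (Eventually.of_forall fun x hx => ?_)
    simp only [Pi.zero_apply]
    rw [deg_det_comp hΘ ho hf hx]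
    exact mul_nonneg (hΘ1 _) (hd x).le
  · rw [inter_comm]
    refine ((deg_continuousOn hΘ ho hf).isOpen_inter_preimage ho isOpen_ne).measure_pos μ
      ⟨y, hy, ?_⟩
    show (fderiv ℝ (Θ ∘ fun x => c • (x - y)) y).det ≠ 0
    rw [deg_det_comp hΘ ho hf hy, sub_self, smul_zero]
    exact (mul_pos hΘ2 (hd y)).ne'

theorem degFun_htpy (hΘ : ContDiff ℝ 1 Θ) (hΘ0 : ∀ y, 1 ≤ ‖y‖ → (fderiv ℝ Θ y).det = 0)
    (H : ℝ → E → E) (ho : IsOpen Ω) (hb : Bornology.IsBounded Ω)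
    (hH : ContinuousOn (fun p : ℝ × E => H p.1 p.2) (Icc 0 1 ×ˢ closure Ω))
    (hd : ∀ t ∈ Icc (0 : ℝ) 1, ContDiffOn ℝ 1 (H t) Ω)
    (hz : ∀ t ∈ Icc (0 : ℝ) 1, ∀ x ∈ frontier Ω, H t x ≠ 0) :
    degFun μ Θ Ω (H 0) = degFun μ Θ Ω (H 1) := by
  have hK : IsCompact (Icc (0 : ℝ) 1 ×ˢ frontier Ω) := isCompact_Icc.prod (deg_compact_frontier hb)
  have hH' := hH.mono (prod_mono_right frontier_subset_closure)
  obtain ⟨c, hc, h⟩ := deg_exists_scale hK hH' fun p hp => hz _ hp.1 _ hp.2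
  have hct : ∀ t ∈ Icc (0 : ℝ) 1, ContinuousOn (H t) (closure Ω) := fun t ht =>
    hH.comp (f := fun x => (t, x)) (by fun_prop) fun x hx => ⟨ht, hx⟩
  obtain ⟨δ, hδ, hu⟩ := Metric.uniformContinuousOn_iff.1
    (hK.uniformContinuousOn_of_continuous (hH'.const_smul c)) 1 one_pos
  have key : ∀ s ∈ Icc (0 : ℝ) 1, ∀ t ∈ Icc (0 : ℝ) 1, dist t s < δ →
      degFun μ Θ Ω (H s) = degFun μ Θ Ω (H t) := by
    intro s hs t ht hst
    rw [degFun_eq μ hΘ hΘ0 ho hb (hd s hs) (hct s hs)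
        ⟨hc, fun x hx => by linarith [h (s, x) ⟨hs, hx⟩]⟩,
      degFun_eq μ hΘ hΘ0 ho hb (hd t ht) (hct t ht)
        ⟨hc, fun x hx => by linarith [h (t, x) ⟨ht, hx⟩]⟩]
    refine integral_det_segment μ hΘ hΘ0 ho hb ((hd s hs).const_smul _) ((hct s hs).const_smul _)
      ((hd t ht).const_smul _) ((hct t ht).const_smul _) fun u hu' x hx => ?_
    have h1 : 2 ≤ ‖c • H s x‖ := h (s, x) ⟨hs, hx⟩
    have h2 : ‖c • H t x - c • H s x‖ < 1 := by
      rw [← dist_eq_norm]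
      exact hu (t, x) ⟨ht, hx⟩ (s, x) ⟨hs, hx⟩ (by simpa [hδ] using hst)
    have h3 : c • H s x = ((1 - u) • c • H s x + u • c • H t x) - u • (c • H t x - c • H s x) := by
      module
    have h4 := norm_sub_le ((1 - u) • c • H s x + u • c • H t x) (u • (c • H t x - c • H s x))
    rw [← h3, norm_smul u, Real.norm_of_nonneg hu'.1] at h4
    nlinarith [hu'.2, norm_nonneg (c • H t x - c • H s x)]
  refine isPreconnected_Icc.induction₂' (fun s t => degFun μ Θ Ω (H s) = degFun μ Θ Ω (H t))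
    (fun s hs => ?_) (fun _ _ _ _ _ _ h1 h2 => h1.trans h2) (left_mem_Icc.2 zero_le_one)
    (right_mem_Icc.2 zero_le_one)
  filter_upwards [self_mem_nhdsWithin, mem_nhdsWithin_of_mem_nhds (Metric.ball_mem_nhds s hδ)]
    with t ht hts
  exact ⟨key s hs t ht hts, (key s hs t ht hts).symm⟩

theorem degFun_add (hΘ : ContDiff ℝ 1 Θ) (hΘ0 : ∀ y, 1 ≤ ‖y‖ → (fderiv ℝ Θ y).det = 0)
    {Ω₁ Ω₂ : Set E} (ho : IsOpen Ω) (hb : Bornology.IsBounded Ω) (h₁ : IsOpen Ω₁)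
    (h₂ : IsOpen Ω₂) (s₁ : Ω₁ ⊆ Ω) (s₂ : Ω₂ ⊆ Ω) (hd : Disjoint Ω₁ Ω₂) (hf : ContDiffOn ℝ 1 f Ω)
    (hc : ContinuousOn f (closure Ω)) (hz : ∀ x ∈ closure Ω, f x = 0 → x ∈ Ω₁ ∪ Ω₂) :
    degFun μ Θ Ω f = degFun μ Θ Ω₁ f + degFun μ Θ Ω₂ f := by
  obtain ⟨c, hc0, h⟩ := deg_exists_scale ((deg_compact_closure hb).diff (h₁.union h₂))
    (hc.mono sdiff_subset) fun x hx h0 => hx.2 (hz x hx.1 h0)
  have g0 : DegGood Ω f c := ⟨hc0, fun x hx => by
    rw [ho.frontier_eq] at hx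
    linarith [h x ⟨hx.1, fun h' => hx.2 (union_subset s₁ s₂ h')⟩]⟩
  have g1 : DegGood Ω₁ f c := ⟨hc0, fun x hx => by
    rw [h₁.frontier_eq] at hx
    linarith [h x ⟨closure_mono s₁ hx.1, fun h' =>
      h'.elim hx.2 (disjoint_left.1 (hd.closure_left h₂) hx.1)⟩]⟩
  have g2 : DegGood Ω₂ f c := ⟨hc0, fun x hx => by
    rw [h₂.frontier_eq] at hx
    linarith [h x ⟨closure_mono s₂ hx.1, fun h' =>
      h'.elim (disjoint_right.1 (hd.closure_right h₁) hx.1) hx.2⟩]⟩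
  have hi := deg_integrableOn μ hΘ hΘ0 ho hb (hf.const_smul c) (hc.const_smul c) g0.2
  rw [degFun_eq μ hΘ hΘ0 ho hb hf hc g0,
    degFun_eq μ hΘ hΘ0 h₁ (hb.subset s₁) (hf.mono s₁) (hc.mono (closure_mono s₁)) g1,
    degFun_eq μ hΘ hΘ0 h₂ (hb.subset s₂) (hf.mono s₂) (hc.mono (closure_mono s₂)) g2,
    ← setIntegral_union hd h₂.measurableSet (hi.mono_set s₁) (hi.mono_set s₂)]
  refine setIntegral_eq_of_subset_of_forall_sdiff_eq_zero ho.measurableSet (union_subset s₁ s₂)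
    fun x hx => ?_
  rw [deg_det_comp hΘ ho (hf.const_smul c) hx.1,
    hΘ0 _ (by linarith [h x ⟨subset_closure hx.1, hx.2⟩]), zero_mul]

end aux

theorem exists_degree (E : Type*) [NormedAddCommGroup E] [NormedSpace ℝ E]
    [FiniteDimensional ℝ E] : Nonempty (Degree E) := by
  let _ : MeasurableSpace E := borel E
  have : BorelSpace E := ⟨rfl⟩
  obtain ⟨Θ, hΘ, h1, h2, h0⟩ := exists_theta E
  exact ⟨⟨degFun Measure.addHaar Θ, fun Ω y => degFun_norm _ hΘ h0 h1 h2 y,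
    fun Ω H => degFun_htpy _ hΘ h0 H, fun Ω Ω₁ Ω₂ f => degFun_add _ hΘ h0⟩⟩

end Vale.Agent.P173
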