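import Vale.Agent.P173.WordDeg
import Vale.Agent.P173.Deg

/-!
P173 task Cont (about 350 lines): the continuation theorem, square case.
Below, for `x ∈ Off ι` let `A x i = nrm (x i)`, so `wordMap w x = FreeGroup.lift (A x) w`.
All maps below have `Φ`-components `(e (inl i)) ↦ ‖x (e (inl i))‖ • wordMap (w i) x - 1`, and their
`J`-components are (with `r j = ‖x (e (inr j))‖`, `C j = wordMap (c j) x`, `Q j = wordMap (q j) x`)
* `f1 j = r j • C j - 1` (this is `thick (wordMap ∘ W) 1`, degree `≠ 0` on `Shell` by `word_deg`),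
* `f2 j = (r j - 1) + im (C j)`,
* `f3 j = (r j - 1) + T (fun j' => im (Q j')) j`,
* `f4 s j = re (Y j) + T (fun j' => im (Y j')) j` where `Y j = r j • (Q j * (P s j)⁻¹) - 1`
(`Quaternion.im : ℍ → ℍ` is the imaginary part, reals are coerced to `ℍ`).
It is convenient to define `glue (g : (ι → ℍ) → J → ℍ) x i = Sum.elim (Φ-part x) (g x) (e.symm i)`.
`U η = {x ∈ Shell | ∀ j, ‖C j - 1‖ < η}` is open and bounded; on `closure (U η)` we have
`x ∈ closure Shell ⊆ Off`, `‖C j - 1‖ ≤ η`; a point of the closure with all `‖x i‖ = 1` and all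
`‖C j - 1‖ < η` is in `U η`, hence not in the frontier.
Choose `0 < η₀ ≤ min δ (1/2)` small (depending on `C` and the operator norm of `T`).
1. excise `f1` from `Shell` to `U η₀` (zeros have `C j = 1`).
2. segments `f1 → f2 → f3 → f4 0` on `U η₀`: at a zero of a segment in the closure, the `Φ`-part gives
   the hypothesis of `ha`; let `η = max_j ‖C j - 1‖ ≤ η₀` (sup norm of `fun j => C j - 1`).  For unit
   `z` with `‖z - 1‖ ≤ 1`: `re z ≥ 1/2`, `‖z - 1‖ ≤ 2 ‖im z‖`, and `|re z - 1| = ‖z - 1‖^2 / 2`.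
   `f1 → f2`: imaginary part gives `im C = 0`, so `C = 1`, then `r = 1`.
   `f2 → f3`: `(1-t) im C + t T (im Q) = 0` and `‖T (im Q) j - im (C j)‖ ≤ C' η^2` give
   `η ≤ 2 C' η^2`, so `η = 0`.  `f3 → f4 0`: imaginary part is `T` of `((1-t) + t r) • im Q`, so
   `im Q = 0`, `Q = 1` since `‖Q - 1‖ ≤ C η ≤ 1`, then `r = 1` and `hb0` gives `C = 1`.
3. `f4 s x = 0` iff `Φ`-part and `Y = 0` iff all `‖x i‖ = 1`, flat, `Q = P s`.  Excise `f4 0` from `U δ`
   to `U η₀` (`hb0`), homotopy in `s` on `U δ` (`hb`), and `Degree.exists_zero` at `s = 1`.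
-/

namespace Vale.Agent.P173

open scoped Quaternion
open Set

namespace Cont

theorem smul_sub_one {r : ℝ} (hr : 0 ≤ r) (z : S3) (h : r • (z : ℍ) - 1 = 0) :
    r = 1 ∧ z = 1 := by
  have h1 : r • (z : ℍ) = 1 := sub_eq_zero.1 h
  have h2 : r = 1 := by
    have := congrArg norm h1
    rwa [norm_smul, S3.norm_coe, mul_one, norm_one, Real.norm_of_nonneg hr] at this
  refine ⟨h2, Subtype.ext ?_⟩
  rw [h2, one_smul] at h1
  simpa using h1

theorem norm_sq_eq (z : ℍ) : ‖z‖ ^ 2 = z.re ^ 2 + z.imI ^ 2 + z.imJ ^ 2 + z.imK ^ 2 := by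
  rw [sq, ← Quaternion.normSq_eq_norm_mul_self, Quaternion.normSq_def']

theorem unit_sq (z : S3) :
    (z : ℍ).re ^ 2 + (z : ℍ).imI ^ 2 + (z : ℍ).imJ ^ 2 + (z : ℍ).imK ^ 2 = 1 := by
  rw [← norm_sq_eq, S3.norm_coe, one_pow]

theorem norm_sub_one_sq (z : S3) : ‖(z : ℍ) - 1‖ ^ 2 = 2 * (1 - (z : ℍ).re) := by
  have h := unit_sq z
  rw [norm_sq_eq]
  simp
  linarith

theorem norm_im_sq (z : S3) : ‖(z : ℍ).im‖ ^ 2 = 1 - (z : ℍ).re ^ 2 := by
  have h := unit_sq z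
  rw [norm_sq_eq]
  simp
  linarith

theorem le_two_im (z : S3) (h : ‖(z : ℍ) - 1‖ ≤ 1) : ‖(z : ℍ) - 1‖ ≤ 2 * ‖(z : ℍ).im‖ := by
  have h1 := norm_sub_one_sq z
  have h2 := norm_im_sq z
  have h3 : ‖(z : ℍ) - 1‖ ^ 2 ≤ 1 := pow_le_one₀ (norm_nonneg _) h
  have h4 : 0 ≤ ‖(z : ℍ) - 1‖ ^ 2 := by positivity
  refine (pow_le_pow_iff_left₀ (norm_nonneg _) (by positivity) two_ne_zero).1 ?_
  rw [mul_pow, h1, h2]
  nlinarith

theorem eq_one_of_im (z : S3) (h : ‖(z : ℍ) - 1‖ ≤ 1) (h0 : (z : ℍ).im = 0) : z = 1 := by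
  have := le_two_im z h
  rw [h0, norm_zero, mul_zero] at this
  exact Subtype.ext (by simpa using sub_eq_zero.1 (norm_le_zero_iff.1 this))

theorem norm_sub_one_sub_im (z : S3) :
    ‖((z : ℍ) - 1) - (z : ℍ).im‖ = ‖(z : ℍ) - 1‖ ^ 2 / 2 := by
  have h1 := norm_sub_one_sq z
  have h4 : 0 ≤ ‖(z : ℍ) - 1‖ ^ 2 := by positivity
  have : ((z : ℍ) - 1) - (z : ℍ).im = (((z : ℍ).re - 1 : ℝ) : ℍ) := by
    ext <;> simp
  rw [this, Quaternion.norm_coe, Real.norm_eq_abs, abs_of_nonpos (by linarith)]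
  linarith

/-- the imaginary part as a linear map -/
noncomputable def imL : ℍ →ₗ[ℝ] ℍ where
  toFun z := z.im
  map_add' a b := by simp
  map_smul' a b := by simp

theorem contDiff_im : ContDiff ℝ 1 (fun z : ℍ => z.im) :=
  (LinearMap.toContinuousLinearMap imL).contDiff

noncomputable def lin (r : ℝ) (z : ℍ) : ℍ := (r - 1) • (1 : ℍ) + z.im

theorem lin_re (r : ℝ) (z : ℍ) : (lin r z).re = r - 1 := by simp [lin]

theorem lin_im (r : ℝ) (z : ℍ) : (lin r z).im = z.im := by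
  ext <;> simp [lin]

theorem seg_lin {r t : ℝ} (hr : 0 < r) (ht : t ∈ Icc (0 : ℝ) 1) (z : S3)
    (hz : ‖(z : ℍ) - 1‖ ≤ 1) (h : (1 - t) • (r • (z : ℍ) - 1) + t • lin r z = 0) :
    r = 1 ∧ z = 1 := by
  have h1 := congrArg Quaternion.im h
  have h2 : ((1 - t) * r + t) • (z : ℍ).im = 0 := by
    have h0 : (0 : ℍ).im = 0 := rfl
    rw [Quaternion.im_add, Quaternion.im_smul, Quaternion.im_smul, lin_im, Quaternion.im_sub,
      Quaternion.im_smul, Quaternion.im_one, sub_zero, h0] at h1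
    rw [add_smul, mul_smul]
    exact h1
  have hpos : 0 < (1 - t) * r + t := by
    rcases eq_or_lt_of_le ht.1 with h0 | h0
    · rw [← h0]; simpa using hr
    · have : 0 ≤ (1 - t) * r := mul_nonneg (by linarith [ht.2]) hr.le
      linarith
  have h3 : z = 1 := eq_one_of_im z hz ((smul_eq_zero.1 h2).resolve_left hpos.ne')
  refine ⟨?_, h3⟩
  subst h3
  have h4 := congrArg QuaternionAlgebra.re h
  simp [lin] at h4
  linarith

section mix

variable {J : Type*}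

/-- real part plus `T` of the imaginary part -/
noncomputable def mix (T : (J → ℍ) →ₗ[ℝ] (J → ℍ)) : (J → ℍ) →ₗ[ℝ] (J → ℍ) where
  toFun Y := fun j => (Y j).re • (1 : ℍ) + T (fun j' => (Y j').im) j
  map_add' a b := by
    funext j
    have : (fun j' => ((a + b) j').im) = (fun j' => (a j').im) + fun j' => (b j').im := by
      funext j'
      simp
    rw [this, map_add]
    simp only [Pi.add_apply, Quaternion.re_add, add_smul]
    abel
  map_smul' a b := by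
    funext j
    have : (fun j' => ((a • b) j').im) = a • fun j' => (b j').im := by
      funext j'
      simp
    rw [this, map_smul]
    simp only [Pi.smul_apply, Quaternion.re_smul, RingHom.id_apply, smul_add, smul_eq_mul,
      mul_smul]

theorem mix_apply (T : (J → ℍ) →ₗ[ℝ] (J → ℍ)) (Y : J → ℍ) (j : J) :
    mix T Y j = (Y j).re • (1 : ℍ) + T (fun j' => (Y j').im) j := rfl

theorem mix_eq_zero {T : (J → ℍ) →ₗ[ℝ] (J → ℍ)} (hT : Function.Injective T)
    (hTre : ∀ y : J → ℍ, (∀ j, (y j).re = 0) → ∀ j, (T y j).re = 0) {Y : J → ℍ}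
    (h : mix T Y = 0) : Y = 0 := by
  have hre : ∀ j, (Y j).re = 0 := fun j => by
    have h1 := congrArg QuaternionAlgebra.re (congrFun h j)
    have h2 := hTre (fun j' => (Y j').im) (fun _ => rfl) j
    rw [mix_apply] at h1
    simpa [h2] using h1
  have him : T (fun j' => (Y j').im) = 0 := by
    funext j
    have h1 := congrFun h j
    rw [mix_apply, hre, zero_smul, zero_add] at h1
    exact h1
  have him' : (fun j' => (Y j').im) = 0 := hT (by rw [him, map_zero])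
  funext j
  have h3 := congrFun him' j
  rw [← Quaternion.re_add_im (Y j), hre, h3]
  simp

end mix

section glue

variable {ι Φ J : Type*} [Fintype ι]

noncomputable def glue (e : Φ ⊕ J ≃ ι) (w : Φ → FreeGroup ι) (x : ι → ℍ) (g : J → ℍ) : ι → ℍ :=
  fun i => Sum.elim (fun φ => ‖x (e (Sum.inl φ))‖ • (wordMap (w φ) x : ℍ) - 1) g (e.symm i)

omit [Fintype ι] in
theorem glue_seg (e : Φ ⊕ J ≃ ι) (w : Φ → FreeGroup ι) (x : ι → ℍ) (g g' : J → ℍ) (t : ℝ) :
    (1 - t) • glue e w x g + t • glue e w x g' = glue e w x ((1 - t) • g + t • g') := by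
  funext i
  obtain ⟨i, rfl⟩ := e.surjective i
  rcases i with φ | j
  · simp only [glue, Pi.add_apply, Pi.smul_apply, Equiv.symm_apply_apply, Sum.elim_inl]
    rw [← add_smul, sub_add_cancel, one_smul]
  · simp [glue]

omit [Fintype ι] in
theorem glue_eq_zero {e : Φ ⊕ J ≃ ι} {w : Φ → FreeGroup ι} {x : ι → ℍ} {g : J → ℍ}
    (h : glue e w x g = 0) :
    (∀ φ, ‖x (e (Sum.inl φ))‖ = 1 ∧ wordMap (w φ) x = 1) ∧ g = 0 := by
  refine ⟨fun φ => smul_sub_one (norm_nonneg _) _ ?_, ?_⟩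
  · simpa [glue] using congrFun h (e (Sum.inl φ))
  · funext j
    simpa [glue] using congrFun h (e (Sum.inr j))

theorem contDiffOn_norm_coord (i : ι) : ContDiffOn ℝ 1 (fun x : ι → ℍ => ‖x i‖) (Off ι) :=
  fun x hx => (((contDiffAt_norm ℝ (hx i)).comp x
    (contDiff_apply ℝ ℍ i).contDiffAt)).contDiffWithinAt

theorem contDiffOn_rad (i : ι) (u : FreeGroup ι) (z : ℍ) :
    ContDiffOn ℝ 1 (fun x : ι → ℍ => ‖x i‖ • ((wordMap u x : ℍ) * z) - 1) (Off ι) :=
  ((contDiffOn_norm_coord i).smul ((sphMap_wordMap u).1.mul contDiffOn_const)).sub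
    contDiffOn_const

theorem contDiffOn_rad' (i : ι) (u : FreeGroup ι) :
    ContDiffOn ℝ 1 (fun x : ι → ℍ => ‖x i‖ • (wordMap u x : ℍ) - 1) (Off ι) :=
  ((contDiffOn_norm_coord i).smul (sphMap_wordMap u).1).sub contDiffOn_const

theorem contDiffOn_lin (i : ι) (u : FreeGroup ι) :
    ContDiffOn ℝ 1 (fun x : ι → ℍ => lin ‖x i‖ (wordMap u x : ℍ)) (Off ι) :=
  (((contDiffOn_norm_coord i).sub contDiffOn_const).smul contDiffOn_const).add
    (contDiff_im.comp_contDiffOn (sphMap_wordMap u).1)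

theorem contDiffOn_glue [Fintype J] (e : Φ ⊕ J ≃ ι) (w : Φ → FreeGroup ι)
    {g : (ι → ℍ) → J → ℍ} (hg : ContDiffOn ℝ 1 g (Off ι)) :
    ContDiffOn ℝ 1 (fun x => glue e w x (g x)) (Off ι) := by
  refine contDiffOn_pi.2 fun i => ?_
  obtain ⟨i, rfl⟩ := e.surjective i
  rcases i with φ | j
  · simpa [glue] using contDiffOn_rad' (e (Sum.inl φ)) (w φ)
  · simpa [glue] using contDiffOn_pi.1 hg j

theorem continuousOn_glue (e : Φ ⊕ J ≃ ι) (w : Φ → FreeGroup ι) {s : Set (ℝ × (ι → ℍ))}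
    (hs : ∀ p ∈ s, p.2 ∈ Off ι) {g : ℝ × (ι → ℍ) → J → ℍ} (hg : ContinuousOn g s) :
    ContinuousOn (fun p : ℝ × (ι → ℍ) => glue e w p.2 (g p)) s := by
  refine continuousOn_pi.2 fun i => ?_
  obtain ⟨i, rfl⟩ := e.surjective i
  rcases i with φ | j
  · simpa [glue, Function.comp_def] using
      (contDiffOn_rad' (e (Sum.inl φ)) (w φ)).continuousOn.comp continuousOn_snd hs
  · simpa [glue] using continuousOn_pi.1 hg j

def U (c : J → FreeGroup ι) (η : ℝ) : Set (ι → ℍ) :=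
  {x | x ∈ Shell ι ∧ ∀ j, ‖(wordMap (c j) x : ℍ) - 1‖ < η}

omit [Fintype ι] in
theorem U_subset (c : J → FreeGroup ι) (η : ℝ) : U c η ⊆ Shell ι := fun _ hx => hx.1

omit [Fintype ι] in
theorem U_mono (c : J → FreeGroup ι) {η η' : ℝ} (h : η ≤ η') : U c η ⊆ U c η' :=
  fun _ hx => ⟨hx.1, fun j => (hx.2 j).trans_le h⟩

theorem shell_subset_off : Shell ι ⊆ Off ι := subset_closure.trans closure_shell_subset_off

theorem closure_U_off (c : J → FreeGroup ι) (η : ℝ) : closure (U c η) ⊆ Off ι :=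
  (closure_mono (U_subset c η)).trans closure_shell_subset_off

theorem continuousOn_dist (u : FreeGroup ι) :
    ContinuousOn (fun x : ι → ℍ => ‖(wordMap u x : ℍ) - 1‖) (Off ι) :=
  ((sphMap_wordMap u).1.continuousOn.sub continuousOn_const).norm

theorem isOpen_U [Finite J] (c : J → FreeGroup ι) (η : ℝ) : IsOpen (U c η) := by
  have : U c η = Shell ι ∩ ⋂ j, (Shell ι ∩
      (fun x : ι → ℍ => ‖(wordMap (c j) x : ℍ) - 1‖) ⁻¹' Iio η) := by
    ext x
    simp only [U, mem_ofPred_eq, mem_inter_iff, mem_iInter, mem_preimage, mem_Iio]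
    exact ⟨fun h => ⟨h.1, fun j => ⟨h.1, h.2 j⟩⟩, fun h => ⟨h.1, fun j => (h.2 j).2⟩⟩
  rw [this]
  exact isOpen_shell.inter (isOpen_iInter_of_finite fun j =>
    ((continuousOn_dist (c j)).mono shell_subset_off).isOpen_inter_preimage isOpen_shell
      isOpen_Iio)

theorem isBounded_U (c : J → FreeGroup ι) (η : ℝ) : Bornology.IsBounded (U c η) :=
  isBounded_shell.subset (U_subset c η)

theorem closure_U_le (c : J → FreeGroup ι) (η : ℝ) {x : ι → ℍ} (hx : x ∈ closure (U c η))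
    (j : J) : ‖(wordMap (c j) x : ℍ) - 1‖ ≤ η :=
  le_on_closure (f := fun x : ι → ℍ => ‖(wordMap (c j) x : ℍ) - 1‖) (g := fun _ => η)
    (fun _ hy => (hy.2 j).le) ((continuousOn_dist (c j)).mono (closure_U_off c η))
    continuousOn_const hx

omit [Fintype ι] in
theorem mem_U (e : Φ ⊕ J ≃ ι) (c : J → FreeGroup ι) {η : ℝ} {x : ι → ℍ}
    (h1 : ∀ φ, ‖x (e (Sum.inl φ))‖ = 1) (h2 : ∀ j, ‖x (e (Sum.inr j))‖ = 1)
    (h3 : ∀ j, ‖(wordMap (c j) x : ℍ) - 1‖ < η) : x ∈ U c η := by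
  refine ⟨fun i => ?_, h3⟩
  obtain ⟨i, rfl⟩ := e.surjective i
  rcases i with φ | j
  · rw [h1]; norm_num
  · rw [h2]; norm_num

theorem deg_seg [Fintype J] (D : Degree (ι → ℍ)) (e : Φ ⊕ J ≃ ι) (w : Φ → FreeGroup ι)
    (c : J → FreeGroup ι) {η : ℝ} (hη : 0 < η) {g g' : (ι → ℍ) → J → ℍ}
    (hg : ContDiffOn ℝ 1 g (Off ι)) (hg' : ContDiffOn ℝ 1 g' (Off ι))
    (hz : ∀ t ∈ Icc (0 : ℝ) 1, ∀ x ∈ Off ι, (∀ φ, wordMap (w φ) x = 1) →
      (∀ j, ‖(wordMap (c j) x : ℍ) - 1‖ ≤ η) → (1 - t) • g x + t • g' x = 0 →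
      ∀ j, ‖x (e (Sum.inr j))‖ = 1 ∧ wordMap (c j) x = 1) :
    D.deg (U c η) (fun x => glue e w x (g x)) = D.deg (U c η) (fun x => glue e w x (g' x)) := by
  have hU : U c η ⊆ Off ι := subset_closure.trans (closure_U_off c η)
  refine D.segment (isOpen_U c η) (isBounded_U c η) ((contDiffOn_glue e w hg).mono hU)
    ((contDiffOn_glue e w hg).continuousOn.mono (closure_U_off c η))
    ((contDiffOn_glue e w hg').mono hU)
    ((contDiffOn_glue e w hg').continuousOn.mono (closure_U_off c η)) fun t ht x hx h0 => ?_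
  rw [(isOpen_U c η).frontier_eq] at hx
  rw [glue_seg] at h0
  obtain ⟨h1, h2⟩ := glue_eq_zero h0
  have h3 := hz t ht x (closure_U_off c η hx.1) (fun φ => (h1 φ).2) (closure_U_le c η hx.1) h2
  exact hx.2 (mem_U e c (fun φ => (h1 φ).1) (fun j => (h3 j).1) fun j => by
    simpa [(h3 j).2] using hη)

end glue

/-- the estimate for the segment `f2 → f3` -/
theorem seg_est {J : Type*} [Fintype J] (T : (J → ℍ) →ₗ[ℝ] (J → ℍ)) {C K η₀ : ℝ} (hC : 0 ≤ C)
    (hK0 : 0 ≤ K) (hK : ∀ y, ‖T y‖ ≤ K * ‖y‖) (hη1 : η₀ ≤ 1)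
    (hη₀ : 2 * (C + K * C ^ 2 + 1) * η₀ < 1) (a b : J → S3)
    (ha : ∀ j, ‖(a j : ℍ) - 1‖ ≤ η₀)
    (hab : ∀ η : ℝ, 0 ≤ η → η ≤ 1 → (∀ j, ‖(a j : ℍ) - 1‖ ≤ η) → ∀ j,
      ‖(b j : ℍ) - 1‖ ≤ C * η ∧ ‖T (fun j' => (b j' : ℍ) - 1) j - ((a j : ℍ) - 1)‖ ≤ C * η ^ 2)
    {t : ℝ} (ht : t ∈ Icc (0 : ℝ) 1)
    (h : ∀ j, (1 - t) • (a j : ℍ).im + t • T (fun j' => (b j' : ℍ).im) j = 0) (j : J) :
    a j = 1 := by
  set η := ‖fun j => (a j : ℍ) - 1‖ with hηdef
  have hη0 : 0 ≤ η := norm_nonneg _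
  have hη00 : 0 ≤ η₀ := (norm_nonneg _).trans (ha j)
  have hle : ∀ j, ‖(a j : ℍ) - 1‖ ≤ η := fun j => norm_le_pi_norm (fun j => (a j : ℍ) - 1) j
  have hηη : η ≤ η₀ := (pi_norm_le_iff_of_nonneg hη00).2 ha
  have hab' := hab η hη0 (hηη.trans hη1) hle
  have hb : ‖fun j' => ((b j' : ℍ) - 1) - (b j' : ℍ).im‖ ≤ C ^ 2 * η ^ 2 := by
    refine (pi_norm_le_iff_of_nonneg (by positivity)).2 fun j' => ?_
    rw [norm_sub_one_sub_im]
    have h1 : ‖(b j' : ℍ) - 1‖ ^ 2 ≤ (C * η) ^ 2 :=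
      pow_le_pow_left₀ (norm_nonneg _) (hab' j').1 2
    have h2 : 0 ≤ ‖(b j' : ℍ) - 1‖ ^ 2 := by positivity
    rw [mul_pow] at h1
    linarith
  have key : ∀ j, ‖(a j : ℍ) - 1‖ ≤ 2 * ((C + K * C ^ 2 + 1) * η ^ 2) := fun j => by
    have h1 : ‖T (fun j' => ((b j' : ℍ) - 1) - (b j' : ℍ).im) j‖ ≤ K * (C ^ 2 * η ^ 2) :=
      (norm_le_pi_norm _ j).trans ((hK _).trans (mul_le_mul_of_nonneg_left hb hK0))
    have h2 : ‖((a j : ℍ) - 1) - (a j : ℍ).im‖ ≤ η ^ 2 := by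
      rw [norm_sub_one_sub_im]
      have h1 : ‖(a j : ℍ) - 1‖ ^ 2 ≤ η ^ 2 := pow_le_pow_left₀ (norm_nonneg _) (hle j) 2
      have h2 : 0 ≤ ‖(a j : ℍ) - 1‖ ^ 2 := by positivity
      linarith
    have h3 : T (fun j' => ((b j' : ℍ) - 1) - (b j' : ℍ).im) j =
        T (fun j' => (b j' : ℍ) - 1) j - T (fun j' => (b j' : ℍ).im) j := by
      rw [← Pi.sub_apply, ← map_sub]
      rfl
    have h4 : (a j : ℍ).im - T (fun j' => (b j' : ℍ).im) j =
        T (fun j' => ((b j' : ℍ) - 1) - (b j' : ℍ).im) j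
          - (T (fun j' => (b j' : ℍ) - 1) j - ((a j : ℍ) - 1))
          - (((a j : ℍ) - 1) - (a j : ℍ).im) := by
      rw [h3]
      abel
    have h5 : ‖(a j : ℍ).im - T (fun j' => (b j' : ℍ).im) j‖ ≤ (C + K * C ^ 2 + 1) * η ^ 2 := by
      rw [h4]
      refine (norm_sub_le _ _).trans ?_
      have := norm_sub_le (T (fun j' => ((b j' : ℍ) - 1) - (b j' : ℍ).im) j)
        (T (fun j' => (b j' : ℍ) - 1) j - ((a j : ℍ) - 1))
      have := (hab' j).2
      nlinarith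
    have h6 : (a j : ℍ).im = t • ((a j : ℍ).im - T (fun j' => (b j' : ℍ).im) j) := by
      have := h j
      rw [sub_smul, one_smul] at this
      rw [smul_sub, ← sub_eq_zero]
      refine Eq.trans ?_ this
      abel
    have h7 : ‖(a j : ℍ).im‖ ≤ (C + K * C ^ 2 + 1) * η ^ 2 := by
      rw [h6, norm_smul, Real.norm_of_nonneg ht.1]
      exact (mul_le_of_le_one_left (norm_nonneg _) ht.2).trans h5
    have := le_two_im (a j) ((ha j).trans hη1)
    linarith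
  have h8 : η ≤ 2 * ((C + K * C ^ 2 + 1) * η ^ 2) :=
    (pi_norm_le_iff_of_nonneg (by positivity)).2 key
  have h9 : η ≤ 0 := by
    by_contra hpos
    push Not at hpos
    have h10 : 2 * (C + K * C ^ 2 + 1) * η ≤ 2 * (C + K * C ^ 2 + 1) * η₀ :=
      mul_le_mul_of_nonneg_left hηη (by positivity)
    nlinarith
  exact Subtype.ext (by simpa using sub_eq_zero.1 (norm_le_zero_iff.1 ((hle j).trans h9)))

end Cont

open Cont in
theorem continuation_sq {ι Φ J : Type*} [Fintype ι] [DecidableEq ι] [Fintype J] (e : Φ ⊕ J ≃ ι)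
    (w : Φ → FreeGroup ι) (c q : J → FreeGroup ι)
    (hdet : (Matrix.of fun i j => expo (Pi.single j (1 : ℝ)) (Sum.elim w c (e.symm i))).det ≠ 0)
    (T : (J → ℍ) →ₗ[ℝ] (J → ℍ)) (hT : Function.Injective T)
    (hTre : ∀ y : J → ℍ, (∀ j, (y j).re = 0) → ∀ j, (T y j).re = 0)
    (P : ℝ → J → S3) (hP : Continuous P) (hP0 : P 0 = 1) {δ : ℝ} (hδ : 0 < δ)
    (ha : ∃ C : ℝ, ∀ (A : ι → S3) (η : ℝ), 0 ≤ η → η ≤ 1 → (∀ i, FreeGroup.lift A (w i) = 1) →
      (∀ j, ‖((FreeGroup.lift A (c j) : S3) : ℍ) - 1‖ ≤ η) → ∀ j,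
        ‖((FreeGroup.lift A (q j) : S3) : ℍ) - 1‖ ≤ C * η ∧
        ‖T (fun j' => ((FreeGroup.lift A (q j') : S3) : ℍ) - 1) j
          - (((FreeGroup.lift A (c j) : S3) : ℍ) - 1)‖ ≤ C * η ^ 2)
    (hb : ∀ s ∈ Icc (0 : ℝ) 1, ∀ A : ι → S3, (∀ i, FreeGroup.lift A (w i) = 1) →
      (∀ j, ‖((FreeGroup.lift A (c j) : S3) : ℍ) - 1‖ ≤ δ) → (∀ j, FreeGroup.lift A (q j) = P s j) →
      ∀ j, ‖((FreeGroup.lift A (c j) : S3) : ℍ) - 1‖ < δ)
    (hb0 : ∀ A : ι → S3, (∀ i, FreeGroup.lift A (w i) = 1) →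
      (∀ j, ‖((FreeGroup.lift A (c j) : S3) : ℍ) - 1‖ ≤ δ) → (∀ j, FreeGroup.lift A (q j) = 1) →
      ∀ j, FreeGroup.lift A (c j) = 1) :
    ∃ A : ι → S3, (∀ i, FreeGroup.lift A (w i) = 1) ∧
      (∀ j, ‖((FreeGroup.lift A (c j) : S3) : ℍ) - 1‖ ≤ δ) ∧ ∀ j, FreeGroup.lift A (q j) = P 1 j := by
  obtain ⟨D⟩ := exists_degree (ι → ℍ)
  obtain ⟨C₀, ha⟩ := ha
  set C := max C₀ 0 with hCdef
  have hC : 0 ≤ C := le_max_right _ _
  have hC₀ : C₀ ≤ C := le_max_left _ _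
  set K := ‖LinearMap.toContinuousLinearMap T‖ with hKdef
  have hK0 : 0 ≤ K := (LinearMap.toContinuousLinearMap T).opNorm_nonneg
  have hK : ∀ y, ‖T y‖ ≤ K * ‖y‖ := fun y => (LinearMap.toContinuousLinearMap T).le_opNorm y
  set L := C + K * C ^ 2 + 1 with hL
  have hL1 : 1 ≤ L := by
    have : 0 ≤ K * C ^ 2 := by positivity
    linarith
  have hCL : C ≤ L := by
    have : 0 ≤ K * C ^ 2 := by positivity
    linarith
  set η₀ := min δ (1 / (4 * L)) with hη₀def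
  have hη₀ : 0 < η₀ := lt_min hδ (by positivity)
  have hη₀δ : η₀ ≤ δ := min_le_left _ _
  have hη₀L : L * η₀ ≤ 1 / 4 := by
    have h1 : η₀ ≤ 1 / (4 * L) := min_le_right _ _
    rw [le_div_iff₀ (by positivity)] at h1
    linarith
  have hη₀1 : η₀ ≤ 1 := by nlinarith
  have ha' : ∀ x : ι → ℍ, (∀ φ, wordMap (w φ) x = 1) → ∀ η : ℝ, 0 ≤ η → η ≤ 1 →
      (∀ j, ‖(wordMap (c j) x : ℍ) - 1‖ ≤ η) → ∀ j,
      ‖(wordMap (q j) x : ℍ) - 1‖ ≤ C * η ∧
        ‖T (fun j' => (wordMap (q j') x : ℍ) - 1) j - ((wordMap (c j) x : ℍ) - 1)‖ ≤ C * η ^ 2 :=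
    fun x hx η h0 h1 h2 j => by
      have := ha (fun i => nrm (x i)) η h0 h1 hx h2 j
      exact ⟨this.1.trans (mul_le_mul_of_nonneg_right hC₀ h0),
        this.2.trans (mul_le_mul_of_nonneg_right hC₀ (by positivity))⟩
  let M := LinearMap.toContinuousLinearMap (mix T)
  let g1 : (ι → ℍ) → J → ℍ := fun x j => ‖x (e (Sum.inr j))‖ • (wordMap (c j) x : ℍ) - 1
  let g2 : (ι → ℍ) → J → ℍ := fun x j => lin ‖x (e (Sum.inr j))‖ (wordMap (c j) x : ℍ)
  let y3 : (ι → ℍ) → J → ℍ := fun x j => lin ‖x (e (Sum.inr j))‖ (wordMap (q j) x : ℍ)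
  let Y : ℝ → (ι → ℍ) → J → ℍ := fun s x j =>
    ‖x (e (Sum.inr j))‖ • ((wordMap (q j) x : ℍ) * (((P s j)⁻¹ : S3) : ℍ)) - 1
  have hg1 : ContDiffOn ℝ 1 g1 (Off ι) := contDiffOn_pi.2 fun j => contDiffOn_rad' _ _
  have hg2 : ContDiffOn ℝ 1 g2 (Off ι) := contDiffOn_pi.2 fun j => contDiffOn_lin _ _
  have hy3 : ContDiffOn ℝ 1 y3 (Off ι) := contDiffOn_pi.2 fun j => contDiffOn_lin _ _
  have hY : ∀ s, ContDiffOn ℝ 1 (Y s) (Off ι) := fun s =>
    contDiffOn_pi.2 fun j => contDiffOn_rad _ _ _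
  have hg3 : ContDiffOn ℝ 1 (fun x => mix T (y3 x)) (Off ι) := M.contDiff.comp_contDiffOn hy3
  have hg4 : ∀ s, ContDiffOn ℝ 1 (fun x => mix T (Y s x)) (Off ι) := fun s =>
    M.contDiff.comp_contDiffOn (hY s)
  have hUoff : ∀ η, U c η ⊆ Off ι := fun η => subset_closure.trans (closure_U_off c η)
  have hrpos : ∀ x ∈ Off ι, ∀ j, 0 < ‖x (e (Sum.inr j))‖ := fun x hx j => norm_pos_iff.2 (hx _)
  -- zeros of the last family
  have hz4 : ∀ s x, glue e w x (mix T (Y s x)) = 0 →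
      (∀ φ, ‖x (e (Sum.inl φ))‖ = 1 ∧ wordMap (w φ) x = 1) ∧
        ∀ j, ‖x (e (Sum.inr j))‖ = 1 ∧ wordMap (q j) x = P s j := fun s x h => by
    obtain ⟨h1, h2⟩ := glue_eq_zero h
    refine ⟨h1, fun j => ?_⟩
    have h3 := congrFun (mix_eq_zero hT hTre h2) j
    have h4 := smul_sub_one (norm_nonneg (x (e (Sum.inr j)))) (wordMap (q j) x * (P s j)⁻¹)
      (by simpa [Y] using h3)
    exact ⟨h4.1, mul_inv_eq_one.1 h4.2⟩
  -- step 0
  have h0 : D.deg (Shell ι) (fun x => glue e w x (g1 x)) ≠ 0 := by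
    have := word_deg D (fun i => Sum.elim w c (e.symm i)) hdet
    convert this using 2
    funext x i
    obtain ⟨i, rfl⟩ := e.surjective i
    rcases i with φ | j <;> simp [glue, thick, g1]
  -- step 1
  have h1 : D.deg (Shell ι) (fun x => glue e w x (g1 x)) =
      D.deg (U c η₀) (fun x => glue e w x (g1 x)) := by
    refine D.excise isOpen_shell isBounded_shell (isOpen_U c η₀) (U_subset c η₀)
      ((contDiffOn_glue e w hg1).mono shell_subset_off)
      ((contDiffOn_glue e w hg1).continuousOn.mono closure_shell_subset_off) fun x _ h => ?_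
    obtain ⟨h1, h2⟩ := glue_eq_zero h
    have h3 := fun j => smul_sub_one (norm_nonneg (x (e (Sum.inr j)))) (wordMap (c j) x)
      (congrFun h2 j)
    exact mem_U e c (fun φ => (h1 φ).1) (fun j => (h3 j).1) fun j => by
      simpa [(h3 j).2] using hη₀
  -- step 2
  have h2 : D.deg (U c η₀) (fun x => glue e w x (g1 x)) =
      D.deg (U c η₀) (fun x => glue e w x (g2 x)) :=
    deg_seg D e w c hη₀ hg1 hg2 fun t ht x hx _ hc h j =>
      seg_lin (hrpos x hx j) ht _ ((hc j).trans hη₀1) (congrFun h j)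
  have h3 : D.deg (U c η₀) (fun x => glue e w x (g2 x)) =
      D.deg (U c η₀) (fun x => glue e w x (mix T (y3 x))) := by
    refine deg_seg D e w c hη₀ hg2 hg3 fun t ht x _ hw hc h j => ?_
    have hy : (fun j' => (y3 x j').im) = fun j' => (wordMap (q j') x : ℍ).im := by
      funext j'
      exact lin_im _ _
    have hre := hTre (fun j' => (wordMap (q j') x : ℍ).im) (fun _ => rfl)
    have hr : ∀ j, ‖x (e (Sum.inr j))‖ = 1 := fun j => by
      have h1 := congrArg QuaternionAlgebra.re (congrFun h j)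
      simp only [Pi.add_apply, Pi.smul_apply, mix_apply, hy] at h1
      simp [g2, y3, lin_re, hre] at h1
      linarith
    refine ⟨hr j, seg_est T hC hK0 hK hη₀1 (by rw [← hL]; linarith) (fun j => wordMap (c j) x)
      (fun j => wordMap (q j) x) hc (ha' x hw) ht (fun j => ?_) j⟩
    have h1 := congrFun h j
    simp only [Pi.add_apply, Pi.smul_apply, mix_apply, hy] at h1
    simpa [g2, y3, lin, hr] using h1
  have h4 : D.deg (U c η₀) (fun x => glue e w x (mix T (y3 x))) =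
      D.deg (U c η₀) (fun x => glue e w x (mix T (Y 0 x))) := by
    refine deg_seg D e w c hη₀ hg3 (hg4 0) fun t ht x hx hw hc h => ?_
    rw [← map_smul, ← map_smul, ← map_add] at h
    have h1 := mix_eq_zero hT hTre h
    have h2 : ∀ j, ‖x (e (Sum.inr j))‖ = 1 ∧ wordMap (q j) x = 1 := fun j => by
      refine seg_lin (t := 1 - t) (hrpos x hx j) ⟨by linarith [ht.2], by linarith [ht.1]⟩ _
        ((ha' x hw η₀ hη₀.le hη₀1 hc j).1.trans (by nlinarith)) ?_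
      have h3 := congrFun h1 j
      rw [add_comm, sub_sub_cancel]
      simpa [y3, Y, hP0] using h3
    exact fun j => ⟨(h2 j).1, hb0 _ hw (fun j => (hc j).trans hη₀δ) (fun j => (h2 j).2) j⟩
  -- step 3
  have h5 : D.deg (U c δ) (fun x => glue e w x (mix T (Y 0 x))) =
      D.deg (U c η₀) (fun x => glue e w x (mix T (Y 0 x))) := by
    refine D.excise (isOpen_U c δ) (isBounded_U c δ) (isOpen_U c η₀) (U_mono c hη₀δ)
      ((contDiffOn_glue e w (hg4 0)).mono (hUoff δ))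
      ((contDiffOn_glue e w (hg4 0)).continuousOn.mono (closure_U_off c δ)) fun x hx h => ?_
    obtain ⟨h1, h2⟩ := hz4 0 x h
    have h3 := hb0 _ (fun φ => (h1 φ).2) (closure_U_le c δ hx)
      (fun j => (h2 j).2.trans (by rw [hP0]; rfl))
    refine mem_U e c (fun φ => (h1 φ).1) (fun j => (h2 j).1) fun j => ?_
    have h4 : wordMap (c j) x = 1 := h3 j
    simpa [h4] using hη₀
  have h6 : D.deg (U c δ) (fun x => glue e w x (mix T (Y 0 x))) =
      D.deg (U c δ) (fun x => glue e w x (mix T (Y 1 x))) := by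
    refine D.htpy (U c δ) (fun s x => glue e w x (mix T (Y s x))) (isOpen_U c δ)
      (isBounded_U c δ) ?_ (fun s _ => (contDiffOn_glue e w (hg4 s)).mono (hUoff δ))
      fun s hs x hx h => ?_
    · have hs : ∀ p ∈ Icc (0 : ℝ) 1 ×ˢ closure (U c δ), p.2 ∈ Off ι := fun p hp =>
        closure_U_off c δ hp.2
      refine continuousOn_glue e w hs (g := fun p => mix T (Y p.1 p.2))
        (M.continuous.comp_continuousOn (continuousOn_pi.2 fun j => ?_))
      refine ContinuousOn.sub (ContinuousOn.smul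
        ((contDiffOn_norm_coord (e (Sum.inr j))).continuousOn.comp continuousOn_snd hs)
        (ContinuousOn.mul ((sphMap_wordMap (q j)).1.continuousOn.comp continuousOn_snd hs) ?_))
        continuousOn_const
      exact (continuous_subtype_val.comp
        (((continuous_apply j).comp (hP.comp continuous_fst)).inv)).continuousOn
    · rw [(isOpen_U c δ).frontier_eq] at hx
      obtain ⟨h1, h2⟩ := hz4 s x h
      exact hx.2 (mem_U e c (fun φ => (h1 φ).1) (fun j => (h2 j).1)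
        (hb s hs _ (fun φ => (h1 φ).2) (closure_U_le c δ hx.1) fun j => (h2 j).2))
  obtain ⟨x, hx, h⟩ := D.exists_zero (isOpen_U c δ) (isBounded_U c δ)
    ((contDiffOn_glue e w (hg4 1)).mono (hUoff δ))
    ((contDiffOn_glue e w (hg4 1)).continuousOn.mono (closure_U_off c δ))
    (by rw [← h6, h5, ← h4, ← h3, ← h2, ← h1]; exact h0)
  obtain ⟨h7, h8⟩ := hz4 1 x h
  exact ⟨fun i => nrm (x i), fun φ => (h7 φ).2, closure_U_le c δ hx, fun j => (h8 j).2⟩

end Vale.Agent.P173
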