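import Vale.Agent.P173.CoreB

/-!
P173 Core, part C: the linearisation of the chord equations.
-/

namespace Vale.Agent.P173

open scoped Quaternion

variable {V T : Type} [LinearOrder V] [Fintype T] [DecidableEq T] (K : Cplx V T)

theorem elim_eq_sum {W : Type*} [AddCommGroup W] (o : Option T) (f : T → W) :
    o.elim 0 f = ∑ τ, (if o = some τ then (1 : ℤ) else 0) • f τ := by
  cases o with
  | none => simp
  | some σ => simp [ite_smul]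

theorem Cplx.acyclic {W : Type*} [AddCommGroup W] (y : T → W)
    (h : ∀ σ, (K.idx (K.u σ) (K.v σ)).elim 0 y + (K.idx (K.v σ) (K.w σ)).elim 0 y -
      (K.idx (K.u σ) (K.w σ)).elim 0 y = 0) : y = 0 := by
  set B : Matrix T T ℤ := Matrix.of fun σ τ => (if K.idx (K.u σ) (K.v σ) = some τ then (1 : ℤ) else 0)
    + (if K.idx (K.v σ) (K.w σ) = some τ then (1 : ℤ) else 0)
    - (if K.idx (K.u σ) (K.w σ) = some τ then (1 : ℤ) else 0) with hB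
  have key : ∀ {W' : Type _} [AddCommGroup W'] (f : T → W') (σ : T), ∑ τ, B σ τ • f τ =
      (K.idx (K.u σ) (K.v σ)).elim 0 f + (K.idx (K.v σ) (K.w σ)).elim 0 f -
        (K.idx (K.u σ) (K.w σ)).elim 0 f := fun f σ => by
    simp only [elim_eq_sum, hB, Matrix.of_apply, sub_smul, add_smul, Finset.sum_sub_distrib,
      Finset.sum_add_distrib]
  have h1 : B * Matrix.of K.N = 1 := by
    ext σ σ'
    rw [Matrix.mul_apply, Matrix.one_apply, ← K.BN σ σ']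
    simp only [elim_eq_sum, hB, Matrix.of_apply, sub_mul, add_mul, Finset.sum_sub_distrib,
      Finset.sum_add_distrib, smul_eq_mul]
  have h2 : Matrix.of K.N * B = 1 := mul_eq_one_comm.1 h1
  funext τ'
  have h3 : ∑ σ, K.N τ' σ • ∑ τ, B σ τ • y τ = 0 :=
    Finset.sum_eq_zero fun σ _ => by rw [key, h, smul_zero]
  simp only [Finset.smul_sum, smul_smul] at h3
  rw [Finset.sum_comm] at h3
  simp only [← Finset.sum_smul] at h3
  have h4 : ∀ τ, ∑ σ, K.N τ' σ * B σ τ = if τ' = τ then 1 else 0 := fun τ => by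
    have := congrFun (congrFun h2 τ') τ
    rwa [Matrix.mul_apply, Matrix.one_apply] at this
  simpa [h4, ite_smul] using h3

variable {M : ℕ} (hM : 0 < M)

noncomputable def ev0 (a b : V) : (T × Fin M → ℍ) →ₗ[ℝ] ℍ :=
  (K.idx a b).elim 0 fun σ => LinearMap.proj (σ, ⟨0, hM⟩)

theorem ev0_apply (a b : V) (y : T × Fin M → ℍ) :
    ev0 K hM a b y = (K.idx a b).elim 0 fun σ => y (σ, ⟨0, hM⟩) := by
  unfold ev0
  cases K.idx a b <;> rfl

noncomputable def yext (σ : T) (j : ℕ) : (T × Fin M → ℍ) →ₗ[ℝ] ℍ :=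
  if j = 0 then ev0 K hM (K.u σ) (K.w σ) else
    if h : j < M then LinearMap.proj (σ, ⟨j, h⟩)
    else ev0 K hM (K.u σ) (K.v σ) + ev0 K hM (K.v σ) (K.w σ)

noncomputable def tmap (k : T → ℤ) : (T × Fin M → ℍ) →ₗ[ℝ] (T × Fin M → ℍ) :=
  LinearMap.pi fun j => (k j.1 : ℝ)⁻¹ • (yext K hM j.1 (j.2 + 1) - yext K hM j.1 j.2)

theorem tmap_apply (k : T → ℤ) (y : T × Fin M → ℍ) (j : T × Fin M) :
    tmap K hM k y j = (k j.1 : ℝ)⁻¹ • (yext K hM j.1 (j.2 + 1) y - yext K hM j.1 j.2 y) := rfl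

theorem tmap_injective {k : T → ℤ} (hk : ∀ σ, k σ ≠ 0) : Function.Injective (tmap K hM k) := by
  rw [injective_iff_map_eq_zero]
  intro y hy
  have h1 : ∀ σ, ∀ j ≤ M, yext K hM σ j y = yext K hM σ 0 y := fun σ j => by
    induction j with
    | zero => exact fun _ => rfl
    | succ j ih =>
      intro hj
      have h2 := congrFun hy (σ, ⟨j, hj⟩)
      rw [tmap_apply, Pi.zero_apply, smul_eq_zero, inv_eq_zero, Int.cast_eq_zero, sub_eq_zero] at h2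
      exact (h2.resolve_left (hk σ)).trans (ih (by omega))
  have h2 : (fun σ => y (σ, ⟨0, hM⟩)) = 0 := K.acyclic _ fun σ => by
    have h3 := h1 σ M le_rfl
    simp only [yext, hM.ne', lt_irrefl, if_false, dif_neg, not_false_eq_true, if_true,
      LinearMap.add_apply, ev0_apply] at h3
    rw [h3, sub_self]
  funext ⟨σ, j, hj⟩
  by_cases h0 : j = 0
  · subst h0
    exact congrFun h2 σ
  · have h3 := h1 σ j hj.le
    simp only [yext, h0, hj, if_false, dif_pos, if_true, ev0_apply, h2] at h3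
    rw [Pi.zero_apply]
    refine h3.trans ?_
    cases K.idx (K.u σ) (K.w σ) <;> rfl

theorem tmap_re (k : T → ℤ) (y : T × Fin M → ℍ) (hy : ∀ j, (y j).re = 0) (j : T × Fin M) :
    (tmap K hM k y j).re = 0 := by
  have h1 : ∀ a b, (ev0 K hM a b y).re = 0 := fun a b => by
    rw [ev0_apply]
    cases K.idx a b
    · rfl
    · exact hy _
  have h2 : ∀ σ i, (yext K hM σ i y).re = 0 := fun σ i => by
    unfold yext
    split_ifs
    · exact h1 _ _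
    · exact hy _
    · simp [h1]
  rw [tmap_apply]
  simp [h2]

/-- the chord values determined by the unknowns -/
noncomputable def zext (Q : T × Fin M → S3) (σ : T) (j : ℕ) : S3 :=
  if j = 0 then (K.idx (K.u σ) (K.w σ)).elim 1 fun σ => Q (σ, ⟨0, hM⟩) else
    if h : j < M then Q (σ, ⟨j, h⟩)
    else ((K.idx (K.u σ) (K.v σ)).elim 1 fun σ => Q (σ, ⟨0, hM⟩)) *
      (K.idx (K.v σ) (K.w σ)).elim 1 fun σ => Q (σ, ⟨0, hM⟩)

theorem zext_est (Q : T × Fin M → S3) {θ : ℝ} (h0 : 0 ≤ θ) (hQ : ∀ j, ‖(Q j : ℍ) - 1‖ ≤ θ) (σ : T)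
    (j : ℕ) : ‖(zext K hM Q σ j : ℍ) - 1‖ ≤ 2 * θ ∧
      ‖(zext K hM Q σ j : ℍ) - 1 - yext K hM σ j (fun j => (Q j : ℍ) - 1)‖ ≤ θ ^ 2 := by
  have h1 : ∀ a b, ev0 K hM a b (fun j => (Q j : ℍ) - 1) =
      (((K.idx a b).elim 1 fun σ => Q (σ, ⟨0, hM⟩) : S3) : ℍ) - 1 := fun a b => by
    rw [ev0_apply]
    cases K.idx a b
    · simp
    · rfl
  have h2 : ∀ a b, ‖(((K.idx a b).elim 1 fun σ => Q (σ, ⟨0, hM⟩) : S3) : ℍ) - 1‖ ≤ θ := fun a b => by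
    cases K.idx a b
    · simpa using h0
    · exact hQ _
  unfold zext yext
  split_ifs with ha hb
  · rw [h1, sub_self, norm_zero]
    exact ⟨by linarith [h2 (K.u σ) (K.w σ)], by positivity⟩
  · refine ⟨by linarith [hQ (σ, ⟨j, hb⟩)], ?_⟩
    simp only [LinearMap.coe_proj, Function.eval, sub_self, norm_zero]
    positivity
  · refine ⟨(S3.norm_mul_sub_one _ _).trans (by linarith [h2 (K.u σ) (K.v σ), h2 (K.v σ) (K.w σ)]), ?_⟩
    rw [LinearMap.add_apply, h1, h1, S3.norm_mul_sub_two, sq]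
    exact mul_le_mul (h2 _ _) (h2 _ _) (norm_nonneg _) h0

theorem S3.norm_mul_inv_lin (a b : S3) {θ : ℝ} (ha : ‖(a : ℍ) - 1‖ ≤ θ) (hb : ‖(b : ℍ) - 1‖ ≤ θ) :
    ‖((a * b⁻¹ : S3) : ℍ) - 1 - (((a : ℍ) - 1) - ((b : ℍ) - 1))‖ ≤ 2 * θ ^ 2 := by
  have h1 := S3.norm_mul_sub_two a b⁻¹
  have h2 := S3.norm_inv_sub_two b
  rw [S3.norm_inv_sub_one] at h1
  have e : ((a * b⁻¹ : S3) : ℍ) - 1 - (((a : ℍ) - 1) - ((b : ℍ) - 1)) =
      (((a * b⁻¹ : S3) : ℍ) - 1 - (((a : ℍ) - 1) + (((b⁻¹ : S3) : ℍ) - 1))) +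
        (((b⁻¹ : S3) : ℍ) - 1 + ((b : ℍ) - 1)) := by abel
  rw [e]
  refine (norm_add_le _ _).trans ?_
  rw [h1, h2]
  have := norm_nonneg ((a : ℍ) - 1)
  have := norm_nonneg ((b : ℍ) - 1)
  nlinarith

theorem tmap_est {k : T → ℤ} (hk : ∀ σ, k σ ≠ 0) (Q : T × Fin M → S3) {θ : ℝ} (h0 : 0 ≤ θ)
    (hQ : ∀ j, ‖(Q j : ℍ) - 1‖ ≤ θ) (j : T × Fin M) (c : ℍ) {B : ℝ}
    (hc : ‖((zext K hM Q j.1 (j.2 + 1) * (zext K hM Q j.1 j.2)⁻¹ : S3) : ℍ) - 1 -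
      (k j.1 : ℝ) • c‖ ≤ B) :
    ‖tmap K hM k (fun j => (Q j : ℍ) - 1) j - c‖ ≤ B + 10 * θ ^ 2 := by
  obtain ⟨a1, a2⟩ := zext_est K hM Q h0 hQ j.1 (j.2 + 1)
  obtain ⟨b1, b2⟩ := zext_est K hM Q h0 hQ j.1 j.2
  have h3 := S3.norm_mul_inv_lin _ _ a1 b1
  have hk0 : (k j.1 : ℝ) ≠ 0 := Int.cast_ne_zero.2 (hk _)
  have hk1 : 1 ≤ |(k j.1 : ℝ)| := by exact_mod_cast Int.one_le_abs (hk _)
  rw [tmap_apply]
  set y1 := yext K hM j.1 (j.2 + 1) (fun j => (Q j : ℍ) - 1)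
  set y0 := yext K hM j.1 j.2 (fun j => (Q j : ℍ) - 1)
  set z1 := (zext K hM Q j.1 (j.2 + 1) : ℍ)
  set z0 := (zext K hM Q j.1 j.2 : ℍ)
  set u := ((zext K hM Q j.1 (j.2 + 1) * (zext K hM Q j.1 j.2)⁻¹ : S3) : ℍ)
  have e : (k j.1 : ℝ)⁻¹ • (y1 - y0) - c = (k j.1 : ℝ)⁻¹ • ((u - 1 - (k j.1 : ℝ) • c) -
      (u - 1 - ((z1 - 1) - (z0 - 1))) - (z1 - 1 - y1) + (z0 - 1 - y0)) := by
    rw [show (u - 1 - (k j.1 : ℝ) • c) - (u - 1 - ((z1 - 1) - (z0 - 1))) - (z1 - 1 - y1) +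
      (z0 - 1 - y0) = (y1 - y0) - (k j.1 : ℝ) • c by abel, smul_sub _ (y1 - y0), smul_smul,
      inv_mul_cancel₀ hk0, one_smul]
  rw [e, norm_smul, norm_inv, Real.norm_eq_abs]
  refine (mul_le_of_le_one_left (norm_nonneg _) (inv_le_one_of_one_le₀ hk1)).trans ?_
  have n1 := norm_add_le ((u - 1 - (k j.1 : ℝ) • c) - (u - 1 - ((z1 - 1) - (z0 - 1))) - (z1 - 1 - y1))
    (z0 - 1 - y0)
  have n2 := norm_sub_le ((u - 1 - (k j.1 : ℝ) • c) - (u - 1 - ((z1 - 1) - (z0 - 1)))) (z1 - 1 - y1)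
  have n3 := norm_sub_le (u - 1 - (k j.1 : ℝ) • c) (u - 1 - ((z1 - 1) - (z0 - 1)))
  nlinarith

end Vale.Agent.P173
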