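import Vale.Agent.P173.DegDefs

/-!
P173 task PathP (about 250 lines): spreading the curvature of a path of connections.
* `exists_smooth_path`: for `z ≠ -1` take `nrm ((1 - s) • 1 + s • z)` (nonzero for every real `s`);
  for `z = -1` take `cos (π s) + sin (π s) i`.
* `loop_contract`: the map `(s, r) ↦ r • u s`, `ℝ × ℝ → ℍ`, is `C^1`, so its range has dense
  complement (`ContDiff.dense_compl_range_of_finrank_lt_finrank`, `2 < 4`); a point `y` outside the
  range is nonzero and `z = nrm y ≠ u s` for all `s`.  `H₀ s τ = nrm ((1 - τ) • (-z) + τ • u s)`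
  (nonzero for all real `τ`: norms force `τ = 1/2`, then `u s = z`), continuous since the argument
  avoids `0`; `H s τ = H₀ s τ * (H₀ 0 τ)⁻¹`.
* `exists_chords`: `p s σ` from `exists_smooth_path (K.ρ σ)`; with `ev s a b = (K.idx a b).elim 1 (p s)`
  the loop `u s = ev s u v * ev s v w * (ev s u w)⁻¹` is `C^1` (inverse is `star`), `u 0 = u 1 = 1`
  (`K.flat`).  `Z σ j s = H σ s (j / M) * ev s u w`; uniform continuity of `H σ` on `[0,1]²`
  (finitely many `σ`) gives `M`; right multiplication by a unit preserves distances.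
-/

namespace Vale.Agent.P173

open scoped Quaternion
open Set

theorem pp_seg_ne (a b : S3) (h : (b : ℍ) ≠ -a) (τ : ℝ) :
    (1 - τ) • (a : ℍ) + τ • (b : ℍ) ≠ 0 := by
  intro h0
  have h1 : (1 - τ) • (a : ℍ) = -(τ • (b : ℍ)) := eq_neg_of_add_eq_zero_left h0
  have h2 := congrArg norm h1
  rw [norm_neg, norm_smul, norm_smul, S3.norm_coe, S3.norm_coe, mul_one, mul_one,
    Real.norm_eq_abs, Real.norm_eq_abs, abs_eq_abs] at h2
  have h3 : τ = 1 / 2 := by
    rcases h2 with h2 | h2 <;> linarith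
  apply h
  rw [h3, show (1 - 1 / 2 : ℝ) = 1 / 2 by norm_num, ← smul_add, smul_eq_zero] at h0
  exact eq_neg_of_add_eq_zero_right (h0.resolve_left (by norm_num))

theorem pp_contDiff_nrm {f : ℝ → ℍ} (hf : ContDiff ℝ 1 f) (h0 : ∀ s, f s ≠ 0) :
    ContDiff ℝ 1 fun s => (nrm (f s) : ℍ) := by
  have e : (fun s => (nrm (f s) : ℍ)) = fun s => ‖f s‖⁻¹ • f s := funext fun s => coe_nrm (h0 s)
  rw [e]
  exact ((hf.norm ℝ h0).inv fun s => norm_ne_zero_iff.2 (h0 s)).smul hf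

theorem pp_continuous_nrm {X : Type*} [TopologicalSpace X] {f : X → ℍ} (hf : Continuous f)
    (h0 : ∀ s, f s ≠ 0) : Continuous fun s => nrm (f s) := by
  rw [continuous_induced_rng]
  have e : (Subtype.val ∘ fun s => nrm (f s)) = fun s => ‖f s‖⁻¹ • f s :=
    funext fun s => coe_nrm (h0 s)
  rw [e]
  exact (hf.norm.inv₀ fun s => norm_ne_zero_iff.2 (h0 s)).smul hf

theorem pp_path (z : S3) (hz : (z : ℍ) ≠ -1) :
    ∃ p : ℝ → S3, ContDiff ℝ 1 (fun s => (p s : ℍ)) ∧ p 0 = 1 ∧ p 1 = z := by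
  refine ⟨fun s => nrm ((1 - s) • ((1 : S3) : ℍ) + s • (z : ℍ)),
    pp_contDiff_nrm (by fun_prop) (pp_seg_ne 1 z hz), ?_, ?_⟩
  · simp only [sub_zero, one_smul, zero_smul, add_zero, nrm_coe]
  · simp only [sub_self, one_smul, zero_smul, zero_add, nrm_coe]

theorem pp_coe_inv (z : S3) : ((z⁻¹ : S3) : ℍ) = star (z : ℍ) := by
  rw [Metric.unitSphere.coe_inv, Quaternion.inv_def, Quaternion.normSq_eq_norm_mul_self,
    S3.norm_coe, mul_one, inv_one, one_smul]

theorem pp_contDiff_inv {u : ℝ → S3} (hu : ContDiff ℝ 1 fun s => (u s : ℍ)) :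
    ContDiff ℝ 1 fun s => (((u s)⁻¹ : S3) : ℍ) := by
  simp only [pp_coe_inv]
  let L : ℍ →ₗ[ℝ] ℍ := ⟨⟨star, star_add⟩, Quaternion.star_smul⟩
  exact (LinearMap.toContinuousLinearMap L).contDiff.comp hu

theorem exists_smooth_path (z : S3) :
    ∃ p : ℝ → S3, ContDiff ℝ 1 (fun s => (p s : ℍ)) ∧ p 0 = 1 ∧ p 1 = z := by
  by_cases hz : (z : ℍ) = -1
  · obtain ⟨i, hi⟩ : ∃ i : ℍ, i * i = -1 := ⟨Quaternion.ofComplex Complex.I, by
      rw [← map_mul, Complex.I_mul_I, map_neg, map_one]⟩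
    have hn : ‖i‖ = 1 := by
      have h : ‖i‖ * ‖i‖ = 1 := by rw [← norm_mul, hi, norm_neg, norm_one]
      nlinarith [norm_nonneg i]
    obtain ⟨q, h1, h2, h3⟩ := pp_path ⟨i, mem_sphere_zero_iff_norm.2 hn⟩ (fun h => by
      have h' : i = -1 := h
      rw [h', neg_mul_neg, mul_one] at hi
      have := congrArg QuaternionAlgebra.re hi
      norm_num at this)
    refine ⟨fun s => q s * q s, h1.mul h1, by simp only [h2, mul_one], ?_⟩
    apply Subtype.ext
    simp only [h3, Metric.unitSphere.coe_mul, hz, hi]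
  · exact pp_path z hz

theorem loop_contract (u : ℝ → S3) (hu : ContDiff ℝ 1 (fun s => (u s : ℍ))) (h0 : u 0 = 1)
    (h1 : u 1 = 1) :
    ∃ H : ℝ → ℝ → S3, Continuous (fun p : ℝ × ℝ => H p.1 p.2) ∧ (∀ s, H s 0 = 1) ∧
      (∀ s, H s 1 = u s) ∧ (∀ τ, H 0 τ = 1) ∧ ∀ τ, H 1 τ = 1 := by
  have hc : ContDiff ℝ 1 fun p : ℝ × ℝ => p.2 • (u p.1 : ℍ) :=
    contDiff_snd.smul (hu.comp contDiff_fst)
  obtain ⟨y, hy⟩ := (hc.dense_compl_range_of_finrank_lt_finrank
    (by rw [Quaternion.finrank_eq_four]; simp)).nonempty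
  have hy0 : y ≠ 0 := fun h => hy ⟨(0, 0), by simp [h]⟩
  have hz : ∀ s, (u s : ℍ) ≠ -((-nrm y : S3) : ℍ) := fun s h => by
    refine hy ⟨(s, ‖y‖), ?_⟩
    have e : ((-nrm y : S3) : ℍ) = -(nrm y : ℍ) := rfl
    simp only [h, e, neg_neg, coe_nrm hy0, smul_smul]
    rw [mul_inv_cancel₀ (norm_ne_zero_iff.2 hy0), one_smul]
  have hH : Continuous fun p : ℝ × ℝ =>
      nrm ((1 - p.2) • ((-nrm y : S3) : ℍ) + p.2 • (u p.1 : ℍ)) := by
    refine pp_continuous_nrm ?_ fun p => pp_seg_ne _ _ (hz p.1) p.2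
    exact ((continuous_const.sub continuous_snd).smul continuous_const).add
      (continuous_snd.smul (hu.continuous.comp continuous_fst))
  refine ⟨fun s τ => nrm ((1 - τ) • ((-nrm y : S3) : ℍ) + τ • (u s : ℍ)) *
    (nrm ((1 - τ) • ((-nrm y : S3) : ℍ) + τ • (u 0 : ℍ)))⁻¹, ?_, fun s => ?_, fun s => ?_,
    fun τ => mul_inv_cancel _, fun τ => ?_⟩
  · exact hH.mul (hH.comp (f := fun p : ℝ × ℝ => ((0 : ℝ), p.2)) (by fun_prop)).inv
  · simp only [zero_smul, add_zero, mul_inv_cancel]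
  · simp only [sub_self, zero_smul, one_smul, zero_add, nrm_coe, h0, inv_one, mul_one]
  · simp only [h0, h1, mul_inv_cancel]

theorem exists_chords {V T : Type} [LinearOrder V] [Fintype T] [DecidableEq T] (K : Cplx V T) :
    ∃ p : ℝ → T → S3, Continuous p ∧ p 0 = 1 ∧ p 1 = K.ρ ∧ ∀ ε : ℝ, 0 < ε →
      ∃ (M : ℕ) (Z : T → ℕ → ℝ → S3), 0 < M ∧ (∀ σ j, Continuous (Z σ j)) ∧
        (∀ σ s, Z σ 0 s = (K.idx (K.u σ) (K.w σ)).elim 1 (p s)) ∧
        (∀ σ s, Z σ M s = (K.idx (K.u σ) (K.v σ)).elim 1 (p s) * (K.idx (K.v σ) (K.w σ)).elim 1 (p s)) ∧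
        (∀ σ j, j < M → ∀ s ∈ Icc (0 : ℝ) 1, ‖(Z σ (j + 1) s : ℍ) - Z σ j s‖ < ε) ∧
        (∀ σ j, Z σ j 0 = 1) ∧ ∀ σ j, Z σ (j + 1) 1 = Z σ j 1 := by
  choose q hq q0 q1 using fun σ => exists_smooth_path (K.ρ σ)
  let p : ℝ → T → S3 := fun s σ => q σ s
  have p0 : p 0 = 1 := funext q0
  have p1 : p 1 = K.ρ := funext q1
  have hev : ∀ o : Option T, ContDiff ℝ 1 fun s => ((o.elim 1 (p s) : S3) : ℍ) := by
    rintro (_ | σ)
    · exact contDiff_const
    · exact hq σ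
  have hev' : ∀ o : Option T, Continuous fun s => (o.elim 1 (p s) : S3) := fun o =>
    continuous_induced_rng.2 (hev o).continuous
  have ev0 : ∀ o : Option T, (o.elim 1 (p 0) : S3) = 1 := by
    rintro (_ | σ)
    · rfl
    · exact q0 σ
  choose H hH H0 H1 H2 H3 using fun σ => loop_contract
    (fun s => (K.idx (K.u σ) (K.v σ)).elim 1 (p s) * (K.idx (K.v σ) (K.w σ)).elim 1 (p s) *
      ((K.idx (K.u σ) (K.w σ)).elim 1 (p s))⁻¹)
    (((hev _).mul (hev _)).mul (pp_contDiff_inv (hev _)))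
    (by simp only [ev0, mul_one, inv_one]) (by simp only [p1, K.flat, mul_inv_cancel])
  refine ⟨p, continuous_pi fun σ => continuous_induced_rng.2 (hq σ).continuous, p0, p1,
    fun ε hε => ?_⟩
  have key : ∀ σ, ∀ᶠ M : ℕ in Filter.atTop, ∀ s ∈ Icc (0 : ℝ) 1, ∀ a ∈ Icc (0 : ℝ) 1,
      ∀ b ∈ Icc (0 : ℝ) 1, |a - b| ≤ 1 / M → ‖(H σ s a : ℍ) - H σ s b‖ < ε := by
    intro σ
    have hu := (isCompact_Icc.prod isCompact_Icc : IsCompact (Icc (0 : ℝ) 1 ×ˢ Icc (0 : ℝ) 1)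
      ).uniformContinuousOn_of_continuous (continuous_subtype_val.comp (hH σ)).continuousOn
    obtain ⟨δ, hδ, h⟩ := Metric.uniformContinuousOn_iff.1 hu ε hε
    filter_upwards [(tendsto_one_div_atTop_nhds_zero_nat (𝕜 := ℝ)).eventually_lt_const hδ]
      with M hM s hs a ha b hb hab
    have := h (s, a) ⟨hs, ha⟩ (s, b) ⟨hs, hb⟩ (by
      rw [Prod.dist_eq, dist_self, Real.dist_eq]
      exact max_lt hδ (hab.trans_lt hM))
    rwa [dist_eq_norm] at this
  obtain ⟨M, hM, hM0⟩ := ((Filter.eventually_all.2 key).and (Filter.eventually_gt_atTop 0)).exists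
  have hM' : (0 : ℝ) < M := by exact_mod_cast hM0
  refine ⟨M, fun σ j s => H σ s (j / M) * (K.idx (K.u σ) (K.w σ)).elim 1 (p s), hM0,
    fun σ j => ?_, fun σ s => ?_, fun σ s => ?_, fun σ j hj s hs => ?_, fun σ j => ?_,
    fun σ j => ?_⟩
  · exact ((hH σ).comp (f := fun s : ℝ => (s, (j / M : ℝ))) (by fun_prop)).mul (hev' _)
  · simp only [Nat.cast_zero, zero_div, H0, one_mul]
  · simp only [div_self hM'.ne', H1, inv_mul_cancel_right]
  · have hj' : (j : ℝ) + 1 ≤ M := by exact_mod_cast hj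
    have hj0 : (0 : ℝ) ≤ j := Nat.cast_nonneg j
    simp only [Metric.unitSphere.coe_mul]
    rw [← sub_mul, norm_mul, S3.norm_coe, mul_one]
    refine hM σ s hs _ ⟨by positivity, ?_⟩ _ ⟨by positivity, ?_⟩ (le_of_eq ?_)
    · rw [div_le_one hM']
      exact_mod_cast hj
    · rw [div_le_one hM']
      linarith
    · push_cast
      rw [← sub_div, add_sub_cancel_left, abs_of_pos (by positivity)]
  · simp only [H2, ev0, mul_one]
  · simp only [H3]

end Vale.Agent.P173
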