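import Vale.Agent.P173.Square
import Vale.Agent.P173.PathP
import Vale.Agent.P173.CoreC

/-!
P173 Core (helper48): a group containing the scaled copies of `K` has no presentation with
independent faces.
-/

namespace Vale.Agent.P173

open scoped Quaternion
open Set

variable {V T : Type} [LinearOrder V] [Fintype T] [DecidableEq T] {K : Cplx V T}
  {Γ : Type*} [Group Γ] {S R : Type*} {Y : Sys K Γ S R} {L : Loc Y} {M : ℕ}
  {t : Tau Y ((M + 1) * (2 * L.m))} {𝔽 : Finset (Γ × R)} {A : Γ × S → S3}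

theorem hol_ch_eq (hM : 0 < M) (hB : Big L M t 𝔽) (hA : FlatOff L M 𝔽 A) (σ : T) {j : ℕ}
    (hj : j ≤ M) : hol Y.P.ℓ A 1 (ch L M t σ j) =
      zext K hM (fun j => hol Y.P.ℓ A 1 (qw L M t j)) σ j := by
  unfold zext
  split_ifs with h0 h1
  · subst h0
    rw [hol_ch_zero hB hA, hol_qe hM A ((K.uv σ).trans (K.vw σ)) (K.auw σ)]
  · simp [qw, h0]
  · obtain rfl : j = M := by omega
    rw [ch_last, hol_mul_loop A 1 (ℓ_qe L j t (K.auv σ)), hol_qe hM A (K.uv σ) (K.auv σ),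
      hol_qe hM A (K.vw σ) (K.avw σ)]

theorem cw_eq_one (hM : 0 < M) (hB : Big L M t 𝔽) (hA : FlatOff L M 𝔽 A)
    (hc : ∀ σ, ∀ j < M, ‖((hol Y.P.ℓ A 1 (cw L M t σ j) : S3) : ℍ) - 1‖ ≤ 1 / (2 * L.C))
    (hz : ∀ σ, ∀ j < M, zext K hM (fun j => hol Y.P.ℓ A 1 (qw L M t j)) σ (j + 1) =
      zext K hM (fun j => hol Y.P.ℓ A 1 (qw L M t j)) σ j) (σ : T) {j : ℕ} (hj : j < M) :
    hol Y.P.ℓ A 1 (cw L M t σ j) = 1 := by
  set c : T × Fin M → ℍ := fun j => ((hol Y.P.ℓ A 1 (cw L M t j.1 j.2) : S3) : ℍ) - 1 with hcd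
  have hC := L.hC
  have hδ : (0 : ℝ) < 1 / (2 * L.C) := by positivity
  have h1 : ‖c‖ ≤ 1 / (2 * L.C) := (pi_norm_le_iff_of_nonneg hδ.le).2 fun j => hc j.1 j.2 j.2.2
  have h2 : 1 / (2 * L.C) ≤ 1 := by
    rw [div_le_one (by positivity)]; linarith
  have h3 : ‖c‖ ≤ L.C * ‖c‖ ^ 2 := (pi_norm_le_iff_of_nonneg (by positivity)).2 fun i => by
    have h4 := block_est hB (norm_nonneg c) (h1.trans h2) hA
      (fun σ j hj => norm_le_pi_norm c (σ, ⟨j, hj⟩)) i.1 i.2.2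
    rw [hol_ch_eq hM hB hA _ i.2.2, hol_ch_eq hM hB hA _ i.2.2.le, hz _ _ i.2.2,
      mul_inv_cancel] at h4
    have hk1 : 1 ≤ |(L.k i.1 : ℝ)| := by exact_mod_cast Int.one_le_abs (L.hk _)
    have e : ((1 : S3) : ℍ) = 1 := rfl
    rw [e, sub_self, zero_sub, norm_neg, norm_smul, Real.norm_eq_abs] at h4
    exact (le_mul_of_one_le_left (norm_nonneg _) hk1).trans h4
  have h5 : ‖c‖ = 0 := by
    have h6 : L.C * ‖c‖ ≤ 1 / 2 := by
      have := mul_le_mul_of_nonneg_left h1 (by linarith : (0 : ℝ) ≤ L.C)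
      rwa [show L.C * (1 / (2 * L.C)) = 1 / 2 by field_simp] at this
    nlinarith [norm_nonneg c]
  have h7 := congrFun (norm_eq_zero.1 h5) (σ, ⟨j, hj⟩)
  exact Subtype.ext (sub_eq_zero.1 h7)

theorem Sys.false [Fintype V] (Y : Sys K Γ S R) : False := by
  classical
  obtain ⟨L⟩ := exists_loc Y
  obtain ⟨p, hp, hp0, hp1, hZ⟩ := exists_chords K
  have hC := L.hC
  have hδ : (0 : ℝ) < 1 / (2 * L.C) := by positivity
  have hδ1 : 1 / (2 * L.C) ≤ 1 := by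
    rw [div_le_one (by positivity)]; linarith
  obtain ⟨M, Z, hM, hZc, hZ0, hZM, hZs, hZa, hZb⟩ := hZ (1 / (2 * L.C) / 2) (by positivity)
  obtain ⟨t⟩ := exists_tau Y ((M + 1) * (2 * L.m))
  obtain ⟨𝔽, hB⟩ := exists_big L M t
  let Φ := {f : Γ × R // f ∈ 𝔽 ∧ ∀ σ, ∀ j < M, f ≠ L.del M σ j}
  have : Finite Φ := Finite.of_injective (fun f : Φ => (⟨f.1, f.2.1⟩ : 𝔽))
    fun f g h => Subtype.ext (congrArg (fun x : 𝔽 => x.1) h)
  let P : ℝ → T × Fin M → S3 := fun s j => if (j.2 : ℕ) = 0 then p s j.1 else Z j.1 j.2 s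
  have hflat : ∀ A : Γ × S → S3,
      (∀ f : Φ, FreeGroup.lift A (lw Y.P.ℓ f.1.1 (Y.P.bd f.1.2)) = 1) → FlatOff L M 𝔽 A :=
    fun A h f hf hn => by
      have := h ⟨f, hf, hn⟩
      rwa [lift_lw] at this
  have hzP : ∀ s σ j, j ≤ M → zext K hM (P s) σ j = Z σ j s := fun s σ j hj => by
    unfold zext
    split_ifs with h0 h1
    · rw [h0, hZ0]; simp [P]
    · simp [P, h0]
    · obtain rfl : j = M := by omega
      rw [hZM]; simp [P]
  refine (continuation (X := Γ × S) (Φ := Φ) (J := T × Fin M)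
    (fun f => lw Y.P.ℓ f.1.1 (Y.P.bd f.1.2)) (fun j => lw Y.P.ℓ 1 (cw L M t j.1 j.2))
    (fun j => lw Y.P.ℓ 1 (qw L M t j)) ?_ (tmap K hM L.k) (tmap_injective K hM L.hk)
    (tmap_re K hM L.k) P ?_ ?_ hδ ?_ ?_ ?_).elim fun A hh => ?_
  · let fc : Φ ⊕ T × Fin M → Γ × R := Sum.elim (fun f => f.1) fun j => L.del M j.1 j.2
    have hinj : Function.Injective fc := by
      rintro (f | j) (f' | j') h
      · exact congrArg _ (Subtype.ext h)
      · exact (f.2.2 _ _ j'.2.2 h).elim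
      · exact (f'.2.2 _ _ j.2.2 h.symm).elim
      · obtain ⟨h1, h2⟩ := del_inj j'.2.2 h
        exact congrArg _ (Prod.ext h1 (Fin.ext h2))
    have hex : ∀ (α : Γ × S → ℝ) (k : Φ ⊕ T × Fin M), expo α (Sum.elim
        (fun f : Φ => lw Y.P.ℓ f.1.1 (Y.P.bd f.1.2))
        (fun j : T × Fin M => lw Y.P.ℓ 1 (cw L M t j.1 j.2)) k) =
        expo α (lw Y.P.ℓ (fc k).1 (Y.P.bd (fc k).2)) := by
      rintro α (f | j)
      · rfl
      · simp only [Sum.elim_inr, lw, hol_cw, expo_mul, expo_inv, fc, curv]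
        ring
    intro k
    obtain ⟨α, h1, h2⟩ := Y.P.dual (𝔽 ∪ Finset.univ.image fun j : T × Fin M => L.del M j.1 j.2) (fc k)
    refine ⟨α, by rwa [hex], fun k' hk' => ?_⟩
    rw [hex]
    refine h2 _ ?_ fun h => hk' (hinj h)
    rcases k' with f | j
    · exact Finset.mem_union_left _ f.2.1
    · exact Finset.mem_union_right _ (Finset.mem_image_of_mem _ (Finset.mem_univ j))
  · refine continuous_pi fun j => ?_
    simp only [P]
    split_ifs
    · exact (continuous_apply j.1).comp hp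
    · exact hZc _ _
  · funext j
    simp only [P]
    split_ifs
    · rw [hp0]; rfl
    · rw [hZa]; rfl
  · choose cq hcq using hB.q
    choose Cq hCq0 hCq using fun j => (hcq j).first Y.P.bd_one
    have hS0 : 0 ≤ ∑ j, Cq j := Finset.sum_nonneg fun j _ => hCq0 j
    refine ⟨L.C + 10 * (∑ j, Cq j) ^ 2 + ∑ j, Cq j, fun A η h0 h1 hA hc j => ?_⟩
    simp only [lift_lw] at hc ⊢
    have hA' := hflat A hA
    have hc' : ∀ σ, ∀ j < M, ‖((hol Y.P.ℓ A 1 (cw L M t σ j) : S3) : ℍ) - 1‖ ≤ η :=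
      fun σ j hj => hc (σ, ⟨j, hj⟩)
    have hQ : ∀ j, ‖((hol Y.P.ℓ A 1 (qw L M t j) : S3) : ℍ) - 1‖ ≤ (∑ j, Cq j) * η := fun j =>
      (hCq j A 1 η h0 fun f hf => by rw [mv_one]; exact curv_le h0 hA' hc' hf).trans
        (mul_le_mul_of_nonneg_right (Finset.single_le_sum (fun j _ => hCq0 j) (Finset.mem_univ j)) h0)
    refine ⟨(hQ j).trans (mul_le_mul_of_nonneg_right (by nlinarith) h0), ?_⟩
    have h2 := block_est hB h0 h1 hA' hc' j.1 j.2.2
    rw [hol_ch_eq hM hB hA' _ j.2.2, hol_ch_eq hM hB hA' _ j.2.2.le] at h2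
    refine (tmap_est K hM L.hk _ (by positivity) hQ j _ h2).trans ?_
    have : 0 ≤ (∑ j, Cq j) * η ^ 2 := by positivity
    nlinarith
  · intro s hs A hA hc hq j
    simp only [lift_lw] at hc hq ⊢
    have hA' := hflat A hA
    have h2 := block_est hB hδ.le hδ1 hA' (fun σ j hj => hc (σ, ⟨j, hj⟩)) j.1 j.2.2
    rw [hol_ch_eq hM hB hA' _ j.2.2, hol_ch_eq hM hB hA' _ j.2.2.le,
      show (fun j => hol Y.P.ℓ A 1 (qw L M t j)) = P s from funext hq, hzP _ _ _ j.2.2,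
      hzP _ _ _ j.2.2.le] at h2
    have h3 := hZs j.1 j.2 j.2.2 s hs
    rw [← S3.norm_mul_inv_sub_one] at h3
    have hk1 : 1 ≤ |(L.k j.1 : ℝ)| := by exact_mod_cast Int.one_le_abs (L.hk _)
    set u := ((Z j.1 (j.2 + 1) s * (Z j.1 j.2 s)⁻¹ : S3) : ℍ) - 1
    set c := ((hol Y.P.ℓ A 1 (cw L M t j.1 j.2) : S3) : ℍ) - 1
    have h4 : ‖(L.k j.1 : ℝ) • c‖ ≤ ‖u‖ + ‖u - (L.k j.1 : ℝ) • c‖ := by
      have := norm_sub_le u (u - (L.k j.1 : ℝ) • c)
      rwa [sub_sub_cancel] at this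
    rw [norm_smul, Real.norm_eq_abs] at h4
    have h5 := le_mul_of_one_le_left (norm_nonneg c) hk1
    have h6 : L.C * (1 / (2 * L.C)) ^ 2 = 1 / (2 * L.C) / 2 := by field_simp
    linarith
  · intro A hA hc hq j
    simp only [lift_lw] at hc hq ⊢
    refine cw_eq_one hM hB (hflat A hA) (fun σ j hj => hc (σ, ⟨j, hj⟩)) (fun σ j hj => ?_) j.1 j.2.2
    have e : (fun j => hol Y.P.ℓ A 1 (qw L M t j)) = P 0 := funext fun j => by
      rw [hq]
      simp only [P]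
      split_ifs
      · rw [hp0]; rfl
      · rw [hZa]
    rw [e, hzP _ _ _ hj, hzP _ _ _ hj.le, hZa, hZa]
  · obtain ⟨hA, hc, hq⟩ := hh
    simp only [lift_lw] at hc hq
    have hA' := hflat A hA
    have h1 : ∀ σ, ∀ j < M, hol Y.P.ℓ A 1 (cw L M t σ j) = 1 := fun σ j hj =>
      cw_eq_one hM hB hA' (fun σ j hj => hc (σ, ⟨j, hj⟩)) (fun σ j hj => by
        rw [show (fun j => hol Y.P.ℓ A 1 (qw L M t j)) = P 1 from funext hq, hzP _ _ _ hj,
          hzP _ _ _ hj.le, hZb]) σ hj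
    obtain ⟨σ, hσ⟩ := K.ne
    obtain ⟨c, hc'⟩ := hB.q (σ, ⟨0, hM⟩)
    have h2 := hc'.flat Y.P.bd_one A 1 fun f hf => by
      have h3 := curv_le (t := t) le_rfl hA' (fun σ j hj => by rw [h1 σ j hj]; simp) hf
      rw [mv_one]
      exact Subtype.ext (sub_eq_zero.1 (norm_le_zero_iff.1 h3))
    rw [hq] at h2
    exact hσ (by simpa [P, hp1] using h2)

theorem core {V T : Type} [LinearOrder V] [Fintype V] [Fintype T] [DecidableEq T] (K : Cplx V T)
    {Γ : Type*} [Group Γ] (xe : V → V → Γ) (gv : ℕ → V → Γ) (χ : Γ →* Multiplicative (V → ℤ))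
    (hcomm : ∀ σ, Commute (xe (K.u σ) (K.v σ)) (xe (K.v σ) (K.w σ)))
    (hmul : ∀ σ, xe (K.u σ) (K.w σ) = xe (K.u σ) (K.v σ) * xe (K.v σ) (K.w σ))
    (hroot : ∀ n, gv n K.root = 1)
    (hgv : ∀ n a b, K.G.Adj a b → gv n a * xe a b ^ n = gv n b)
    (hχx : ∀ a b, Multiplicative.toAdd (χ (xe a b)) = Pi.single b 1 - Pi.single a 1)
    (hχg : ∀ (n : ℕ) a, Multiplicative.toAdd (χ (gv n a)) =
      Pi.single a (n : ℤ) - Pi.single K.root (n : ℤ))
    {S R : Type*} (P : Pres Γ S R) : False := by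
  choose pe hpe using fun a b => P.surj (xe a b)
  exact Sys.false (K := K)
    { P := P, pe := pe, gv := gv, χ := χ
      hcomm := fun σ => by rw [hpe, hpe]; exact hcomm σ
      hmul := fun σ => by rw [hpe, hpe, hpe]; exact hmul σ
      hroot := hroot
      hgv := fun n a b h => by rw [hpe]; exact hgv n a b h
      hχx := fun a b => by rw [hpe]; exact hχx a b
      hχg := hχg }

end Vale.Agent.P173
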