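import Vale.Agent.P173.Fill

/-!
P173 task Grid (about 200 lines): lattice computations in a flat `ℤ²`.
`a, b, d` are words with `ℓ a = s`, `ℓ b = t`, `ℓ d = s * t`, `Commute s t`.
* `hol_rect`: first `q = 1` by induction on `p` (`a^(p+1) b = a^p (a b) ~ a^p (b a)`), then
  induction on `q`; use `hol_mul` and that `hol g (a b a⁻¹ b⁻¹) = 1` gives `hol g (a b) = hol g (b a)`.
* `hol_tri`: `a^(p+1) b^(p+1) = a^p (a b^p) b ~ a^p b^p (a b) ~ d^p d`.
* `fill_block`: `[a^(p+1), b] = a [a^p, b] a⁻¹ * [a, b]` and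
  `[a^p, b^(q+1)] = [a^p, b^q] * b^q [a^p, b] b^(-q)` with `[x, y] = x y x⁻¹ y⁻¹`; `Fill.conj`,
  `Fill.mono`, `Finsupp.mapDomain_comp`, `Finsupp.mapDomain_finset_sum`, `Finset.sum_range_succ'`.
-/

namespace Vale.Agent.P173

variable {Γ : Type*} [Group Γ] {S R : Type*} {ℓ : FreeGroup S →* Γ}

theorem grid_eq_of {W : Type*} [Group W] (A : Γ × S → W) {u v : FreeGroup S} (huv : ℓ u = ℓ v)
    {g : Γ} (h : hol ℓ A g (u * v⁻¹) = 1) : hol ℓ A g u = hol ℓ A g v := by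
  rw [hol_mul, hol_inv, huv, mul_inv_cancel_right] at h
  exact mul_inv_eq_one.1 h

theorem grid_congr {W : Type*} [Group W] (A : Γ × S → W) {u v : FreeGroup S} (huv : ℓ u = ℓ v)
    {g : Γ} (γ δ : FreeGroup S) (h : hol ℓ A (g * ℓ γ) u = hol ℓ A (g * ℓ γ) v) :
    hol ℓ A g (γ * u * δ) = hol ℓ A g (γ * v * δ) := by
  rw [hol_mul, hol_mul, hol_mul, hol_mul, h, map_mul, map_mul, huv]

theorem grid_row {W : Type*} [Group W] (A : Γ × S → W) {a b : FreeGroup S}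
    (hc : Commute (ℓ a) (ℓ b)) (g : Γ) (p : ℕ)
    (h : ∀ x < p, hol ℓ A (g * ℓ a ^ x) (a * b * a⁻¹ * b⁻¹) = 1) :
    hol ℓ A g (a ^ p * b) = hol ℓ A g (b * a ^ p) := by
  induction p with
  | zero => simp
  | succ p ih =>
    have e0 : ℓ (a * b) = ℓ (b * a) := by rw [map_mul, map_mul, hc.eq]
    have e1 : hol ℓ A (g * ℓ (a ^ p)) (a * b) = hol ℓ A (g * ℓ (a ^ p)) (b * a) := by
      refine grid_eq_of A e0 ?_
      rw [map_pow, mul_inv_rev, ← mul_assoc]
      exact h p (Nat.lt_succ_self p)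
    have e2 := grid_congr A e0 (a ^ p) 1 e1
    have e3 := grid_congr A (u := a ^ p * b) (v := b * a ^ p) (g := g)
      (by rw [map_mul, map_mul, map_pow, (hc.pow_left p).eq]) 1 a
      (by rw [map_one, mul_one]; exact ih fun x hx => h x (Nat.lt_succ_of_lt hx))
    have e4 : a ^ (p + 1) * b = a ^ p * (a * b) * 1 := by rw [pow_succ]; group
    have e5 : a ^ p * (b * a) * 1 = 1 * (a ^ p * b) * a := by group
    have e6 : 1 * (b * a ^ p) * a = b * a ^ (p + 1) := by rw [pow_succ]; group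
    rw [e4, e2, e5, e3, e6]

theorem hol_rect {W : Type*} [Group W] (A : Γ × S → W) {a b : FreeGroup S}
    (hc : Commute (ℓ a) (ℓ b)) (g : Γ) (p q : ℕ)
    (h : ∀ x < p, ∀ y < q, hol ℓ A (g * ℓ a ^ x * ℓ b ^ y) (a * b * a⁻¹ * b⁻¹) = 1) :
    hol ℓ A g (a ^ p * b ^ q) = hol ℓ A g (b ^ q * a ^ p) := by
  induction q with
  | zero => simp
  | succ q ih =>
    have e1 := grid_congr A (u := a ^ p * b ^ q) (v := b ^ q * a ^ p) (g := g)
      (by rw [map_mul, map_mul, map_pow, map_pow, (hc.pow_pow p q).eq]) 1 b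
      (by rw [map_one, mul_one]; exact ih fun x hx y hy => h x hx y (Nat.lt_succ_of_lt hy))
    have e2 := grid_congr A (u := a ^ p * b) (v := b * a ^ p) (g := g)
      (by rw [map_mul, map_mul, map_pow, (hc.pow_left p).eq]) (b ^ q) 1
      (grid_row A hc _ p fun x hx => by
        rw [map_pow, mul_assoc, ← (hc.pow_pow x q).eq, ← mul_assoc]
        exact h x hx q (Nat.lt_succ_self q))
    have e4 : a ^ p * b ^ (q + 1) = 1 * (a ^ p * b ^ q) * b := by rw [pow_succ]; group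
    have e5 : 1 * (b ^ q * a ^ p) * b = b ^ q * (a ^ p * b) * 1 := by group
    have e6 : b ^ q * (b * a ^ p) * 1 = b ^ (q + 1) * a ^ p := by rw [pow_succ]; group
    rw [e4, e1, e5, e2, e6]

theorem hol_tri {W : Type*} [Group W] (A : Γ × S → W) {a b d : FreeGroup S}
    (hc : Commute (ℓ a) (ℓ b)) (hd : ℓ d = ℓ a * ℓ b) (g : Γ) (p : ℕ)
    (h : ∀ x < p, ∀ y < p, hol ℓ A (g * ℓ a ^ x * ℓ b ^ y) (a * b * a⁻¹ * b⁻¹) = 1)
    (h' : ∀ x < p, hol ℓ A (g * ℓ a ^ x * ℓ b ^ x) (a * b * d⁻¹) = 1) :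
    hol ℓ A g (a ^ p * b ^ p) = hol ℓ A g (d ^ p) := by
  induction p with
  | zero => simp
  | succ p ih =>
    have e0 : ℓ (a ^ p * b ^ p) = ℓ (d ^ p) := by
      rw [map_mul, map_pow, map_pow, map_pow, hd, hc.mul_pow]
    have e1 := grid_congr A (u := a ^ 1 * b ^ p) (v := b ^ p * a ^ 1) (g := g)
      (by rw [map_mul, map_mul, map_pow, map_pow, (hc.pow_pow 1 p).eq]) (a ^ p) b
      (hol_rect A hc _ 1 p fun x hx y hy => by
        obtain rfl : x = 0 := by omega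
        rw [pow_zero, mul_one, map_pow]
        exact h p (Nat.lt_succ_self p) y (Nat.lt_succ_of_lt hy))
    have e2 := grid_congr A (g := g) e0 1 (a * b)
      (by
        rw [map_one, mul_one]
        exact ih (fun x hx y hy => h x (Nat.lt_succ_of_lt hx) y (Nat.lt_succ_of_lt hy))
          fun x hx => h' x (Nat.lt_succ_of_lt hx))
    have e7 : ℓ (a * b) = ℓ d := by rw [map_mul, hd]
    have e3 := grid_congr A (g := g) e7 (d ^ p) 1
      (grid_eq_of A e7 (by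
        rw [← e0, map_mul, map_pow, map_pow, ← mul_assoc]
        exact h' p (Nat.lt_succ_self p)))
    have e4 : a ^ (p + 1) * b ^ (p + 1) = a ^ p * (a ^ 1 * b ^ p) * b := by
      rw [pow_succ, pow_succ, pow_one]; group
    have e5 : a ^ p * (b ^ p * a ^ 1) * b = 1 * (a ^ p * b ^ p) * (a * b) := by
      rw [pow_one]; group
    have e6 : 1 * d ^ p * (a * b) = d ^ p * (a * b) * 1 := by group
    have e8 : d ^ p * d * 1 = d ^ (p + 1) := by rw [pow_succ, mul_one]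
    rw [e4, e1, e5, e2, e6, e3, e8]

theorem grid_fill_row {bd : R → FreeGroup S} {a b : FreeGroup S}
    {F : Set (Γ × R)} {c : Γ × R →₀ ℤ} (h : Fill ℓ bd F (a * b * a⁻¹ * b⁻¹) c) (p : ℕ) :
    Fill ℓ bd {f | ∃ x < p, ∃ f' ∈ F, f = mv (ℓ a ^ x) f'}
      (a ^ p * b * (a ^ p)⁻¹ * b⁻¹)
      (∑ x ∈ Finset.range p, c.mapDomain (mv (ℓ a ^ x))) := by
  induction p with
  | zero =>
    rw [pow_zero, one_mul, inv_one, mul_one, mul_inv_cancel, Finset.sum_range_zero]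
    exact Fill.one
  | succ p ih =>
    have e : a ^ (p + 1) * b * (a ^ (p + 1))⁻¹ * b⁻¹ =
        a ^ p * (a * b * a⁻¹ * b⁻¹) * (a ^ p)⁻¹ * (a ^ p * b * (a ^ p)⁻¹ * b⁻¹) := by
      rw [pow_succ]; group
    rw [e, Finset.sum_range_succ, add_comm (Finset.sum _ _)]
    refine Fill.mul ?_ (ih.mono ?_)
    · have := h.conj (a ^ p)
      rw [map_pow] at this
      refine this.mono ?_
      rintro _ ⟨f, hf, rfl⟩
      exact ⟨p, Nat.lt_succ_self p, f, hf, rfl⟩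
    · rintro f ⟨x, hx, hf⟩
      exact ⟨x, Nat.lt_succ_of_lt hx, hf⟩

theorem fill_block {bd : R → FreeGroup S} {a b : FreeGroup S} (hc : Commute (ℓ a) (ℓ b))
    {F : Set (Γ × R)} {c : Γ × R →₀ ℤ} (h : Fill ℓ bd F (a * b * a⁻¹ * b⁻¹) c) (p q : ℕ) :
    Fill ℓ bd {f | ∃ x < p, ∃ y < q, ∃ f' ∈ F, f = mv (ℓ a ^ x * ℓ b ^ y) f'}
      (a ^ p * b ^ q * (a ^ p)⁻¹ * (b ^ q)⁻¹)
      (∑ x ∈ Finset.range p, ∑ y ∈ Finset.range q, c.mapDomain (mv (ℓ a ^ x * ℓ b ^ y))) := by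
  induction q with
  | zero =>
    rw [pow_zero, mul_one, mul_inv_cancel, inv_one, mul_one]
    simp only [Finset.sum_range_zero, Finset.sum_const_zero]
    exact Fill.one
  | succ q ih =>
    have e : a ^ p * b ^ (q + 1) * (a ^ p)⁻¹ * (b ^ (q + 1))⁻¹ =
        a ^ p * b ^ q * (a ^ p)⁻¹ * (b ^ q)⁻¹ *
          (b ^ q * (a ^ p * b * (a ^ p)⁻¹ * b⁻¹) * (b ^ q)⁻¹) := by
      rw [pow_succ]; group
    simp only [Finset.sum_range_succ, Finset.sum_add_distrib]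
    rw [e]
    refine Fill.mul (ih.mono ?_) ?_
    · rintro f ⟨x, hx, y, hy, hf⟩
      exact ⟨x, hx, y, Nat.lt_succ_of_lt hy, hf⟩
    · have := (grid_fill_row h p).conj (b ^ q)
      have e2 : (∑ x ∈ Finset.range p, c.mapDomain (mv (ℓ a ^ x))).mapDomain (mv (ℓ (b ^ q))) =
          ∑ x ∈ Finset.range p, c.mapDomain (mv (ℓ a ^ x * ℓ b ^ q)) := by
        rw [Finsupp.mapDomain_finset_sum]
        refine Finset.sum_congr rfl fun x _ => ?_
        rw [← Finsupp.mapDomain_comp]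
        refine congrArg (fun t => Finsupp.mapDomain t c) (funext fun f => ?_)
        rw [Function.comp_apply, mv_mv, map_pow, (hc.pow_pow x q).eq]
      rw [e2] at this
      refine this.mono ?_
      rintro _ ⟨_, ⟨x, hx, f, hf, rfl⟩, rfl⟩
      exact ⟨x, hx, q, Nat.lt_succ_self q, f, hf, by rw [mv_mv, map_pow, (hc.pow_pow x q).eq]⟩

end Vale.Agent.P173
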