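import Vale.Agent.P173.Lin
import Vale.Agent.P173.Grid
import Vale.Agent.P173.Area

/-!
P173 Core, part A: the data attached to the triangles that do not depend on the scale.
-/

namespace Vale.Agent.P173

open scoped Quaternion

structure Sys {V T : Type} [LinearOrder V] [Fintype T] [DecidableEq T] (K : Cplx V T)
    (Γ : Type*) [Group Γ] (S R : Type*) where
  P : Pres Γ S R
  pe : V → V → FreeGroup S
  gv : ℕ → V → Γ
  χ : Γ →* Multiplicative (V → ℤ)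
  hcomm : ∀ σ, Commute (P.ℓ (pe (K.u σ) (K.v σ))) (P.ℓ (pe (K.v σ) (K.w σ)))
  hmul : ∀ σ, P.ℓ (pe (K.u σ) (K.w σ)) = P.ℓ (pe (K.u σ) (K.v σ)) * P.ℓ (pe (K.v σ) (K.w σ))
  hroot : ∀ n, gv n K.root = 1
  hgv : ∀ n a b, K.G.Adj a b → gv n a * P.ℓ (pe a b) ^ n = gv n b
  hχx : ∀ a b, Multiplicative.toAdd (χ (P.ℓ (pe a b))) = Pi.single b 1 - Pi.single a 1
  hχg : ∀ (n : ℕ) a, Multiplicative.toAdd (χ (gv n a)) =
    Pi.single a (n : ℤ) - Pi.single K.root (n : ℤ)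

variable {V T : Type} [LinearOrder V] [Fintype T] [DecidableEq T] {K : Cplx V T}
  {Γ : Type*} [Group Γ] {S R : Type*}

namespace Sys

variable (Y : Sys K Γ S R)

def a (σ : T) : FreeGroup S := Y.pe (K.u σ) (K.v σ)
def b (σ : T) : FreeGroup S := Y.pe (K.v σ) (K.w σ)
def d (σ : T) : FreeGroup S := Y.pe (K.u σ) (K.w σ)
def co (g : Γ) (z : V) : ℤ := Multiplicative.toAdd (Y.χ g) z
def pos (n : ℕ) (σ : T) (x y : ℕ) : Γ := Y.gv n (K.u σ) * Y.P.ℓ (Y.a σ) ^ x * Y.P.ℓ (Y.b σ) ^ y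

theorem comm (σ : T) : Commute (Y.P.ℓ (Y.a σ)) (Y.P.ℓ (Y.b σ)) := Y.hcomm σ

theorem ℓ_d (σ : T) : Y.P.ℓ (Y.d σ) = Y.P.ℓ (Y.a σ) * Y.P.ℓ (Y.b σ) := Y.hmul σ

theorem co_mul (g h : Γ) (z : V) : Y.co (g * h) z = Y.co g z + Y.co h z := by
  simp [co]

theorem co_pos (n : ℕ) (σ : T) (x y : ℕ) (z : V) : Y.co (Y.pos n σ x y) z =
    (if z = K.u σ then (n : ℤ) - x else 0) + (if z = K.v σ then (x : ℤ) - y else 0) +
      (if z = K.w σ then (y : ℤ) else 0) - (if z = K.root then (n : ℤ) else 0) := by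
  simp only [co, pos, a, b, map_mul, map_pow, toAdd_mul, toAdd_pow, Y.hχx, Y.hχg, Pi.add_apply,
    Pi.smul_apply, Pi.sub_apply, Pi.single_apply]
  simp only [nsmul_eq_mul]
  split_ifs <;> ring

theorem pos_mul (n : ℕ) (σ : T) (x y x' y' : ℕ) :
    Y.pos n σ x y * (Y.P.ℓ (Y.a σ) ^ x' * Y.P.ℓ (Y.b σ) ^ y') = Y.pos n σ (x + x') (y + y') := by
  have h := ((Y.comm σ).pow_pow x' y).eq
  simp only [pos, pow_add, mul_assoc]
  rw [← mul_assoc (Y.P.ℓ (Y.b σ) ^ y), ← h, mul_assoc]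

end Sys

theorem Cplx.exists_vertex (K : Cplx V T) {σ σ' : T} (h : σ ≠ σ') :
    ∃ z, (z = K.u σ' ∨ z = K.v σ' ∨ z = K.w σ') ∧ z ≠ K.u σ ∧ z ≠ K.v σ ∧ z ≠ K.w σ := by
  by_contra hno
  push Not at hno
  have h1 := hno _ (Or.inl rfl)
  have h2 := hno _ (Or.inr (Or.inl rfl))
  have h3 := hno _ (Or.inr (Or.inr rfl))
  have a1 := K.uv σ
  have a2 := K.vw σ
  have a3 := K.uv σ'
  have a4 := K.vw σ'
  have e1 : K.u σ' = K.u σ := by
    by_contra e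
    by_cases e' : K.u σ' = K.v σ
    · by_cases f : K.v σ' = K.u σ
      · order
      by_cases f' : K.v σ' = K.v σ
      · order
      have := h2 f f'
      by_cases g : K.w σ' = K.u σ
      · order
      by_cases g' : K.w σ' = K.v σ
      · order
      have := h3 g g'
      order
    · have := h1 e e'
      by_cases f : K.v σ' = K.u σ
      · order
      by_cases f' : K.v σ' = K.v σ
      · order
      have := h2 f f'
      order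
  have e2 : K.v σ' = K.v σ := by
    by_contra f'
    have f : K.v σ' ≠ K.u σ := by order
    have := h2 f f'
    by_cases g : K.w σ' = K.u σ
    · order
    by_cases g' : K.w σ' = K.v σ
    · order
    have := h3 g g'
    order
  have e3 : K.w σ' = K.w σ := h3 (by order) (by order)
  exact h (K.inj _ _ e1.symm e2.symm e3.symm)

structure Loc (Y : Sys K Γ S R) where
  m : ℕ
  κ₀ : ℕ
  hm : 2 * κ₀ < m
  U : T → Finset (Γ × R)
  hU : ∀ σ, ∀ f ∈ U σ, ∀ z, |Y.co f.1 z| ≤ κ₀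
  sq : ∀ σ, ∃ c, Fill Y.P.ℓ Y.P.bd (U σ : Set (Γ × R)) (Y.a σ * Y.b σ * (Y.a σ)⁻¹ * (Y.b σ)⁻¹) c
  tr : ∀ σ, ∃ c, Fill Y.P.ℓ Y.P.bd (U σ : Set (Γ × R)) (Y.a σ * Y.b σ * (Y.d σ)⁻¹) c
  f₀ : T → Γ × R
  hf₀ : ∀ σ, f₀ σ ∈ U σ
  ω : T → FreeGroup S
  hω : ∀ σ, Y.P.ℓ (ω σ) = Y.P.ℓ (Y.a σ) ^ m * Y.P.ℓ (Y.b σ) ^ m * (f₀ σ).1
  k : T → ℤ
  hk : ∀ σ, k σ ≠ 0
  F' : T → Finset (Γ × R)
  C : ℝ
  hC : 1 ≤ C
  lin : ∀ σ (A : Γ × S → S3) (g : Γ) (η : ℝ), 0 ≤ η → η ≤ 1 →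
    (∀ x < 2 * m, ∀ y < 2 * m, ∀ f' ∈ U σ,
      mv (Y.P.ℓ (Y.a σ) ^ x * Y.P.ℓ (Y.b σ) ^ y) f' ≠ (Y.P.ℓ (ω σ), (f₀ σ).2) →
      curv Y.P.ℓ Y.P.bd A (mv g (mv (Y.P.ℓ (Y.a σ) ^ x * Y.P.ℓ (Y.b σ) ^ y) f')) = 1) →
    (∀ f ∈ F' σ, ‖((curv Y.P.ℓ Y.P.bd A (mv g f) : S3) : ℍ) - 1‖ ≤ η) →
    ‖((curv Y.P.ℓ Y.P.bd A (mv g (Y.P.ℓ (ω σ), (f₀ σ).2)) : S3) : ℍ) - 1‖ ≤ η →
    ‖((hol Y.P.ℓ A g (Y.a σ ^ (2 * m) * Y.b σ ^ (2 * m) * (Y.a σ ^ (2 * m))⁻¹ *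
        (Y.b σ ^ (2 * m))⁻¹) : S3) : ℍ) - 1 - (k σ : ℝ) •
      (((hol Y.P.ℓ A g (ω σ * Y.P.bd (f₀ σ).2 * (ω σ)⁻¹) : S3) : ℍ) - 1)‖ ≤ C * η ^ 2

theorem exists_loc [Fintype V] (Y : Sys K Γ S R) : Nonempty (Loc Y) := by
  classical
  have h1 : ∀ σ, Y.P.ℓ (Y.a σ * Y.b σ * (Y.a σ)⁻¹ * (Y.b σ)⁻¹) = 1 := fun σ => by
    simp only [map_mul, map_inv, (Y.comm σ).eq]
    group
  have h2 : ∀ σ, Y.P.ℓ (Y.a σ * Y.b σ * (Y.d σ)⁻¹) = 1 := fun σ => by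
    simp only [map_mul, map_inv, Y.ℓ_d]
    group
  choose F1 c1 hc1 using fun σ => fill_exists Y.P (h1 σ)
  choose F2 c2 hc2 using fun σ => fill_exists Y.P (h2 σ)
  set U : T → Finset (Γ × R) := fun σ => F1 σ ∪ F2 σ with hUd
  set κ₀ : ℕ := Finset.univ.sup fun σ : T => (U σ).sup fun f =>
    Finset.univ.sup fun z : V => (Y.co f.1 z).natAbs with hκ
  have hU : ∀ σ, ∀ f ∈ U σ, ∀ z, |Y.co f.1 z| ≤ κ₀ := fun σ f hf z => by
    rw [Int.abs_eq_natAbs, Int.ofNat_le]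
    refine le_trans ?_ (Finset.le_sup (f := fun σ : T => (U σ).sup fun f =>
      Finset.univ.sup fun z : V => (Y.co f.1 z).natAbs) (Finset.mem_univ σ))
    refine le_trans ?_ (Finset.le_sup (f := fun f : Γ × R =>
      Finset.univ.sup fun z : V => (Y.co f.1 z).natAbs) hf)
    exact Finset.le_sup (f := fun z : V => (Y.co f.1 z).natAbs) (Finset.mem_univ z)
  have hsq : ∀ σ, Fill Y.P.ℓ Y.P.bd (U σ : Set (Γ × R))
      (Y.a σ * Y.b σ * (Y.a σ)⁻¹ * (Y.b σ)⁻¹) (c1 σ) := fun σ =>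
    (hc1 σ).mono (by simp [hUd])
  have harea : ∀ σ, ∃ f₀ ∈ (U σ : Set (Γ × R)), ∀ m : ℕ, 2 * κ₀ < m →
      (∑ x ∈ Finset.range (2 * m), ∑ y ∈ Finset.range (2 * m),
        (c1 σ).mapDomain (mv (Y.P.ℓ (Y.a σ) ^ x * Y.P.ℓ (Y.b σ) ^ y)))
          (mv (Y.P.ℓ (Y.a σ) ^ m * Y.P.ℓ (Y.b σ) ^ m) f₀) ≠ 0 := fun σ => by
    have huv := (K.uv σ).ne
    have hvw := (K.vw σ).ne
    have huw := ((K.uv σ).trans (K.vw σ)).ne
    refine exists_face_ne_zero Y.P.bd_one (Y.comm σ)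
      ((Pi.evalMonoidHom (fun _ => Multiplicative ℤ) (K.u σ)).comp
        ((MulEquiv.piMultiplicative _).toMonoidHom.comp Y.χ))⁻¹
      ((Pi.evalMonoidHom (fun _ => Multiplicative ℤ) (K.w σ)).comp
        ((MulEquiv.piMultiplicative _).toMonoidHom.comp Y.χ)) ?_ ?_ ?_ ?_ (hsq σ) κ₀ ?_
    · simp [Sys.a, Y.hχx, huv]
    · simp [Sys.b, Y.hχx, huv, huw]
    · simp [Sys.a, Y.hχx, hvw.symm, huw.symm]
    · simp [Sys.b, Y.hχx, hvw.symm]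
    · intro f hf
      have e1 := hU σ f hf (K.u σ)
      have e2 := hU σ f hf (K.w σ)
      simp only [Sys.co] at e1 e2
      simpa using ⟨e1, e2⟩
  choose f₀ hf₀ hne using harea
  set m := 2 * κ₀ + 1 with hm
  choose ω hω using fun σ => Y.P.surj (Y.P.ℓ (Y.a σ) ^ m * Y.P.ℓ (Y.b σ) ^ m * (f₀ σ).1)
  choose F' C hC0 hC using fun σ =>
    fill_lin Y.P (fill_block (Y.comm σ) (hsq σ) (2 * m) (2 * m)) (ω σ) (f₀ σ).2
  refine ⟨{ m := m, κ₀ := κ₀, hm := by omega, U := U, hU := hU, sq := fun σ => ⟨_, hsq σ⟩,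
            tr := fun σ => ⟨_, (hc2 σ).mono (by simp [hUd])⟩, f₀ := f₀, hf₀ := hf₀, ω := ω, hω := hω,
            k := fun σ => (∑ x ∈ Finset.range (2 * m), ∑ y ∈ Finset.range (2 * m),
              (c1 σ).mapDomain (mv (Y.P.ℓ (Y.a σ) ^ x * Y.P.ℓ (Y.b σ) ^ y)))
                (Y.P.ℓ (ω σ), (f₀ σ).2),
            hk := fun σ => ?_, F' := F', C := 1 + ∑ σ, C σ,
            hC := le_add_of_nonneg_right (Finset.sum_nonneg fun σ _ => hC0 σ),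
            lin := fun σ A g η h0 h1 ha hb hc => ?_ }⟩
  · rw [hω]
    exact hne σ m (by omega)
  · refine (hC σ A g η h0 h1 ?_ hb hc).trans (mul_le_mul_of_nonneg_right ?_ (by positivity))
    · rintro f ⟨x, hx, y, hy, f', hf', rfl⟩ hn
      exact ha x hx y hy f' hf' hn
    · have := Finset.single_le_sum (fun σ _ => hC0 σ) (Finset.mem_univ σ)
      linarith

/-- the deleted faces -/
def Loc.del {Y : Sys K Γ S R} (L : Loc Y) (M : ℕ) (σ : T) (j : ℕ) : Γ × R :=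
  mv (Y.pos ((M + 1) * (2 * L.m)) σ ((j + 1) * (2 * L.m) + L.m) L.m) (L.f₀ σ)

theorem Loc.sep {Y : Sys K Γ S R} (L : Loc Y) {M : ℕ} {σ σ' : T} {x y j : ℕ} (hj : j < M)
    {f : Γ × R} (hf : f ∈ L.U σ)
    (h : mv (Y.pos ((M + 1) * (2 * L.m)) σ x y) f = L.del M σ' j) :
    σ = σ' ∧ (j + 1) * (2 * L.m) ≤ x ∧ x < (j + 1) * (2 * L.m) + 2 * L.m ∧ y < 2 * L.m := by
  have h1 := congrArg Prod.fst h
  simp only [Loc.del, mv_fst] at h1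
  have key : ∀ z, |Y.co (Y.pos ((M + 1) * (2 * L.m)) σ x y) z - Y.co (Y.pos ((M + 1) * (2 * L.m)) σ'
      ((j + 1) * (2 * L.m) + L.m) L.m) z| ≤ 2 * L.κ₀ := fun z => by
    have h2 := congrArg (fun g => Y.co g z) h1
    simp only [Sys.co_mul] at h2
    have h3 := abs_le.1 (L.hU σ f hf z)
    have h4 := abs_le.1 (L.hU σ' _ (L.hf₀ σ') z)
    rw [abs_le]
    constructor <;> linarith
  have hm : (2 * L.κ₀ : ℤ) < L.m := by exact_mod_cast L.hm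
  have hjM : (j : ℤ) + 1 ≤ M := by exact_mod_cast hj
  have hm0 : (0 : ℤ) ≤ L.m := by positivity
  have hj0 : (0 : ℤ) ≤ j := by positivity
  have hprod : ((j : ℤ) + 1) * L.m ≤ M * L.m := mul_le_mul_of_nonneg_right hjM hm0
  have hprod' : (0 : ℤ) ≤ j * L.m := mul_nonneg hj0 hm0
  have huv := (K.uv σ').ne
  have hvw := (K.vw σ').ne
  have huw := ((K.uv σ').trans (K.vw σ')).ne
  have hs : σ = σ' := by
    by_contra hne
    obtain ⟨z, hz, z1, z2, z3⟩ := K.exists_vertex hne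
    have h5 := (abs_le.1 (key z)).1
    rw [Y.co_pos, Y.co_pos, if_neg z1, if_neg z2, if_neg z3] at h5
    rcases hz with rfl | rfl | rfl
    · rw [if_pos rfl, if_neg huv, if_neg huw] at h5
      push_cast at h5
      nlinarith
    · rw [if_neg huv.symm, if_pos rfl, if_neg hvw] at h5
      push_cast at h5
      nlinarith
    · rw [if_neg huw.symm, if_neg hvw.symm, if_pos rfl] at h5
      push_cast at h5
      nlinarith
  subst hs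
  have h5 := abs_le.1 (key (K.u σ))
  have h6 := abs_le.1 (key (K.w σ))
  rw [Y.co_pos, Y.co_pos, if_pos rfl, if_neg huv, if_neg huw, if_pos rfl, if_neg huv,
    if_neg huw] at h5
  rw [Y.co_pos, Y.co_pos, if_neg huw.symm, if_neg hvw.symm, if_pos rfl, if_neg huw.symm,
    if_neg hvw.symm, if_pos rfl] at h6
  push_cast at h5 h6
  refine ⟨rfl, ?_, ?_, ?_⟩
  · zify; nlinarith [h5.1, h5.2]
  · zify; nlinarith [h5.1, h5.2]
  · zify; nlinarith [h6.1, h6.2]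

end Vale.Agent.P173
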