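import Vale.Agent.P173.CoreA

/-!
P173 Core, part B: chords at scale `n = (M + 1) * 2 m`.
-/

namespace Vale.Agent.P173

open scoped Quaternion

theorem hol_congr {Γ : Type*} [Group Γ] {S W : Type*} [Group W] {ℓ : FreeGroup S →* Γ}
    (A : Γ × S → W) (g : Γ) (x y : FreeGroup S) {w w' : FreeGroup S} (h : ℓ w = ℓ w')
    (h' : hol ℓ A (g * ℓ x) w = hol ℓ A (g * ℓ x) w') :
    hol ℓ A g (x * w * y) = hol ℓ A g (x * w' * y) := by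
  simp only [hol_mul, map_mul, h, h']

theorem hol_mul_loop {Γ : Type*} [Group Γ] {S W : Type*} [Group W] {ℓ : FreeGroup S →* Γ}
    (A : Γ × S → W) (g : Γ) {w : FreeGroup S} (h : ℓ w = 1) (w' : FreeGroup S) :
    hol ℓ A g (w * w') = hol ℓ A g w * hol ℓ A g w' := by
  rw [hol_mul, h, mul_one]

theorem hol_inv_loop {Γ : Type*} [Group Γ] {S W : Type*} [Group W] {ℓ : FreeGroup S →* Γ}
    (A : Γ × S → W) (g : Γ) {w : FreeGroup S} (h : ℓ w = 1) :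
    hol ℓ A g w⁻¹ = (hol ℓ A g w)⁻¹ := by
  rw [hol_inv, h, inv_one, mul_one]

theorem S3.norm_conj_lin (z X X' : S3) (k : ℝ) :
    ‖((z * X * z⁻¹ : S3) : ℍ) - 1 - k • (((z * X' * z⁻¹ : S3) : ℍ) - 1)‖ =
      ‖(X : ℍ) - 1 - k • ((X' : ℍ) - 1)‖ := by
  have h1 : (z : ℍ) * ((z⁻¹ : S3) : ℍ) = 1 := by
    rw [← Metric.unitSphere.coe_mul, mul_inv_cancel]; rfl
  have e : ((z * X * z⁻¹ : S3) : ℍ) - 1 - k • (((z * X' * z⁻¹ : S3) : ℍ) - 1) =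
      (z : ℍ) * ((X : ℍ) - 1 - k • ((X' : ℍ) - 1)) * ((z⁻¹ : S3) : ℍ) := by
    simp only [Metric.unitSphere.coe_mul, mul_sub, sub_mul, mul_smul_comm, smul_mul_assoc, mul_one,
      h1]
  rw [e, norm_mul, norm_mul, S3.norm_coe, S3.norm_coe, one_mul, mul_one]

variable {V T : Type} [LinearOrder V] [Fintype T] [DecidableEq T] {K : Cplx V T}
  {Γ : Type*} [Group Γ] {S R : Type*} {Y : Sys K Γ S R}

structure Tau (Y : Sys K Γ S R) (n : ℕ) where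
  τ : V → FreeGroup S
  step : ∀ b, b ≠ K.root → τ b = τ (K.par b) * Y.pe (K.par b) b ^ n
  lab : ∀ b, Y.P.ℓ (τ b) = Y.gv n b

theorem exists_tau [Fintype V] (Y : Sys K Γ S R) (n : ℕ) : Nonempty (Tau Y n) := by
  let τ : V → FreeGroup S := (wellFounded_lt (α := V)).fix fun b ih =>
    if h : b = K.root then 1 else ih (K.par b) (K.par_lt b h) * Y.pe (K.par b) b ^ n
  have hτ : ∀ b, τ b = if b = K.root then 1 else τ (K.par b) * Y.pe (K.par b) b ^ n := fun b => by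
    simp only [τ]
    rw [WellFounded.fix_eq]
    split_ifs <;> rfl
  refine ⟨⟨τ, fun b hb => by rw [hτ b, if_neg hb], fun b => ?_⟩⟩
  induction b using WellFoundedLT.induction with
  | ind b ih =>
    rw [hτ b]
    split_ifs with h
    · rw [map_one, h, Y.hroot]
    · rw [map_mul, map_pow, ih _ (K.par_lt b h), Y.hgv n _ _ (K.par_adj b h)]

section scale

variable (L : Loc Y) (M : ℕ) (t : Tau Y ((M + 1) * (2 * L.m)))

def qe (a b : V) : FreeGroup S := t.τ a * Y.pe a b ^ ((M + 1) * (2 * L.m)) * (t.τ b)⁻¹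

def ch (σ : T) (j : ℕ) : FreeGroup S :=
  t.τ (K.u σ) * (Y.a σ ^ ((j + 1) * (2 * L.m)) * Y.b σ ^ (2 * L.m) *
    Y.a σ ^ ((M - j) * (2 * L.m)) * Y.b σ ^ (M * (2 * L.m))) * (t.τ (K.w σ))⁻¹

def pre (σ : T) (j : ℕ) : FreeGroup S := t.τ (K.u σ) * Y.a σ ^ ((j + 1) * (2 * L.m))

def cw (σ : T) (j : ℕ) : FreeGroup S :=
  pre L M t σ j * (L.ω σ * Y.P.bd (L.f₀ σ).2 * (L.ω σ)⁻¹) * (pre L M t σ j)⁻¹

def qw (j : T × Fin M) : FreeGroup S :=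
  if (j.2 : ℕ) = 0 then qe L M t (K.nt j.1).1 (K.nt j.1).2 else ch L M t j.1 j.2

theorem ℓ_qe {a b : V} (h : K.G.Adj a b) : Y.P.ℓ (qe L M t a b) = 1 := by
  simp only [qe, map_mul, map_pow, map_inv, t.lab, Y.hgv _ _ _ h, mul_inv_cancel]

theorem qe_tree {b : V} (h : b ≠ K.root) : qe L M t (K.par b) b = 1 := by
  rw [qe, ← t.step b h, mul_inv_cancel]

theorem ch_last (σ : T) :
    ch L M t σ M = qe L M t (K.u σ) (K.v σ) * qe L M t (K.v σ) (K.w σ) := by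
  simp only [ch, qe, Sys.a, Sys.b, Nat.sub_self, zero_mul, pow_zero, mul_one]
  rw [show Y.pe (K.v σ) (K.w σ) ^ ((M + 1) * (2 * L.m)) = Y.pe (K.v σ) (K.w σ) ^ (2 * L.m) *
    Y.pe (K.v σ) (K.w σ) ^ (M * (2 * L.m)) by rw [← pow_add]; congr 1; ring]
  simp only [mul_assoc, inv_mul_cancel_left]

theorem ch_succ (σ : T) {j : ℕ} (hj : j < M) :
    ch L M t σ (j + 1) * (ch L M t σ j)⁻¹ = pre L M t σ j *
      (Y.a σ ^ (2 * L.m) * Y.b σ ^ (2 * L.m) * (Y.a σ ^ (2 * L.m))⁻¹ * (Y.b σ ^ (2 * L.m))⁻¹) *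
        (pre L M t σ j)⁻¹ := by
  obtain ⟨e, rfl⟩ : ∃ e, M = j + 1 + e := ⟨M - (j + 1), by omega⟩
  simp only [ch, pre]
  rw [show j + 1 + e - (j + 1) = e by omega, show j + 1 + e - j = e + 1 by omega,
    show (j + 1 + 1) * (2 * L.m) = (j + 1) * (2 * L.m) + 2 * L.m by ring,
    show (e + 1) * (2 * L.m) = 2 * L.m + e * (2 * L.m) by ring, pow_add, pow_add]
  generalize Y.a σ ^ ((j + 1) * (2 * L.m)) = a1
  generalize Y.a σ ^ (2 * L.m) = a2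
  generalize Y.a σ ^ (e * (2 * L.m)) = a3
  generalize Y.b σ ^ (2 * L.m) = b1
  generalize Y.b σ ^ ((j + 1 + e) * (2 * L.m)) = b2
  group

theorem ℓ_ch (σ : T) {j : ℕ} (hj : j ≤ M) : Y.P.ℓ (ch L M t σ j) = 1 := by
  obtain ⟨e, rfl⟩ : ∃ e, M = j + e := ⟨M - j, by omega⟩
  have h1 := Y.hgv ((j + e + 1) * (2 * L.m)) _ _ (K.auv σ)
  have h2 := Y.hgv ((j + e + 1) * (2 * L.m)) _ _ (K.avw σ)
  have h3 := ((Y.comm σ).pow_pow (e * (2 * L.m)) (2 * L.m)).eq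
  simp only [ch, map_mul, map_pow, map_inv, t.lab, Nat.add_sub_cancel_left]
  rw [mul_inv_eq_one, ← h2, ← h1, mul_assoc (Y.P.ℓ (Y.a σ) ^ _), ← h3]
  simp only [Sys.a, Sys.b, mul_assoc]
  rw [← mul_assoc (Y.P.ℓ (Y.pe (K.u σ) (K.v σ)) ^ _), ← pow_add, ← pow_add]
  congr 3 <;> ring

theorem ℓ_qw (j : T × Fin M) : Y.P.ℓ (qw L M t j) = 1 := by
  unfold qw
  split_ifs
  · exact ℓ_qe L M t (K.nt_adj _)
  · exact ℓ_ch L M t _ j.2.2.le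

theorem ℓ_pre (σ : T) (j : ℕ) :
    Y.P.ℓ (pre L M t σ j) = Y.pos ((M + 1) * (2 * L.m)) σ ((j + 1) * (2 * L.m)) 0 := by
  simp [pre, Sys.pos, t.lab]

theorem mv_pre (σ : T) (j : ℕ) :
    mv (Y.P.ℓ (pre L M t σ j)) (Y.P.ℓ (L.ω σ), (L.f₀ σ).2) = L.del M σ j := by
  rw [ℓ_pre, L.hω, Loc.del, mv, mv, ← mul_assoc, Y.pos_mul, zero_add]

theorem hol_cw {W : Type*} [Group W] (A : Γ × S → W) (σ : T) (j : ℕ) :
    hol Y.P.ℓ A 1 (cw L M t σ j) = hol Y.P.ℓ A 1 (pre L M t σ j * L.ω σ) *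
      curv Y.P.ℓ Y.P.bd A (L.del M σ j) * (hol Y.P.ℓ A 1 (pre L M t σ j * L.ω σ))⁻¹ := by
  have e : cw L M t σ j = (pre L M t σ j * L.ω σ) * Y.P.bd (L.f₀ σ).2 * (pre L M t σ j * L.ω σ)⁻¹ := by
    simp only [cw]; group
  rw [e, hol_conj _ _ _ _ _ (Y.P.bd_one _), ← mv_pre L M t σ j]
  simp [curv]

theorem norm_cw (A : Γ × S → S3) (σ : T) (j : ℕ) :
    ‖((hol Y.P.ℓ A 1 (cw L M t σ j) : S3) : ℍ) - 1‖ =
      ‖((curv Y.P.ℓ Y.P.bd A (L.del M σ j) : S3) : ℍ) - 1‖ := by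
  rw [hol_cw, S3.norm_conj_sub_one]

structure Big (𝔽 : Finset (Γ × R)) : Prop where
  cell : ∀ σ, ∀ x < (M + 1) * (2 * L.m), ∀ y < (M + 1) * (2 * L.m), ∀ f ∈ L.U σ,
    mv (Y.pos ((M + 1) * (2 * L.m)) σ x y) f ∈ 𝔽
  aux : ∀ σ, ∀ j < M, ∀ f ∈ L.F' σ, mv (Y.P.ℓ (pre L M t σ j)) f ∈ 𝔽
  q : ∀ j, ∃ c, Fill Y.P.ℓ Y.P.bd (𝔽 : Set (Γ × R)) (qw L M t j) c

theorem exists_big : ∃ 𝔽, Big L M t 𝔽 := by
  classical
  choose Fq cq hq using fun j => fill_exists Y.P (ℓ_qw L M t j)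
  refine ⟨(Finset.univ.biUnion fun σ => (Finset.range ((M + 1) * (2 * L.m))).biUnion fun x =>
      (Finset.range ((M + 1) * (2 * L.m))).biUnion fun y =>
        (L.U σ).image (mv (Y.pos ((M + 1) * (2 * L.m)) σ x y))) ∪
    (Finset.univ.biUnion fun σ => (Finset.range M).biUnion fun j =>
      (L.F' σ).image (mv (Y.P.ℓ (pre L M t σ j)))) ∪ Finset.univ.biUnion Fq,
    fun σ x hx y hy f hf => ?_, fun σ j hj f hf => ?_, fun j => ⟨cq j, (hq j).mono ?_⟩⟩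
  · simp only [Finset.mem_union, Finset.mem_biUnion, Finset.mem_univ, Finset.mem_range,
      Finset.mem_image, true_and]
    exact Or.inl (Or.inl ⟨σ, x, hx, y, hy, f, hf, rfl⟩)
  · simp only [Finset.mem_union, Finset.mem_biUnion, Finset.mem_univ, Finset.mem_range,
      Finset.mem_image, true_and]
    exact Or.inl (Or.inr ⟨σ, j, hj, f, hf, rfl⟩)
  · intro f hf
    simp only [Finset.coe_union, Set.mem_union, Finset.mem_coe, Finset.mem_biUnion,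
      Finset.mem_univ, true_and]
    exact Or.inr ⟨j, hf⟩

def FlatOff (𝔽 : Finset (Γ × R)) (A : Γ × S → S3) : Prop :=
  ∀ f ∈ 𝔽, (∀ σ, ∀ j < M, f ≠ L.del M σ j) → curv Y.P.ℓ Y.P.bd A f = 1

variable {L M t} {𝔽 : Finset (Γ × R)} {A : Γ × S → S3}

theorem cell_flat (hB : Big L M t 𝔽) (hA : FlatOff L M 𝔽 A) (σ : T) {x y : ℕ}
    (hx : x < (M + 1) * (2 * L.m)) (hy : y < (M + 1) * (2 * L.m))
    (h : x < 2 * L.m ∨ 2 * L.m ≤ y) {f : Γ × R} (hf : f ∈ L.U σ) :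
    curv Y.P.ℓ Y.P.bd A (mv (Y.pos ((M + 1) * (2 * L.m)) σ x y) f) = 1 := by
  refine hA _ (hB.cell σ x hx y hy f hf) fun σ' j hj he => ?_
  obtain ⟨-, h1, -, h3⟩ := L.sep hj hf he
  have : 2 * L.m ≤ (j + 1) * (2 * L.m) := Nat.le_mul_of_pos_left _ (by omega)
  omega

theorem hol_ch_zero (hB : Big L M t 𝔽) (hA : FlatOff L M 𝔽 A) (σ : T) :
    hol Y.P.ℓ A 1 (ch L M t σ 0) = hol Y.P.ℓ A 1 (qe L M t (K.u σ) (K.w σ)) := by
  obtain ⟨c1, hc1⟩ := L.sq σ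
  obtain ⟨c2, hc2⟩ := L.tr σ
  have tri : ∀ x₀ p : ℕ, x₀ + p ≤ (M + 1) * (2 * L.m) → (x₀ + p ≤ 2 * L.m ∨ 2 * L.m ≤ x₀) →
      hol Y.P.ℓ A (Y.pos ((M + 1) * (2 * L.m)) σ x₀ x₀) (Y.a σ ^ p * Y.b σ ^ p) =
        hol Y.P.ℓ A (Y.pos ((M + 1) * (2 * L.m)) σ x₀ x₀) (Y.d σ ^ p) := fun x₀ p h1 h2 => by
    refine hol_tri A (Y.comm σ) (Y.ℓ_d σ) _ p (fun x hx y hy => ?_) (fun x hx => ?_)
    · rw [mul_assoc, Y.pos_mul]
      exact hc1.flat Y.P.bd_one A _ fun f hf =>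
        cell_flat hB hA σ (by omega) (by omega) (by omega) hf
    · rw [mul_assoc, Y.pos_mul]
      exact hc2.flat Y.P.bd_one A _ fun f hf =>
        cell_flat hB hA σ (by omega) (by omega) (by omega) hf
  have hl : ∀ p, Y.P.ℓ (Y.a σ ^ p * Y.b σ ^ p) = Y.P.ℓ (Y.d σ ^ p) := fun p => by
    rw [map_mul, map_pow, map_pow, map_pow, Y.ℓ_d, (Y.comm σ).mul_pow]
  have hn : (M + 1) * (2 * L.m) = 2 * L.m + M * (2 * L.m) := by ring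
  have e1 : ch L M t σ 0 = t.τ (K.u σ) * (Y.a σ ^ (2 * L.m) * Y.b σ ^ (2 * L.m)) *
      ((Y.a σ ^ (M * (2 * L.m)) * Y.b σ ^ (M * (2 * L.m))) * (t.τ (K.w σ))⁻¹) := by
    simp only [ch, zero_add, one_mul, Nat.sub_zero, mul_assoc]
  have e2 : qe L M t (K.u σ) (K.w σ) = (t.τ (K.u σ) * Y.d σ ^ (2 * L.m)) *
      Y.d σ ^ (M * (2 * L.m)) * (t.τ (K.w σ))⁻¹ := by
    simp only [qe, Sys.d]
    rw [show Y.pe (K.u σ) (K.w σ) ^ ((M + 1) * (2 * L.m)) = Y.pe (K.u σ) (K.w σ) ^ (2 * L.m) *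
      Y.pe (K.u σ) (K.w σ) ^ (M * (2 * L.m)) by rw [hn, pow_add]]
    simp only [mul_assoc]
  have p0 : 1 * Y.P.ℓ (t.τ (K.u σ)) = Y.pos ((M + 1) * (2 * L.m)) σ 0 0 := by
    simp [Sys.pos, t.lab]
  have p1 : 1 * Y.P.ℓ (t.τ (K.u σ) * Y.d σ ^ (2 * L.m)) =
      Y.pos ((M + 1) * (2 * L.m)) σ (2 * L.m) (2 * L.m) := by
    rw [one_mul, map_mul, ← hl, map_mul, map_pow, map_pow, t.lab, Sys.pos, mul_assoc]
  rw [e1, hol_congr A 1 _ _ (hl _) (by rw [p0]; exact tri 0 _ (by omega) (by omega)), e2,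
    ← mul_assoc]
  exact hol_congr A 1 _ _ (hl _) (by rw [p1]; exact tri _ _ (by omega) (by omega))

theorem hol_qe (hM : 0 < M) (A : Γ × S → S3) {a b : V} (hab : a < b) (h : K.G.Adj a b) :
    hol Y.P.ℓ A 1 (qe L M t a b) =
      (K.idx a b).elim 1 fun σ => hol Y.P.ℓ A 1 (qw L M t (σ, ⟨0, hM⟩)) := by
  rcases hi : K.idx a b with _ | σ
  · obtain ⟨h1, rfl⟩ := K.idx_none a b hab h hi
    rw [qe_tree L M t h1, hol_one]
    rfl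
  · simp [qw, K.idx_some a b σ hi]

theorem curv_le {η : ℝ} (h0 : 0 ≤ η) (hA : FlatOff L M 𝔽 A)
    (hc : ∀ σ, ∀ j < M, ‖((hol Y.P.ℓ A 1 (cw L M t σ j) : S3) : ℍ) - 1‖ ≤ η) {f : Γ × R}
    (hf : f ∈ 𝔽) : ‖((curv Y.P.ℓ Y.P.bd A f : S3) : ℍ) - 1‖ ≤ η := by
  by_cases h : ∀ σ, ∀ j < M, f ≠ L.del M σ j
  · rw [hA f hf h]
    simpa using h0
  · push Not at h
    obtain ⟨σ, j, hj, rfl⟩ := h
    rw [← norm_cw L M t]
    exact hc σ j hj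

theorem block_est (hB : Big L M t 𝔽) {η : ℝ} (h0 : 0 ≤ η) (h1 : η ≤ 1) (hA : FlatOff L M 𝔽 A)
    (hc : ∀ σ, ∀ j < M, ‖((hol Y.P.ℓ A 1 (cw L M t σ j) : S3) : ℍ) - 1‖ ≤ η) (σ : T) {j : ℕ}
    (hj : j < M) :
    ‖((hol Y.P.ℓ A 1 (ch L M t σ (j + 1)) * (hol Y.P.ℓ A 1 (ch L M t σ j))⁻¹ : S3) : ℍ) - 1 -
      (L.k σ : ℝ) • (((hol Y.P.ℓ A 1 (cw L M t σ j) : S3) : ℍ) - 1)‖ ≤ L.C * η ^ 2 := by
  have hb : Y.P.ℓ (Y.a σ ^ (2 * L.m) * Y.b σ ^ (2 * L.m) * (Y.a σ ^ (2 * L.m))⁻¹ *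
      (Y.b σ ^ (2 * L.m))⁻¹) = 1 := by
    simp only [map_mul, map_inv, map_pow, ((Y.comm σ).pow_pow _ _).eq]
    group
  have hω : Y.P.ℓ (L.ω σ * Y.P.bd (L.f₀ σ).2 * (L.ω σ)⁻¹) = 1 := by
    simp [Y.P.bd_one]
  rw [← hol_inv_loop A 1 (ℓ_ch L M t σ hj.le), ← hol_mul_loop A 1 (ℓ_ch L M t σ hj),
    ch_succ L M t σ hj, cw, hol_conj _ _ _ _ _ hb, hol_conj _ _ _ _ _ hω, S3.norm_conj_lin, one_mul]
  have hle : (j + 1) * (2 * L.m) + 2 * L.m ≤ (M + 1) * (2 * L.m) := by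
    have : (j + 1 + 1) * (2 * L.m) ≤ (M + 1) * (2 * L.m) := Nat.mul_le_mul_right _ (by omega)
    linarith
  refine L.lin σ A _ η h0 h1 (fun x hx y hy f' hf' hne => ?_) (fun f hf => ?_) ?_
  · have e : mv (Y.P.ℓ (pre L M t σ j)) (mv (Y.P.ℓ (Y.a σ) ^ x * Y.P.ℓ (Y.b σ) ^ y) f') =
        mv (Y.pos ((M + 1) * (2 * L.m)) σ ((j + 1) * (2 * L.m) + x) y) f' := by
      rw [mv_mv, ℓ_pre, Y.pos_mul, zero_add]
    refine hA _ (e ▸ hB.cell σ _ (by omega) _ (by omega) f' hf') fun σ' j' hj' he => ?_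
    obtain ⟨rfl, h2, h3, -⟩ := L.sep hj' hf' (e.symm.trans he)
    have hjj : j' = j := by
      rcases lt_trichotomy j' j with h | h | h
      · have : (j' + 1 + 1) * (2 * L.m) ≤ (j + 1) * (2 * L.m) := Nat.mul_le_mul_right _ (by omega)
        have e2 : (j' + 1 + 1) * (2 * L.m) = (j' + 1) * (2 * L.m) + 2 * L.m := by ring
        omega
      · exact h
      · have : (j + 1 + 1) * (2 * L.m) ≤ (j' + 1) * (2 * L.m) := Nat.mul_le_mul_right _ (by omega)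
        have e2 : (j + 1 + 1) * (2 * L.m) = (j + 1) * (2 * L.m) + 2 * L.m := by ring
        omega
    subst hjj
    rw [← mv_pre L M t] at he
    exact hne (mv_injective _ he)
  · exact curv_le h0 hA hc (hB.aux σ j hj f hf)
  · rw [mv_pre, ← norm_cw L M t]
    exact hc σ j hj

theorem del_inj {σ σ' : T} {j j' : ℕ} (hj' : j' < M) (h : L.del M σ j = L.del M σ' j') :
    σ = σ' ∧ j = j' := by
  obtain ⟨rfl, h2, h3, -⟩ := L.sep hj' (L.hf₀ σ) h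
  refine ⟨rfl, ?_⟩
  have hm := L.hm
  rcases lt_trichotomy j' j with h | h | h
  · have : (j' + 1 + 1) * (2 * L.m) ≤ (j + 1) * (2 * L.m) := Nat.mul_le_mul_right _ (by omega)
    have e2 : (j' + 1 + 1) * (2 * L.m) = (j' + 1) * (2 * L.m) + 2 * L.m := by ring
    omega
  · exact h.symm
  · have : (j + 1 + 1) * (2 * L.m) ≤ (j' + 1) * (2 * L.m) := Nat.mul_le_mul_right _ (by omega)
    have e2 : (j + 1 + 1) * (2 * L.m) = (j + 1) * (2 * L.m) + 2 * L.m := by ring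
    omega

end scale

end Vale.Agent.P173
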