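import Mathlib

namespace Vale.Agent.P173

universe u

/-- Integral cohomological dimension: the projective dimension of the trivial left
`ℤ[Γ]`-module `ℤ`. -/
noncomputable def cohomDim (Γ : Type) [Group Γ] : WithBot ℕ∞ :=
  CategoryTheory.projectiveDimension
    (ModuleCat.of (MonoidAlgebra ℤ Γ) (Representation.trivial ℤ Γ ℤ).asModule)

/-- `Γ` has a classifying space of dimension at most `n`: a connected Hausdorff CW complex with no
cells of dimension above `n`, with fundamental group isomorphic to `Γ`, and with a contractible
covering space (which is then the universal cover). -/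
def HasClassifyingSpaceDimLE (Γ : Type) [Group Γ] (n : ℕ) : Prop :=
  ∃ (X : Type u) (_ : TopologicalSpace X) (_ : T2Space X)
    (_ : Topology.CWComplex (Set.univ : Set X)),
    (∀ m : ℕ, n < m → IsEmpty (Topology.RelCWComplex.cell (Set.univ : Set X) m)) ∧
    ConnectedSpace X ∧
    (∃ x : X, Nonempty (FundamentalGroup X x ≃* Γ)) ∧
    ∃ (E : Type u) (_ : TopologicalSpace E) (p : E → X), IsCoveringMap p ∧ ContractibleSpace E

end Vale.Agent.P173
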