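import Vale.Agent.P173.Basic

/-!
P173 definitions for the degree theory (complete, no gaps).
-/

namespace Vale.Agent.P173

open scoped Quaternion
open Set

/-- The axioms of a (real valued) Brouwer degree at the target point `0`, for maps that are `C^1`
on a bounded open set and continuous on its closure. -/
structure Degree (E : Type*) [NormedAddCommGroup E] [NormedSpace ℝ E] where
  deg : Set E → (E → E) → ℝ
  norm : ∀ (Ω : Set E) (y : E), IsOpen Ω → Bornology.IsBounded Ω → y ∈ Ω →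
    deg Ω (fun x => x - y) ≠ 0
  htpy : ∀ (Ω : Set E) (H : ℝ → E → E), IsOpen Ω → Bornology.IsBounded Ω →
    ContinuousOn (fun p : ℝ × E => H p.1 p.2) (Icc 0 1 ×ˢ closure Ω) →
    (∀ t ∈ Icc (0 : ℝ) 1, ContDiffOn ℝ 1 (H t) Ω) →
    (∀ t ∈ Icc (0 : ℝ) 1, ∀ x ∈ frontier Ω, H t x ≠ 0) → deg Ω (H 0) = deg Ω (H 1)
  add : ∀ (Ω Ω₁ Ω₂ : Set E) (f : E → E), IsOpen Ω → Bornology.IsBounded Ω → IsOpen Ω₁ →
    IsOpen Ω₂ → Ω₁ ⊆ Ω → Ω₂ ⊆ Ω → Disjoint Ω₁ Ω₂ → ContDiffOn ℝ 1 f Ω →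
    ContinuousOn f (closure Ω) → (∀ x ∈ closure Ω, f x = 0 → x ∈ Ω₁ ∪ Ω₂) →
    deg Ω f = deg Ω₁ f + deg Ω₂ f

namespace Degree

variable {E : Type*} [NormedAddCommGroup E] [NormedSpace ℝ E] (D : Degree E)

theorem empty (f : E → E) : D.deg ∅ f = 0 := by
  have := D.add ∅ ∅ ∅ f isOpen_empty Bornology.isBounded_empty isOpen_empty isOpen_empty
    subset_rfl subset_rfl (by simp) (by simp [contDiffOn_empty]) (by simp) (by simp)
  linarith

theorem excise {Ω Ω₁ : Set E} {f : E → E} (h : IsOpen Ω) (hb : Bornology.IsBounded Ω)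
    (h₁ : IsOpen Ω₁) (hs : Ω₁ ⊆ Ω) (hf : ContDiffOn ℝ 1 f Ω) (hc : ContinuousOn f (closure Ω))
    (hz : ∀ x ∈ closure Ω, f x = 0 → x ∈ Ω₁) : D.deg Ω f = D.deg Ω₁ f := by
  have := D.add Ω Ω₁ ∅ f h hb h₁ isOpen_empty hs (empty_subset _) (by simp) hf hc
    (by simpa using hz)
  rw [this, D.empty, add_zero]

theorem exists_zero {Ω : Set E} {f : E → E} (h : IsOpen Ω) (hb : Bornology.IsBounded Ω)
    (hf : ContDiffOn ℝ 1 f Ω) (hc : ContinuousOn f (closure Ω)) (hd : D.deg Ω f ≠ 0) :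
    ∃ x ∈ closure Ω, f x = 0 := by
  by_contra hno
  push Not at hno
  exact hd ((D.excise h hb isOpen_empty (empty_subset _) hf hc
    fun x hx h0 => (hno x hx h0).elim).trans (D.empty f))

/-- straight-line homotopy -/
theorem segment {Ω : Set E} {f g : E → E} (h : IsOpen Ω) (hb : Bornology.IsBounded Ω)
    (hf : ContDiffOn ℝ 1 f Ω) (hfc : ContinuousOn f (closure Ω))
    (hg : ContDiffOn ℝ 1 g Ω) (hgc : ContinuousOn g (closure Ω))
    (hz : ∀ t ∈ Icc (0 : ℝ) 1, ∀ x ∈ frontier Ω, (1 - t) • f x + t • g x ≠ 0) :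
    D.deg Ω f = D.deg Ω g := by
  have := D.htpy Ω (fun t x => (1 - t) • f x + t • g x) h hb ?_ ?_ hz
  · simpa using this
  · refine ContinuousOn.add (ContinuousOn.smul (by fun_prop) ?_) (ContinuousOn.smul (by fun_prop) ?_)
    · exact hfc.comp continuousOn_snd fun p hp => hp.2
    · exact hgc.comp continuousOn_snd fun p hp => hp.2
  · intro t _
    exact (hf.const_smul (1 - t)).add (hg.const_smul t)

theorem congr {Ω : Set E} {f g : E → E} (h : IsOpen Ω) (hb : Bornology.IsBounded Ω)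
    (hf : ContDiffOn ℝ 1 f Ω) (hfc : ContinuousOn f (closure Ω))
    (hz : ∀ x ∈ frontier Ω, f x ≠ 0) (hfg : EqOn f g (closure Ω)) : D.deg Ω f = D.deg Ω g := by
  refine D.segment h hb hf hfc (hf.congr fun x hx => (hfg (subset_closure hx)).symm)
    (hfc.congr hfg.symm) fun t _ x hx => ?_
  rw [← hfg (frontier_subset_closure hx), ← add_smul, sub_add_cancel, one_smul]
  exact hz x hx

end Degree

open Classical in
/-- radial projection to the unit quaternions (junk value `1` at `0`) -/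
noncomputable def nrm (z : ℍ) : S3 :=
  if h : z = 0 then 1 else ⟨‖z‖⁻¹ • z, by
    rw [mem_sphere_zero_iff_norm, norm_smul, norm_inv, norm_norm,
      inv_mul_cancel₀ (norm_ne_zero_iff.2 h)]⟩

theorem coe_nrm {z : ℍ} (h : z ≠ 0) : (nrm z : ℍ) = ‖z‖⁻¹ • z := by
  simp [nrm, h]

theorem nrm_coe (z : S3) : nrm (z : ℍ) = z := by
  have h : (z : ℍ) ≠ 0 := fun h => by simpa [h] using S3.norm_coe z
  ext1
  rw [coe_nrm h, S3.norm_coe, inv_one, one_smul]

theorem nrm_smul {c : ℝ} (hc : 0 < c) (z : ℍ) : nrm (c • z) = nrm z := by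
  by_cases h : z = 0
  · simp [h]
  · ext1
    rw [coe_nrm h, coe_nrm (smul_ne_zero hc.ne' h), norm_smul, Real.norm_of_nonneg hc.le,
      smul_smul, mul_inv, mul_comm c⁻¹, mul_assoc, inv_mul_cancel₀ hc.ne', mul_one]

def Off (ι : Type*) : Set (ι → ℍ) := {x | ∀ i, x i ≠ 0}

def Shell (ι : Type*) : Set (ι → ℍ) := {x | ∀ i, 1 / 2 < ‖x i‖ ∧ ‖x i‖ < 2}

/-- `C^1` maps from the product of punctured quaternion lines to `S3`, invariant under positive
rescaling of each coordinate -/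
def SphMap {ι : Type*} [Fintype ι] (a : (ι → ℍ) → S3) : Prop :=
  ContDiffOn ℝ 1 (fun x => (a x : ℍ)) (Off ι) ∧
    ∀ c : ι → ℝ, (∀ i, 0 < c i) → ∀ x : ι → ℍ, a (fun i => c i • x i) = a x

/-- the thickened map whose zeros are the unit vectors `x` with `a i x = y i` for all `i` -/
noncomputable def thick {ι : Type*} (a : ι → (ι → ℍ) → S3) (y : ι → S3) (x : ι → ℍ) : ι → ℍ :=
  fun i => ‖x i‖ • (a i x : ℍ) - y i

noncomputable def wordMap {ι : Type*} (w : FreeGroup ι) (x : ι → ℍ) : S3 :=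
  FreeGroup.lift (fun i => nrm (x i)) w

end Vale.Agent.P173
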