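import Vale.Agent.P173.DegNL

/-!
P173 task DegLC (about 200 lines): invariance of `∫_Ω det D(Θ ∘ f)` along a segment that stays
outside the closed unit ball on the frontier.
Proof.  `N = {x ∈ closure Ω | ∃ t ∈ [0,1], ‖(1-t) f x + t g x‖ ≤ 1}` is compact (projection of a
closed subset of the compact `[0,1] × closure Ω`) and misses the frontier, so `N ⊆ Ω`.  Take a
smooth `χ : E → ℝ` with values in `[0,1]`, `χ = 1` on a neighbourhood of `N`, compact
`tsupport χ ⊆ Ω` (`exists_contDiff_tsupport_subset`-like lemmas, or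
`exists_smooth_zero_one_of_isClosed` / `exists_contMDiff_zero_iff_one_iff` applied to
`exists_compact_between`), and a second cutoff `ψ = 1` near `tsupport χ`, compact support in `Ω`.
Put `g' = f + χ • (g - f)`.  Pointwise on `Ω`, `det D(Θ ∘ g') = det D(Θ ∘ g)`: near `N` the maps
agree; off `N` both vanish by the chain rule since `‖g' x‖, ‖g x‖ > 1`.  The globally defined
compactly supported `C^1` maps `h₁ = ψ • (Θ ∘ f - id)` and `h₂ = ψ • (Θ ∘ g' - id)` agree outside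
`tsupport χ` (as germs: there `g' = f` near the point), and on `tsupport χ` we have
`1 + D h₁ = D(Θ ∘ f)`, `1 + D h₂ = D(Θ ∘ g')`.  Subtract the two instances of
`integral_det_one_add`.  Integrability on `Ω`: the integrands are continuous on `Ω` and vanish off
the compact `N`.
-/

namespace Vale.Agent.P173

open MeasureTheory Set Filter Topology

section aux

variable {E : Type*} [NormedAddCommGroup E] [NormedSpace ℝ E] [FiniteDimensional ℝ E]
  {Ω K : Set E}

theorem lc_exists_cutoff (ho : IsOpen Ω) (hK : IsClosed K) (hs : K ⊆ Ω) :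
    ∃ χ : E → ℝ, ContDiff ℝ 1 χ ∧ tsupport χ ⊆ Ω ∧ (∀ x ∈ K, ∀ᶠ y in 𝓝 x, χ y = 1) ∧
      ∀ x, χ x ∈ Icc (0 : ℝ) 1 := by
  obtain ⟨χ, h0, h1, h2⟩ := exists_contMDiffMap_zero_one_nhds_of_isClosed
    (modelWithCornersSelf ℝ E) (n := 1) ho.isClosed_compl hK
    (disjoint_compl_left_iff_subset.2 hs)
  refine ⟨χ, χ.contMDiff.contDiff, fun x hx => ?_, fun x hx => ?_, h2⟩
  · by_contra hn
    exact notMem_tsupport_iff_eventuallyEq.2 (h0.filter_mono (nhds_le_nhdsSet hn)) hx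
  · exact h1.filter_mono (nhds_le_nhdsSet hx)

omit [FiniteDimensional ℝ E] in
theorem lc_contDiff_cut (ho : IsOpen Ω) {χ : E → ℝ} (hχ : ContDiff ℝ 1 χ) (hs : tsupport χ ⊆ Ω)
    {F : E → E} (hF : ContDiffOn ℝ 1 F Ω) : ContDiff ℝ 1 fun x => χ x • F x := by
  refine contDiff_iff_contDiffAt.2 fun x => ?_
  by_cases hx : x ∈ Ω
  · exact hχ.contDiffAt.smul (hF.contDiffAt (ho.mem_nhds hx))
  · refine (contDiffAt_const (c := (0 : E))).congr_of_eventuallyEq ?_
    filter_upwards [notMem_tsupport_iff_eventuallyEq.1 fun h => hx (hs h)] with y hy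
    simp [hy]

omit [FiniteDimensional ℝ E] in
theorem lc_det_zero {Θ : E → E} (hΘ : ContDiff ℝ 1 Θ)
    (hΘ0 : ∀ y, 1 ≤ ‖y‖ → (fderiv ℝ Θ y).det = 0) (ho : IsOpen Ω) {f : E → E}
    (hf : ContDiffOn ℝ 1 f Ω) {x : E} (hx : x ∈ Ω) (h : 1 ≤ ‖f x‖) :
    (fderiv ℝ (Θ ∘ f) x).det = 0 := by
  rw [fderiv_comp x (hΘ.differentiable one_ne_zero _)
    ((hf.contDiffAt (ho.mem_nhds hx)).differentiableAt one_ne_zero)]
  exact (LinearMap.det_comp _ _).trans (mul_eq_zero_of_left (hΘ0 _ h) _)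

variable [MeasurableSpace E] [BorelSpace E] (μ : Measure E) [μ.IsAddHaarMeasure]

theorem lc_null (ho : IsOpen Ω) (hb : Bornology.IsBounded Ω) (hK : IsCompact K) (hs : K ⊆ Ω)
    {u v : E → E} (hu : ContDiffOn ℝ 1 u Ω) (hv : ContDiffOn ℝ 1 v Ω)
    (he : ∀ x ∉ K, u x = v x) :
    ∫ x in K, (fderiv ℝ u x).det ∂μ = ∫ x in K, (fderiv ℝ v x).det ∂μ := by
  have := FiniteDimensional.proper_real E
  obtain ⟨ψ, hψ, hs', h1, -⟩ := lc_exists_cutoff ho hK.isClosed hs
  have hc : HasCompactSupport ψ :=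
    Metric.isCompact_of_isClosed_isBounded (isClosed_tsupport ψ) (hb.subset hs')
  have key : ∀ {w : E → E}, ContDiffOn ℝ 1 w Ω → ∫ x in K, ((fderiv ℝ w x).det - 1) ∂μ
      + ∫ x in Kᶜ, ((1 + fderiv ℝ (fun y => ψ y • (w y - y)) x).det - 1) ∂μ = 0 := by
    intro w hw
    have h2 : ContDiff ℝ 1 fun y => ψ y • (w y - y) :=
      lc_contDiff_cut ho hψ hs' (hw.sub contDiffOn_id)
    have h3 : HasCompactSupport fun y => ψ y • (w y - y) := hc.smul_right
    have hi : Integrable (fun x => (1 + fderiv ℝ (fun y => ψ y • (w y - y)) x).det - 1) μ :=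
      ((ContinuousLinearMap.continuous_det.comp (continuous_const.add
        (h2.continuous_fderiv one_ne_zero))).sub continuous_const).integrable_of_hasCompactSupport
        ((h3.fderiv ℝ).comp_left (g := fun M : E →L[ℝ] E => (1 + M).det - 1)
          (by simp [ContinuousLinearMap.det]))
    rw [← integral_det_one_add μ h2 h3, ← integral_add_compl hK.measurableSet hi]
    congr 1
    refine setIntegral_congr_fun hK.measurableSet fun x hx => ?_
    have h4 : (fun y => ψ y • (w y - y)) =ᶠ[𝓝 x] fun y => w y - y := by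
      filter_upwards [h1 x hx] with y hy
      rw [hy, one_smul]
    have h5 := (hw.contDiffAt (ho.mem_nhds (hs hx))).differentiableAt one_ne_zero
    simp only [h4.fderiv_eq, fderiv_fun_sub h5 differentiableAt_fun_id, fderiv_fun_id]
    congr 2
    ext z
    simp
  have hi : ∀ {w : E → E}, ContDiffOn ℝ 1 w Ω →
      Integrable (fun x => (fderiv ℝ w x).det) (μ.restrict K) := fun hw =>
    ((ContinuousLinearMap.continuous_det.comp_continuousOn
      (hw.continuousOn_fderiv_of_isOpen ho le_rfl)).mono hs).integrableOn_compact hK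
  have hi1 : Integrable (fun _ => (1 : ℝ)) (μ.restrict K) :=
    integrableOn_const hK.measure_lt_top.ne
  have e1 := key hu
  have e2 := key hv
  have e3 : ∫ x in Kᶜ, ((1 + fderiv ℝ (fun y => ψ y • (u y - y)) x).det - 1) ∂μ
      = ∫ x in Kᶜ, ((1 + fderiv ℝ (fun y => ψ y • (v y - y)) x).det - 1) ∂μ := by
    refine setIntegral_congr_fun hK.measurableSet.compl fun x hx => ?_
    have h4 : (fun y => ψ y • (u y - y)) =ᶠ[𝓝 x] fun y => ψ y • (v y - y) := by
      filter_upwards [hK.isClosed.isOpen_compl.mem_nhds hx] with y hy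
      rw [he y hy]
    simp only [h4.fderiv_eq]
  rw [integral_sub (hi hu) hi1] at e1
  rw [integral_sub (hi hv) hi1] at e2
  linarith

end aux

theorem integral_det_segment {E : Type*} [NormedAddCommGroup E] [NormedSpace ℝ E]
    [FiniteDimensional ℝ E] [MeasurableSpace E] [BorelSpace E] (μ : Measure E)
    [μ.IsAddHaarMeasure] {Θ : E → E} (hΘ : ContDiff ℝ 1 Θ)
    (hΘ0 : ∀ y, 1 ≤ ‖y‖ → (fderiv ℝ Θ y).det = 0) {Ω : Set E} (ho : IsOpen Ω)
    (hb : Bornology.IsBounded Ω) {f g : E → E} (hf : ContDiffOn ℝ 1 f Ω)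
    (hfc : ContinuousOn f (closure Ω)) (hg : ContDiffOn ℝ 1 g Ω)
    (hgc : ContinuousOn g (closure Ω))
    (hz : ∀ t ∈ Icc (0 : ℝ) 1, ∀ x ∈ frontier Ω, 1 < ‖(1 - t) • f x + t • g x‖) :
    ∫ x in Ω, (fderiv ℝ (Θ ∘ f) x).det ∂μ = ∫ x in Ω, (fderiv ℝ (Θ ∘ g) x).det ∂μ := by
  have := FiniteDimensional.proper_real E
  have hH : ContinuousOn (fun p : ℝ × E => (1 - p.1) • f p.2 + p.1 • g p.2)
      (Icc 0 1 ×ˢ closure Ω) :=
    (ContinuousOn.smul (by fun_prop) (hfc.comp continuousOn_snd fun p hp => hp.2)).add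
      (continuousOn_fst.smul (hgc.comp continuousOn_snd fun p hp => hp.2))
  have hP : IsCompact (Icc (0 : ℝ) 1 ×ˢ closure Ω) := isCompact_Icc.prod hb.isCompact_closure
  have hN := (hP.of_isClosed_subset (hH.preimage_isClosed_of_isClosed hP.isClosed
    (Metric.isClosed_closedBall (x := 0) (ε := 1))) inter_subset_left).image continuous_snd
  set N := Prod.snd '' (Icc (0 : ℝ) 1 ×ˢ closure Ω ∩
    (fun p : ℝ × E => (1 - p.1) • f p.2 + p.1 • g p.2) ⁻¹' Metric.closedBall 0 1)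
  have hNs : N ⊆ Ω := by
    rintro _ ⟨p, ⟨h1, h2⟩, rfl⟩
    by_contra hn
    exact absurd (hz _ h1.1 _ ⟨h1.2, by rwa [ho.interior_eq]⟩) (by simpa using h2)
  have hout : ∀ x ∈ Ω, x ∉ N → ∀ t ∈ Icc (0 : ℝ) 1, 1 ≤ ‖(1 - t) • f x + t • g x‖ := by
    intro x hx hn t ht
    by_contra h
    exact hn ⟨(t, x), ⟨⟨ht, subset_closure hx⟩, by simpa using (not_le.1 h).le⟩, rfl⟩
  obtain ⟨χ, hχ, hs, h1, h2⟩ := lc_exists_cutoff ho hN.isClosed hNs
  have hK : IsCompact (tsupport χ) :=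
    Metric.isCompact_of_isClosed_isBounded (isClosed_tsupport χ) (hb.subset hs)
  have hNK : N ⊆ tsupport χ := fun x hx =>
    subset_tsupport _ (by simp [(h1 x hx).self_of_nhds])
  have hg' : ContDiffOn ℝ 1 (fun x => (1 - χ x) • f x + χ x • g x) Ω :=
    ((contDiffOn_const.sub hχ.contDiffOn).smul hf).add (hχ.contDiffOn.smul hg)
  have hf1 : ∀ x ∈ Ω, x ∉ N → 1 ≤ ‖f x‖ := fun x hx hn => by
    simpa using hout x hx hn 0 (left_mem_Icc.2 zero_le_one)
  have hg1 : ∀ x ∈ Ω, x ∉ N → 1 ≤ ‖g x‖ := fun x hx hn => by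
    simpa using hout x hx hn 1 (right_mem_Icc.2 zero_le_one)
  rw [setIntegral_eq_of_subset_of_forall_sdiff_eq_zero ho.measurableSet hs fun x hx =>
      lc_det_zero hΘ hΘ0 ho hf hx.1 (hf1 x hx.1 fun h => hx.2 (hNK h)),
    setIntegral_eq_of_subset_of_forall_sdiff_eq_zero ho.measurableSet hs fun x hx =>
      lc_det_zero hΘ hΘ0 ho hg hx.1 (hg1 x hx.1 fun h => hx.2 (hNK h)),
    lc_null μ ho hb hK hs (hΘ.comp_contDiffOn hf) (hΘ.comp_contDiffOn hg') fun x hx => by
      simp [image_eq_zero_of_notMem_tsupport hx]]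
  refine setIntegral_congr_fun hK.measurableSet fun x hx => ?_
  by_cases hn : x ∈ N
  · have h4 : (Θ ∘ fun x => (1 - χ x) • f x + χ x • g x) =ᶠ[𝓝 x] Θ ∘ g := by
      filter_upwards [h1 x hn] with y hy
      simp [hy]
    simp only [h4.fderiv_eq]
  · exact (lc_det_zero hΘ hΘ0 ho hg' (hs hx) (hout x (hs hx) hn _ (h2 x))).trans
      (lc_det_zero hΘ hΘ0 ho hg (hs hx) (hg1 x (hs hx) hn)).symm

end Vale.Agent.P173
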