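import Vale.Agent.P173.DegDefs

/-!
P173 task DegNL (about 150 lines): the determinant is a null Lagrangian.
Proof (Milnor-Rogers, copy the pattern of `Vale.Agent.P371.Brouwer`: `brouwer_weights` and the
`key` step of `brouwer_no_retraction`, now for a general finite dimensional `E` using
`Module.finBasis`):
* `det_weights`: `t ↦ det (1 + t M)` is a polynomial of degree at most `d = finrank E`, Lagrange
  interpolation at nodes `v 0 .. v d` gives weights independent of `M` with sum `1` (take `M = 0`).
* for small `t ≥ 0` the map `G x = x + t • h x` is injective (`ApproximatesLinearOn`), has positive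
  determinant, is the identity outside a ball `B ⊇ tsupport h` and is surjective
  (`ApproximatesLinearOn.surjective` on `univ`), hence `G '' B = B`; the change of variables formula
  `integral_image_eq_integral_abs_det_fderiv_smul` gives `∫_B det (1 + t Dh) = μ B`.
* outside `B` the integrand vanishes.
-/

namespace Vale.Agent.P173

open MeasureTheory Set Polynomial

theorem det_weights {E : Type*} [NormedAddCommGroup E] [NormedSpace ℝ E] [FiniteDimensional ℝ E]
    (v : ℕ → ℝ) (hv : InjOn v (Finset.range (Module.finrank ℝ E + 1))) :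
    ∃ w : ℕ → ℝ, ∀ M : E →L[ℝ] E,
      (1 + M).det = ∑ k ∈ Finset.range (Module.finrank ℝ E + 1), w k * (1 + v k • M).det := by
  set d := Module.finrank ℝ E
  refine ⟨fun k => (Lagrange.basis (Finset.range (d + 1)) v k).eval 1, fun M => ?_⟩
  set b := Module.finBasis ℝ E
  set A := LinearMap.toMatrix b b (M : E →ₗ[ℝ] E)
  set p : ℝ[X] := Matrix.det ((X : ℝ[X]) • A.map C + (1 : Matrix (Fin d) (Fin d) ℝ).map C) with hp
  have he : ∀ t : ℝ, p.eval t = (1 + t • M).det := fun t => by
    rw [ContinuousLinearMap.det, ← LinearMap.det_toMatrix b, hp, ← coe_evalRingHom,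
      RingHom.map_det]
    congr 1
    have e : LinearMap.toMatrix b b ((1 + t • M : E →L[ℝ] E) : E →ₗ[ℝ] E) = 1 + t • A := by
      rw [ContinuousLinearMap.toLinearMap_add, ContinuousLinearMap.toLinearMap_smul, map_add,
        map_smul, ContinuousLinearMap.toLinearMap_one, LinearMap.toMatrix_one]
    rw [e]
    ext i j
    simp only [RingHom.mapMatrix_apply, Matrix.map_apply, Matrix.add_apply, Matrix.smul_apply,
      smul_eq_mul, coe_evalRingHom, eval_add, eval_mul, eval_X, eval_C]
    ring
  have hd : p.degree < (Finset.range (d + 1)).card := by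
    have := natDegree_det_X_add_C_le A 1
    rw [Fintype.card_fin] at this
    rw [Finset.card_range]
    exact (degree_le_of_natDegree_le this).trans_lt (by exact_mod_cast Nat.lt_succ_self d)
  have h1 := congrArg (eval 1) (Lagrange.eq_interpolate hv hd)
  rw [he, one_smul, Lagrange.interpolate_apply, eval_finsetSum] at h1
  rw [h1]
  exact Finset.sum_congr rfl fun k _ => by rw [eval_mul, eval_C, he, mul_comm]

theorem integral_det_one_add {E : Type*} [NormedAddCommGroup E] [NormedSpace ℝ E]
    [FiniteDimensional ℝ E] [MeasurableSpace E] [BorelSpace E] (μ : Measure E)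
    [μ.IsAddHaarMeasure] {h : E → E} (hh : ContDiff ℝ 1 h) (hc : HasCompactSupport h) :
    ∫ x, ((1 + fderiv ℝ h x).det - 1) ∂μ = 0 := by
  have : CompleteSpace E := FiniteDimensional.complete ℝ E
  have hd : Differentiable ℝ h := hh.differentiable (by simp)
  have hcf : Continuous (fderiv ℝ h) := hh.continuous_fderiv (by simp)
  have hS : IsCompact (tsupport h) := hc
  obtain ⟨K, hK⟩ := hcf.bounded_above_of_compact_support (hc.fderiv ℝ)
  have hK0 : 0 ≤ K := (norm_nonneg _).trans (hK 0)
  have h0 : (1 : E →L[ℝ] E).det = 1 := by simp [ContinuousLinearMap.det]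
  obtain ⟨δ, hδ, hdet⟩ : ∃ δ > 0, ∀ M : E →L[ℝ] E, dist M 1 < δ → 0 < M.det :=
    Metric.eventually_nhds_iff.1 (ContinuousLinearMap.continuous_det.continuousAt.eventually
      (lt_mem_nhds (one_pos.trans_eq h0.symm)))
  set t0 : ℝ := min δ 1 / (2 * (K + 1)) with ht0
  have hm : 0 < min δ 1 := lt_min hδ one_pos
  have ht00 : 0 < t0 := by positivity
  have ht01 : t0 * (K + 1) = min δ 1 / 2 := by rw [ht0]; field_simp
  have key : ∀ t : ℝ, 0 ≤ t → t ≤ t0 →
      ∫ x in tsupport h, (1 + t • fderiv ℝ h x).det ∂μ = μ.real (tsupport h) := by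
    intro t ht htt
    have h3 : t * (K + 1) ≤ min δ 1 / 2 := ht01 ▸ mul_le_mul_of_nonneg_right htt (by positivity)
    have h4 := min_le_left δ 1
    have h5 := min_le_right δ 1
    have htK : t * K ≤ 1 / 2 := by nlinarith
    have hG : ∀ x, HasFDerivAt (fun x => x + t • h x) (1 + t • fderiv ℝ h x) x := fun x =>
      (hasFDerivAt_id x).add ((hd x).hasFDerivAt.const_smul t)
    have hA : ApproximatesLinearOn (fun x => x + t • h x)
        ((ContinuousLinearEquiv.refl ℝ E : _ ≃L[ℝ] _) : _ →L[ℝ] _) univ (1 / 2 : NNReal) := by
      intro x hx y hy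
      have := convex_univ.norm_image_sub_le_of_norm_fderiv_le
        (fun x _ => hd x) (fun x _ => hK x) hy hx
      have e : x + t • h x - (y + t • h y)
          - ((ContinuousLinearEquiv.refl ℝ E : _ ≃L[ℝ] _) : _ →L[ℝ] _) (x - y)
          = t • (h x - h y) := by
        simp only [ContinuousLinearEquiv.coe_refl, ContinuousLinearMap.id_apply, smul_sub]
        abel
      rw [e, norm_smul, Real.norm_of_nonneg ht]
      have h6 := mul_le_mul_of_nonneg_left this ht
      have h7 := mul_le_mul_of_nonneg_right htK (norm_nonneg (x - y))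
      push_cast
      linarith
    have hN : Subsingleton E ∨ (1 / 2 : NNReal) <
        ‖((ContinuousLinearEquiv.refl ℝ E).symm : E →L[ℝ] E)‖₊⁻¹ := by
      rcases subsingleton_or_nontrivial E with h | h
      · exact Or.inl h
      · right
        simp only [ContinuousLinearEquiv.refl_symm, ContinuousLinearEquiv.coe_refl,
          ContinuousLinearMap.nnnorm_id, inv_one]
        exact one_half_lt_one
    have hinj := injOn_univ.1 (hA.injOn hN)
    have hid : ∀ x ∉ tsupport h, x + t • h x = x := fun x hx => by
      rw [image_eq_zero_of_notMem_tsupport hx, smul_zero, add_zero]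
    have him : (fun x => x + t • h x) '' tsupport h = tsupport h := by
      refine Subset.antisymm ?_ fun y hy => ?_
      · rintro _ ⟨x, hx, rfl⟩
        by_contra hn
        have e : x + t • h x = x := hinj (hid _ hn)
        exact hn (mem_of_eq_of_mem e hx)
      · obtain ⟨x, rfl⟩ := hA.surjective hN y
        refine ⟨x, ?_, rfl⟩
        by_contra hn
        exact hn (hid x hn ▸ hy)
    have h6 := integral_image_eq_integral_abs_det_fderiv_smul μ hS.measurableSet
      (fun x _ => (hG x).hasFDerivWithinAt) hinj.injOn (fun _ => (1 : ℝ))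
    rw [him] at h6
    simp only [integral_const, smul_eq_mul, mul_one, MeasurableSet.univ,
      measureReal_restrict_apply, univ_inter] at h6
    rw [h6]
    refine setIntegral_congr_fun hS.measurableSet fun x _ => (abs_of_pos (hdet _ ?_)).symm
    rw [dist_eq_norm, add_sub_cancel_left, norm_smul, Real.norm_of_nonneg ht]
    have := mul_le_mul_of_nonneg_left (hK x) ht
    nlinarith
  set d := Module.finrank ℝ E
  obtain ⟨w, hw⟩ := det_weights (E := E) (fun k => t0 * (k / (d + 1))) (fun i _ j _ h => by
    have h3 := mul_left_cancel₀ ht00.ne' h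
    rw [div_left_inj' (by positivity)] at h3
    exact_mod_cast h3)
  have hw1 : ∑ k ∈ Finset.range (d + 1), w k = 1 := by
    simpa [ContinuousLinearMap.det] using (hw 0).symm
  have hint : ∀ t : ℝ, IntegrableOn (fun x => (1 + t • fderiv ℝ h x).det) (tsupport h) μ :=
    fun t => (ContinuousLinearMap.continuous_det.comp (continuous_const.add
      (hcf.const_smul t))).continuousOn.integrableOn_compact hS
  have h7 : ∫ x in tsupport h, (1 + fderiv ℝ h x).det ∂μ = μ.real (tsupport h) := by
    rw [show (fun x => (1 + fderiv ℝ h x).det) = _ from funext fun x => hw _,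
      integral_finsetSum _ fun k _ => (hint _).const_mul _]
    simp only [integral_const_mul]
    rw [Finset.sum_congr rfl fun k hk => by
      rw [key _ (by positivity) (mul_le_of_le_one_right ht00.le (by
        rw [div_le_one (by positivity)]
        exact_mod_cast (Finset.mem_range.1 hk).le))], ← Finset.sum_mul, hw1, one_mul]
  have hi : Integrable (fun _ => (1 : ℝ)) (μ.restrict (tsupport h)) :=
    integrableOn_const hS.measure_lt_top.ne
  rw [← setIntegral_eq_integral_of_forall_compl_eq_zero (s := tsupport h) fun x hx => by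
      rw [fderiv_of_notMem_tsupport ℝ hx, add_zero, h0, sub_self],
    integral_sub (by simpa [IntegrableOn] using hint 1) hi, h7]
  simp

end Vale.Agent.P173
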