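import Vale.Agent.P173.TopDefs

/-!
P173 task Hopf (about 120 lines): a continuous family of idempotents over a contractible space has a
continuous section that does not vanish on a given compact set.
`contractible_iff_id_nullhomotopic` gives `H : C(I × E, E)` from a constant `e₀` to the identity.  The
map `t ↦ (z ↦ P (H (t, z)))` from `I` to `C(K, W →L[ℝ] W)` is continuous (`ContinuousMap.curry`), hence
uniformly continuous: for a large `N`, `‖P (H (t, z)) - P (H (t', z))‖ < 1` whenever `|t - t'| ≤ 1 / N`,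
`z ∈ K`.  Let `v 0 z = P e₀ w ≠ 0`, `v (k + 1) z = P (H (t (k + 1), z)) (v k z)`.  If `P v = v ≠ 0` and
`‖P - P'‖ < 1` then `P' v ≠ 0` because `‖v - P' v‖ < ‖v‖`.
-/

namespace Vale.Agent.P173

theorem exists_section {E : Type*} [TopologicalSpace E] [ContractibleSpace E] {W : Type*}
    [NormedAddCommGroup W] [NormedSpace ℝ W] (P : E → W →L[ℝ] W) (hP : Continuous P)
    (hi : ∀ z v, P z (P z v) = P z v) (hn : ∀ z, ∃ v, P z v ≠ 0) {K : Set E} (hK : IsCompact K) :
    ∃ v : E → W, Continuous v ∧ (∀ z, P z (v z) = v z) ∧ ∀ z ∈ K, v z ≠ 0 := by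
  obtain ⟨e₀, ⟨H⟩⟩ := (contractible_iff_id_nullhomotopic E).1 inferInstance
  have : CompactSpace K := isCompact_iff_compactSpace.1 hK
  let τ : ℝ → unitInterval := Set.projIcc 0 1 zero_le_one
  have hτ : Continuous τ := continuous_projIcc
  let G : C(unitInterval × K, W →L[ℝ] W) := ⟨fun q => P (H (q.1, q.2)), by fun_prop⟩
  have hu : UniformContinuous G.curry := CompactSpace.uniformContinuous_of_continuous
    G.curry.continuous
  obtain ⟨δ, hδ, hG⟩ := (Metric.uniformContinuous_iff (α := unitInterval) (β := C(K, W →L[ℝ] W))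
    (f := G.curry)).1 (by exact hu) 1 one_pos
  obtain ⟨N, hN⟩ := exists_nat_one_div_lt hδ
  have hN0 : (0 : ℝ) < (N : ℝ) + 1 := by positivity
  let t : ℕ → unitInterval := fun k => τ (1 - k / ((N : ℝ) + 1))
  have hstep : ∀ k, ∀ z ∈ K, ‖P (H (t k, z)) - P (H (t (k + 1), z))‖ < 1 := fun k z hz => by
    have h1 : dist (t k) (t (k + 1)) < δ := by
      refine lt_of_le_of_lt ?_ hN
      refine ((LipschitzWith.projIcc zero_le_one).dist_le_mul _ _).trans (le_of_eq ?_)
      rw [Real.dist_eq, NNReal.coe_one, one_mul]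
      have : 1 - (k : ℝ) / ((N : ℝ) + 1) - (1 - ((k + 1 : ℕ) : ℝ) / ((N : ℝ) + 1)) =
          1 / ((N : ℝ) + 1) := by
        push_cast
        ring
      rw [this, abs_of_pos (by positivity)]
    have h2 := (ContinuousMap.dist_apply_le_dist (f := G.curry (t k)) (g := G.curry (t (k + 1)))
      ⟨z, hz⟩).trans_lt (hG h1)
    rw [dist_eq_norm] at h2
    exact h2
  have key : ∀ k, ∃ v : E → W, Continuous v ∧ (∀ z, P (H (t k, z)) (v z) = v z) ∧
      ∀ z ∈ K, v z ≠ 0 := by
    intro k
    induction k with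
    | zero =>
      obtain ⟨w, hw⟩ := hn e₀
      have h0 : t 0 = 1 := by simp [t, τ]
      refine ⟨fun _ => P e₀ w, continuous_const, fun z => ?_, fun _ _ => hw⟩
      rw [h0, H.apply_one]
      exact hi _ _
    | succ k ih =>
      obtain ⟨v, hv, h1, h2⟩ := ih
      refine ⟨fun z => P (H (t (k + 1), z)) (v z), ?_, fun z => hi _ _, fun z hz h => ?_⟩
      · exact (hP.comp (H.continuous.comp (continuous_const.prodMk continuous_id))).clm_apply hv
      · have h3 := (P (H (t k, z)) - P (H (t (k + 1), z))).le_opNorm (v z)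
        have h' : P (H (t (k + 1), z)) (v z) = 0 := h
        rw [sub_apply, h1, h', sub_zero] at h3
        have h4 : 0 < ‖v z‖ := norm_pos_iff.2 (h2 z hz)
        have h5 := hstep k z hz
        nlinarith
  obtain ⟨v, hv, h1, h2⟩ := key (N + 1)
  refine ⟨v, hv, fun z => ?_, h2⟩
  have h0 : t (N + 1) = 0 := by
    simp only [t, τ]
    push_cast
    rw [div_self hN0.ne', sub_self]
    simp
  have := h1 z
  rw [h0, H.apply_zero] at this
  exact this

end Vale.Agent.P173
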