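import Vale.Agent.P173.TopDefs

/-!
P173 task Inc (about 200 lines): the logarithmic increment.
Logarithms on simply connected, locally path connected spaces:
`Complex.isCoveringMap_exp.existsUnique_continuousMap_lifts` (see `exists_log`, `log_unique` in
`Vale.Agent.P039.Top1`; `I`, `I × I` are contractible: convex sets, `Convex.contractibleSpace`, or
precompose with `Set.projIcc` to work on `ℝ` and `ℝ × ℝ`).  Two continuous logarithms differ by a
continuous function with values in `2πi ℤ`, which is constant.  `inc_trans`: glue the two logarithms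
as paths in `ℂ` with `Path.trans`.  `inc_disk`: apply `inc_htpy` to
`(s, t) ↦ f ((1 - s) • exp (2π t i) + s)` and `inc_const`.
-/

namespace Vale.Agent.P173

open unitInterval Metric

theorem incAux_unique {A : Type*} [TopologicalSpace A] [PreconnectedSpace A] {L L' : A → ℂ}
    (hL : Continuous L) (hL' : Continuous L') (h : ∀ t, Complex.exp (L t) = Complex.exp (L' t))
    (a b : A) : L a - L' a = L b - L' b := by
  refine Complex.isCoveringMap_exp.const_of_comp (g := fun t => L t - L' t) (hL.sub hL')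
    (fun s t => Subtype.ext ?_) a b
  simp only [Complex.exp_sub, h, div_self (Complex.exp_ne_zero _)]

theorem incAux_log {A : Type*} [TopologicalSpace A] [SimplyConnectedSpace A]
    [LocallyPathConnectedSpace A] (f : A → ℂ) (hf : Continuous f) (h0 : ∀ a, f a ≠ 0) :
    ∃ l : A → ℂ, Continuous l ∧ ∀ a, Complex.exp (l a) = f a := by
  obtain ⟨a0⟩ : Nonempty A := inferInstance
  obtain ⟨F, ⟨-, hF⟩, -⟩ := Complex.isCoveringMapOn_exp.existsUnique_continuousMap_lifts
    (⟨f, hf⟩ : C(A, ℂ)) (a₀ := a0) (Complex.exp_log (h0 a0)) (fun a => h0 a)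
  exact ⟨F, F.continuous, fun a => congrFun hF a⟩

theorem inc_eq {f L : I → ℂ} (hL : Continuous L) (h : ∀ t, Complex.exp (L t) = f t) :
    inc f = L 1 - L 0 := by
  have h1 : ∃ L : I → ℂ, Continuous L ∧ ∀ t, Complex.exp (L t) = f t := ⟨L, hL, h⟩
  rw [inc, dif_pos h1]
  have := incAux_unique h1.choose_spec.1 hL (fun t => by rw [h1.choose_spec.2, h]) 1 0
  linear_combination this

theorem exists_log_I {f : I → ℂ} (hf : Continuous f) (h : ∀ t, f t ≠ 0) :
    ∃ L : I → ℂ, Continuous L ∧ ∀ t, Complex.exp (L t) = f t := by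
  obtain ⟨l, hl, h1⟩ := incAux_log (fun t : ℝ => f (Set.projIcc 0 1 zero_le_one t))
    (hf.comp continuous_projIcc) fun t => h _
  refine ⟨fun t => l t, hl.comp continuous_subtype_val, fun t => ?_⟩
  rw [h1, Set.projIcc_val]

theorem inc_const (c : ℂ) : inc (fun _ => c) = 0 := by
  by_cases hc : c = 0
  · rw [inc, dif_neg]
    rintro ⟨L, -, hL⟩
    exact Complex.exp_ne_zero _ ((hL 0).trans hc)
  · rw [inc_eq (L := fun _ => Complex.log c) continuous_const fun _ => Complex.exp_log hc, sub_self]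

theorem inc_mul {f g : I → ℂ} (hf : Continuous f) (hf0 : ∀ t, f t ≠ 0) (hg : Continuous g)
    (hg0 : ∀ t, g t ≠ 0) : inc (fun t => f t * g t) = inc f + inc g := by
  obtain ⟨L, hL, h⟩ := exists_log_I hf hf0
  obtain ⟨L', hL', h'⟩ := exists_log_I hg hg0
  rw [inc_eq hL h, inc_eq hL' h', inc_eq (L := fun t => L t + L' t) (hL.add hL') fun t => by
    rw [Complex.exp_add, h, h']]
  ring

theorem inc_circle :
    inc (fun t => Complex.exp (2 * Real.pi * (t : ℝ) * Complex.I)) = 2 * Real.pi * Complex.I := by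
  rw [inc_eq (L := fun t : I => 2 * Real.pi * (t : ℝ) * Complex.I) (by fun_prop) fun _ => rfl]
  simp

theorem inc_trans {Z : Type*} [TopologicalSpace Z] {lam : Z → ℂ} (hl : Continuous lam) {x y z : Z}
    (γ : Path x y) (γ' : Path y z) (h : ∀ t, lam (γ t) ≠ 0) (h' : ∀ t, lam (γ' t) ≠ 0) :
    inc (fun t => lam (γ.trans γ' t)) = inc (fun t => lam (γ t)) + inc (fun t => lam (γ' t)) := by
  obtain ⟨L, hL, h1⟩ := exists_log_I (f := fun t => lam (γ t)) (hl.comp γ.continuous) h
  obtain ⟨L', hL', h1'⟩ := exists_log_I (f := fun t => lam (γ' t)) (hl.comp γ'.continuous) h'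
  have hc : Complex.exp (L 1 - L' 0) = 1 := by
    rw [Complex.exp_sub, h1, h1', γ.target, γ'.source]
    exact div_self (by simpa using h' 0)
  let P : Path (L 0) (L 1) := ⟨⟨L, hL⟩, rfl, rfl⟩
  let P' : Path (L 1) (L' 1 + (L 1 - L' 0)) :=
    ⟨⟨fun t => L' t + (L 1 - L' 0), by fun_prop⟩, by simp, rfl⟩
  rw [inc_eq hL h1, inc_eq hL' h1', inc_eq (L := fun t => P.trans P' t) (P.trans P').continuous]
  · rw [Path.source, Path.target]
    ring
  · intro t
    rw [Path.trans_apply, Path.trans_apply]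
    split_ifs
    · exact h1 _
    · change Complex.exp (L' _ + (L 1 - L' 0)) = _
      rw [Complex.exp_add, hc, mul_one, h1']

theorem inc_symm {Z : Type*} [TopologicalSpace Z] {lam : Z → ℂ} (hl : Continuous lam) {x y : Z}
    (γ : Path x y) (h : ∀ t, lam (γ t) ≠ 0) :
    inc (fun t => lam (γ.symm t)) = - inc (fun t => lam (γ t)) := by
  obtain ⟨L, hL, h1⟩ := exists_log_I (f := fun t => lam (γ t)) (hl.comp γ.continuous) h
  rw [inc_eq hL h1, inc_eq (f := fun t => lam (γ.symm t)) (L := fun t => L (σ t))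
    (hL.comp continuous_symm) fun t => h1 _]
  simp

theorem inc_htpy {H : I × I → ℂ} (hH : Continuous H) (h : ∀ p, H p ≠ 0)
    (h0 : ∀ s, H (s, 0) = H (0, 0)) (h1 : ∀ s, H (s, 1) = H (0, 1)) :
    inc (fun t => H (0, t)) = inc (fun t => H (1, t)) := by
  obtain ⟨l, hl, h2⟩ := incAux_log
    (fun q : ℝ × ℝ => H (Set.projIcc 0 1 zero_le_one q.1, Set.projIcc 0 1 zero_le_one q.2))
    (hH.comp ((continuous_projIcc.comp continuous_fst).prodMk
      (continuous_projIcc.comp continuous_snd))) fun t => h _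
  have h3 : ∀ s t : I, Complex.exp (l (s, t)) = H (s, t) := fun s t => by
    rw [h2, Set.projIcc_val, Set.projIcc_val]
  rw [inc_eq (L := fun t : I => l ((0 : I), t)) (by fun_prop) (h3 0),
    inc_eq (L := fun t : I => l ((1 : I), t)) (by fun_prop) (h3 1)]
  have e0 := incAux_unique (L := fun s : I => l (s, (0 : I))) (L' := fun _ => l ((0 : I), (0 : I)))
    (by fun_prop) continuous_const (fun s => by rw [h3, h3, h0]) 0 1
  have e1 := incAux_unique (L := fun s : I => l (s, (1 : I))) (L' := fun _ => l ((0 : I), (1 : I)))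
    (by fun_prop) continuous_const (fun s => by rw [h3, h3, h1]) 0 1
  linear_combination e1 - e0

theorem inc_disk {f : ℂ → ℂ} (hf : ContinuousOn f (closedBall 0 1))
    (h : ∀ y, ‖y‖ ≤ 1 → f y ≠ 0) :
    inc (fun t => f (Complex.exp (2 * Real.pi * (t : ℝ) * Complex.I))) = 0 := by
  have hn : ∀ q : I × I, ‖((1 - (q.1 : ℝ) : ℝ) : ℂ) *
      Complex.exp (2 * Real.pi * (q.2 : ℝ) * Complex.I) + ((q.1 : ℝ) : ℂ)‖ ≤ 1 := fun q => by
    refine (norm_add_le _ _).trans ?_
    rw [norm_mul, norm_exp_two_pi, Complex.norm_real, Complex.norm_real,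
      Real.norm_of_nonneg q.1.2.1, Real.norm_of_nonneg (sub_nonneg.2 q.1.2.2)]
    linarith
  have key := inc_htpy (H := fun q : I × I => f (((1 - (q.1 : ℝ) : ℝ) : ℂ) *
      Complex.exp (2 * Real.pi * (q.2 : ℝ) * Complex.I) + ((q.1 : ℝ) : ℂ)))
    (hf.comp_continuous (by fun_prop) fun q => mem_closedBall_zero_iff.2 (hn q))
    (fun q => h _ (hn q)) (fun s => by simp) (fun s => by simp [Complex.exp_two_pi_mul_I])
  simpa [inc_const] using key

end Vale.Agent.P173
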