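import Vale.Agent.P173.StageBasic
import Vale.Agent.P173.Hopf
import Vale.Agent.P173.Inc

/-!
P173 task Dual (about 350 lines): a function on the cover that winds once around one lifted 2-cell
and zero times around all others.
* `exists_disk`: compose `χ r` with the radial retraction `z ↦ (max 1 ‖z‖)⁻¹ • z` of `ℂ` onto the closed
  ball and use `IsCoveringMap.existsUnique_continuousMap_lifts` on `ℂ`.
* `exists_lam`: `W = ℂ × ℂ`, `β y = max 0 (1 - 2 ‖y‖)`, `n y = (y, β y) ≠ 0`,
  `Q y v = ((conj y * v.1 + β y * v.2) / (‖y‖^2 + (β y)^2)) • n y` as a real continuous linear map,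
  idempotent, continuous in `y`, equal to `Q₁ v = (v.1, 0)` for `‖y‖ ≥ 1/2`.  The lifted open cell
  `O = D₀ '' ball 0 1` is open in `E`: it is the image of the open set `χ r₀ '' ball` under the
  continuous section `D₀ ∘ ψ` of the local homeomorphism `p` (`IsLocalHomeomorph.isOpenEmbedding_of_comp`
  or a direct argument).  `C = D₀ '' closedBall 0 (1/2)` is compact, hence closed since `E` is Hausdorff
  (`hp.isSeparatedMap` and `T2Space X`).  `P z = if z ∈ O then Q (ψ (p z)) else Q₁` is continuous on `O`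
  and constant on `Cᶜ`.  Take `v` from `exists_section`, `lam z = (v z).1`.  Off `C` we have `(v z).2 = 0`.
  Points over `A` are off `C` (`st.notMem`).  For another disc `D`: it misses `C` (else `st.inj` and
  uniqueness of lifts on the preconnected closed ball, `IsCoveringMap.eqOn_of_comp_eqOn`, give
  `D 1 = D₀ 1`), so `inc_disk` applies.  For `D₀`: `P (D₀ y) = Q y` for all `‖y‖ ≤ 1`, so
  `v (D₀ y) = μ y • n y` with `μ` continuous and nonvanishing on the closed ball, and on the circle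
  `lam (D₀ y) = μ y * y`; use `inc_mul`, `inc_disk`, `inc_circle`.
-/

namespace Vale.Agent.P173

open Metric

variable {X E : Type*} [TopologicalSpace X] [TopologicalSpace E] {p : E → X} {R : Type*}

/-- a lift of the characteristic map of the cell `r` -/
def IsDisk (st : Stage ℂ X R) (p : E → X) (r : R) (D : ℂ → E) : Prop :=
  ContinuousOn D (closedBall 0 1) ∧ ∀ y, ‖y‖ ≤ 1 → p (D y) = st.χ r y

theorem exists_disk (st : Stage ℂ X R) (hp : IsCoveringMap p) (r : R) (e : E)
    (he : p e = st.χ r 1) : ∃ D, IsDisk st p r D ∧ D 1 = e := by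
  let ρ : ℂ → ℂ := fun z => (max 1 ‖z‖)⁻¹ • z
  have hρc : Continuous ρ :=
    ((continuous_const.max continuous_norm).inv₀ fun z =>
      (lt_of_lt_of_le one_pos (le_max_left _ _)).ne').smul continuous_id
  have hρ1 : ∀ z, ρ z ∈ closedBall (0 : ℂ) 1 := fun z => by
    have h0 : 0 < max 1 ‖z‖ := lt_of_lt_of_le one_pos (le_max_left _ _)
    rw [mem_closedBall_zero_iff, norm_smul, norm_inv, Real.norm_of_nonneg h0.le,
      inv_mul_le_iff₀ h0, mul_one]
    exact le_max_right _ _
  have hρ : ∀ z, ‖z‖ ≤ 1 → ρ z = z := fun z hz => by simp [ρ, max_eq_left hz]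
  let f : C(ℂ, X) := ⟨fun z => st.χ r (ρ z), (st.cont r).comp_continuous hρc hρ1⟩
  obtain ⟨F, ⟨hF1, hF⟩, -⟩ := hp.existsUnique_continuousMap_lifts f 1 e
    (by simp [f, hρ 1 norm_one.le, he])
  refine ⟨F, ⟨F.continuous.continuousOn, fun y hy => ?_⟩, hF1⟩
  have := congrFun hF y
  simpa [f, hρ y hy] using this

/-- the second coordinate of the spanning vector of the line -/
noncomputable def dualB (y : ℂ) : ℝ := max 0 (1 - 2 * ‖y‖)

/-- the squared length of the spanning vector -/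
noncomputable def dualN (y : ℂ) : ℝ := ‖y‖ ^ 2 + dualB y ^ 2

theorem dualN_pos (y : ℂ) : 0 < dualN y := by
  unfold dualN
  by_cases h : y = 0
  · simp [h, dualB]
  · have : 0 < ‖y‖ := norm_pos_iff.2 h
    positivity

theorem dualB_cont : Continuous dualB := by
  unfold dualB
  fun_prop

theorem dualN_cont : Continuous dualN := by
  unfold dualN
  have := dualB_cont
  fun_prop

/-- the coefficient of the projection -/
noncomputable def dualL (y : ℂ) (v : ℂ × ℂ) : ℂ :=
  ((starRingEnd ℂ) y * v.1 + dualB y * v.2) / dualN y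

theorem dualL_cont : Continuous fun q : ℂ × ℂ × ℂ => dualL q.1 q.2 := by
  unfold dualL
  have h1 := dualB_cont
  have h2 := dualN_cont
  refine Continuous.div ?_ (by fun_prop) fun q => ?_
  · exact ((Complex.continuous_conj.comp continuous_fst).mul (by fun_prop)).add (by fun_prop)
  · exact_mod_cast (dualN_pos q.1).ne'

theorem dualL_self (y c : ℂ) : dualL y (c * y, c * dualB y) = c := by
  have h : ((dualN y : ℝ) : ℂ) ≠ 0 := by exact_mod_cast (dualN_pos y).ne'
  unfold dualL
  rw [div_eq_iff h]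
  have h1 : (starRingEnd ℂ) y * y = ((‖y‖ ^ 2 : ℝ) : ℂ) := by
    rw [Complex.conj_mul']
    simp
  unfold dualN
  push_cast at h1 ⊢
  linear_combination c * h1

/-- the projection onto the line -/
noncomputable def dualQ (y : ℂ) : ℂ × ℂ →L[ℝ] ℂ × ℂ :=
  LinearMap.toContinuousLinearMap
    { toFun := fun v => (dualL y v * y, dualL y v * dualB y)
      map_add' := fun v w => by
        simp only [dualL, Prod.fst_add, Prod.snd_add, Prod.mk_add_mk, Prod.mk.injEq]
        constructor <;> ring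
      map_smul' := fun c v => by
        simp only [dualL, Prod.smul_fst, Prod.smul_snd, Complex.real_smul, RingHom.id_apply,
          Prod.smul_mk, Prod.mk.injEq]
        constructor <;> ring }

theorem dualQ_apply (y : ℂ) (v : ℂ × ℂ) :
    dualQ y v = (dualL y v * y, dualL y v * dualB y) := rfl

theorem dualQ_cont : Continuous dualQ := by
  refine continuous_clm_apply.2 fun v => ?_
  simp only [dualQ_apply]
  have h1 : Continuous fun y : ℂ => dualL y v :=
    dualL_cont.comp (continuous_id.prodMk continuous_const)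
  have h2 := dualB_cont
  fun_prop

theorem dualQ_idem (y : ℂ) (v : ℂ × ℂ) : dualQ y (dualQ y v) = dualQ y v := by
  simp only [dualQ_apply, dualL_self]

theorem dualQ_ne (y : ℂ) : ∃ v, dualQ y v ≠ 0 := by
  refine ⟨(1 * y, 1 * dualB y), ?_⟩
  rw [dualQ_apply, dualL_self]
  intro h
  have h1 : y = 0 := by simpa using congrArg Prod.fst h
  have h2 : dualB y = 0 := by simpa using congrArg Prod.snd h
  simp [h1, dualB] at h2

theorem dualQ_far {y : ℂ} (hy : 1 / 2 ≤ ‖y‖) (v : ℂ × ℂ) : dualQ y v = (v.1, 0) := by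
  have hB : dualB y = 0 := max_eq_left (by linarith)
  have h : ((dualN y : ℝ) : ℂ) ≠ 0 := by exact_mod_cast (dualN_pos y).ne'
  have h1 : (starRingEnd ℂ) y * y = ((‖y‖ ^ 2 : ℝ) : ℂ) := by
    rw [Complex.conj_mul']
    simp
  rw [dualQ_apply, hB]
  refine Prod.ext ?_ (by simp)
  simp only [dualL]
  rw [div_mul_eq_mul_div, div_eq_iff h]
  unfold dualN
  rw [hB]
  push_cast at h1 ⊢
  linear_combination v.1 * h1

theorem dualQ_far' {y : ℂ} (hy : 1 / 2 ≤ ‖y‖) : dualQ y = dualQ 1 := by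
  refine ContinuousLinearMap.ext fun v => ?_
  rw [dualQ_far hy, dualQ_far (by norm_num)]

theorem dual_t2 [T2Space X] (hp : IsCoveringMap p) : T2Space E := by
  refine ⟨fun e e' hne => ?_⟩
  by_cases h : p e = p e'
  · exact hp.isSeparatedMap e e' h hne
  · exact separated_by_continuous hp.continuous h

theorem dual_isOpen (st : Stage ℂ X R) (hp : IsCoveringMap p) {r₀ : R} {D₀ : ℂ → E}
    (h₀ : IsDisk st p r₀ D₀) : IsOpen (D₀ '' ball 0 1) := by
  obtain ⟨ψ, hψc, hψ⟩ := st.exists_coord r₀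
  have hU : IsOpen (st.χ r₀ '' ball 0 1) := st.isOpen_image r₀ isOpen_ball subset_rfl
  have hmem : ∀ x : st.χ r₀ '' ball (0 : ℂ) 1, ‖ψ x‖ < 1 ∧ st.χ r₀ (ψ x) = x := by
    rintro ⟨_, y, hy, rfl⟩
    have hy' := mem_ball_zero_iff.1 hy
    simp only [hψ y hy']
    exact ⟨hy', trivial⟩
  let f : st.χ r₀ '' ball (0 : ℂ) 1 → E := fun x => D₀ (ψ x)
  have hf : Continuous f :=
    h₀.1.comp_continuous (hψc.comp_continuous continuous_subtype_val fun x => x.2) fun x =>
      mem_closedBall_zero_iff.2 (hmem x).1.le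
  have hpf : p ∘ f = Subtype.val := by
    funext x
    simp only [Function.comp_apply, f]
    rw [h₀.2 _ (hmem x).1.le, (hmem x).2]
  have hemb := hp.isLocalHomeomorph.isOpenEmbedding_of_comp
    (hpf ▸ hU.isOpenEmbedding_subtypeVal) hf
  have hr : Set.range f = D₀ '' ball 0 1 := by
    ext z
    constructor
    · rintro ⟨x, rfl⟩
      exact ⟨ψ x, mem_ball_zero_iff.2 (hmem x).1, rfl⟩
    · rintro ⟨y, hy, rfl⟩
      exact ⟨⟨st.χ r₀ y, y, hy, rfl⟩, by simp only [f, hψ y (mem_ball_zero_iff.1 hy)]⟩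
  rw [← hr]
  exact hemb.isOpen_range

theorem dual_exists_proj [T2Space X] (st : Stage ℂ X R) (hp : IsCoveringMap p)
    {r₀ : R} {D₀ : ℂ → E} (h₀ : IsDisk st p r₀ D₀) :
    ∃ P : E → ℂ × ℂ →L[ℝ] ℂ × ℂ, Continuous P ∧ (∀ z, ∃ y, P z = dualQ y) ∧
      (∀ z, z ∉ D₀ '' closedBall 0 (1 / 2) → P z = dualQ 1) ∧
      ∀ y, ‖y‖ ≤ 1 → P (D₀ y) = dualQ y := by
  classical
  have := dual_t2 hp
  obtain ⟨ψ, hψc, hψ⟩ := st.exists_coord r₀
  have hO := dual_isOpen st hp h₀
  have hC : IsClosed (D₀ '' closedBall 0 (1 / 2)) :=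
    ((isCompact_closedBall (0 : ℂ) (1 / 2)).image_of_continuousOn
      (h₀.1.mono (closedBall_subset_closedBall (by norm_num)))).isClosed
  let P : E → ℂ × ℂ →L[ℝ] ℂ × ℂ := fun z =>
    if z ∈ D₀ '' ball 0 1 then dualQ (ψ (p z)) else dualQ 1
  have hin : ∀ y, ‖y‖ < 1 → P (D₀ y) = dualQ y := fun y hy => by
    have hm : D₀ y ∈ D₀ '' ball 0 1 := ⟨y, mem_ball_zero_iff.2 hy, rfl⟩
    simp only [P, if_pos hm]
    rw [h₀.2 y hy.le, hψ y hy]
  have hout : ∀ z, z ∉ D₀ '' closedBall 0 (1 / 2) → P z = dualQ 1 := fun z hz => by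
    by_cases hm : z ∈ D₀ '' ball 0 1
    · obtain ⟨y, hy, rfl⟩ := hm
      rw [hin y (mem_ball_zero_iff.1 hy)]
      refine dualQ_far' (le_of_not_ge fun h => hz ⟨y, mem_closedBall_zero_iff.2 h, rfl⟩)
    · simp only [P, if_neg hm]
  refine ⟨P, ?_, fun z => ?_, hout, fun y hy => ?_⟩
  · refine continuous_iff_continuousAt.2 fun z => ?_
    by_cases hm : z ∈ D₀ '' ball 0 1
    · have h1 : ContinuousOn (fun z => dualQ (ψ (p z))) (D₀ '' ball 0 1) := by
        refine dualQ_cont.comp_continuousOn (hψc.comp hp.continuous.continuousOn ?_)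
        rintro _ ⟨y, hy, rfl⟩
        exact ⟨y, hy, (h₀.2 y (mem_ball_zero_iff.1 hy).le).symm⟩
      refine (h1.continuousAt (hO.mem_nhds hm)).congr ?_
      filter_upwards [hO.mem_nhds hm] with z' hz'
      simp only [P, if_pos hz']
    · have hz : z ∉ D₀ '' closedBall 0 (1 / 2) := fun h =>
        hm (Set.image_mono (closedBall_subset_ball (by norm_num)) h)
      refine (continuousAt_const (y := dualQ 1)).congr ?_
      filter_upwards [hC.isOpen_compl.mem_nhds hz] with z' hz'
      exact (hout z' hz').symm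
  · by_cases hm : z ∈ D₀ '' ball 0 1
    · exact ⟨ψ (p z), by simp only [P, if_pos hm]⟩
    · exact ⟨1, by simp only [P, if_neg hm]⟩
  · rcases hy.lt_or_eq with hy | hy
    · exact hin y hy
    · rw [dualQ_far' (by rw [hy]; norm_num : 1 / 2 ≤ ‖y‖)]
      refine hout _ ?_
      rintro ⟨y', hy', h⟩
      have hy'' : ‖y'‖ < 1 := lt_of_le_of_lt (mem_closedBall_zero_iff.1 hy') (by norm_num)
      have h1 := congrArg p h
      rw [h₀.2 y' hy''.le, h₀.2 y hy.le] at h1
      exact st.notMem r₀ y' hy'' (h1 ▸ st.bdry r₀ y hy)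

theorem exists_lam [T2Space X] [ContractibleSpace E] (st : Stage ℂ X R) (hp : IsCoveringMap p)
    {r₀ : R} {D₀ : ℂ → E} (h₀ : IsDisk st p r₀ D₀) {K : Set E} (hK : IsCompact K)
    (hD₀ : ∀ y, ‖y‖ ≤ 1 → D₀ y ∈ K) :
    ∃ lam : E → ℂ, Continuous lam ∧ (∀ z ∈ K, p z ∈ st.A → lam z ≠ 0) ∧
      inc (fun t => lam (D₀ (Complex.exp (2 * Real.pi * (t : ℝ) * Complex.I)))) =
        2 * Real.pi * Complex.I ∧
      ∀ r D, IsDisk st p r D → (∀ y, ‖y‖ ≤ 1 → D y ∈ K) → (r ≠ r₀ ∨ D 1 ≠ D₀ 1) →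
        inc (fun t => lam (D (Complex.exp (2 * Real.pi * (t : ℝ) * Complex.I)))) = 0 := by
  obtain ⟨P, hPc, hPQ, hout, hin⟩ := dual_exists_proj st hp h₀
  obtain ⟨v, hvc, hvP, hv0⟩ := exists_section P hPc
    (fun z w => by obtain ⟨y, hy⟩ := hPQ z; rw [hy, dualQ_idem])
    (fun z => by obtain ⟨y, hy⟩ := hPQ z; rw [hy]; exact dualQ_ne y) hK
  have hoff : ∀ z ∈ K, z ∉ D₀ '' closedBall 0 (1 / 2) → (v z).1 ≠ 0 := fun z hz hC h => by
    have h1 := hvP z
    rw [hout z hC, dualQ_far (by norm_num), h] at h1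
    exact hv0 z hz h1.symm
  refine ⟨fun z => (v z).1, hvc.fst, fun z hz hA => hoff z hz ?_, ?_, fun r D hD hDK hne => ?_⟩
  · rintro ⟨y', hy', rfl⟩
    have hy'' : ‖y'‖ < 1 := lt_of_le_of_lt (mem_closedBall_zero_iff.1 hy') (by norm_num)
    rw [h₀.2 y' hy''.le] at hA
    exact st.notMem r₀ y' hy'' hA
  · let μ : ℂ → ℂ := fun y => dualL y (v (D₀ y))
    have hμc : ContinuousOn μ (closedBall 0 1) :=
      dualL_cont.comp_continuousOn (f := fun y => (y, v (D₀ y)))
        (continuousOn_id.prodMk (hvc.comp_continuousOn h₀.1))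
    have hv : ∀ y, ‖y‖ ≤ 1 → v (D₀ y) = (μ y * y, μ y * dualB y) := fun y hy => by
      have h1 := hvP (D₀ y)
      rw [hin y hy, dualQ_apply] at h1
      exact h1.symm
    have hμ0 : ∀ y, ‖y‖ ≤ 1 → μ y ≠ 0 := fun y hy h => by
      refine hv0 _ (hD₀ y hy) ?_
      rw [hv y hy, h]
      simp
    have e : (fun t : unitInterval =>
        (v (D₀ (Complex.exp (2 * Real.pi * (t : ℝ) * Complex.I)))).1) =
        fun t : unitInterval => μ (Complex.exp (2 * Real.pi * (t : ℝ) * Complex.I)) *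
          Complex.exp (2 * Real.pi * (t : ℝ) * Complex.I) := by
      funext t
      rw [hv _ (norm_exp_two_pi t).le]
    rw [e, inc_mul
      (f := fun t : unitInterval => μ (Complex.exp (2 * Real.pi * (t : ℝ) * Complex.I)))
      (g := fun t : unitInterval => Complex.exp (2 * Real.pi * (t : ℝ) * Complex.I))
      (hμc.comp_continuous (by fun_prop) fun t =>
      mem_closedBall_zero_iff.2 (norm_exp_two_pi t).le) (fun t => hμ0 _ (norm_exp_two_pi t).le)
      (by fun_prop) (fun t => Complex.exp_ne_zero _), inc_disk hμc hμ0, inc_circle, zero_add]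
  · refine inc_disk (f := fun y => (v (D y)).1) (hvc.comp_continuousOn hD.1).fst
      fun y hy => hoff _ (hDK y hy) ?_
    rintro ⟨y', hy', h⟩
    have hy'' : ‖y'‖ < 1 := lt_of_le_of_lt (mem_closedBall_zero_iff.1 hy') (by norm_num)
    have h1 := congrArg p h
    rw [h₀.2 y' hy''.le, hD.2 y hy] at h1
    rcases hy.lt_or_eq with hy | hy
    · obtain ⟨rfl, rfl⟩ := st.inj _ _ _ _ hy'' hy h1
      have h2 := hp.eqOn_of_comp_eqOn (convex_closedBall (0 : ℂ) 1).isPreconnected h₀.1 hD.1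
        (fun y hy => by
          have hy := mem_closedBall_zero_iff.1 hy
          simp only [Function.comp_apply]
          rw [h₀.2 y hy, hD.2 y hy]) (mem_closedBall_zero_iff.2 hy.le) h
      rcases hne with hne | hne
      · exact hne rfl
      · exact hne (h2 (mem_closedBall_zero_iff.2 norm_one.le)).symm
    · exact st.notMem r₀ y' hy'' (h1 ▸ st.bdry r y hy)

end Vale.Agent.P173
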