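import Vale.Agent.P173.TopDefs

/-!
P173 task Extract (about 300 lines): the two stages of a two-dimensional CW complex.
`S = cell 1`, `R = cell 2`, `A₁ = ⋃ closed cells of dimension ≤ 1` (or `skeletonLT univ 2`),
`A₀ = ⋃ 0-cells` seen in the subtype.  Use norm preserving continuous bijections
`h₁ : ℝ → (Fin 1 → ℝ)`, `h₁ t = fun _ => t` and `h₂ : ℂ → (Fin 2 → ℝ)`,
`h₂ z = (‖z‖ / ‖ι z‖) • ι z` with `ι z = ![z.re, z.im]` (continuity at `0` from `‖h₂ z‖ = ‖z‖`; or
continuity of the bounded scalar times `ι z`); `χ₂ r = map 2 r ∘ h₂`, and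
`χ₁ s t = if h : map 1 s (h₁ t) ∈ A₁ then ⟨_, h⟩ else junk` (junk `⟨map 1 s 0, _⟩`).
Useful: `RelCWComplex.iUnion_openCell_eq_complex`, `disjoint_openCell_of_ne`,
`cellFrontier_subset_finite_closedCell`, `isClosed_closedCell`, `isCompact_closedCell`, `CWComplex.closed`,
`closedCell_zero_eq_singleton`, `skeletonLT_union_iUnion_closedCell_eq_skeletonLT_succ`,
`disjoint_skeletonLT_openCell`, `map` is injective on its source.  For `closed`: if
`χ ⁻¹' C ∩ closedBall` is closed, it is compact, so `C ∩ closedCell` is compact, hence closed.  For a set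
`C ⊆ A₁` whose intersections with closed cells of dimension `≤ 1` are closed, the intersection with a closed
2-cell lies in its frontier, hence in a finite union of lower closed cells, so it is closed too.
-/

namespace Vale.Agent.P173

universe u

open Set Metric Topology Topology.RelCWComplex

theorem extract_radial {F F' : Type*} [NormedAddCommGroup F] [NormedSpace ℝ F]
    [NormedAddCommGroup F'] [NormedSpace ℝ F'] (ι : F ≃L[ℝ] F') :
    ∃ h : F → F', Continuous h ∧ Function.Bijective h ∧ ∀ z, ‖h z‖ = ‖z‖ := by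
  have hι : ∀ {z : F}, z ≠ 0 → 0 < ‖ι z‖ := fun hz => norm_pos_iff.2 (by simpa using hz)
  have hn : ∀ z : F, ‖(‖z‖ / ‖ι z‖) • ι z‖ = ‖z‖ := by
    intro z
    by_cases hz : z = 0
    · simp [hz]
    · rw [norm_smul, Real.norm_of_nonneg (by positivity), div_mul_cancel₀ _ (hι hz).ne']
  refine ⟨fun z => (‖z‖ / ‖ι z‖) • ι z, continuous_iff_continuousAt.2 fun z => ?_, ⟨?_, ?_⟩, hn⟩
  · by_cases hz : z = 0
    · subst hz
      rw [ContinuousAt, map_zero, smul_zero, tendsto_zero_iff_norm_tendsto_zero]
      simp only [hn]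
      exact tendsto_norm_zero
    · exact (continuous_norm.continuousAt.div ι.continuous.norm.continuousAt (hι hz).ne').smul
        ι.continuous.continuousAt
  · intro z z' e
    have h1 : ‖z‖ = ‖z'‖ := by rw [← hn z, ← hn z']; exact congrArg norm e
    by_cases hz : z = 0
    · rw [hz, norm_zero] at h1
      rw [hz, norm_eq_zero.1 h1.symm]
    have hz0 : 0 < ‖z‖ := norm_pos_iff.2 hz
    have hz' : z' ≠ 0 := norm_pos_iff.1 (h1 ▸ hz0)
    have h2 : (‖z‖ / ‖ι z‖) • z = (‖z'‖ / ‖ι z'‖) • z' := by
      apply ι.injective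
      rw [map_smul, map_smul]
      exact e
    have h3 := congrArg norm h2
    rw [norm_smul, norm_smul, Real.norm_of_nonneg (by positivity),
      Real.norm_of_nonneg (by positivity), ← h1] at h3
    have h4 := mul_right_cancel₀ hz0.ne' h3
    rw [← h1, ← h4] at h2
    exact smul_right_injective F (div_pos hz0 (hι hz)).ne' h2
  · intro w
    by_cases hw : w = 0
    · exact ⟨0, by simp [hw]⟩
    have hw0 : 0 < ‖w‖ := norm_pos_iff.2 hw
    have hu : 0 < ‖ι.symm w‖ := norm_pos_iff.2 (by simpa using hw)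
    refine ⟨(‖w‖ / ‖ι.symm w‖) • ι.symm w, ?_⟩
    simp only [map_smul, ι.apply_symm_apply, norm_smul, smul_smul]
    rw [Real.norm_of_nonneg (by positivity)]
    have : ‖w‖ / ‖ι.symm w‖ * ‖ι.symm w‖ / (‖w‖ / ‖ι.symm w‖ * ‖w‖) * (‖w‖ / ‖ι.symm w‖) = 1 := by
      field_simp
    rw [this, one_smul]

theorem extract_stage {X : Type u} [TopologicalSpace X] [T2Space X] [CWComplex (univ : Set X)]
    (n : ℕ) {F : Type} [NormedAddCommGroup F] [NormedSpace ℝ F] (ι : F ≃L[ℝ] (Fin n → ℝ))
    {Z : Type*} [TopologicalSpace Z] {e : Z → X} (he : IsClosedEmbedding e)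
    (hr : range e = (skeletonLT (univ : Set X) (n + 1) : Set X)) :
    ∃ st : Stage F Z (cell (univ : Set X) n),
      st.A = e ⁻¹' (skeletonLT (univ : Set X) n : Set X) := by
  obtain ⟨h, hc, hb, hn⟩ := extract_radial ι
  have : FiniteDimensional ℝ F := ι.symm.toLinearEquiv.finiteDimensional
  have : ProperSpace F := FiniteDimensional.proper_real F
  have hcl : ∀ (j : cell (univ : Set X) n) (y : F), ‖y‖ ≤ 1 → map n j (h y) ∈ closedCell n j :=
    fun j y hy => ⟨h y, by rwa [mem_closedBall_zero_iff, hn], rfl⟩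
  have hop : ∀ (j : cell (univ : Set X) n) (y : F), ‖y‖ < 1 → map n j (h y) ∈ openCell n j :=
    fun j y hy => ⟨h y, by rwa [mem_ball_zero_iff, hn], rfl⟩
  have hex : ∀ (j : cell (univ : Set X) n) (y : F), ∃ z, ‖y‖ ≤ 1 → e z = map n j (h y) := by
    intro j y
    by_cases hy : ‖y‖ ≤ 1
    · obtain ⟨z, hz⟩ : map n j (h y) ∈ range e :=
        hr ▸ closedCell_subset_skeletonLT n j (hcl j y hy)
      exact ⟨z, fun _ => hz⟩
    · obtain ⟨z, _⟩ : map n j (h 0) ∈ range e :=
        hr ▸ closedCell_subset_skeletonLT n j (hcl j 0 (by simp))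
      exact ⟨z, fun h => absurd h hy⟩
  choose χ hχ using hex
  have hcont : ∀ j, ContinuousOn (χ j) (closedBall 0 1) := fun j => by
    rw [he.isInducing.continuousOn_iff]
    refine ((continuousOn n j).comp hc.continuousOn fun y hy => ?_).congr fun y hy =>
      hχ j y (mem_closedBall_zero_iff.1 hy)
    rwa [mem_closedBall_zero_iff, hn, ← mem_closedBall_zero_iff]
  refine ⟨{ A := e ⁻¹' (skeletonLT (univ : Set X) n : Set X)
            χ := χ
            cont := hcont
            inj := fun j j' y y' hy hy' hyy => ?_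
            notMem := fun j y hy hm => ?_
            bdry := fun j y hy => ?_
            cover := fun z => ?_
            isClosed_A := (skeletonLT (univ : Set X) n).closed.preimage he.continuous
            closed := fun C h1 h2 => ?_ }, rfl⟩
  · have h1 : map n j (h y) = map n j' (h y') := by rw [← hχ j y hy.le, ← hχ j' y' hy'.le, hyy]
    have h2 := eq_of_not_disjoint_openCell
      (not_disjoint_iff.2 ⟨_, hop j y hy, h1 ▸ hop j' y' hy'⟩)
    obtain rfl : j = j' := eq_of_heq (Sigma.mk.inj h2).2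
    refine ⟨rfl, hb.1 ((map n j).injOn ?_ ?_ h1)⟩
    · rwa [source_eq, mem_ball_zero_iff, hn]
    · rwa [source_eq, mem_ball_zero_iff, hn]
  · rw [mem_preimage, hχ j y hy.le] at hm
    exact disjoint_left.1 (disjoint_skeletonLT_openCell le_rfl) hm (hop j y hy)
  · rw [mem_preimage, hχ j y hy.le]
    exact cellFrontier_subset_skeletonLT n j ⟨h y, by rwa [mem_sphere_zero_iff_norm, hn], rfl⟩
  · have h1 : e z ∈ skeletonLT (univ : Set X) (n + 1) := by
      rw [← SetLike.mem_coe, ← hr]; exact mem_range_self z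
    obtain ⟨m, hm, j, hj⟩ := CWComplex.mem_skeletonLT_iff.1 h1
    have hm' : m < n + 1 := by exact_mod_cast hm
    rcases Nat.lt_succ_iff_lt_or_eq.1 hm' with h2 | rfl
    · exact Or.inl (CWComplex.mem_skeletonLT_iff.2 ⟨m, by exact_mod_cast h2, j, hj⟩)
    · obtain ⟨v, hv, hv'⟩ := hj
      obtain ⟨y, rfl⟩ := hb.2 v
      rw [mem_ball_zero_iff, hn] at hv
      exact Or.inr ⟨j, y, hv, he.injective (by rw [hχ j y hv.le, hv'])⟩
  · rw [he.isClosed_iff_image_isClosed] at h1 ⊢
    refine CWComplex.isClosed_of_disjoint_openCell_or_isClosed_inter_closedCell (subset_univ _)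
      fun m _ j => ?_
    rcases lt_trichotomy m n with hm | rfl | hm
    · right
      have hs : closedCell m j ⊆ skeletonLT (univ : Set X) n :=
        (closedCell_subset_skeletonLT m j).trans (skeletonLT_mono (by exact_mod_cast hm))
      have : e '' C ∩ closedCell m j =
          e '' (C ∩ e ⁻¹' (skeletonLT (univ : Set X) n : Set X)) ∩ closedCell m j := by
        rw [image_inter_preimage, inter_assoc, inter_eq_right.2 hs]
      rw [this]
      exact h1.inter isClosed_closedCell
    · right
      have : e '' C ∩ closedCell m j = e '' (χ j '' (χ j ⁻¹' C ∩ closedBall 0 1)) := by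
        ext x
        constructor
        · rintro ⟨⟨z, hz, rfl⟩, v, hv, hv'⟩
          obtain ⟨y, rfl⟩ := hb.2 v
          rw [mem_closedBall_zero_iff, hn] at hv
          obtain rfl : χ j y = z := he.injective (by rw [hχ j y hv, hv'])
          exact ⟨_, ⟨y, ⟨hz, mem_closedBall_zero_iff.2 hv⟩, rfl⟩, rfl⟩
        · rintro ⟨_, ⟨y, ⟨hy, hy'⟩, rfl⟩, rfl⟩
          rw [mem_closedBall_zero_iff] at hy'
          exact ⟨⟨_, hy, rfl⟩, hχ j y hy' ▸ hcl j y hy'⟩
      rw [this]
      refine (IsCompact.image (IsCompact.image_of_continuousOn ?_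
        ((hcont j).mono inter_subset_right)) he.continuous).isClosed
      exact (isCompact_closedBall 0 1).of_isClosed_subset (h2 j) inter_subset_right
    · left
      refine (disjoint_skeletonLT_openCell (n := n + 1) (by exact_mod_cast hm)).mono_left ?_
      rw [← hr]
      exact image_subset_range _ _

theorem exists_stages {X : Type u} [TopologicalSpace X] [T2Space X]
    [Topology.CWComplex (Set.univ : Set X)]
    (h : ∀ m : ℕ, 2 < m → IsEmpty (Topology.RelCWComplex.cell (Set.univ : Set X) m)) :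
    ∃ (S R : Type u) (st₂ : Stage ℂ X R) (st₁ : Stage ℝ st₂.A S), ∀ C ⊆ st₁.A, IsClosed C := by
  obtain ⟨st₂, h₂⟩ := extract_stage (X := X) 2
    (Complex.equivRealProdCLM.trans (ContinuousLinearEquiv.finTwoArrow ℝ ℝ).symm)
    IsClosedEmbedding.id (by
      rw [range_id]
      refine (eq_univ_of_forall fun x => ?_).symm
      have hx : x ∈ ⋃ (n : ℕ) (j : cell (univ : Set X) n), openCell n j := by
        rw [CWComplex.iUnion_openCell_eq_complex]; exact mem_univ x
      obtain ⟨m, j, hj⟩ := mem_iUnion₂.1 hx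
      have hm : m < 2 + 1 := by
        by_contra hc
        exact (h m (by omega)).false j
      exact CWComplex.mem_skeletonLT_iff.2 ⟨m, by exact_mod_cast hm, j, hj⟩)
  have he := st₂.isClosed_A.isClosedEmbedding_subtypeVal
  obtain ⟨st₁, h₁⟩ := extract_stage (X := X) 1
    (ContinuousLinearEquiv.funUnique (Fin 1) ℝ ℝ).symm he (by
      rw [Subtype.range_coe, h₂]
      rfl)
  refine ⟨_, _, st₂, st₁, fun C hC => ?_⟩
  rw [he.isClosed_iff_image_isClosed]
  refine CWComplex.isClosed_of_disjoint_openCell_or_isClosed_inter_closedCell (subset_univ _)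
    fun m hm j => Or.inl ?_
  refine (disjoint_skeletonLT_openCell (n := (1 : ℕ)) (by exact_mod_cast hm)).mono_left ?_
  rw [h₁] at hC
  exact image_subset_iff.2 hC

end Vale.Agent.P173
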