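import Vale.Agent.P173.FillDefs

/-!
P173 task Fill (about 200 lines): elementary lemmas on fillings, all by induction on `Fill`
(`fill_exists`: `Subgroup.normalClosure` is the closure of `Group.conjugatesOfSet`; use
`Subgroup.closure_induction` and `Fill.mono`).  For `Fill.first` use, for unit quaternions,
`‖a b - 1‖ ≤ ‖a - 1‖ + ‖b - 1‖`, `‖a⁻¹ - 1‖ = ‖a - 1‖`, `‖a b a⁻¹ - 1‖ = ‖b - 1‖`
(`S3.norm_mul_sub_one`, `S3.norm_inv_sub_one`, `S3.norm_conj_sub_one` below) and `hol_mul`,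
`hol_inv`, `hol_conj`, `Fill.map_eq_one`.
-/

namespace Vale.Agent.P173

open scoped Quaternion

theorem S3.fill_coe_mul (a b : S3) : ((a * b : S3) : ℍ) = (a : ℍ) * b := rfl

theorem S3.fill_mul_inv (a : S3) : (a : ℍ) * ((a⁻¹ : S3) : ℍ) = 1 := by
  rw [← S3.fill_coe_mul, mul_inv_cancel]
  rfl

theorem S3.fill_inv_mul (a : S3) : ((a⁻¹ : S3) : ℍ) * (a : ℍ) = 1 := by
  rw [← S3.fill_coe_mul, inv_mul_cancel]
  rfl

theorem S3.fill_norm_mul_right (x : ℍ) (a : S3) : ‖x * a‖ = ‖x‖ := by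
  rw [norm_mul, S3.norm_coe, mul_one]

theorem S3.fill_norm_mul_left (x : ℍ) (a : S3) : ‖a * x‖ = ‖x‖ := by
  rw [norm_mul, S3.norm_coe, one_mul]

theorem S3.norm_mul_sub_one (a b : S3) :
    ‖((a * b : S3) : ℍ) - 1‖ ≤ ‖(a : ℍ) - 1‖ + ‖(b : ℍ) - 1‖ := by
  have e : ((a * b : S3) : ℍ) - 1 = ((a : ℍ) - 1) * b + ((b : ℍ) - 1) := by
    rw [S3.fill_coe_mul]
    noncomm_ring
  rw [e, ← S3.fill_norm_mul_right ((a : ℍ) - 1) b]
  exact norm_add_le _ _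

theorem S3.norm_inv_sub_one (a : S3) : ‖((a⁻¹ : S3) : ℍ) - 1‖ = ‖(a : ℍ) - 1‖ := by
  rw [← S3.fill_norm_mul_right _ a, sub_mul, S3.fill_inv_mul, one_mul, norm_sub_rev]

theorem S3.norm_conj_sub_one (a b : S3) : ‖((a * b * a⁻¹ : S3) : ℍ) - 1‖ = ‖(b : ℍ) - 1‖ := by
  rw [← S3.fill_norm_mul_right _ a, sub_mul, ← S3.fill_coe_mul, inv_mul_cancel_right,
    S3.fill_coe_mul, one_mul, ← S3.fill_norm_mul_left ((b : ℍ) - 1) a, mul_sub, mul_one]

theorem S3.norm_mul_inv_sub_one (a b : S3) : ‖((a * b⁻¹ : S3) : ℍ) - 1‖ = ‖(a : ℍ) - b‖ := by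
  rw [← S3.fill_norm_mul_right _ b, sub_mul, ← S3.fill_coe_mul, inv_mul_cancel_right, one_mul]

/-- second order: `a b - 1 = (a - 1) + (b - 1) + (a - 1) (b - 1)` -/
theorem S3.norm_mul_sub_two (a b : S3) :
    ‖((a * b : S3) : ℍ) - 1 - (((a : ℍ) - 1) + ((b : ℍ) - 1))‖ = ‖(a : ℍ) - 1‖ * ‖(b : ℍ) - 1‖ := by
  have e : ((a * b : S3) : ℍ) - 1 - (((a : ℍ) - 1) + ((b : ℍ) - 1)) =
      ((a : ℍ) - 1) * ((b : ℍ) - 1) := by
    rw [S3.fill_coe_mul]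
    noncomm_ring
  rw [e, norm_mul]

theorem S3.norm_inv_sub_two (a : S3) :
    ‖((a⁻¹ : S3) : ℍ) - 1 + ((a : ℍ) - 1)‖ = ‖(a : ℍ) - 1‖ ^ 2 := by
  have h := S3.norm_mul_sub_two a⁻¹ a
  rw [inv_mul_cancel, S3.norm_inv_sub_one, ← sq] at h
  rw [← h, ← norm_neg]
  congr 1
  change _ = (1 : ℍ) - 1 - _
  rw [sub_self, zero_sub]

theorem S3.norm_conj_sub (a b : S3) :
    ‖((a * b * a⁻¹ : S3) : ℍ) - b‖ ≤ 2 * ‖(a : ℍ) - 1‖ * ‖(b : ℍ) - 1‖ := by
  rw [← S3.fill_norm_mul_right _ a, sub_mul, ← S3.fill_coe_mul, inv_mul_cancel_right,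
    S3.fill_coe_mul]
  have e : (a : ℍ) * b - b * a =
      ((a : ℍ) - 1) * ((b : ℍ) - 1) - ((b : ℍ) - 1) * ((a : ℍ) - 1) := by noncomm_ring
  rw [e]
  refine (norm_sub_le _ _).trans (le_of_eq ?_)
  rw [norm_mul, norm_mul]
  ring

variable {Γ : Type*} [Group Γ] {S R : Type*} {ℓ : FreeGroup S →* Γ} {bd : R → FreeGroup S}

theorem Fill.mono {F F' : Set (Γ × R)} (h : F ⊆ F') {w : FreeGroup S} {c : Γ × R →₀ ℤ}
    (hw : Fill ℓ bd F w c) : Fill ℓ bd F' w c := by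
  induction hw with
  | one => exact Fill.one
  | face γ r hr => exact Fill.face γ r (h hr)
  | mul _ _ ih ih' => exact ih.mul ih'
  | inv _ ih => exact ih.inv

theorem Fill.map_eq_one (hbd : ∀ r, ℓ (bd r) = 1) {F : Set (Γ × R)} {w : FreeGroup S}
    {c : Γ × R →₀ ℤ} (hw : Fill ℓ bd F w c) : ℓ w = 1 := by
  induction hw with
  | one => exact map_one ℓ
  | face γ r hr => simp [hbd]
  | mul _ _ ih ih' => rw [map_mul, ih, ih', mul_one]
  | inv _ ih => rw [map_inv, ih, inv_one]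

theorem Fill.support {F : Set (Γ × R)} {w : FreeGroup S} {c : Γ × R →₀ ℤ}
    (hw : Fill ℓ bd F w c) {f : Γ × R} (hf : c f ≠ 0) : f ∈ F := by
  induction hw with
  | one => exact (hf rfl).elim
  | face γ r hr =>
    rw [(Finsupp.single_apply_ne_zero.1 hf).1]
    exact hr
  | mul _ _ ih ih' =>
    by_contra h
    refine hf ?_
    rw [Finsupp.add_apply, not_not.1 fun a => h (ih a), not_not.1 fun a => h (ih' a), add_zero]
  | inv _ ih => exact ih fun a => hf (by rw [Finsupp.neg_apply, a, neg_zero])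

theorem Fill.conj {F : Set (Γ × R)} {w : FreeGroup S} {c : Γ × R →₀ ℤ}
    (hw : Fill ℓ bd F w c) (γ : FreeGroup S) :
    Fill ℓ bd (mv (ℓ γ) '' F) (γ * w * γ⁻¹) (c.mapDomain (mv (ℓ γ))) := by
  induction hw with
  | one =>
    rw [mul_one, mul_inv_cancel, Finsupp.mapDomain_zero]
    exact Fill.one
  | face δ r hr =>
    have e : γ * (δ * bd r * δ⁻¹) * γ⁻¹ = γ * δ * bd r * (γ * δ)⁻¹ := by group
    have e' : mv (ℓ γ) (ℓ δ, r) = (ℓ (γ * δ), r) := by rw [map_mul]; rfl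
    rw [e, Finsupp.mapDomain_single, e']
    exact Fill.face _ r ⟨_, hr, e'⟩
  | @mul w w' c c' _ _ ih ih' =>
    have e : γ * (w * w') * γ⁻¹ = γ * w * γ⁻¹ * (γ * w' * γ⁻¹) := by group
    rw [e, Finsupp.mapDomain_add]
    exact ih.mul ih'
  | @inv w c _ ih =>
    have e : γ * w⁻¹ * γ⁻¹ = (γ * w * γ⁻¹)⁻¹ := by group
    have e' : (-c).mapDomain (mv (ℓ γ)) = -c.mapDomain (mv (ℓ γ)) :=
      map_neg (Finsupp.mapDomain.addMonoidHom (mv (ℓ γ))) c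
    rw [e, e']
    exact ih.inv

theorem fill_exists (P : Pres Γ S R) {w : FreeGroup S} (hw : P.ℓ w = 1) :
    ∃ (F : Finset (Γ × R)) (c : Γ × R →₀ ℤ), Fill P.ℓ P.bd (F : Set (Γ × R)) w c := by
  classical
  have h : w ∈ Subgroup.closure (Group.conjugatesOfSet (Set.range P.bd)) := P.ker w hw
  clear hw
  induction h using Subgroup.closure_induction with
  | mem x hx =>
    obtain ⟨_, ⟨r, rfl⟩, hc⟩ := Group.mem_conjugatesOfSet_iff.1 hx
    obtain ⟨γ, rfl⟩ := isConj_iff.1 hc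
    exact ⟨{(P.ℓ γ, r)}, _, Fill.face γ r (by simp)⟩
  | one => exact ⟨∅, 0, Fill.one⟩
  | mul x y _ _ ih ih' =>
    obtain ⟨F, c, h⟩ := ih
    obtain ⟨F', c', h'⟩ := ih'
    exact ⟨F ∪ F', c + c', (h.mono (by simp)).mul (h'.mono (by simp))⟩
  | inv x _ ih =>
    obtain ⟨F, c, h⟩ := ih
    exact ⟨F, -c, h.inv⟩

theorem Fill.flat {W : Type*} [Group W] (hbd : ∀ r, ℓ (bd r) = 1) {F : Set (Γ × R)}
    {w : FreeGroup S} {c : Γ × R →₀ ℤ} (hw : Fill ℓ bd F w c) (A : Γ × S → W) (g : Γ)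
    (hA : ∀ f ∈ F, curv ℓ bd A (mv g f) = 1) : hol ℓ A g w = 1 := by
  induction hw with
  | one => exact hol_one ℓ A g
  | face γ r hr =>
    have h : hol ℓ A (g * ℓ γ) (bd r) = 1 := hA _ hr
    rw [hol_conj ℓ A g γ _ (hbd r), h, mul_one, mul_inv_cancel]
  | mul h _ ih ih' => rw [hol_mul, h.map_eq_one hbd, mul_one, ih, ih', mul_one]
  | inv h ih => rw [hol_inv, h.map_eq_one hbd, inv_one, mul_one, ih, inv_one]

theorem Fill.first (hbd : ∀ r, ℓ (bd r) = 1) {F : Set (Γ × R)}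
    {w : FreeGroup S} {c : Γ × R →₀ ℤ} (hw : Fill ℓ bd F w c) :
    ∃ C : ℝ, 0 ≤ C ∧ ∀ (A : Γ × S → S3) (g : Γ) (η : ℝ), 0 ≤ η →
      (∀ f ∈ F, ‖((curv ℓ bd A (mv g f) : S3) : ℍ) - 1‖ ≤ η) →
      ‖((hol ℓ A g w : S3) : ℍ) - 1‖ ≤ C * η := by
  induction hw with
  | one =>
    refine ⟨0, le_rfl, fun A g η _ _ => ?_⟩
    rw [hol_one, zero_mul]
    change ‖(1 : ℍ) - 1‖ ≤ 0
    rw [sub_self, norm_zero]
  | face γ r hr =>
    refine ⟨1, zero_le_one, fun A g η _ hA => ?_⟩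
    have h := hA _ hr
    rw [curv, mv_fst, mv_snd] at h
    rw [hol_conj ℓ A g γ _ (hbd r), S3.norm_conj_sub_one, one_mul]
    exact h
  | mul h _ ih ih' =>
    obtain ⟨C, hC, a⟩ := ih
    obtain ⟨C', hC', a'⟩ := ih'
    refine ⟨C + C', add_nonneg hC hC', fun A g η hη hA => ?_⟩
    rw [hol_mul, h.map_eq_one hbd, mul_one, add_mul]
    exact (S3.norm_mul_sub_one _ _).trans (add_le_add (a A g η hη hA) (a' A g η hη hA))
  | inv h ih =>
    obtain ⟨C, hC, a⟩ := ih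
    refine ⟨C, hC, fun A g η hη hA => ?_⟩
    rw [hol_inv, h.map_eq_one hbd, inv_one, mul_one, S3.norm_inv_sub_one]
    exact a A g η hη hA

theorem Fill.expo_eq (hbd : ∀ r, ℓ (bd r) = 1) {F : Set (Γ × R)}
    {w : FreeGroup S} {c : Γ × R →₀ ℤ} (hw : Fill ℓ bd F w c) (α : Γ × S → ℝ) (g : Γ) :
    expo α (lw ℓ g w) = c.sum fun f k => (k : ℝ) * expo α (lw ℓ (g * f.1) (bd f.2)) := by
  induction hw with
  | one => simp [lw]
  | face γ r hr =>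
    rw [Finsupp.sum_single_index (by simp), lw, hol_conj ℓ _ g γ _ (hbd r)]
    simp [lw]
  | mul h _ ih ih' =>
    rw [Finsupp.sum_add_index' (by simp) (by intro a b c; push_cast; ring), ← ih, ← ih', lw,
      hol_mul, h.map_eq_one hbd, mul_one, expo_mul]
    rfl
  | @inv w c h ih =>
    have e : ((-c).sum fun f k => (k : ℝ) * expo α (lw ℓ (g * f.1) (bd f.2))) =
        -c.sum fun f k => (k : ℝ) * expo α (lw ℓ (g * f.1) (bd f.2)) := by
      rw [Finsupp.sum_neg_index (by simp)]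
      simp [Finsupp.sum]
    rw [e, ← ih, lw, hol_inv, h.map_eq_one hbd, inv_one, mul_one, expo_inv]
    rfl

end Vale.Agent.P173
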