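import Vale.Agent.P173.Basic

/-!
P173: fillings of loops in the Cayley complex (definitions, complete).
-/

namespace Vale.Agent.P173

open scoped Quaternion

variable {Γ : Type*} [Group Γ] {S R : Type*}

/-- translate a face -/
def mv (g : Γ) (f : Γ × R) : Γ × R := (g * f.1, f.2)

@[simp] theorem mv_fst (g : Γ) (f : Γ × R) : (mv g f).1 = g * f.1 := rfl
@[simp] theorem mv_snd (g : Γ) (f : Γ × R) : (mv g f).2 = f.2 := rfl
theorem mv_mv (g h : Γ) (f : Γ × R) : mv g (mv h f) = mv (g * h) f := by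
  simp [mv, mul_assoc]
@[simp] theorem mv_one (f : Γ × R) : mv (1 : Γ) f = f := by simp [mv]
theorem mv_injective (g : Γ) : Function.Injective (mv g : Γ × R → Γ × R) := by
  rintro ⟨a, r⟩ ⟨b, s⟩ h
  simp only [mv, Prod.mk.injEq, mul_right_inj] at h
  exact Prod.ext h.1 h.2

/-- `w` is a product of conjugates of relators whose faces lie in `F`; `co` is the resulting
2-chain -/
inductive Fill (ℓ : FreeGroup S →* Γ) (bd : R → FreeGroup S) (F : Set (Γ × R)) :
    FreeGroup S → (Γ × R →₀ ℤ) → Prop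
  | one : Fill ℓ bd F 1 0
  | face (γ : FreeGroup S) (r : R) : (ℓ γ, r) ∈ F →
      Fill ℓ bd F (γ * bd r * γ⁻¹) (Finsupp.single (ℓ γ, r) 1)
  | mul {w w' : FreeGroup S} {c c' : Γ × R →₀ ℤ} : Fill ℓ bd F w c → Fill ℓ bd F w' c' →
      Fill ℓ bd F (w * w') (c + c')
  | inv {w : FreeGroup S} {c : Γ × R →₀ ℤ} : Fill ℓ bd F w c → Fill ℓ bd F w⁻¹ (-c)

/-- holonomy around the face `f` -/
def curv {W : Type*} [Group W] (ℓ : FreeGroup S →* Γ) (bd : R → FreeGroup S) (A : Γ × S → W)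
    (f : Γ × R) : W := hol ℓ A f.1 (bd f.2)

end Vale.Agent.P173
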