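import Vale.Agent.P173.TopDefs

/-!
P173 task Label (about 200 lines).
* `pathConnected_of_cover`: the range of a covering map is open and closed (evenly covered
  neighbourhoods), nonempty, hence everything; the image of a path connected space is path connected.
* `exists_lab`: choose `c x : Path x₀ x` for all `x` and `e₀` over `x₀` (lift a path from `p e`).
  `lab γ = (e ⟦c x · γ · (c y)⁻¹⟧)⁻¹` (multiplication in `FundamentalGroup` is reversed:
  `FundamentalGroup.mul_def`, the inverse repairs it).  For `g` let `L g = (e.symm g)⁻¹` as a class of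
  loops, `pt g x = monodromy (L g · ⟦c x⟧) e₀`.  Use `IsCoveringMap.monodromy_trans_apply`,
  `liftPath`, `liftPath_lifts`; injectivity of `pt` from simple connectivity of `E`
  (`liftPathQuotient`, `map_liftPathQuotient`: two classes with the same monodromy end point lift to
  paths with the same end points, which are homotopic) and `monodromy_bijective`.
-/

namespace Vale.Agent.P173

variable {X E : Type*} [TopologicalSpace X] [TopologicalSpace E] {p : E → X}

theorem pathConnected_of_cover [ConnectedSpace X] (hp : IsCoveringMap p) [PathConnectedSpace E] :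
    PathConnectedSpace X := by
  have hne : (Set.range p).Nonempty := Set.range_nonempty p
  have hcl : IsClosed (Set.range p) := by
    refine isOpen_compl_iff.1 (isOpen_iff_forall_mem_open.2 fun x hx => ?_)
    obtain ⟨-, U, hxU, hU, -, H, -⟩ := hp x
    refine ⟨U, ?_, hU, hxU⟩
    rintro _ hy ⟨e, rfl⟩
    exact hx ⟨(H ⟨e, hy⟩).2.1, (H ⟨e, hy⟩).2.2⟩
  have hs : Set.range p = Set.univ :=
    IsClopen.eq_univ ⟨hcl, hp.isOpenMap.isOpen_range⟩ hne
  exact (Set.range_eq_univ.1 hs).pathConnectedSpace hp.continuous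

theorem labAux_inj (hp : IsCoveringMap p) [SimplyConnectedSpace E] {x y : X}
    (q q' : Path.Homotopic.Quotient x y) (e : p ⁻¹' {x})
    (h : (hp.monodromy q e : E) = hp.monodromy q' e) : q = q' := by
  have h1 := hp.map_liftPathQuotient q e
  have h2 := hp.map_liftPathQuotient q' e
  have h3 : hp.liftPathQuotient q e = (hp.liftPathQuotient q' e).cast rfl h :=
    Subsingleton.elim _ _
  rw [h3, Path.Homotopic.Quotient.map_cast, h2] at h1
  exact eq_of_heq ((((Path.Homotopic.Quotient.cast_heq _ _).symm.trans (heq_of_eq h1.symm)).trans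
    (Path.Homotopic.Quotient.cast_heq _ _)).trans (Path.Homotopic.Quotient.cast_heq _ _))

theorem labAux_cancel {x y z : X} (q : Path.Homotopic.Quotient x y)
    (r : Path.Homotopic.Quotient y z) : q.symm.trans (q.trans r) = r := by
  rw [← Path.Homotopic.Quotient.trans_assoc, Path.Homotopic.Quotient.symm_trans,
    Path.Homotopic.Quotient.refl_trans]

theorem labAux_cancel' {x y z : X} (q : Path.Homotopic.Quotient x y)
    (r : Path.Homotopic.Quotient x z) : q.trans (q.symm.trans r) = r := by
  rw [← Path.Homotopic.Quotient.trans_assoc, Path.Homotopic.Quotient.trans_symm,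
    Path.Homotopic.Quotient.refl_trans]

theorem exists_lab [PathConnectedSpace X] (hp : IsCoveringMap p) [SimplyConnectedSpace E]
    {Γ : Type*} [Group Γ] (x₀ : X) (e : FundamentalGroup X x₀ ≃* Γ) : Nonempty (Lab p Γ) := by
  obtain ⟨e₁⟩ : Nonempty E := inferInstance
  let e₀ : p ⁻¹' {x₀} :=
    hp.monodromy (.mk (PathConnectedSpace.somePath (p e₁) x₀)) ⟨e₁, rfl⟩
  let c : ∀ x, Path.Homotopic.Quotient x₀ x := fun x => .mk (PathConnectedSpace.somePath x₀ x)
  let Φ : Path.Homotopic.Quotient x₀ x₀ → Γ := fun q => (e (FundamentalGroup.fromPath q))⁻¹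
  let Ψ : Γ → Path.Homotopic.Quotient x₀ x₀ := fun g => FundamentalGroup.toPath (e.symm g⁻¹)
  have hΦ : ∀ q q', Φ (q.trans q') = Φ q * Φ q' := fun q q' => by
    simp only [Φ]
    rw [← mul_inv_rev, ← map_mul]
    rfl
  have hΦΨ : ∀ g, Φ (Ψ g) = g := fun g => by simp [Φ, Ψ]
  have hΨΦ : ∀ q, Ψ (Φ q) = q := fun q => by simp [Φ, Ψ]
  have hΨ : ∀ g g', Ψ (g * g') = (Ψ g).trans (Ψ g') := fun g g' => by
    rw [← hΨΦ ((Ψ g).trans (Ψ g')), hΦ, hΦΨ, hΦΨ]
  have hΨ1 : Ψ 1 = .refl x₀ := by
    simp only [Ψ, inv_one, map_one]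
    rfl
  refine ⟨{ lab :=
              { μ := fun {x y} γ => Φ ((c x).trans ((Path.Homotopic.Quotient.mk γ).trans (c y).symm))
                trans := fun γ γ' => ?_
                htpy := fun h => ?_ }
            pt := fun g x => hp.monodromy ((Ψ g).trans (c x)) e₀
            p_pt := fun g x => (hp.monodromy ((Ψ g).trans (c x)) e₀).2
            pt_inj := fun g g' x h => ?_
            lift := fun g x y γ => ?_
            surj := fun x g => ?_
            null := fun x γ h => ?_ }⟩
  · rw [← hΦ, Path.Homotopic.Quotient.mk_trans]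
    simp only [Path.Homotopic.Quotient.trans_assoc, labAux_cancel]
  · rw [Path.Homotopic.Quotient.eq.2 h]
  · have h1 := congrArg (fun q => Φ (q.trans (c x).symm)) (labAux_inj hp _ _ e₀ h)
    simpa only [Path.Homotopic.Quotient.trans_assoc, Path.Homotopic.Quotient.trans_symm,
      Path.Homotopic.Quotient.trans_refl, hΦΨ] using h1
  · let e' := hp.monodromy ((Ψ g).trans (c x)) e₀
    have h0 : γ.toContinuousMap 0 = p e' := γ.source.trans e'.2.symm
    refine ⟨⟨hp.liftPath γ.toContinuousMap e' h0, hp.liftPath_zero _ _ _, ?_⟩,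
      fun t => congrFun (hp.liftPath_lifts γ.toContinuousMap e' h0) t⟩
    change (hp.monodromy (.mk γ) e' : E) = _
    simp only [e']
    rw [← hp.monodromy_trans_apply, hΨ, hΨΦ]
    simp only [Path.Homotopic.Quotient.trans_assoc, Path.Homotopic.Quotient.symm_trans,
      Path.Homotopic.Quotient.trans_refl]
  · obtain ⟨γ, hγ⟩ := Path.Homotopic.Quotient.mk_surjective
      ((c x).symm.trans ((Ψ g).trans (c x)))
    refine ⟨γ, ?_⟩
    simp only [hγ, Path.Homotopic.Quotient.trans_assoc, labAux_cancel',
      Path.Homotopic.Quotient.trans_symm, Path.Homotopic.Quotient.trans_refl, hΦΨ]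
  · have h1 := congrArg (fun g => (c x).symm.trans ((Ψ g).trans (c x))) h
    simp only [hΨΦ, hΨ1, Path.Homotopic.Quotient.trans_assoc, labAux_cancel,
      Path.Homotopic.Quotient.symm_trans, Path.Homotopic.Quotient.trans_refl,
      Path.Homotopic.Quotient.refl_trans] at h1
    exact Path.Homotopic.Quotient.eq.1 h1

end Vale.Agent.P173
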