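import Vale.Agent.P173.Defs
import Vale.Agent.P173.Basic

/-!
P173 task ProjGE (about 150 lines): a group with an area cocycle has cohomological dimension at
least two.  Let `R = ℤ[H]`, `ε : R →ₗ[R] (trivial module)` the augmentation (onto), `I = ker ε`.
If the dimension were `< 2` then `I` is projective (`projectiveDimension_ge_iff`,
`ShortComplex.ShortExact.hasProjectiveDimensionLT_X₃_iff` with `n = 0`,
`projective_iff_hasProjectiveDimensionLT_one`).  Let `π : (H →₀ R) →ₗ[R] I`, `single g 1 ↦ g - 1`
(onto: `u = ∑ u_g (g - 1)` when `ε u = 0`), `σ` a section.  With `x = toAdd ∘ X`, `y = toAdd ∘ Y`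
define additive maps `Yl : R →+ ℤ`, `single k n ↦ n * y k` and `ψ : (H →₀ R) →+ ℤ`,
`single g (single k n) ↦ n * x k * y g`.  Then `ψ (of h • f) = ψ f + x h * Yl (π f)` (check on
generators: `Yl (k (g - 1)) = y g`).  Since `(t - 1) • (s - 1) = (s - 1) • (t - 1)` in `I`, apply
`ψ ∘ σ`: the left side is `x t * y s = 0`, the right side is `x s * y t = 1`.
-/

namespace Vale.Agent.P173

section aux

variable {H : Type} [Group H]

/-- additive extension of a function on the group -/
noncomputable def geLin (φ : H → ℤ) : MonoidAlgebra ℤ H →+ ℤ :=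
  (Finsupp.linearCombination ℤ φ).toAddMonoidHom.comp MonoidAlgebra.coeffAddEquiv.toAddMonoidHom

@[simp] theorem geLin_single (φ : H → ℤ) (g : H) (n : ℤ) :
    geLin φ (MonoidAlgebra.single g n) = n * φ g := by
  simp [geLin]

/-- the augmentation -/
noncomputable def geEps (H : Type) [Group H] :
    MonoidAlgebra ℤ H →ₗ[MonoidAlgebra ℤ H] (Representation.trivial ℤ H ℤ).asModule :=
  LinearMap.toSpanSingleton _ _ ((Representation.trivial ℤ H ℤ).asModuleEquiv.symm 1)

theorem geEps_apply (u : MonoidAlgebra ℤ H) :
    (Representation.trivial ℤ H ℤ).asModuleEquiv (geEps H u) = geLin (fun _ => 1) u := by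
  induction u using MonoidAlgebra.induction_linear with
  | zero => simp
  | add a b ha hb => simp only [map_add, ha, hb]
  | single g n =>
    rw [geEps, LinearMap.toSpanSingleton_apply, Representation.asModuleEquiv_map_smul]
    simp

theorem geEps_surj : Function.Surjective (geEps H) := by
  intro v
  refine ⟨MonoidAlgebra.single 1 ((Representation.trivial ℤ H ℤ).asModuleEquiv v), ?_⟩
  apply (Representation.trivial ℤ H ℤ).asModuleEquiv.injective
  rw [geEps_apply]
  simp

theorem mem_ker_geEps {u : MonoidAlgebra ℤ H} :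
    u ∈ LinearMap.ker (geEps H) ↔ geLin (fun _ => 1) u = 0 := by
  rw [LinearMap.mem_ker, ← geEps_apply]
  exact (Representation.trivial ℤ H ℤ).asModuleEquiv.map_eq_zero_iff.symm

/-- the first boundary map of the bar resolution -/
noncomputable def gePi (H : Type) [Group H] :
    (H →₀ MonoidAlgebra ℤ H) →ₗ[MonoidAlgebra ℤ H] MonoidAlgebra ℤ H :=
  Finsupp.linearCombination _ fun g => MonoidAlgebra.single g 1 - MonoidAlgebra.single 1 1

theorem gePi_single (g k : H) (n : ℤ) : gePi H (Finsupp.single g (MonoidAlgebra.single k n)) =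
    MonoidAlgebra.single (k * g) n - MonoidAlgebra.single k n := by
  simp [gePi, mul_sub, MonoidAlgebra.single_mul_single]

theorem ge_induction {p : (H →₀ MonoidAlgebra ℤ H) → Prop} (h0 : p 0)
    (ha : ∀ a b, p a → p b → p (a + b))
    (hs : ∀ g k n, p (Finsupp.single g (MonoidAlgebra.single k n))) (f : H →₀ MonoidAlgebra ℤ H) :
    p f := by
  induction f using Finsupp.induction_linear with
  | zero => exact h0
  | add a b iha ihb => exact ha a b iha ihb
  | single g u =>
    induction u using MonoidAlgebra.induction_linear with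
    | zero => simpa using h0
    | add a b iha ihb =>
      rw [Finsupp.single_add]
      exact ha _ _ iha ihb
    | single k n => exact hs g k n

theorem gePi_mem (f : H →₀ MonoidAlgebra ℤ H) : gePi H f ∈ LinearMap.ker (geEps H) := by
  induction f using ge_induction with
  | h0 => simp
  | ha a b iha ihb =>
    rw [map_add]
    exact add_mem iha ihb
  | hs g k n =>
    rw [mem_ker_geEps, gePi_single]
    simp

theorem gePi_surj (u : MonoidAlgebra ℤ H) :
    ∃ f, gePi H f = u - MonoidAlgebra.single 1 (geLin (fun _ => 1) u) := by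
  induction u using MonoidAlgebra.induction_linear with
  | zero => exact ⟨0, by simp⟩
  | add a b ha hb =>
    obtain ⟨f, hf⟩ := ha
    obtain ⟨f', hf'⟩ := hb
    refine ⟨f + f', ?_⟩
    rw [map_add, hf, hf', map_add, MonoidAlgebra.single_add]
    abel
  | single g n =>
    refine ⟨Finsupp.single g (MonoidAlgebra.single 1 n), ?_⟩
    rw [gePi_single]
    simp

/-- the area cochain -/
noncomputable def gePsi (x y : H → ℤ) : (H →₀ MonoidAlgebra ℤ H) →+ ℤ :=
  Finsupp.liftAddHom fun g => (AddMonoidHom.mulRight (y g)).comp (geLin x)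

theorem gePsi_single (x y : H → ℤ) (g k : H) (n : ℤ) :
    gePsi x y (Finsupp.single g (MonoidAlgebra.single k n)) = n * x k * y g := by
  simp [gePsi]

theorem gePsi_smul {x y : H → ℤ} (hx : ∀ a b, x (a * b) = x a + x b)
    (hy : ∀ a b, y (a * b) = y a + y b) (h : H) (f : H →₀ MonoidAlgebra ℤ H) :
    gePsi x y ((MonoidAlgebra.single h 1 : MonoidAlgebra ℤ H) • f) =
      gePsi x y f + x h * geLin y (gePi H f) := by
  induction f using ge_induction with
  | h0 => simp
  | ha a b iha ihb =>
    simp only [smul_add, map_add, iha, ihb]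
    ring
  | hs g k n =>
    rw [Finsupp.smul_single, smul_eq_mul, MonoidAlgebra.single_mul_single, gePsi_single,
      gePsi_single, gePi_single, map_sub, geLin_single, geLin_single, hx, hy]
    ring

end aux

theorem two_le_cohomDim {H : Type} [Group H] {s t : H} (hc : Commute s t)
    (X Y : H →* Multiplicative ℤ) (hXs : X s = Multiplicative.ofAdd 1) (hXt : X t = 1)
    (hYs : Y s = 1) (hYt : Y t = Multiplicative.ofAdd 1) : 2 ≤ cohomDim H := by
  have h2 : (2 : WithBot ℕ∞) = ((2 : ℕ) : WithBot ℕ∞) := rfl
  rw [cohomDim, h2, CategoryTheory.projectiveDimension_ge_iff]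
  intro hlt
  have hS := LinearMap.shortExact_shortComplexKer (geEps_surj (H := H))
  have hP : CategoryTheory.Projective (geEps H).shortComplexKer.X₂ :=
    (IsProjective.iff_projective (R := MonoidAlgebra ℤ H) (MonoidAlgebra ℤ H)).1 inferInstance
  have h1 := (hS.hasProjectiveDimensionLT_X₃_iff 0 hP).1 hlt
  have hI : Module.Projective (MonoidAlgebra ℤ H) (LinearMap.ker (geEps H)) :=
    (IsProjective.iff_projective (R := MonoidAlgebra ℤ H) _).2
      (CategoryTheory.projective_iff_hasProjectiveDimensionLT_one.2 h1)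
  have hsurj : Function.Surjective ((gePi H).codRestrict _ gePi_mem) := by
    rintro ⟨u, hu⟩
    obtain ⟨f, hf⟩ := gePi_surj u
    refine ⟨f, Subtype.ext ?_⟩
    rw [mem_ker_geEps.1 hu] at hf
    simpa using hf
  obtain ⟨σ, hσ⟩ := Module.projective_lifting_property _ LinearMap.id hsurj
  have hσ' : ∀ u, gePi H (σ u) = u := fun u => congrArg Subtype.val (LinearMap.congr_fun hσ u)
  let x : H → ℤ := fun g => Multiplicative.toAdd (X g)
  let y : H → ℤ := fun g => Multiplicative.toAdd (Y g)
  have hx : ∀ a b, x (a * b) = x a + x b := fun a b => by simp [x]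
  have hy : ∀ a b, y (a * b) = y a + y b := fun a b => by simp [y]
  have hm : ∀ g : H, (MonoidAlgebra.single g 1 - MonoidAlgebra.single 1 1 : MonoidAlgebra ℤ H) ∈
      LinearMap.ker (geEps H) := fun g => by
    rw [mem_ker_geEps]
    simp
  let u : H → LinearMap.ker (geEps H) := fun g => ⟨_, hm g⟩
  have key : (MonoidAlgebra.single t 1 : MonoidAlgebra ℤ H) • u s - u s =
      (MonoidAlgebra.single s 1 : MonoidAlgebra ℤ H) • u t - u t := by
    apply Subtype.ext
    simp only [u, Submodule.coe_sub, Submodule.coe_smul, smul_eq_mul, mul_sub,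
      MonoidAlgebra.single_mul_single, mul_one, hc.eq]
    abel
  have h3 := congrArg (fun v => gePsi x y (σ v)) key
  simp only [map_sub, map_smul, gePsi_smul hx hy, hσ'] at h3
  simp [u, x, y, hXs, hXt, hYs, hYt] at h3

end Vale.Agent.P173
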