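import Vale.Agent.P173.Basic

/-!
P173 task Schreier (about 120 lines): pass to a free basis of the subgroup of closed edge paths
(Nielsen-Schreier: `subgroupIsFreeOfIsFree`, `IsFreeGroup.toFreeGroup : L ≃* FreeGroup (Generators L)`).
With `j : FreeGroup S' →* FreeGroup S` the composite of the inverse isomorphism and `L.subtype`:
`ℓ' = ℓ ∘ j`, `bd' r = toFreeGroup ⟨bd r, _⟩`.  `ker`: the homomorphism
`θ' = toFreeGroup ∘ θ.codRestrict L` satisfies `θ' (j w) = w` and `θ' (bd r) = bd' r`, so it maps the normal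
closure into the normal closure (`Subgroup.normalClosure_le_normal` applied to the comap).
`dual`: `α' (g, s') = expo α (lw ℓ g (j (of s')))`, and `expo α' (lw ℓ' g w) = expo α (lw ℓ g (j w))` by
induction on `w` (`hol_mul`, `hol_inv`) or by `hol_unique` and `lift_lw`.
-/

namespace Vale.Agent.P173

universe u

theorem expo_lw_comp_schreier {Γ : Type*} [Group Γ] {S S' : Type*} (ℓ : FreeGroup S →* Γ)
    (j : FreeGroup S' →* FreeGroup S) (α : Γ × S → ℝ) (g : Γ) (w : FreeGroup S') :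
    expo (fun p : Γ × S' => expo α (lw ℓ p.1 (j (FreeGroup.of p.2)))) (lw (ℓ.comp j) g w) =
      expo α (lw ℓ g (j w)) := by
  rw [expo, lift_lw, ← hol_unique (ℓ.comp j) _
    (fun g w => Multiplicative.ofAdd (expo α (lw ℓ g (j w))))
    (fun g w w' => by rw [map_mul, lw, hol_mul, expo_mul, ofAdd_add]; rfl) (fun _ _ => rfl)]
  rfl

theorem PresL.exists_pres {Γ : Type*} [Group Γ] {S : Type u} {R : Type*} (P : PresL Γ S R) :
    ∃ S' : Type u, Nonempty (Pres Γ S' R) := by
  let e : P.L ≃* FreeGroup (IsFreeGroup.Generators P.L) := IsFreeGroup.toFreeGroup P.L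
  let j : FreeGroup (IsFreeGroup.Generators P.L) →* FreeGroup S :=
    P.L.subtype.comp e.symm.toMonoidHom
  have hj : ∀ x : P.L, j (e x) = x := fun x => by simp [j]
  refine ⟨IsFreeGroup.Generators P.L, ⟨⟨P.ℓ.comp j, fun g => ?_, fun r => e ⟨P.bd r, P.bd_mem r⟩,
    fun r => ?_, fun w hw => ?_, fun F f₀ => ?_⟩⟩⟩
  · obtain ⟨w, hw, rfl⟩ := P.surj g
    exact ⟨e ⟨w, hw⟩, congrArg P.ℓ (hj _)⟩
  · rw [MonoidHom.comp_apply, hj, P.bd_one]
  · obtain ⟨x, rfl⟩ := e.surjective w
    rw [MonoidHom.comp_apply, hj] at hw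
    let t : FreeGroup S →* FreeGroup (IsFreeGroup.Generators P.L) :=
      e.toMonoidHom.comp (P.θ.codRestrict P.L P.θ_mem)
    have ht : ∀ y : P.L, t y = e y := fun y => congrArg e (Subtype.ext (P.θ_id y y.2))
    have : Subgroup.normalClosure (Set.range P.bd) ≤ (Subgroup.normalClosure
        (Set.range fun r => e ⟨P.bd r, P.bd_mem r⟩)).comap t := by
      refine Subgroup.normalClosure_le_normal ?_
      rintro _ ⟨r, rfl⟩
      exact Subgroup.subset_normalClosure ⟨r, (ht ⟨_, P.bd_mem r⟩).symm⟩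
    rw [← ht]
    exact this (P.ker x x.2 hw)
  · obtain ⟨α, h1, h2⟩ := P.dual F f₀
    refine ⟨fun p => expo α (lw P.ℓ p.1 (j (FreeGroup.of p.2))), ?_, fun f hf hne => ?_⟩
    · rwa [expo_lw_comp_schreier, hj]
    · rw [expo_lw_comp_schreier, hj]
      exact h2 f hf hne

end Vale.Agent.P173
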