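import Vale.Agent.P173.Inc

/-!
P173 task RepInc (about 250 lines): the increment along the lift of a represented path is the total
of the edge cochain along the lifted word.  Induction on `Rep` (generalising `g`).  Lifts with the
same starting point agree (`IsCoveringMap.eq_of_comp_eq`), so it suffices to treat one chosen lift,
e.g. the one given by `L.lift`, whose end point is `pt (g * lab γ) y`, and `lab γ = edgeLab w` by
`Rep.eval` for `L.lab.comap continuous_subtype_val`.
* `refl`: the lift is constant, `K = {pt g v}`, `inc_const`.  * `edge`: `K = range`.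
* `symm`: apply the hypothesis at `g * (edgeLab w)⁻¹` to the reversed lift; `inc_symm`, `hol_inv`.
* `trans`: concatenate the lifts, `K ∪ K'`, `inc_trans`, `hol_mul`.
* `htpy`: lift the homotopy (`IsCoveringMap.liftHomotopy` of the homotopy pushed to `X`, starting from
  the lift of `γ`); its end points stay fixed (`IsCoveringMap.const_of_comp`); add its range to `K`;
  `inc_htpy`.
-/

namespace Vale.Agent.P173

variable {X E : Type*} [TopologicalSpace X] [TopologicalSpace E] {p : E → X} {Γ : Type*} [Group Γ]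
  {A : Set X} {S : Type*}

/-- labels of the edges -/
def edgeLab (L : Lab p Γ) (st : Stage ℝ A S) : FreeGroup S →* Γ :=
  FreeGroup.lift fun s => L.lab.μ ((st.edge s).map continuous_subtype_val)

/-- the edge cochain defined by `lam` -/
noncomputable def edgeInc (L : Lab p Γ) (st : Stage ℝ A S) (lam : E → ℂ) (e : Γ × S) : ℝ :=
  (inc fun t => lam ((L.lift e.1 ((st.edge e.2).map continuous_subtype_val)).choose t)).im

theorem repInc_lab (L : Lab p Γ) (st : Stage ℝ A S) {x y : A} {γ : Path x y}
    {w : FreeGroup S} (h : Rep st γ w) :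
    L.lab.μ (γ.map continuous_subtype_val) = edgeLab L st w :=
  h.eval (L.lab.comap continuous_subtype_val)

theorem repInc_unique (hp : IsCoveringMap p) {e e₁ e₂ : E} (γ₁ : Path e e₁) (γ₂ : Path e e₂)
    (h : ∀ t, p (γ₁ t) = p (γ₂ t)) (t : unitInterval) : γ₁ t = γ₂ t :=
  congrFun (hp.eq_of_comp_eq γ₁.continuous γ₂.continuous (funext h) 0 (by simp)) t

theorem repInc_aux (hp : IsCoveringMap p) (L : Lab p Γ) (st : Stage ℝ A S) {x y : A}
    {γ : Path x y} {w : FreeGroup S} (h : Rep st γ w) (g : Γ) :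
    ∃ K : Set E, IsCompact K ∧ (∀ z ∈ K, p z ∈ A) ∧
      ∃ γ' : Path (L.pt g x) (L.pt (g * edgeLab L st w) y), (∀ t, p (γ' t) = γ t) ∧
        (∀ t, γ' t ∈ K) ∧ ∀ lam : E → ℂ, Continuous lam → (∀ z ∈ K, lam z ≠ 0) →
          (inc fun t => lam (γ' t)).im = expo (edgeInc L st lam) (lw (edgeLab L st) g w) := by
  induction h generalizing g with
  | refl v hv =>
    refine ⟨{L.pt g v}, isCompact_singleton, ?_, (Path.refl _).cast rfl (by simp), fun t => ?_,
      fun t => rfl, fun lam _ _ => ?_⟩
    · rintro _ rfl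
      rw [L.p_pt]
      exact v.2
    · exact L.p_pt g v
    · have : (fun t => lam (((Path.refl (L.pt g v)).cast rfl
          (by simp : L.pt (g * edgeLab L st 1) v = L.pt g v)) t)) = fun _ => lam (L.pt g v) := rfl
      rw [this, inc_const]
      simp [lw]
  | edge s =>
    let γ' := (L.lift g ((st.edge s).map continuous_subtype_val)).choose
    have hγ' : ∀ t, p (γ' t) = st.edge s t :=
      (L.lift g ((st.edge s).map continuous_subtype_val)).choose_spec
    refine ⟨Set.range γ', isCompact_range γ'.continuous, ?_, γ'.cast rfl (by simp [edgeLab]),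
      hγ', fun t => ⟨t, rfl⟩, fun lam _ _ => ?_⟩
    · rintro _ ⟨t, rfl⟩
      rw [hγ']
      exact (st.edge s t).2
    · simp only [lw, hol_of, expo_of]
      rfl
  | @symm x y γ w _ ih =>
    obtain ⟨K, hK, hA, γ', h1, h2, h3⟩ := ih (g * (edgeLab L st w)⁻¹)
    refine ⟨K, hK, hA, γ'.symm.cast (by simp) (by simp), fun t => h1 _, fun t => h2 _,
      fun lam hl h0 => ?_⟩
    have := inc_symm hl γ' fun t => h0 _ (h2 t)
    simp only [lw, hol_inv, expo_inv] at h3 ⊢
    rw [← h3 lam hl h0, ← Complex.neg_im, ← this]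
    rfl
  | @trans x y z γ γ₂ w w' _ _ ih ih' =>
    obtain ⟨K, hK, hA, γ', h1, h2, h3⟩ := ih g
    obtain ⟨K', hK', hA', γ'', h1', h2', h3'⟩ := ih' (g * edgeLab L st w)
    refine ⟨K ∪ K', hK.union hK', ?_, (γ'.trans γ'').cast rfl (by simp [mul_assoc]), fun t => ?_,
      fun t => ?_, fun lam hl h0 => ?_⟩
    · rintro z (hz | hz)
      · exact hA z hz
      · exact hA' z hz
    · change p (γ'.trans γ'' t) = _
      rw [Path.trans_apply, Path.trans_apply]
      split_ifs
      · exact h1 _
      · exact h1' _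
    · change γ'.trans γ'' t ∈ _
      rw [Path.trans_apply]
      split_ifs
      · exact Or.inl (h2 _)
      · exact Or.inr (h2' _)
    · have := inc_trans hl γ' γ'' (fun t => h0 _ (Or.inl (h2 t))) fun t => h0 _ (Or.inr (h2' t))
      simp only [lw, hol_mul, expo_mul] at h3 h3' ⊢
      rw [← h3 lam hl fun z hz => h0 z (Or.inl hz), ← h3' lam hl fun z hz => h0 z (Or.inr hz),
        ← Complex.add_im, ← this]
      rfl
  | @htpy x y γ γ₂ w hr hh ih =>
    obtain ⟨K, hK, hA, γ', h1, h2, h3⟩ := ih g
    obtain ⟨F⟩ := hh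
    let H : C(unitInterval × unitInterval, X) :=
      ⟨fun q => (F q : X), continuous_subtype_val.comp F.continuous⟩
    have H0 : ∀ t, H (0, t) = p (γ'.toContinuousMap t) := fun t => by
      change (F (0, t) : X) = p (γ' t)
      rw [h1, F.apply_zero]
      rfl
    let G := hp.liftHomotopy H γ'.toContinuousMap H0
    have hG : ∀ q, p (G q) = F q := fun q => congrFun (hp.liftHomotopy_lifts H _ H0) q
    have hG0 : ∀ t, G (0, t) = γ' t := fun t => hp.liftHomotopy_zero H _ H0 t
    have hs : ∀ s, G (s, 0) = G (0, 0) := fun s =>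
      hp.const_of_comp (g := fun s => G (s, 0)) (by fun_prop)
        (fun a a' => by rw [hG, hG, F.source, F.source]) s 0
    have ht : ∀ s, G (s, 1) = G (0, 1) := fun s =>
      hp.const_of_comp (g := fun s => G (s, 1)) (by fun_prop)
        (fun a a' => by rw [hG, hG, F.target, F.target]) s 0
    let γ'' : Path (L.pt g x) (L.pt (g * edgeLab L st w) y) :=
      ⟨⟨fun t => G (1, t), by fun_prop⟩, by
        change G (1, 0) = _
        rw [hs, hG0, γ'.source], by
        change G (1, 1) = _
        rw [ht, hG0, γ'.target]⟩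
    refine ⟨K ∪ Set.range G, hK.union (isCompact_range G.continuous), ?_, γ'', fun t => ?_,
      fun t => Or.inr ⟨_, rfl⟩, fun lam hl h0 => ?_⟩
    · rintro z (hz | ⟨q, rfl⟩)
      · exact hA z hz
      · rw [hG]
        exact (F q).2
    · change p (G (1, t)) = _
      rw [hG, F.apply_one]
      rfl
    · have := inc_htpy (H := fun q => lam (G q)) (hl.comp G.continuous)
        (fun q => h0 _ (Or.inr ⟨q, rfl⟩)) (fun s => by rw [hs]) (fun s => by rw [ht])
      simp only [hG0] at this
      rw [← h3 lam hl fun z hz => h0 z (Or.inl hz), this]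
      rfl

theorem rep_inc (hp : IsCoveringMap p) (L : Lab p Γ) (st : Stage ℝ A S) {x y : A} {γ : Path x y}
    {w : FreeGroup S} (h : Rep st γ w) (g : Γ) :
    ∃ K : Set E, IsCompact K ∧ (∀ z ∈ K, p z ∈ A) ∧
      ∀ (e' : E) (γ' : Path (L.pt g x) e'), (∀ t, p (γ' t) = γ t) → (∀ t, γ' t ∈ K) ∧
        ∀ lam : E → ℂ, Continuous lam → (∀ z ∈ K, lam z ≠ 0) →
          (inc fun t => lam (γ' t)).im = expo (edgeInc L st lam) (lw (edgeLab L st) g w) := by
  obtain ⟨K, hK, hA, γ₀, h1, h2, h3⟩ := repInc_aux hp L st h g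
  refine ⟨K, hK, hA, fun e' γ' hγ' => ?_⟩
  have e : ∀ t, γ' t = γ₀ t := repInc_unique hp γ' γ₀ fun t => by rw [hγ', h1]
  simp only [e]
  exact ⟨h2, h3⟩

end Vale.Agent.P173
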