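import Vale.Agent.P173.Push
import Vale.Agent.P173.Approx
import Vale.Agent.P173.Atlas1
import Vale.Agent.P173.Atlas2
import Vale.Agent.P173.Dual
import Vale.Agent.P173.RepInc

/-!
P173 task ToPres (about 300 lines): the presentation read off from a two-dimensional complex.
Pick a vertex `v₀ ∈ st₁.A` (`X` is nonempty; use `cover` and `bdry` twice).  `st₂.A` is path connected
(`push`).  `ℓ = edgeLab L st₁`, `L₀ = {w | ∃ γ : Path v₀ v₀, Rep st₁ γ w}` (a subgroup).
`surj`: `L.surj`, `push`, `approx`, `Rep.eval` for `L.lab.comap`.  For each `r` choose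
`c r : Path v₀ (base r)`, `loop r = ((c r).trans (att r)).trans (c r).symm`, `Rep (loop r) (bd r)`;
`bd_one` from `att_null`.  For vertices `v` choose a path from `v₀` and a word `τ v` representing it, with
`τ v₀ = 1` (`refl`); `θ (of s) = τ (χ s (-1)) * of s * (τ (χ s 1))⁻¹`; by induction
`Rep γ w → θ w = τ x * w * (τ y)⁻¹` (no membership needed).  `ker`: `m₁` from `exists_atlas` and
`exists_pathHom` has `m₁ γ = w` when `Rep γ w`; push the atlas and `m₁` to the quotient by the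
normal closure `N` of the `bd r` (`PathHom.map`), where the attaching loops die; `extend_pathHom`;
`L.null`.  `dual`: for `f = (g, r)` take the disc `D f` with `D f 1 = pt (g * lab (c r)) (χ r 1)` and
`K f` from `rep_inc` for `loop r` at `g`; `K` is the finite union of all `K f` and disc images over
`insert f₀ F`; `lam` from `exists_lam`, `α = edgeInc L st₁ lam`.  The lift of `loop r` is
`(c' · (D f ∘ circle)) · c'.symm` with `c'` from `L.lift`, so its increment is that of the circle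
(`inc_trans`, `inc_symm`; nonvanishing since all points of the lift lie in `K f`).  `pt_inj` separates
the discs, and `(2 π i).im ≠ 0`.
-/

namespace Vale.Agent.P173

open Set Metric

theorem toPres_lift_trans {E X : Type*} [TopologicalSpace E] [TopologicalSpace X] {p : E → X}
    {A : Set X} {a b c : E} {x y z : A} {γ : Path a b} {γ' : Path b c} {δ : Path x y}
    {δ' : Path y z} (h : ∀ t, p (γ t) = δ t) (h' : ∀ t, p (γ' t) = δ' t) (t : unitInterval) :
    p (γ.trans γ' t) = δ.trans δ' t := by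
  simp only [Path.trans_apply]
  split_ifs
  · exact h _
  · exact h' _

theorem toPres_ker {X : Type*} [TopologicalSpace X] {S R : Type*} (st₂ : Stage ℂ X R)
    (st₁ : Stage ℝ st₂.A S) {v₀ : st₂.A} (c : ∀ r, Path v₀ (st₂.base r)) (bd : R → FreeGroup S)
    (hbd : ∀ r, Rep st₁ (((c r).trans (st₂.att r)).trans (c r).symm) (bd r)) {γ : Path v₀ v₀}
    {w : FreeGroup S} (hγ : Rep st₁ γ w)
    (h0 : (γ.map continuous_subtype_val).Homotopic (Path.refl _)) :
    w ∈ Subgroup.normalClosure (range bd) := by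
  obtain ⟨𝒜, h𝒜⟩ := st₁.exists_atlas
  obtain ⟨m₁, hm₁⟩ := exists_pathHom 𝒜
  have ev : ∀ {x y : st₂.A} {δ : Path x y} {u : FreeGroup S}, Rep st₁ δ u → m₁.μ δ = u := by
    intro x y δ u h
    rw [h.eval m₁]
    simp only [h𝒜 m₁ hm₁]
    exact FreeGroup.lift_of_apply u
  let q := QuotientGroup.mk' (Subgroup.normalClosure (range bd))
  let 𝒜' : Atlas st₂.A (FreeGroup S ⧸ Subgroup.normalClosure (range bd)) (Option S) :=
    { U := 𝒜.U
      isOpen := 𝒜.isOpen
      cover := 𝒜.cover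
      φ := fun i z => q (𝒜.φ i z)
      lc := fun i j z hi hj => by
        filter_upwards [𝒜.lc i j z hi hj] with z' h
        rw [← map_inv, ← map_mul, h, map_mul, map_inv] }
  have hc : 𝒜'.Compat (m₁.map q) := fun i x y δ h => by
    change q (m₁.μ δ) = (q (𝒜.φ i x))⁻¹ * q (𝒜.φ i y)
    rw [hm₁ i δ h, map_mul, map_inv]
  obtain ⟨m', hm'⟩ := st₂.extend_pathHom 𝒜' (m₁.map q) hc fun r => by
    have h1 : (m₁.map q).μ (((c r).trans (st₂.att r)).trans (c r).symm) = 1 := by
      change q (m₁.μ _) = 1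
      rw [ev (hbd r)]
      exact (QuotientGroup.eq_one_iff _).2 (Subgroup.subset_normalClosure (mem_range_self r))
    rw [PathHom.trans, PathHom.trans, PathHom.symm] at h1
    exact conj_eq_one_iff.1 h1
  have h2 := hm' γ
  rw [m'.htpy h0, m'.refl] at h2
  change 1 = q (m₁.μ γ) at h2
  rw [ev hγ] at h2
  exact (QuotientGroup.eq_one_iff _).1 h2.symm

theorem toPres_dual {X E : Type*} [TopologicalSpace X] [TopologicalSpace E] [T2Space X]
    [ContractibleSpace E] {p : E → X} (hp : IsCoveringMap p) {Γ : Type*}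
    [Group Γ] (L : Lab p Γ) {S R : Type*} (st₂ : Stage ℂ X R) (st₁ : Stage ℝ st₂.A S)
    {v₀ : st₂.A} (c : ∀ r, Path v₀ (st₂.base r)) (bd : R → FreeGroup S)
    (hbd : ∀ r, Rep st₁ (((c r).trans (st₂.att r)).trans (c r).symm) (bd r))
    (F : Finset (Γ × R)) (f₀ : Γ × R) : ∃ α : Γ × S → ℝ,
      expo α (lw (edgeLab L st₁) f₀.1 (bd f₀.2)) ≠ 0 ∧
        ∀ f ∈ F, f ≠ f₀ → expo α (lw (edgeLab L st₁) f.1 (bd f.2)) = 0 := by
  classical
  choose D hD hD1 using fun f : Γ × R => exists_disk st₂ hp f.2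
    (L.pt (f.1 * L.lab.μ ((c f.2).map continuous_subtype_val)) (st₂.base f.2)) (L.p_pt _ _)
  choose K hK hKA hKi using fun f : Γ × R => rep_inc hp L st₁ (hbd f.2) f.1
  have hKc : IsCompact (⋃ f ∈ insert f₀ F, K f ∪ D f '' closedBall 0 1) :=
    (insert f₀ F).isCompact_biUnion fun f _ =>
      (hK f).union ((isCompact_closedBall 0 1).image_of_continuousOn (hD f).1)
  have hDK : ∀ f ∈ insert f₀ F, ∀ y, ‖y‖ ≤ 1 →
      D f y ∈ ⋃ f ∈ insert f₀ F, K f ∪ D f '' closedBall 0 1 := fun f hf y hy =>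
    mem_iUnion₂.2 ⟨f, hf, Or.inr ⟨y, mem_closedBall_zero_iff.2 hy, rfl⟩⟩
  obtain ⟨lam, hl, hl0, hl1, hl2⟩ := exists_lam st₂ hp (hD f₀) hKc
    (hDK f₀ (Finset.mem_insert_self _ _))
  have key : ∀ f ∈ insert f₀ F, expo (edgeInc L st₁ lam) (lw (edgeLab L st₁) f.1 (bd f.2)) =
      (inc fun t => lam (D f (Complex.exp (2 * Real.pi * (t : ℝ) * Complex.I)))).im := by
    intro f hf
    obtain ⟨c', hc'⟩ := L.lift f.1 ((c f.2).map continuous_subtype_val)
    let circ : Path (L.pt (f.1 * L.lab.μ ((c f.2).map continuous_subtype_val)) (st₂.base f.2))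
        (L.pt (f.1 * L.lab.μ ((c f.2).map continuous_subtype_val)) (st₂.base f.2)) :=
      { toFun := fun t => D f (Complex.exp (2 * Real.pi * (t : ℝ) * Complex.I))
        continuous_toFun := (hD f).1.comp_continuous (by fun_prop) fun t => by
          rw [mem_closedBall_zero_iff, norm_exp_two_pi]
        source' := by simpa using hD1 f
        target' := by
          simp only [Icc.coe_one, Complex.ofReal_one, mul_one]
          rw [Complex.exp_two_pi_mul_I]
          exact hD1 f }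
    obtain ⟨h1, h2⟩ := hKi f _ ((c'.trans circ).trans c'.symm) (toPres_lift_trans
      (toPres_lift_trans hc' fun t => (hD f).2 _ (norm_exp_two_pi t).le) fun t => hc' _)
    have h3 : ∀ z ∈ K f, lam z ≠ 0 := fun z hz =>
      hl0 z (mem_iUnion₂.2 ⟨f, hf, Or.inl hz⟩) (hKA f z hz)
    have h4 : range ((c'.trans circ).trans c'.symm) ⊆ K f := range_subset_iff.2 h1
    rw [Path.trans_range, Path.trans_range] at h4
    have h5 : ∀ t, lam (c' t) ≠ 0 := fun t => h3 _ (h4 (Or.inl (Or.inl (mem_range_self t))))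
    have h6 : ∀ t, lam (circ t) ≠ 0 := fun t => h3 _ (h4 (Or.inl (Or.inr (mem_range_self t))))
    have h7 : ∀ t, lam (c'.trans circ t) ≠ 0 := fun t =>
      h3 _ (h4 (Or.inl (Path.trans_range c' circ ▸ mem_range_self t)))
    rw [← h2 lam hl h3, inc_trans hl _ _ h7 fun t => h5 _, inc_trans hl _ _ h5 h6,
      inc_symm hl _ h5, add_neg_cancel_comm]
    rfl
  refine ⟨edgeInc L st₁ lam, ?_, fun f hf hne => ?_⟩
  · rw [key f₀ (Finset.mem_insert_self _ _), hl1]
    simp
  · rw [key f (Finset.mem_insert_of_mem hf),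
      hl2 f.2 (D f) (hD f) (hDK f (Finset.mem_insert_of_mem hf)) ?_, Complex.zero_im]
    obtain ⟨g, r⟩ := f
    obtain ⟨g₀, r₀⟩ := f₀
    by_cases hr : r = r₀
    · subst hr
      refine Or.inr fun h => hne ?_
      rw [hD1, hD1] at h
      exact Prod.ext (mul_right_cancel (L.pt_inj _ _ _ h)) rfl
    · exact Or.inl hr

theorem exists_presL {X E : Type*} [TopologicalSpace X] [TopologicalSpace E] [T2Space X]
    [PathConnectedSpace X] [ContractibleSpace E] {p : E → X} (hp : IsCoveringMap p) {Γ : Type*}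
    [Group Γ] (L : Lab p Γ) {S R : Type*} (st₂ : Stage ℂ X R) (st₁ : Stage ℝ st₂.A S)
    (hd : ∀ C ⊆ st₁.A, IsClosed C) : Nonempty (PresL Γ S R) := by
  obtain ⟨a⟩ : Nonempty st₂.A := by
    obtain ⟨x⟩ : Nonempty X := inferInstance
    rcases st₂.cover x with h | ⟨r, -⟩
    · exact ⟨⟨x, h⟩⟩
    · exact ⟨st₂.base r⟩
  have hm : ∀ s, st₁.χ s (-1) ∈ st₁.A := fun s => st₁.bdry s _ (by simp)
  have hp1 : ∀ s, st₁.χ s 1 ∈ st₁.A := fun s => st₁.bdry s _ (by simp)
  obtain ⟨v₀, hv₀⟩ : ∃ v, v ∈ st₁.A := by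
    rcases st₁.cover a with h | ⟨s, -⟩
    · exact ⟨a, h⟩
    · exact ⟨_, hp1 s⟩
  have hpc : ∀ y : st₂.A, Nonempty (Path v₀ y) := fun y =>
    ⟨(st₂.push (PathConnectedSpace.somePath (v₀ : X) y)).choose⟩
  have ev : ∀ {x y : st₂.A} {δ : Path x y} {u : FreeGroup S}, Rep st₁ δ u →
      (L.lab.comap continuous_subtype_val).μ δ = edgeLab L st₁ u := fun h => h.eval _
  let c : ∀ r, Path v₀ (st₂.base r) := fun r => (hpc _).some
  choose bd hbd using fun r =>
    st₁.approx hd hv₀ hv₀ (((c r).trans (st₂.att r)).trans (c r).symm)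
  have hτ : ∀ v : st₂.A, ∃ w : FreeGroup S, (v ∈ st₁.A → ∃ γ : Path v₀ v, Rep st₁ γ w) ∧
      (v = v₀ → w = 1) := by
    intro v
    by_cases h0 : v = v₀
    · subst h0
      exact ⟨1, fun h => ⟨_, Rep.refl v h⟩, fun _ => rfl⟩
    by_cases h1 : v ∈ st₁.A
    · obtain ⟨w, hw⟩ := st₁.approx hd hv₀ h1 (hpc v).some
      exact ⟨w, fun _ => ⟨_, hw⟩, fun h => absurd h h0⟩
    · exact ⟨1, fun h => absurd h h1, fun _ => rfl⟩
  choose τ hτ hτ0 using hτ
  let θ : FreeGroup S →* FreeGroup S :=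
    FreeGroup.lift fun s => τ (st₁.χ s (-1)) * FreeGroup.of s * (τ (st₁.χ s 1))⁻¹
  have hθ : ∀ {x y : st₂.A} {δ : Path x y} {u : FreeGroup S}, Rep st₁ δ u →
      θ u = τ x * u * (τ y)⁻¹ := by
    intro x y δ u h
    induction h with
    | refl v _ => simp
    | edge s => exact FreeGroup.lift_apply_of
    | symm _ ih => rw [map_inv, ih]; group
    | trans _ _ ih ih' => rw [map_mul, ih, ih']; group
    | htpy _ _ ih => exact ih
  let L₀ : Subgroup (FreeGroup S) :=
    { carrier := {w | ∃ γ : Path v₀ v₀, Rep st₁ γ w}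
      one_mem' := ⟨_, Rep.refl v₀ hv₀⟩
      mul_mem' := fun ⟨_, h⟩ ⟨_, h'⟩ => ⟨_, h.trans h'⟩
      inv_mem' := fun ⟨_, h⟩ => ⟨_, h.symm⟩ }
  refine ⟨{ ℓ := edgeLab L st₁
            L := L₀
            surj := fun g => ?_
            bd := bd
            bd_mem := fun r => ⟨_, hbd r⟩
            bd_one := fun r => ?_
            θ := θ
            θ_mem := fun w => ?_
            θ_id := ?_
            ker := ?_
            dual := toPres_dual hp L st₂ st₁ c bd hbd }⟩
  · obtain ⟨γ, rfl⟩ := L.surj v₀ g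
    obtain ⟨γ', hγ'⟩ := st₂.push γ
    obtain ⟨w, hw⟩ := st₁.approx hd hv₀ hv₀ γ'
    exact ⟨w, ⟨_, hw⟩, (ev hw).symm.trans (L.lab.htpy hγ').symm⟩
  · have h1 : (L.lab.comap continuous_subtype_val).μ (st₂.att r) = 1 :=
      (L.lab.htpy (st₂.att_null r)).trans (L.lab.refl _)
    rw [← ev (hbd r), PathHom.trans, PathHom.trans, PathHom.symm, h1, mul_one, mul_inv_cancel]
  · have h1 : ∀ s, θ (FreeGroup.of s) ∈ L₀ := fun s => by
      obtain ⟨γ₁, h₁⟩ := hτ _ (hm s)
      obtain ⟨γ₂, h₂⟩ := hτ _ (hp1 s)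
      rw [hθ (Rep.edge s)]
      exact ⟨_, (h₁.trans (Rep.edge s)).trans h₂.symm⟩
    induction w using FreeGroup.induction_on with
    | C1 => rw [map_one]; exact one_mem _
    | of s => exact h1 s
    | inv_of s ih => rw [map_inv]; exact inv_mem ih
    | mul a b ha hb => rw [map_mul]; exact mul_mem ha hb
  · rintro w ⟨γ, hγ⟩
    rw [hθ hγ, hτ0 v₀ rfl, one_mul, inv_one, mul_one]
  · rintro w ⟨γ, hγ⟩ hw
    exact toPres_ker st₂ st₁ c bd hbd hγ (L.null _ _ ((ev hγ).trans hw))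

end Vale.Agent.P173
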