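import Vale.Agent.P173.Core
import Vale.Agent.P173.CdLE
import Vale.Agent.P173.ProjGE
import Vale.Agent.P173.ToPres
import Vale.Agent.P173.Label
import Vale.Agent.P173.Extract
import Vale.Agent.P173.Schreier
import Vale.Agent.P173.Example

namespace Vale.Agent.P173

universe u

theorem exists_pres_of_classifying {Γ : Type} [Group Γ] (h : HasClassifyingSpaceDimLE.{u} Γ 2) :
    ∃ S R : Type u, Nonempty (Pres Γ S R) := by
  obtain ⟨X, _, _, _, hdim, _, ⟨x₀, ⟨e⟩⟩, E, _, p, hp, _⟩ := h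
  haveI : PathConnectedSpace X := pathConnected_of_cover hp
  obtain ⟨L⟩ := exists_lab hp x₀ e
  obtain ⟨S, R, st₂, st₁, hd⟩ := exists_stages hdim
  obtain ⟨P⟩ := exists_presL hp L st₂ st₁ hd
  obtain ⟨S', hS'⟩ := P.exists_pres
  exact ⟨S', R, hS'⟩

section bb

variable {V : Type} [LinearOrder V] (G : SimpleGraph V)

def bbx (a b : V) : BB G := ⟨(gen G a)⁻¹ * gen G b, by simp [MonoidHom.mem_ker, ht]⟩

def bbg (r : V) (n : ℕ) (a : V) : BB G :=
  ⟨((gen G r) ^ n)⁻¹ * gen G a ^ n, by simp [MonoidHom.mem_ker, ht]⟩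

def bbchi : BB G →* Multiplicative (V → ℤ) := (chi G).comp (ht G).ker.subtype

theorem bbchi_x (a b : V) :
    Multiplicative.toAdd (bbchi G (bbx G a b)) = Pi.single b 1 - Pi.single a 1 := by
  simp [bbchi, bbx, chi, sub_eq_neg_add]

theorem bbchi_g (r : V) (n : ℕ) (a : V) : Multiplicative.toAdd (bbchi G (bbg G r n a)) =
    Pi.single a (n : ℤ) - Pi.single r (n : ℤ) := by
  simp [bbchi, bbg, chi, sub_eq_neg_add, ← Pi.single_smul']

variable {G}

theorem bbx_comm {a b c : V} (hab : G.Adj a b) (hbc : G.Adj b c) (hac : G.Adj a c) :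
    Commute (bbx G a b) (bbx G b c) := by
  have h : Commute ((gen G a)⁻¹ * gen G b) ((gen G b)⁻¹ * gen G c) :=
    Commute.mul_left (Commute.mul_right (gen_comm hab).inv_inv (gen_comm hac).inv_left)
      (Commute.mul_right (Commute.refl _).inv_right (gen_comm hbc))
  exact Subtype.ext h.eq

theorem bbg_mul (r : V) (n : ℕ) {a b : V} (h : G.Adj a b) :
    bbg G r n a * bbx G a b ^ n = bbg G r n b := by
  apply Subtype.ext
  simp only [bbg, bbx, MulMemClass.coe_mul, SubmonoidClass.coe_pow]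
  rw [(gen_comm h).inv_left.mul_pow, inv_pow, mul_assoc, mul_inv_cancel_left]

end bb

theorem eilenberg_ganea_false :
    ∃ (Γ : Type) (_ : Group Γ), cohomDim Γ = 2 ∧ ¬ HasClassifyingSpaceDimLE.{u} Γ 2 := by
  obtain ⟨K⟩ := exists_cplx
  refine ⟨BB K.G, inferInstance, le_antisymm (bb_cohomDim_le K) ?_, fun h => ?_⟩
  · have huv := (K.uv 0).ne
    have hvw := (K.vw 0).ne
    have huw := ((K.uv 0).trans (K.vw 0)).ne
    refine two_le_cohomDim (bbx_comm (K.auv 0) (K.avw 0) (K.auw 0))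
      ((Pi.evalMonoidHom (fun _ => Multiplicative ℤ) (K.u 0)).comp
        ((MulEquiv.piMultiplicative _).toMonoidHom.comp (bbchi K.G)))⁻¹
      ((Pi.evalMonoidHom (fun _ => Multiplicative ℤ) (K.w 0)).comp
        ((MulEquiv.piMultiplicative _).toMonoidHom.comp (bbchi K.G))) ?_ ?_ ?_ ?_ <;>
    simp [bbchi_x, Pi.single_apply, huv, hvw, huw, huv.symm, hvw.symm, huw.symm]
  · obtain ⟨S, R, ⟨P⟩⟩ := exists_pres_of_classifying h
    exact core K (bbx K.G) (bbg K.G K.root) (bbchi K.G)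
      (fun σ => bbx_comm (K.auv σ) (K.avw σ) (K.auw σ))
      (fun σ => Subtype.ext (by simp [bbx])) (fun n => Subtype.ext (by simp [bbg]))
      (fun n a b h => bbg_mul K.root n h) (bbchi_x K.G) (bbchi_g K.G K.root) P

end Vale.Agent.P173
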