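import Vale.Agent.P173.Fill

/-!
P173 task Lin (about 150 lines): second order expansion of the holonomy of a filled loop when only
one face `f₀ = (ℓ ω, r₀)` of the filling is curved.  Induction on `Fill`, proving at the same time
`‖hol - 1‖ ≤ C η`.  Let `u = hol ℓ A g (ω * bd r₀ * ω⁻¹)`, `‖u - 1‖ ≤ η` (`hol_conj`).
* `face γ r` with `(ℓ γ, r) ≠ f₀`: the holonomy is `1` (`hol_conj`, flat face), coefficient `0`.
* `face γ r` with `(ℓ γ, r) = f₀`: the loop `γ * ω⁻¹` has `ℓ = 1`, so `fill_exists` and `Fill.first`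
  give a finset `F'` and `‖z - 1‖ ≤ C η` for `z = hol ℓ A g (γ * ω⁻¹)`; the word is
  `(γ ω⁻¹) (ω bd ω⁻¹) (γ ω⁻¹)⁻¹`, holonomy `z u z⁻¹`, and `S3.norm_conj_sub` applies.
* `mul`, `inv`: `S3.norm_mul_sub_two`, `S3.norm_inv_sub_two`; unions of the finsets.
-/

namespace Vale.Agent.P173

open scoped Quaternion

theorem fill_lin {Γ : Type*} [Group Γ] {S R : Type*} (P : Pres Γ S R) {F : Set (Γ × R)}
    {w : FreeGroup S} {c : Γ × R →₀ ℤ} (hw : Fill P.ℓ P.bd F w c) (ω : FreeGroup S) (r₀ : R) :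
    ∃ (F' : Finset (Γ × R)) (C : ℝ), 0 ≤ C ∧ ∀ (A : Γ × S → S3) (g : Γ) (η : ℝ), 0 ≤ η → η ≤ 1 →
      (∀ f ∈ F, f ≠ (P.ℓ ω, r₀) → curv P.ℓ P.bd A (mv g f) = 1) →
      (∀ f ∈ F', ‖((curv P.ℓ P.bd A (mv g f) : S3) : ℍ) - 1‖ ≤ η) →
      ‖((curv P.ℓ P.bd A (mv g (P.ℓ ω, r₀)) : S3) : ℍ) - 1‖ ≤ η →
      ‖((hol P.ℓ A g w : S3) : ℍ) - 1 - (c (P.ℓ ω, r₀) : ℝ) •
        (((hol P.ℓ A g (ω * P.bd r₀ * ω⁻¹) : S3) : ℍ) - 1)‖ ≤ C * η ^ 2 := by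
  classical
  have first : ∀ {w : FreeGroup S} {c : Γ × R →₀ ℤ}, Fill P.ℓ P.bd F w c → ∃ C : ℝ, 0 ≤ C ∧
      ∀ (A : Γ × S → S3) (g : Γ) (η : ℝ), 0 ≤ η →
      (∀ f ∈ F, f ≠ (P.ℓ ω, r₀) → curv P.ℓ P.bd A (mv g f) = 1) →
      ‖((curv P.ℓ P.bd A (mv g (P.ℓ ω, r₀)) : S3) : ℍ) - 1‖ ≤ η →
      ‖((hol P.ℓ A g w : S3) : ℍ) - 1‖ ≤ C * η := fun hw => by
    obtain ⟨C, hC, h⟩ := hw.first P.bd_one
    refine ⟨C, hC, fun A g η h0 h1 h2 => h A g η h0 fun f hf => ?_⟩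
    by_cases hf0 : f = (P.ℓ ω, r₀)
    · rw [hf0]; exact h2
    · rw [h1 f hf hf0]; simpa using h0
  induction hw with
  | one => exact ⟨∅, 0, le_rfl, fun A g η _ _ _ _ _ => by simp⟩
  | face γ r hr =>
    by_cases h : (P.ℓ γ, r) = (P.ℓ ω, r₀)
    · obtain ⟨h1, rfl⟩ := Prod.mk.inj h
      have hz : P.ℓ (γ * ω⁻¹) = 1 := by simp [h1]
      obtain ⟨F', c', hF'⟩ := fill_exists P hz
      obtain ⟨C, hC, hfirst⟩ := hF'.first P.bd_one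
      refine ⟨F', 2 * C, by positivity, fun A g η h0 _ _ h3 h4 => ?_⟩
      have e : γ * P.bd r * γ⁻¹ = (γ * ω⁻¹) * (ω * P.bd r * ω⁻¹) * (γ * ω⁻¹)⁻¹ := by group
      have hu : P.ℓ (ω * P.bd r * ω⁻¹) = 1 := by simp [P.bd_one]
      have hu1 : ‖((hol P.ℓ A g (ω * P.bd r * ω⁻¹) : S3) : ℍ) - 1‖ ≤ η := by
        rw [hol_conj _ _ _ _ _ (P.bd_one r), S3.norm_conj_sub_one]
        exact h4
      have hz1 := hfirst A g η h0 fun f hf => h3 f hf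
      rw [e, hol_conj _ _ _ _ _ hu, hz, mul_one, h, Finsupp.single_eq_same, Int.cast_one,
        one_smul, sub_sub_sub_cancel_right]
      refine (S3.norm_conj_sub _ _).trans ?_
      calc _ ≤ 2 * (C * η) * η := by gcongr
        _ = 2 * C * η ^ 2 := by ring
    · refine ⟨∅, 0, le_rfl, fun A g η _ _ h2 _ _ => ?_⟩
      have h3 : hol P.ℓ A (g * P.ℓ γ) (P.bd r) = 1 := h2 _ hr h
      rw [hol_conj _ _ _ _ _ (P.bd_one r), h3, Finsupp.single_eq_of_ne (Ne.symm h)]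
      simp
  | @mul w w' c c' hw hw' ih ih' =>
    obtain ⟨F₁, C₁, hC₁, h₁⟩ := ih
    obtain ⟨F₂, C₂, hC₂, h₂⟩ := ih'
    obtain ⟨B₁, hB₁, k₁⟩ := first hw
    obtain ⟨B₂, hB₂, k₂⟩ := first hw'
    refine ⟨F₁ ∪ F₂, C₁ + C₂ + B₁ * B₂, by positivity, fun A g η h0 h1 h2 h3 h4 => ?_⟩
    have e₁ := h₁ A g η h0 h1 h2 (fun f hf => h3 f (Finset.mem_union_left _ hf)) h4
    have e₂ := h₂ A g η h0 h1 h2 (fun f hf => h3 f (Finset.mem_union_right _ hf)) h4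
    have b₁ := k₁ A g η h0 h2 h4
    have b₂ := k₂ A g η h0 h2 h4
    rw [hol_mul, hw.map_eq_one P.bd_one, mul_one]
    have e₃ := S3.norm_mul_sub_two (hol P.ℓ A g w) (hol P.ℓ A g w')
    have e₄ : ‖((hol P.ℓ A g w : S3) : ℍ) - 1‖ * ‖((hol P.ℓ A g w' : S3) : ℍ) - 1‖ ≤
        (B₁ * η) * (B₂ * η) := by gcongr
    generalize ((hol P.ℓ A g w * hol P.ℓ A g w' : S3) : ℍ) = ab at e₃ ⊢
    generalize ((hol P.ℓ A g w : S3) : ℍ) = a at *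
    generalize ((hol P.ℓ A g w' : S3) : ℍ) = b at *
    generalize ((hol P.ℓ A g (ω * P.bd r₀ * ω⁻¹) : S3) : ℍ) - 1 = u at *
    have e : ab - 1 - (((c + c') (P.ℓ ω, r₀) : ℤ) : ℝ) • u =
        (ab - 1 - ((a - 1) + (b - 1))) + (a - 1 - (c (P.ℓ ω, r₀) : ℝ) • u)
          + (b - 1 - (c' (P.ℓ ω, r₀) : ℝ) • u) := by
      rw [Finsupp.add_apply, Int.cast_add, add_smul]
      abel
    rw [e]
    refine norm_add₃_le.trans ?_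
    nlinarith
  | @inv w c hw ih =>
    obtain ⟨F₁, C₁, hC₁, h₁⟩ := ih
    obtain ⟨B₁, hB₁, k₁⟩ := first hw
    refine ⟨F₁, C₁ + B₁ ^ 2, by positivity, fun A g η h0 h1 h2 h3 h4 => ?_⟩
    have e₁ := h₁ A g η h0 h1 h2 h3 h4
    have b₁ := k₁ A g η h0 h2 h4
    rw [hol_inv, hw.map_eq_one P.bd_one, inv_one, mul_one]
    have e₃ := S3.norm_inv_sub_two (hol P.ℓ A g w)
    have e₄ : ‖((hol P.ℓ A g w : S3) : ℍ) - 1‖ ^ 2 ≤ (B₁ * η) ^ 2 := by gcongr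
    generalize (((hol P.ℓ A g w)⁻¹ : S3) : ℍ) = ai at e₃ ⊢
    generalize ((hol P.ℓ A g w : S3) : ℍ) = a at *
    generalize ((hol P.ℓ A g (ω * P.bd r₀ * ω⁻¹) : S3) : ℍ) - 1 = u at *
    have e : ai - 1 - (((-c) (P.ℓ ω, r₀) : ℤ) : ℝ) • u =
        (ai - 1 + (a - 1)) - (a - 1 - (c (P.ℓ ω, r₀) : ℝ) • u) := by
      rw [Finsupp.neg_apply, Int.cast_neg, neg_smul]
      abel
    rw [e]
    refine (norm_sub_le _ _).trans ?_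
    nlinarith

end Vale.Agent.P173
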