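import Vale.Agent.P173.DegDefs

/-!
P173 task Miss (about 120 lines): a dimension count.  The map
`F : (ι → ℍ) × ℝ → (ι → ℍ) × ℍ`, `F (x, t) = (fun i => ‖x i‖ • a i x, t • b x)` is `C^1` on the open
set `Off ι ×ˢ univ`, hence locally Lipschitz there, so the image has Hausdorff dimension at most
`4 N + 1 < 4 N + 4` (`dimH_image_le_of_locally_lipschitzOn`, `ContDiffAt.exists_lipschitzOnWith`,
`Real.dimH_univ_eq_finrank`) and its complement is dense (`dense_compl_of_dimH_lt_finrank`).  Pick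
`(Y, Q)` in the nonempty open set `Off ι ×ˢ {Q ≠ 0}` outside the image, `y i = nrm (Y i)`,
`q = nrm Q`.  If `a i x = y i` and `b x = q` with `x ∈ Off ι`, rescale
`x' i = (‖Y i‖ / ‖x i‖) • x i`; then `F (x', ‖Q‖) = (Y, Q)`.
-/

namespace Vale.Agent.P173

open scoped Quaternion

open Set

theorem exists_missed {ι : Type*} [Fintype ι] {a : ι → (ι → ℍ) → S3} (ha : ∀ i, SphMap (a i))
    {b : (ι → ℍ) → S3} (hb : SphMap b) :
    ∃ (y : ι → S3) (q : S3), ∀ x ∈ Off ι, ¬ ((∀ i, a i x = y i) ∧ b x = q) := by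
  have ho : IsOpen (Off ι) := by
    have : Off ι = ⋂ i, {x : ι → ℍ | x i ≠ 0} := by
      ext x
      simp [Off]
    rw [this]
    exact isOpen_iInter_of_finite fun i => isOpen_ne_fun (continuous_apply i) continuous_const
  let F : (ι → ℍ) × ℝ → (ι → ℍ) × ℍ := fun p =>
    (fun i => ‖p.1 i‖ • (a i p.1 : ℍ), p.2 • (b p.1 : ℍ))
  have hF : ∀ p ∈ Off ι ×ˢ (univ : Set ℝ), ContDiffAt ℝ 1 F p := by
    intro p hp
    have hn := ho.mem_nhds hp.1
    refine ContDiffAt.prodMk (contDiffAt_pi.2 fun i => ?_)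
      (contDiffAt_snd.smul ((hb.1.contDiffAt hn).comp p contDiffAt_fst))
    exact (((contDiffAt_apply ℝ ℍ i p.1).comp p contDiffAt_fst).norm ℝ (hp.1 i)).smul
      (((ha i).1.contDiffAt hn).comp p contDiffAt_fst)
  have hdim : dimH (F '' (Off ι ×ˢ univ)) < Module.finrank ℝ ((ι → ℍ) × ℍ) := by
    refine (dimH_image_le_of_locally_lipschitzOn fun p hp => ?_).trans_lt
      ((dimH_mono (subset_univ _)).trans_lt ?_)
    · obtain ⟨K, t, ht, h⟩ := (hF p hp).exists_lipschitzOnWith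
      exact ⟨K, t, mem_nhdsWithin_of_mem_nhds ht, h⟩
    · rw [Real.dimH_univ_eq_finrank, Nat.cast_lt, Module.finrank_prod, Module.finrank_prod,
        Quaternion.finrank_eq_four, Module.finrank_self]
      omega
  obtain ⟨⟨Y, Q⟩, hn, hY, hQ⟩ := (dense_compl_of_dimH_lt_finrank hdim).exists_mem_open
    (ho.prod (isOpen_ne (x := (0 : ℍ)))) ⟨(1, 1), fun _ => one_ne_zero, one_ne_zero⟩
  refine ⟨fun i => nrm (Y i), nrm Q, fun x hx h => hn ?_⟩
  have hc : ∀ i, 0 < ‖Y i‖ / ‖x i‖ := fun i =>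
    div_pos (norm_pos_iff.2 (hY i)) (norm_pos_iff.2 (hx i))
  have hback : ∀ z : ℍ, z ≠ 0 → ‖z‖ • (nrm z : ℍ) = z := fun z hz => by
    rw [coe_nrm hz, smul_smul, mul_inv_cancel₀ (norm_ne_zero_iff.2 hz), one_smul]
  refine ⟨(fun i => (‖Y i‖ / ‖x i‖) • x i, ‖Q‖),
    ⟨fun i => smul_ne_zero (hc i).ne' (hx i), trivial⟩, Prod.ext (funext fun i => ?_) ?_⟩
  · simp only [F]
    rw [(ha i).2 _ hc, h.1 i, norm_smul, Real.norm_of_nonneg (hc i).le,
      div_mul_cancel₀ _ (norm_ne_zero_iff.2 (hx i)), hback _ (hY i)]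
  · simp only [F]
    rw [hb.2 _ hc, h.2, hback _ hQ]

end Vale.Agent.P173
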