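import Vale.Agent.P173.DegDefs

/-!
P173 task Pinch (about 120 lines): a deformation of the identity of `S3` to a map that collapses
everything outside a small cap around `-1` to the point `1`.
`κ t z = nrm ((1 - s) • z + s • 1)` with `s = t * ψ z`, `ψ z = Real.smoothTransition ((re z + 1) / ε)`
(so `ψ = 0` at `z = -1`, `ψ = 1` for `re z ≥ -1 + ε`).  For a unit `z` the vector
`(1 - s) z + s` vanishes only if `s = 1 / 2` and `z = -1` (take norms: `|1 - s| = |s|`), but there
`s = 0`; this holds for every real `t`.  Smoothness: `contDiffAt_norm`, `Real.smoothTransition.contDiff`,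
`re` is a continuous linear map (`Quaternion.reₗ`/`QuaternionAlgebra.reₗ`, `Quaternion.continuous_re`).
-/

namespace Vale.Agent.P173

open scoped Quaternion

theorem pinch_ne_zero {ε : ℝ} (t : ℝ) (z : S3) :
    (1 - t * Real.smoothTransition (((z : ℍ).re + 1) / ε)) • (z : ℍ)
      + (t * Real.smoothTransition (((z : ℍ).re + 1) / ε)) • (1 : ℍ) ≠ 0 := by
  intro h
  have hs : ∀ s : ℝ, (1 - s) • (z : ℍ) + s • (1 : ℍ) = 0 → s = 1 / 2 ∧ (z : ℍ).re = -1 := by
    intro s h
    have h1 := congrArg norm (eq_neg_of_add_eq_zero_left h)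
    rw [norm_neg, norm_smul, norm_smul, S3.norm_coe, norm_one, mul_one, mul_one,
      Real.norm_eq_abs, Real.norm_eq_abs, abs_eq_abs] at h1
    have h2 : s = 1 / 2 := by
      rcases h1 with h1 | h1 <;> linarith
    have h3 := congrArg QuaternionAlgebra.re h
    simp only [Quaternion.re_add, Quaternion.re_smul, Quaternion.re_one, Quaternion.re_zero,
      smul_eq_mul, h2] at h3
    exact ⟨h2, by linarith⟩
  obtain ⟨h1, h2⟩ := hs _ h
  rw [h2] at h1
  norm_num at h1

theorem exists_pinch {ε : ℝ} (hε : 0 < ε) :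
    ∃ κ : ℝ → S3 → S3, Continuous (fun p : ℝ × S3 => κ p.1 p.2) ∧
      (∀ t, ∃ k : ℍ → ℍ, ∀ z : S3, ContDiffAt ℝ 1 k (z : ℍ) ∧ k z = κ t z) ∧
      (∀ z, κ 0 z = z) ∧ ∀ z : S3, -1 + ε ≤ (z : ℍ).re → κ 1 z = 1 := by
  let v : ℝ × ℍ → ℍ := fun p => (1 - p.1 * Real.smoothTransition ((p.2.re + 1) / ε)) • p.2
    + (p.1 * Real.smoothTransition ((p.2.re + 1) / ε)) • (1 : ℍ)
  have hl : IsLinearMap ℝ fun z : ℍ => z.re := ⟨Quaternion.re_add, fun _ _ => rfl⟩
  have hre : ContDiff ℝ 1 fun z : ℍ => z.re :=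
    (LinearMap.toContinuousLinearMap (hl.mk' _)).contDiff
  have hs : ContDiff ℝ 1 fun p : ℝ × ℍ => p.1 * Real.smoothTransition ((p.2.re + 1) / ε) :=
    contDiff_fst.mul (Real.smoothTransition.contDiff.comp
      (((hre.comp contDiff_snd).add contDiff_const).div_const ε))
  have hv : ContDiff ℝ 1 v :=
    ((contDiff_const.sub hs).smul contDiff_snd).add (hs.smul contDiff_const)
  have h0 : ∀ (t : ℝ) (z : S3), v (t, z) ≠ 0 := pinch_ne_zero
  refine ⟨fun t z => nrm (v (t, z)), ?_, fun t => ⟨fun z => ‖v (t, z)‖⁻¹ • v (t, z), fun z => ?_⟩,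
    fun z => ?_, fun z hz => ?_⟩
  · refine Topology.IsInducing.subtypeVal.continuous_iff.2 ?_
    have hc : Continuous fun p : ℝ × S3 => v (p.1, p.2) := hv.continuous.comp (by fun_prop)
    exact ((hc.norm.inv₀ fun p => norm_ne_zero_iff.2 (h0 _ _)).smul hc).congr
      fun p => (coe_nrm (h0 _ _)).symm
  · have hd : ContDiffAt ℝ 1 (fun z : ℍ => v (t, z)) z :=
      (hv.comp (contDiff_const.prodMk contDiff_id)).contDiffAt
    exact ⟨((hd.norm ℝ (h0 t z)).inv (norm_ne_zero_iff.2 (h0 t z))).smul hd,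
      (coe_nrm (h0 t z)).symm⟩
  · simp [v, nrm_coe]
  · have h1 : Real.smoothTransition (((z : ℍ).re + 1) / ε) = 1 :=
      Real.smoothTransition.one_of_one_le ((one_le_div hε).2 (by linarith))
    simpa [v, h1] using nrm_coe 1

end Vale.Agent.P173
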