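import Vale.Agent.P173.CellInd

/-!
P173 task Push: paths can be pushed off the two-dimensional cells, from `Stage.cell_induction`.
A path in a closed cell with end points on the boundary is homotopic to a path on the boundary
circle.  The attaching loops are null-homotopic since the closed ball is convex.
-/

namespace Vale.Agent.P173

open Set Metric unitInterval

variable {X : Type*} [TopologicalSpace X] {R : Type*}

theorem Stage.push (st : Stage ℂ X R) {x y : st.A} (γ : Path (x : X) (y : X)) :
    ∃ γ' : Path x y, γ.Homotopic (γ'.map continuous_subtype_val) := by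
  have key : ∃ δ : Path (x : X) (y : X), (∀ t, δ t ∈ st.A) ∧ γ.Homotopic δ := by
    refine st.cell_induction 1 norm_one
      (fun {x y} γ => ∃ δ : Path x y, (∀ t, δ t ∈ st.A) ∧ γ.Homotopic δ) ?_ ?_ ?_ ?_ x.2 y.2 γ
    · intro x y γ h
      exact ⟨γ, h, Path.Homotopic.refl γ⟩
    · intro r x y γ u v hu hv h
      have hr : 1 < Module.rank ℝ ℂ := by
        rw [Complex.rank_real_complex]
        norm_num
      obtain ⟨g, hg⟩ := (isPathConnected_sphere hr (0 : ℂ) zero_le_one).joinedIn u
        (mem_sphere_zero_iff_norm.2 hu) v (mem_sphere_zero_iff_norm.2 hv)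
      have hb : ∀ t, g t ∈ closedBall (0 : ℂ) 1 := fun t => sphere_subset_closedBall (hg t)
      let δ : Path x y := ⟨⟨fun t => st.χ r (g t), (st.cont r).comp_continuous g.continuous hb⟩,
        by rw [h.source]; simp, by rw [h.target]; simp⟩
      exact ⟨δ, fun t => st.bdry r _ (mem_sphere_zero_iff_norm.1 (hg t)),
        h.homotopic (convex_closedBall 0 1) (st.cont r) ⟨g, hb, fun _ => rfl⟩⟩
    · rintro x y z γ γ' ⟨δ, h1, h2⟩ ⟨δ', h1', h2'⟩
      refine ⟨δ.trans δ', fun t => ?_, h2.hcomp h2'⟩
      rw [Path.trans_apply]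
      split_ifs
      · exact h1 _
      · exact h1' _
    · rintro x y γ γ' h ⟨δ, h1, h2⟩
      exact ⟨δ, h1, h.symm.trans h2⟩
  obtain ⟨δ, h1, h2⟩ := key
  exact ⟨⟨⟨fun t => ⟨δ t, h1 t⟩, δ.continuous.subtype_mk _⟩, Subtype.ext δ.source,
    Subtype.ext δ.target⟩, h2⟩

theorem Stage.att_null (st : Stage ℂ X R) (r : R) :
    ((st.att r).map continuous_subtype_val).Homotopic (Path.refl _) := by
  refine CiLift.homotopic (convex_closedBall 0 1) (st.cont r) (u := 1) (v := 1)
    (CiLift.mk' (fun t => Complex.exp (2 * Real.pi * (t : ℝ) * Complex.I)) (by fun_prop)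
      (by simp) ?_ (fun t => ?_) fun _ => rfl)
    (CiLift.mk' (fun _ => 1) continuous_const rfl rfl (fun _ => by simp) fun _ => rfl)
  · simp
  · rw [mem_closedBall_zero_iff, norm_exp_two_pi]

end Vale.Agent.P173
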