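import Vale.Agent.P173.Basic

/-!
P173: right-angled Artin groups, the Bestvina-Brady group and the Salvetti chain complex
(definitions, complete).
-/

namespace Vale.Agent.P173

variable {V : Type} (G : SimpleGraph V)

def raagRels : Set (FreeGroup V) :=
  {r | ∃ a b, G.Adj a b ∧ r = FreeGroup.of a * FreeGroup.of b * (FreeGroup.of a)⁻¹ * (FreeGroup.of b)⁻¹}

abbrev Raag : Type := PresentedGroup (raagRels G)

def gen (a : V) : Raag G := PresentedGroup.of a

variable {G}

theorem gen_comm {a b : V} (h : G.Adj a b) : Commute (gen G a) (gen G b) := by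
  have h1 : PresentedGroup.mk (raagRels G)
      (FreeGroup.of a * FreeGroup.of b * (FreeGroup.of a)⁻¹ * (FreeGroup.of b)⁻¹) = 1 :=
    PresentedGroup.one_of_mem ⟨a, b, h, rfl⟩
  simp only [map_mul, map_inv] at h1
  have h2 : gen G a * gen G b * (gen G a)⁻¹ * (gen G b)⁻¹ = 1 := h1
  rw [mul_inv_eq_one, mul_inv_eq_iff_eq_mul] at h2
  exact h2

def raagLift {W : Type*} [Group W] (f : V → W) (hf : ∀ a b, G.Adj a b → Commute (f a) (f b)) :
    Raag G →* W :=
  PresentedGroup.toGroup (f := f) (by
    rintro r ⟨a, b, h, rfl⟩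
    simp only [map_mul, map_inv, FreeGroup.lift_apply_of]
    rw [(hf a b h).eq]
    group)

@[simp] theorem raagLift_gen {W : Type*} [Group W] (f : V → W)
    (hf : ∀ a b, G.Adj a b → Commute (f a) (f b)) (a : V) : raagLift f hf (gen G a) = f a :=
  PresentedGroup.toGroup.of _

theorem raag_induction {p : Raag G → Prop} (h1 : p 1) (hg : ∀ a, p (gen G a))
    (hi : ∀ g, p g → p g⁻¹) (hm : ∀ g h, p g → p h → p (g * h)) (g : Raag G) : p g := by
  obtain ⟨w, rfl⟩ := PresentedGroup.mk_surjective (raagRels G) g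
  induction w using FreeGroup.induction_on with
  | C1 => simpa using h1
  | of a => exact hg a
  | inv_of a ih => rw [map_inv]; exact hi _ ih
  | mul a b iha ihb => rw [map_mul]; exact hm _ _ iha ihb

variable (G)

/-- height homomorphism -/
def ht : Raag G →* Multiplicative ℤ :=
  raagLift (fun _ => Multiplicative.ofAdd 1) fun _ _ _ => Commute.all _ _

/-- abelianisation -/
def chi [DecidableEq V] : Raag G →* Multiplicative (V → ℤ) :=
  raagLift (fun a => Multiplicative.ofAdd (Pi.single a 1)) fun _ _ _ => Commute.all _ _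

/-- the Bestvina-Brady group -/
abbrev BB : Type := (ht G).ker

/-- special subgroup -/
def sub (Δ : Finset V) : Subgroup (Raag G) := Subgroup.closure (gen G '' (Δ : Set V))

/-- all chains: cubes `(g, τ)` -/
abbrev Chain : Type := Raag G × Finset V →₀ ℤ

section chain

variable [LinearOrder V]

def sgn (a : V) (τ : Finset V) : ℤ := (-1) ^ (τ.filter (· < a)).card

/-- upper faces -/
noncomputable def up : Chain G →ₗ[ℤ] Chain G :=
  Finsupp.linearCombination ℤ fun p : Raag G × Finset V =>
    ∑ a ∈ p.2, sgn a p.2 • Finsupp.single (p.1 * gen G a, p.2.erase a) (1 : ℤ)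

/-- lower faces -/
noncomputable def low : Chain G →ₗ[ℤ] Chain G :=
  Finsupp.linearCombination ℤ fun p : Raag G × Finset V =>
    ∑ a ∈ p.2, sgn a p.2 • Finsupp.single (p.1, p.2.erase a) (1 : ℤ)

noncomputable def bdy : Chain G →ₗ[ℤ] Chain G := up G - low G

end chain

/-- chains supported on cliques inside `Δ` -/
def cl (Δ : Finset V) : Submodule ℤ (Chain G) :=
  Finsupp.supported ℤ ℤ {p | p.2 ⊆ Δ ∧ G.IsClique (p.2 : Set V)}

/-- chains supported on cliques with `k` vertices -/
def cd (k : ℕ) : Submodule ℤ (Chain G) :=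
  Finsupp.supported ℤ ℤ {p | p.2.card = k ∧ G.IsClique (p.2 : Set V)}

/-- the degree zero part -/
noncomputable def res0 : Chain G →ₗ[ℤ] (Raag G →₀ ℤ) :=
  Finsupp.lcomapDomain (fun g => (g, (∅ : Finset V))) (fun _ _ h => (Prod.mk.inj h).1)

/-- left translation of chains -/
noncomputable def act (h : Raag G) : Chain G →ₗ[ℤ] Chain G :=
  Finsupp.lmapDomain ℤ ℤ fun p => (h * p.1, p.2)

end Vale.Agent.P173
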