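import Vale.Agent.P173.RaagDefs

/-!
P173 task RaagMV (about 200 lines): the Mayer-Vietoris sequence
`0 → ℤ[A / A_Λ] → ℤ[A / A_Δ] → ℤ[A / A_{Δ ∪ v}] → 0` for `Λ = Δ ∩ link v`, without normal forms.
Let `M = (A ⧸ sub G Λ) →₀ ℤ` with the action `g • m = mapDomain (g • ·) m`, `o = single 1̄ 1`.
* `r = raagLift (fun a => if a ∈ insert v Δ then gen a else 1)`, a retraction: `r g = g` on
  `sub (insert v Δ)`, `r g ∈ sub (insert v Δ)`.
* `ρ : A →* Equiv.Perm M` by `raagLift`: `a ∈ Δ ↦ (m ↦ gen a • m)`, `v ↦ (m ↦ o + gen v • m)`, else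
  identity (commutation for `a ∈ Λ` and `v`: `gen a • o = o`).  By `raag_induction`,
  `ρ g m = ρ g 0 + r g • m`.  Put `D g = ρ g 0`, so `D (g h) = D g + r g • D h`, `D = 0` on `sub Δ`.
* `d g = (g * (r g)⁻¹) • D g` satisfies `d (g a) = d g` for `a ∈ sub Δ` and
  `d (g v) = d g + single ḡ 1`.  Let `δ` be the linear map on `(A ⧸ sub Δ) →₀ ℤ` induced by `d`
  (`Finsupp.linearCombination` of `Quotient.lift`).  This gives `mv_inj`.
* `β : M → (A ⧸ sub Δ →₀ ℤ)`, `β ḡ = [g v] - [g]` (well defined since `gen v` commutes with `sub Λ`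
  and `sub Λ ≤ sub Δ`), equivariant, `β (D g) = [r g] - [1]` (induction), so
  `β (d g) = [g] - [g (r g)⁻¹]`, and `g (r g)⁻¹` only depends on the coset `g sub (insert v Δ)`.
  Hence `β (δ [c]) = [c]` when the class of `c` in `A ⧸ sub (insert v Δ)` vanishes; lift `δ [c]` to
  `y` by `Finsupp.mapDomain_surjective`.
-/

namespace Vale.Agent.P173

variable {V : Type} [DecidableEq V] {G : SimpleGraph V}

/-- Translation of chains on a coset space. -/
noncomputable def mvT {A : Type} [Group A] (H : Subgroup A) (g : A) :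
    ((A ⧸ H) →₀ ℤ) →ₗ[ℤ] ((A ⧸ H) →₀ ℤ) := Finsupp.lmapDomain ℤ ℤ fun q => g • q

theorem mvT_single {A : Type} [Group A] (H : Subgroup A) (g h : A) (n : ℤ) :
    mvT H g (Finsupp.single (h : A ⧸ H) n) = Finsupp.single ((g * h : A) : A ⧸ H) n := by
  simp [mvT]

theorem mvT_mul {A : Type} [Group A] (H : Subgroup A) (g h : A) (m : (A ⧸ H) →₀ ℤ) :
    mvT H g (mvT H h m) = mvT H (g * h) m := by
  simp only [mvT, Finsupp.lmapDomain_apply, ← Finsupp.mapDomain_comp]
  congr 1
  funext q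
  exact (mul_smul g h q).symm

theorem mvT_one {A : Type} [Group A] (H : Subgroup A) (m : (A ⧸ H) →₀ ℤ) : mvT H 1 m = m := by
  simp only [mvT, Finsupp.lmapDomain_apply, one_smul]
  exact Finsupp.mapDomain_id

/-- The translations as automorphisms. -/
noncomputable def mvPhi {A : Type} [Group A] (H : Subgroup A) :
    A →* MulAut (Multiplicative ((A ⧸ H) →₀ ℤ)) where
  toFun g :=
    { toFun := fun m => Multiplicative.ofAdd (mvT H g m.toAdd)
      invFun := fun m => Multiplicative.ofAdd (mvT H g⁻¹ m.toAdd)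
      left_inv := fun m => by simp [mvT_mul, mvT_one]
      right_inv := fun m => by simp [mvT_mul, mvT_one]
      map_mul' := fun m m' => by simp }
  map_one' := MulEquiv.ext fun m => congrArg Multiplicative.ofAdd (mvT_one H m.toAdd)
  map_mul' g h := MulEquiv.ext fun m => congrArg Multiplicative.ofAdd (mvT_mul H g h m.toAdd).symm

omit [DecidableEq V] in
theorem gen_mem_sub {Δ : Finset V} {a : V} (h : a ∈ Δ) : gen G a ∈ sub G Δ :=
  Subgroup.subset_closure ⟨a, h, rfl⟩

theorem mv_der {Δ Λ : Finset V} {v : V} (hv : v ∉ Δ) (hΛ : ∀ a, a ∈ Λ ↔ a ∈ Δ ∧ G.Adj v a) :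
    ∃ (r : Raag G →* Raag G) (D : Raag G → (Raag G ⧸ sub G Λ) →₀ ℤ),
      (∀ g h, D (g * h) = D g + mvT _ (r g) (D h)) ∧
      (∀ a, r (gen G a) = if a ∈ insert v Δ then gen G a else 1) ∧
      ∀ a, D (gen G a) = if a = v then Finsupp.single ((1 : Raag G) : Raag G ⧸ sub G Λ) 1
        else 0 := by
  let f : V → Multiplicative ((Raag G ⧸ sub G Λ) →₀ ℤ) ⋊[mvPhi (sub G Λ)] Raag G := fun a =>
    ⟨Multiplicative.ofAdd (if a = v then
      Finsupp.single ((1 : Raag G) : Raag G ⧸ sub G Λ) 1 else 0),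
      if a ∈ insert v Δ then gen G a else 1⟩
  have key : ∀ a, G.Adj v a → mvT (sub G Λ) (if a ∈ insert v Δ then gen G a else 1)
      (Finsupp.single ((1 : Raag G) : Raag G ⧸ sub G Λ) 1) =
        Finsupp.single ((1 : Raag G) : Raag G ⧸ sub G Λ) 1 := by
    intro a ha
    split_ifs with h
    · have h1 : a ∈ Λ := (hΛ a).2 ⟨(Finset.mem_insert.1 h).resolve_left ha.ne', ha⟩
      rw [mvT_single, mul_one, QuotientGroup.eq.2
        (show (gen G a)⁻¹ * 1 ∈ sub G Λ by simpa using gen_mem_sub h1)]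
    · exact mvT_one _ _
  have hf : ∀ a b, G.Adj a b → Commute (f a) (f b) := by
    intro a b hab
    refine SemidirectProduct.ext ?_ ?_
    · change Multiplicative.ofAdd (_ + mvT _ _ _) = Multiplicative.ofAdd (_ + mvT _ _ _)
      refine congrArg _ ?_
      simp only [f, toAdd_ofAdd]
      by_cases ha : a = v
      · subst ha
        simp only [if_true, if_neg hab.ne', map_zero, key b hab, add_zero, zero_add]
      · by_cases hb : b = v
        · subst hb
          simp only [if_true, if_neg ha, map_zero, key a hab.symm, add_zero, zero_add]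
        · simp only [if_neg ha, if_neg hb, map_zero]
    · simp only [f, SemidirectProduct.mul_right]
      split_ifs
      · exact gen_comm hab
      · simp
      · simp
      · rfl
  refine ⟨SemidirectProduct.rightHom.comp (raagLift f hf), fun g => (raagLift f hf g).left.toAdd,
    fun g h => ?_, fun a => ?_, fun a => ?_⟩
  · dsimp only
    rw [map_mul]
    rfl
  · rw [MonoidHom.comp_apply, raagLift_gen]
    rfl
  · dsimp only
    rw [raagLift_gen]
    rfl

theorem mv_data {Δ Λ : Finset V} {v : V} (hv : v ∉ Δ) (hΛ : ∀ a, a ∈ Λ ↔ a ∈ Δ ∧ G.Adj v a) :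
    ∃ (d : Raag G → (Raag G ⧸ sub G Λ) →₀ ℤ) (s : Raag G → Raag G)
      (β : ((Raag G ⧸ sub G Λ) →₀ ℤ) →ₗ[ℤ] ((Raag G ⧸ sub G Δ) →₀ ℤ)),
      (∀ g, ∀ a ∈ sub G Δ, d (g * a) = d g) ∧
      (∀ g, d (g * gen G v) = d g + Finsupp.single (g : Raag G ⧸ sub G Λ) 1) ∧
      (∀ g, ∀ a ∈ sub G (insert v Δ), s (g * a) = s g) ∧
      (∀ g : Raag G, β (Finsupp.single (g : Raag G ⧸ sub G Λ) 1) =
        Finsupp.single ((g * gen G v : Raag G) : Raag G ⧸ sub G Δ) 1 -
          Finsupp.single (g : Raag G ⧸ sub G Δ) 1) ∧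
      ∀ g, β (d g) = Finsupp.single (g : Raag G ⧸ sub G Δ) 1 -
        Finsupp.single ((s g : Raag G) : Raag G ⧸ sub G Δ) 1 := by
  obtain ⟨r, D, hD, hr, hg⟩ := mv_der hv hΛ
  have D1 : D 1 = 0 := by
    have := hD 1 1
    rw [mul_one, map_one, mvT_one] at this
    exact left_eq_add.1 this
  have Dinv : ∀ g, D g⁻¹ = -mvT _ (r g⁻¹) (D g) := fun g => by
    have := hD g⁻¹ g
    rw [inv_mul_cancel, D1] at this
    exact eq_neg_of_add_eq_zero_left this.symm
  have r1 : ∀ a ∈ sub G (insert v Δ), r a = a := fun a ha => by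
    induction ha using Subgroup.closure_induction with
    | mem x hx =>
      obtain ⟨b, hb, rfl⟩ := hx
      rw [hr, if_pos (Finset.mem_coe.1 hb)]
    | one => exact map_one r
    | mul x y _ _ hx hy => rw [map_mul, hx, hy]
    | inv x _ hx => rw [map_inv, hx]
  have hle : sub G Δ ≤ sub G (insert v Δ) :=
    Subgroup.closure_mono (Set.image_mono (by simp))
  have D0 : ∀ a ∈ sub G Δ, D a = 0 := fun a ha => by
    induction ha using Subgroup.closure_induction with
    | mem x hx =>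
      obtain ⟨b, hb, rfl⟩ := hx
      rw [hg, if_neg (fun h : b = v => hv (h ▸ Finset.mem_coe.1 hb))]
    | one => exact D1
    | mul x y _ _ hx hy => rw [hD, hx, hy, map_zero, add_zero]
    | inv x _ hx => rw [Dinv, hx, map_zero, neg_zero]
  have hΛΔ : sub G Λ ≤ sub G Δ :=
    Subgroup.closure_mono (Set.image_mono fun a ha => ((hΛ a).1 ha).1)
  have hcomm : ∀ a ∈ sub G Λ, Commute (gen G v) a := fun a ha => by
    induction ha using Subgroup.closure_induction with
    | mem x hx =>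
      obtain ⟨b, hb, rfl⟩ := hx
      exact gen_comm ((hΛ b).1 hb).2
    | one => exact Commute.one_right _
    | mul x y _ _ hx hy => exact hx.mul_right hy
    | inv x _ hx => exact hx.inv_right
  let b : Raag G ⧸ sub G Λ → (Raag G ⧸ sub G Δ) →₀ ℤ := Quotient.lift
    (fun g => Finsupp.single ((g * gen G v : Raag G) : Raag G ⧸ sub G Δ) 1 -
      Finsupp.single (g : Raag G ⧸ sub G Δ) 1) fun g g' h => by
        have h1 : g⁻¹ * g' ∈ sub G Λ := QuotientGroup.leftRel_apply.1 h
        have h2 : (g * gen G v)⁻¹ * (g' * gen G v) = g⁻¹ * g' := by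
          rw [mul_inv_rev, mul_assoc, ← mul_assoc g⁻¹, ← (hcomm _ h1).eq, inv_mul_cancel_left]
        rw [QuotientGroup.eq.2 (hΛΔ h1), QuotientGroup.eq.2 (h2 ▸ hΛΔ h1)]
  let β := Finsupp.linearCombination ℤ b
  have hβ : ∀ g : Raag G, β (Finsupp.single (g : Raag G ⧸ sub G Λ) 1) =
      Finsupp.single ((g * gen G v : Raag G) : Raag G ⧸ sub G Δ) 1 -
        Finsupp.single (g : Raag G ⧸ sub G Δ) 1 := fun g => by
    rw [Finsupp.linearCombination_single, one_smul]
    rfl
  have hβT : ∀ g m, β (mvT _ g m) = mvT _ g (β m) := fun g => by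
    refine LinearMap.congr_fun (f := β ∘ₗ mvT _ g) (g := mvT _ g ∘ₗ β)
      (Finsupp.lhom_ext' fun q => LinearMap.ext_ring ?_)
    obtain ⟨h, rfl⟩ := QuotientGroup.mk_surjective q
    simp only [LinearMap.comp_apply, Finsupp.lsingle_apply, mvT_single, hβ, map_sub, mul_assoc]
  have hβD : ∀ g, β (D g) = Finsupp.single ((r g : Raag G) : Raag G ⧸ sub G Δ) 1 -
      Finsupp.single ((1 : Raag G) : Raag G ⧸ sub G Δ) 1 := by
    refine raag_induction (by rw [D1, map_zero, map_one, sub_self]) (fun a => ?_) (fun g h => ?_)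
      fun g h hg hh => ?_
    · rw [hg, hr]
      by_cases h1 : a = v
      · rw [if_pos h1, hβ, if_pos (by simp [h1]), one_mul, h1]
      · rw [if_neg h1, map_zero]
        split_ifs with h2
        · rw [QuotientGroup.eq.2 (show (gen G a)⁻¹ * 1 ∈ sub G Δ by
            simpa using gen_mem_sub ((Finset.mem_insert.1 h2).resolve_left h1)), sub_self]
        · rw [sub_self]
    · rw [Dinv, map_neg, hβT, h, map_sub, mvT_single, mvT_single, ← map_mul, inv_mul_cancel,
        map_one, mul_one, neg_sub]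
    · rw [hD, map_add, hβT, hg, hh, map_sub, mvT_single, mvT_single, ← map_mul, mul_one]
      abel
  have hs : ∀ g, ∀ a ∈ sub G (insert v Δ), g * a * (r (g * a))⁻¹ = g * (r g)⁻¹ := fun g a ha => by
    rw [map_mul, r1 a ha]
    group
  refine ⟨fun g => mvT _ (g * (r g)⁻¹) (D g), fun g => g * (r g)⁻¹, β, fun g a ha => ?_,
    fun g => ?_, hs, hβ, fun g => ?_⟩
  · dsimp only
    rw [hs g a (hle ha), hD, D0 a ha, map_zero, add_zero]
  · dsimp only
    rw [hs g _ (gen_mem_sub (Finset.mem_insert_self _ _)), hD, hg, if_pos rfl, map_add, mvT_mul,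
      mvT_single, inv_mul_cancel_right, mul_one]
  · dsimp only
    rw [hβT, hβD, map_sub, mvT_single, mvT_single, inv_mul_cancel_right, mul_one]

theorem mv_inj {Δ Λ : Finset V} {v : V} (hv : v ∉ Δ) (hΛ : ∀ a, a ∈ Λ ↔ a ∈ Δ ∧ G.Adj v a)
    (c : Raag G →₀ ℤ)
    (h : Finsupp.mapDomain (QuotientGroup.mk : Raag G → Raag G ⧸ sub G Δ)
      (c.mapDomain (· * gen G v) - c) = 0) :
    Finsupp.mapDomain (QuotientGroup.mk : Raag G → Raag G ⧸ sub G Λ) c = 0 := by
  obtain ⟨d, -, -, h1, h2, -⟩ := mv_data hv hΛ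
  let d' : Raag G ⧸ sub G Δ → (Raag G ⧸ sub G Λ) →₀ ℤ := Quotient.lift d fun g g' h => by
    rw [← h1 g _ (QuotientGroup.leftRel_apply.1 h), mul_inv_cancel_left]
  have key : Finsupp.linearCombination ℤ d' ∘ₗ Finsupp.lmapDomain ℤ ℤ QuotientGroup.mk ∘ₗ
      (Finsupp.lmapDomain ℤ ℤ (· * gen G v) - LinearMap.id) =
      Finsupp.lmapDomain ℤ ℤ QuotientGroup.mk := by
    refine Finsupp.lhom_ext' fun g => LinearMap.ext_ring ?_
    have e : ∀ g : Raag G, d' g = d g := fun _ => rfl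
    simp [e, h2]
  have h3 := LinearMap.congr_fun key c
  simp only [LinearMap.comp_apply, LinearMap.sub_apply, Finsupp.lmapDomain_apply,
    LinearMap.id_apply] at h3
  rw [← h3, h, map_zero]

theorem mv_exact {Δ : Finset V} {v : V} (hv : v ∉ Δ) (c : Raag G →₀ ℤ)
    (h : Finsupp.mapDomain (QuotientGroup.mk : Raag G → Raag G ⧸ sub G (insert v Δ)) c = 0) :
    ∃ y : Raag G →₀ ℤ, Finsupp.mapDomain (QuotientGroup.mk : Raag G → Raag G ⧸ sub G Δ) c =
      Finsupp.mapDomain (QuotientGroup.mk : Raag G → Raag G ⧸ sub G Δ)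
        (y.mapDomain (· * gen G v) - y) := by
  classical
  obtain ⟨d, s, β, -, -, h1, h2, h3⟩ :=
    mv_data (G := G) (Λ := Δ.filter (G.Adj v)) hv fun a => Finset.mem_filter
  let s' : Raag G ⧸ sub G (insert v Δ) → Raag G ⧸ sub G Δ :=
    Quotient.lift (fun g => (s g : Raag G ⧸ sub G Δ)) fun g g' h => by
      rw [← h1 g _ (QuotientGroup.leftRel_apply.1 h), mul_inv_cancel_left]
  have k1 : β ∘ₗ Finsupp.linearCombination ℤ d = Finsupp.lmapDomain ℤ ℤ QuotientGroup.mk -
      Finsupp.lmapDomain ℤ ℤ s' ∘ₗ Finsupp.lmapDomain ℤ ℤ QuotientGroup.mk := by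
    refine Finsupp.lhom_ext' fun g => LinearMap.ext_ring ?_
    have e : ∀ g : Raag G, s' g = s g := fun _ => rfl
    simp [e, h3]
  have k2 : β ∘ₗ Finsupp.lmapDomain ℤ ℤ QuotientGroup.mk =
      Finsupp.lmapDomain ℤ ℤ QuotientGroup.mk ∘ₗ
        (Finsupp.lmapDomain ℤ ℤ (· * gen G v) - LinearMap.id) := by
    refine Finsupp.lhom_ext' fun g => LinearMap.ext_ring ?_
    simp [h2, Finsupp.mapDomain_sub]
  obtain ⟨y, hy⟩ := Finsupp.mapDomain_surjective (M := ℤ) QuotientGroup.mk_surjective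
    (Finsupp.linearCombination ℤ d c)
  have h4 := LinearMap.congr_fun k1 c
  have h5 := LinearMap.congr_fun k2 y
  simp only [LinearMap.comp_apply, LinearMap.sub_apply, Finsupp.lmapDomain_apply,
    LinearMap.id_apply] at h4 h5
  rw [h, Finsupp.mapDomain_zero, sub_zero] at h4
  exact ⟨y, by rw [← h4, ← h5, hy]⟩

end Vale.Agent.P173
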