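import Vale.Agent.P173.RaagMV

/-!
P173 task Salv (about 300 lines): the Salvetti complex is exact.
Write `aug Δ c = mapDomain mk_Δ (res0 c)`.  Induction on `Δ` adding a new minimum `v`
(`Finset.induction_on_min`), generalising over all subsets (strong induction on the card is
convenient since the hypothesis is used for `Δ` and for `Λ = Δ.filter (G.Adj v)`).
Operators: `R c = mapDomain (fun p => (p.1 * gen v, p.2)) c`, `ι c = mapDomain (fun p => (p.1, insert v p.2)) c`.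
For `c ∈ cl Δ` (all vertices `> v`): `bdy (ι c) = R c - c - ι (bdy c)` (signs: `sgn v (insert v τ) = 1`,
`sgn a (insert v τ) = - sgn a τ`), and for `c ∈ cl Λ`: `bdy (R c) = R (bdy c)` (`gen_comm`).
Every `c ∈ cl (insert v Δ)` is `c₀ + ι c₁` with `c₀ ∈ cl Δ`, `c₁ ∈ cl Λ` (span induction), and
`x + ι y = 0` with `x, y ∈ cl Δ` forces `x = 0`, `y = 0` (supports: `v ∈ τ` or not; `ι` injective).
`bdy` preserves `cl Δ`, `aug Δ (bdy c) = 0` on `cl Δ`, `res0 (ι c) = 0`, `res0 (R c) = mapDomain (· * v) (res0 c)`.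
* `bdy_bdy`: `bdy (bdy (ι c₁)) = bdy (R c₁ - c₁) - (R - 1) (bdy c₁) + ι (bdy (bdy c₁)) = 0`.
* exactness: from `bdy c = 0`: `bdy c₁ = 0` and `bdy c₀ + R c₁ - c₁ = 0`; apply `aug Δ` and `mv_inj`
  to get `aug Λ c₁ = 0`, so `c₁ = bdy b₁`.  Then `c' = c + bdy (ι b₁) = c₀ + R b₁ - b₁ ∈ cl Δ` is a
  cycle with `aug (insert v Δ) c' = 0`; `mv_exact` gives `y`, let `y' = mapDomain (·, ∅) y`;
  `c' - bdy (ι y') = c' - (R y' - y') ∈ cl Δ` is a cycle with `aug Δ = 0`.
  Base case `Δ = ∅`: `sub ∅ = ⊥`, `mk` is injective, `c` is supported on `τ = ∅`, so `c = 0`.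
-/

namespace Vale.Agent.P173

variable {V : Type} [LinearOrder V] {G : SimpleGraph V}

/-- right translation by a generator -/
noncomputable def svR (G : SimpleGraph V) (v : V) : Chain G →ₗ[ℤ] Chain G :=
  Finsupp.lmapDomain ℤ ℤ fun p => (p.1 * gen G v, p.2)

/-- cone with a new vertex -/
noncomputable def svI (G : SimpleGraph V) (v : V) : Chain G →ₗ[ℤ] Chain G :=
  Finsupp.lmapDomain ℤ ℤ fun p => (p.1, insert v p.2)

omit [LinearOrder V] in
theorem svR_single (v : V) (g : Raag G) (τ : Finset V) (n : ℤ) :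
    svR G v (Finsupp.single (g, τ) n) = Finsupp.single (g * gen G v, τ) n := by
  simp [svR]

theorem svI_single (v : V) (g : Raag G) (τ : Finset V) (n : ℤ) :
    svI G v (Finsupp.single (g, τ) n) = Finsupp.single (g, insert v τ) n := by
  simp [svI]

theorem sv_bdy_single (g : Raag G) (τ : Finset V) :
    bdy G (Finsupp.single (g, τ) 1) = ∑ a ∈ τ, sgn a τ •
      (Finsupp.single (g * gen G a, τ.erase a) (1 : ℤ) - Finsupp.single (g, τ.erase a) 1) := by
  simp only [bdy, up, low, LinearMap.sub_apply, Finsupp.linearCombination_single, one_smul,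
    smul_sub, Finset.sum_sub_distrib]

omit [LinearOrder V] in
theorem sv_res0_single [DecidableEq V] (g : Raag G) (τ : Finset V) (n : ℤ) :
    res0 G (Finsupp.single (g, τ) n) = if τ = ∅ then Finsupp.single g n else 0 := by
  classical
  ext h
  change Finsupp.single (g, τ) n (h, ∅) = _
  split_ifs with h1
  · subst h1
    simp [Finsupp.single_apply]
  · simp [h1]

omit [LinearOrder V] in
theorem sv_cl_le {Δ : Finset V} {N : Submodule ℤ (Chain G)}
    (h : ∀ g τ, τ ⊆ Δ → G.IsClique (τ : Set V) → Finsupp.single (g, τ) 1 ∈ N) : cl G Δ ≤ N := by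
  rw [cl, Finsupp.supported_eq_span_single, Submodule.span_le]
  rintro _ ⟨⟨g, τ⟩, ⟨h1, h2⟩, rfl⟩
  exact h g τ h1 h2

omit [LinearOrder V] in
theorem sv_cl_ext {Δ : Finset V} {M : Type} [AddCommGroup M] {f f' : Chain G →ₗ[ℤ] M}
    (h : ∀ g τ, τ ⊆ Δ → G.IsClique (τ : Set V) →
      f (Finsupp.single (g, τ) 1) = f' (Finsupp.single (g, τ) 1)) {c : Chain G}
    (hc : c ∈ cl G Δ) : f c = f' c :=
  sv_cl_le (N := LinearMap.eqLocus f f') h hc

omit [LinearOrder V] in
theorem sv_single_mem {Δ τ : Finset V} (g : Raag G) (h1 : τ ⊆ Δ) (h2 : G.IsClique (τ : Set V))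
    (n : ℤ) : Finsupp.single (g, τ) n ∈ cl G Δ :=
  Finsupp.single_mem_supported ℤ n ⟨h1, h2⟩

omit [LinearOrder V] in
theorem sv_cl_mono {Λ Δ : Finset V} (h : Λ ⊆ Δ) : cl G Λ ≤ cl G Δ :=
  sv_cl_le fun g _ h1 h2 => sv_single_mem g (h1.trans h) h2 1

theorem sv_bdy_mem {Δ : Finset V} {c : Chain G} (hc : c ∈ cl G Δ) : bdy G c ∈ cl G Δ := by
  refine sv_cl_le (N := (cl G Δ).comap (bdy G)) (fun g τ h1 h2 => ?_) hc
  rw [Submodule.mem_comap, sv_bdy_single]
  refine Submodule.sum_mem _ fun a _ => Submodule.smul_mem _ _ ?_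
  have h3 := (τ.erase_subset a).trans h1
  have h4 := h2.subset (Finset.coe_subset.2 (τ.erase_subset a))
  exact Submodule.sub_mem _ (sv_single_mem _ h3 h4 1) (sv_single_mem _ h3 h4 1)

omit [LinearOrder V] in
theorem svR_mem {Δ : Finset V} (v : V) {c : Chain G} (hc : c ∈ cl G Δ) : svR G v c ∈ cl G Δ := by
  refine sv_cl_le (N := (cl G Δ).comap (svR G v)) (fun g τ h1 h2 => ?_) hc
  rw [Submodule.mem_comap, svR_single]
  exact sv_single_mem _ h1 h2 1

theorem svI_mem {Λ : Finset V} {v : V} (hv : ∀ a ∈ Λ, G.Adj v a) {c : Chain G}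
    (hc : c ∈ cl G Λ) : svI G v c ∈ cl G (insert v Λ) := by
  refine sv_cl_le (N := (cl G (insert v Λ)).comap (svI G v)) (fun g τ h1 h2 => ?_) hc
  rw [Submodule.mem_comap, svI_single]
  refine sv_single_mem _ (Finset.insert_subset_insert v h1) ?_ 1
  rw [Finset.coe_insert]
  exact h2.insert fun b hb _ => hv b (h1 hb)

theorem sv_bdy_I {Δ : Finset V} {v : V} (hv : ∀ a ∈ Δ, v < a) {c : Chain G} (hc : c ∈ cl G Δ) :
    bdy G (svI G v c) = svR G v c - c - svI G v (bdy G c) := by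
  refine sv_cl_ext (f := bdy G ∘ₗ svI G v) (f' := svR G v - LinearMap.id - svI G v ∘ₗ bdy G)
    (fun g τ h1 _ => ?_) hc
  have h2 : v ∉ τ := fun h => (hv v (h1 h)).false
  have h3 : sgn v (insert v τ) = 1 := by
    rw [sgn, Finset.filter_eq_empty_iff.2, Finset.card_empty, pow_zero]
    intro a ha
    rcases Finset.mem_insert.1 ha with rfl | ha
    · exact lt_irrefl _
    · exact (hv a (h1 ha)).not_gt
  simp only [LinearMap.comp_apply, LinearMap.sub_apply, LinearMap.id_apply, svI_single,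
    svR_single, sv_bdy_single, map_sum, map_smul, map_sub]
  rw [Finset.sum_insert h2, h3, one_smul, Finset.erase_insert h2, sub_eq_add_neg (_ - _),
    ← Finset.sum_neg_distrib]
  refine congrArg _ (Finset.sum_congr rfl fun a ha => ?_)
  have h4 : sgn a (insert v τ) = -sgn a τ := by
    rw [sgn, sgn, Finset.filter_insert, if_pos (hv a (h1 ha)),
      Finset.card_insert_of_notMem (fun h => h2 (Finset.mem_filter.1 h).1), pow_succ, mul_neg_one]
  rw [h4, neg_smul, Finset.erase_insert_of_ne (hv a (h1 ha)).ne]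

theorem sv_bdy_R {Λ : Finset V} {v : V} (hv : ∀ a ∈ Λ, G.Adj v a) {c : Chain G}
    (hc : c ∈ cl G Λ) : bdy G (svR G v c) = svR G v (bdy G c) := by
  refine sv_cl_ext (f := bdy G ∘ₗ svR G v) (f' := svR G v ∘ₗ bdy G) (fun g τ h1 _ => ?_) hc
  simp only [LinearMap.comp_apply, svR_single, sv_bdy_single, map_sum, map_smul, map_sub]
  refine Finset.sum_congr rfl fun a ha => ?_
  rw [mul_assoc, (gen_comm (hv a (h1 ha))).eq, mul_assoc]

theorem sv_decomp {Δ Λ : Finset V} {v : V} (hΛ : ∀ a, a ∈ Λ ↔ a ∈ Δ ∧ G.Adj v a) {c : Chain G}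
    (hc : c ∈ cl G (insert v Δ)) : ∃ c₀ ∈ cl G Δ, ∃ c₁ ∈ cl G Λ, c₀ + svI G v c₁ = c := by
  have : c ∈ cl G Δ ⊔ (cl G Λ).map (svI G v) := by
    refine sv_cl_le (fun g τ h1 h2 => ?_) hc
    by_cases h : v ∈ τ
    · refine Submodule.mem_sup_right ⟨Finsupp.single (g, τ.erase v) 1,
        sv_single_mem g (fun a ha => ?_) (h2.subset (Finset.coe_subset.2 (τ.erase_subset v))) 1, ?_⟩
      · obtain ⟨h3, h4⟩ := Finset.mem_erase.1 ha
        exact (hΛ a).2 ⟨(Finset.mem_insert.1 (h1 h4)).resolve_left h3, h2 h h4 h3.symm⟩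
      · rw [svI_single, Finset.insert_erase h]
    · exact Submodule.mem_sup_left (sv_single_mem g
        (fun a ha => (Finset.mem_insert.1 (h1 ha)).resolve_left fun e => h (e ▸ ha)) h2 1)
  obtain ⟨c₀, h0, _, ⟨c₁, h1, rfl⟩, h⟩ := Submodule.mem_sup.1 this
  exact ⟨c₀, h0, c₁, h1, h⟩

theorem sv_unique {Δ : Finset V} {v : V} (hv : v ∉ Δ) {x y : Chain G} (hx : x ∈ cl G Δ)
    (hy : y ∈ cl G Δ) (h : x - svI G v y = 0) : x = 0 ∧ y = 0 := by
  let P : Chain G →ₗ[ℤ] Chain G := Finsupp.linearCombination ℤ fun p =>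
    if v ∈ p.2 then Finsupp.single (p.1, p.2.erase v) 1 else 0
  have h1 : P x = 0 := sv_cl_ext (f := P) (f' := 0) (fun g τ h1 _ => by
    simp only [P, Finsupp.linearCombination_single, one_smul, LinearMap.zero_apply]
    exact if_neg fun h => hv (h1 h)) hx
  have h2 : P (svI G v y) = y := sv_cl_ext (f := P ∘ₗ svI G v) (f' := LinearMap.id)
    (fun g τ h1 _ => by
      simp only [P, LinearMap.comp_apply, svI_single, Finsupp.linearCombination_single, one_smul,
        LinearMap.id_apply]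
      rw [if_pos (Finset.mem_insert_self _ _), Finset.erase_insert fun h => hv (h1 h)]) hy
  have h3 : y = 0 := by
    have := congrArg P h
    rwa [map_sub, h1, h2, map_zero, zero_sub, neg_eq_zero] at this
  rw [h3, map_zero, sub_zero] at h
  exact ⟨h, h3⟩

theorem sv_aug_bdy {Δ : Finset V} {c : Chain G} (hc : c ∈ cl G Δ) :
    Finsupp.mapDomain (QuotientGroup.mk : Raag G → Raag G ⧸ sub G Δ) (res0 G (bdy G c)) = 0 := by
  refine sv_cl_ext (f := Finsupp.lmapDomain ℤ ℤ QuotientGroup.mk ∘ₗ res0 G ∘ₗ bdy G) (f' := 0)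
    (fun g τ h1 _ => ?_) hc
  simp only [LinearMap.comp_apply, sv_bdy_single, map_sum, map_smul, map_sub, sv_res0_single,
    LinearMap.zero_apply]
  refine Finset.sum_eq_zero fun a ha => ?_
  split_ifs
  · rw [Finsupp.lmapDomain_apply, Finsupp.lmapDomain_apply, Finsupp.mapDomain_single,
      Finsupp.mapDomain_single, QuotientGroup.mk_mul_of_mem g (gen_mem_sub (h1 ha)), sub_self,
      smul_zero]
  · rw [sub_self, smul_zero]

omit [LinearOrder V] in
theorem sv_res0_R (v : V) (c : Chain G) :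
    res0 G (svR G v c) = (res0 G c).mapDomain (· * gen G v) := by
  classical
  refine LinearMap.congr_fun (f := res0 G ∘ₗ svR G v)
    (g := Finsupp.lmapDomain ℤ ℤ (· * gen G v) ∘ₗ res0 G)
    (Finsupp.lhom_ext' fun ⟨g, τ⟩ => LinearMap.ext_ring ?_) c
  simp only [LinearMap.comp_apply, Finsupp.lsingle_apply, svR_single, sv_res0_single]
  split_ifs <;> simp

theorem bdy_bdy (Δ : Finset V) {c : Chain G} (hc : c ∈ cl G Δ) : bdy G (bdy G c) = 0 := by
  refine sv_cl_ext (f := bdy G ∘ₗ bdy G) (f' := 0) (fun g τ h1 h2 => ?_) hc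
  clear h1
  change bdy G (bdy G _) = 0
  induction τ using Finset.induction_on_min with
  | empty => rw [sv_bdy_single, Finset.sum_empty, map_zero]
  | insert v τ hv ih =>
    have h3 := h2.subset (Finset.coe_subset.2 (τ.subset_insert v))
    have h4 : ∀ a ∈ τ, G.Adj v a := fun a ha => h2 (by simp) (by simp [ha]) (hv a ha).ne
    have h5 := sv_single_mem g subset_rfl h3 1
    rw [← svI_single, sv_bdy_I hv h5, map_sub, map_sub, sv_bdy_I hv (sv_bdy_mem h5), ih h3,
      sv_bdy_R h4 h5, map_zero, sub_zero, sub_self]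

theorem salv_exact (Δ : Finset V) {c : Chain G} (hc : c ∈ cl G Δ) (h0 : bdy G c = 0)
    (ha : Finsupp.mapDomain (QuotientGroup.mk : Raag G → Raag G ⧸ sub G Δ) (res0 G c) = 0) :
    ∃ b ∈ cl G Δ, bdy G b = c := by
  classical
  induction Δ using Finset.strongInduction generalizing c with
  | H S ih =>
  rcases S.eq_empty_or_nonempty with rfl | hS
  · refine ⟨0, Submodule.zero_mem _, ?_⟩
    have h1 : Function.Injective (QuotientGroup.mk : Raag G → Raag G ⧸ sub G ∅) := fun g h e => by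
      have := QuotientGroup.eq.1 e
      simpa [sub, inv_mul_eq_one] using this
    have h2 : res0 G c = 0 :=
      Finsupp.mapDomain_injective h1 (ha.trans Finsupp.mapDomain_zero.symm)
    have h3 : Finsupp.lmapDomain ℤ ℤ (fun g => (g, (∅ : Finset V))) (res0 G c) = c :=
      sv_cl_ext (f := Finsupp.lmapDomain ℤ ℤ (fun g => (g, (∅ : Finset V))) ∘ₗ res0 G)
        (f' := LinearMap.id) (fun g τ h1 _ => by
          rw [Finset.subset_empty.1 h1]
          simp [sv_res0_single]) hc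
    rw [map_zero, ← h3, h2, map_zero]
  obtain ⟨v, Δ, hv, rfl⟩ : ∃ v Δ, (∀ a ∈ Δ, v < a) ∧ S = insert v Δ :=
    ⟨S.min' hS, S.erase (S.min' hS), fun a ha => S.min'_lt_of_mem_erase_min' hS ha,
      (Finset.insert_erase (S.min'_mem hS)).symm⟩
  have hv' : v ∉ Δ := fun h => (hv v h).false
  have hΛ : ∀ a, a ∈ Δ.filter (G.Adj v) ↔ a ∈ Δ ∧ G.Adj v a := fun a => Finset.mem_filter
  generalize Δ.filter (G.Adj v) = Λ at hΛ
  have hs : Λ ⊆ Δ := fun a ha => ((hΛ a).1 ha).1
  have hadj : ∀ a ∈ Λ, G.Adj v a := fun a ha => ((hΛ a).1 ha).2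
  have hI : ∀ x ∈ cl G Λ, svI G v x ∈ cl G (insert v Δ) := fun x hx =>
    sv_cl_mono (Finset.insert_subset_insert v hs) (svI_mem hadj hx)
  obtain ⟨c₀, hc₀, c₁, hc₁, rfl⟩ := sv_decomp hΛ hc
  have hc₁' := sv_cl_mono hs hc₁
  obtain ⟨e1, e2⟩ := sv_unique hv' (Submodule.add_mem _ (sv_bdy_mem hc₀)
    (Submodule.sub_mem _ (svR_mem v hc₁') hc₁')) (sv_bdy_mem hc₁')
    (by rw [← h0, map_add, sv_bdy_I hv hc₁', add_sub_assoc])
  obtain ⟨b₁, hb₁, rfl⟩ := ih Λ (hs.trans_ssubset (Finset.ssubset_insert hv')) hc₁ e2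
    (mv_inj hv' hΛ _ (by
      have := congrArg (fun x => Finsupp.mapDomain (QuotientGroup.mk : Raag G → Raag G ⧸ sub G Δ)
        (res0 G x)) e1
      simpa only [map_add, map_sub, Finsupp.mapDomain_add, sv_aug_bdy hc₀, zero_add, sv_res0_R,
        map_zero, Finsupp.mapDomain_zero] using this))
  have hb₁' := sv_cl_mono hs hb₁
  have e3 : c₀ + svI G v (bdy G b₁) + bdy G (svI G v b₁) = c₀ + (svR G v b₁ - b₁) := by
    rw [sv_bdy_I hv hb₁']
    abel
  obtain ⟨y, hy⟩ := mv_exact hv' (res0 G (c₀ + (svR G v b₁ - b₁))) (by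
    rw [← e3, map_add, Finsupp.mapDomain_add, ha, sv_aug_bdy (hI _ hb₁), add_zero])
  let j : (Raag G →₀ ℤ) →ₗ[ℤ] Chain G := Finsupp.lmapDomain ℤ ℤ fun g => (g, ∅)
  have j1 : j y ∈ cl G Λ := by
    refine Finsupp.induction_linear y (by simp) (fun _ _ h h' => ?_) fun g n => ?_
    · rw [map_add]
      exact Submodule.add_mem _ h h'
    · rw [Finsupp.lmapDomain_apply, Finsupp.mapDomain_single]
      exact sv_single_mem g (Finset.empty_subset _) (by simp) n
  have j2 : bdy G (j y) = 0 := by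
    refine LinearMap.congr_fun (f := bdy G ∘ₗ j) (g := 0)
      (Finsupp.lhom_ext' fun g => LinearMap.ext_ring ?_) y
    simp [j, sv_bdy_single]
  have j3 : res0 G (j y) = y := by
    refine LinearMap.congr_fun (f := res0 G ∘ₗ j) (g := LinearMap.id)
      (Finsupp.lhom_ext' fun g => LinearMap.ext_ring ?_) y
    simp [j, sv_res0_single]
  have j1' := sv_cl_mono hs j1
  have e4 : bdy G (svI G v (j y)) = svR G v (j y) - j y := by
    rw [sv_bdy_I hv j1', j2, map_zero, sub_zero]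
  obtain ⟨b₀, hb₀, e5⟩ := ih Δ (Finset.ssubset_insert hv')
    (Submodule.sub_mem _ (Submodule.add_mem _ hc₀ (Submodule.sub_mem _ (svR_mem v hb₁') hb₁'))
      (Submodule.sub_mem _ (svR_mem v j1') j1'))
    (by rw [← e3, ← e4, map_sub, map_add, h0, bdy_bdy _ (hI _ hb₁), bdy_bdy _ (hI _ j1)]; simp)
    (by rw [map_sub, Finsupp.mapDomain_sub, hy, map_sub, sv_res0_R, j3, sub_self])
  refine ⟨b₀ + svI G v (j y) - svI G v b₁, Submodule.sub_mem _ (Submodule.add_mem _
    (sv_cl_mono (Finset.subset_insert _ _) hb₀) (hI _ j1)) (hI _ hb₁), ?_⟩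
  rw [map_sub, map_add, e5, e4, ← e3]
  abel

end Vale.Agent.P173
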