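import Vale.Agent.P173.DegDefs

/-!
P173 task Sph (about 250 lines): basic facts on `Shell`, `SphMap`, `thick`.
Hints: the norm of `ℍ` is smooth off zero (`contDiffAt_norm ℝ`, `ℍ` is a real inner product space);
on `S3` the inverse is `star` (`Quaternion.inv_def` or `Quaternion.star_mul_self`, `normSq = 1`);
`star` is a real linear isometry (`Quaternion.norm_star`, `starL' ℝ`); `‖thick a y x i + y i‖ = ‖x i‖`.
`thick_indep`: join `y i` to `y' i` by a path in the sphere (`isPathConnected_sphere`,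
`finrank ℝ ℍ = 4`, or the explicit path through a third point), extend it to `ℝ` with
`Path.extend` and use `thick_htpy` with constant `a`.
`thick_alt`: by `thick_indep` take `y i = 1`, `y j = -1`; then `thick a y` has no zero on the
closure, use `Degree.exists_zero`.  `thick_id`: on the closure `thick = fun x => x - y`.
-/

namespace Vale.Agent.P173

open scoped Quaternion
open Set

variable {ι : Type*} [Fintype ι]

theorem isOpen_off : IsOpen (Off ι) := by
  have : Off ι = ⋂ i, {x : ι → ℍ | x i ≠ 0} := by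
    ext x
    simp [Off]
  rw [this]
  exact isOpen_iInter_of_finite fun i => isOpen_ne_fun (continuous_apply i) continuous_const

theorem isOpen_shell : IsOpen (Shell ι) := by
  have : Shell ι = ⋂ i, (fun x : ι → ℍ => ‖x i‖) ⁻¹' Ioo (1 / 2) 2 := by
    ext x
    simp [Shell]
  rw [this]
  exact isOpen_iInter_of_finite fun i => isOpen_Ioo.preimage (continuous_apply i).norm

theorem isBounded_shell : Bornology.IsBounded (Shell ι) :=
  (Metric.isBounded_closedBall (x := (0 : ι → ℍ)) (r := 2)).subset fun _ hx =>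
    mem_closedBall_zero_iff.2 ((pi_norm_le_iff_of_nonneg two_pos.le).2 fun i => (hx i).2.le)

theorem closure_shell_subset {x : ι → ℍ} (hx : x ∈ closure (Shell ι)) (i : ι) :
    1 / 2 ≤ ‖x i‖ ∧ ‖x i‖ ≤ 2 :=
  closure_minimal (t := (fun x : ι → ℍ => ‖x i‖) ⁻¹' Icc (1 / 2) 2)
    (fun _ hz => ⟨(hz i).1.le, (hz i).2.le⟩) (isClosed_Icc.preimage (continuous_apply i).norm) hx

theorem closure_shell_subset_off : closure (Shell ι) ⊆ Off ι := fun x hx i h => by
  have := (closure_shell_subset hx i).1
  rw [h, norm_zero] at this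
  linarith

theorem SphMap.const (z : S3) : SphMap (fun _ : ι → ℍ => z) :=
  ⟨contDiffOn_const, fun _ _ _ => rfl⟩

theorem SphMap.mul {a b : (ι → ℍ) → S3} (ha : SphMap a) (hb : SphMap b) : SphMap (a * b) :=
  ⟨ha.1.mul hb.1, fun c hc x => by rw [Pi.mul_apply, ha.2 c hc, hb.2 c hc, Pi.mul_apply]⟩

theorem S3.coe_inv_eq_star (z : S3) : ((z⁻¹ : S3) : ℍ) = star (z : ℍ) := by
  have h : (z : ℍ) * star (z : ℍ) = 1 := by
    rw [Quaternion.self_mul_star, Quaternion.normSq_eq_norm_mul_self, S3.norm_coe]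
    simp
  exact inv_eq_of_mul_eq_one_right h

theorem SphMap.inv {a : (ι → ℍ) → S3} (ha : SphMap a) : SphMap a⁻¹ := by
  refine ⟨?_, fun c hc x => by rw [Pi.inv_apply, ha.2 c hc, Pi.inv_apply]⟩
  simp only [Pi.inv_apply, S3.coe_inv_eq_star]
  have hl : IsLinearMap ℝ (star : ℍ → ℍ) := ⟨star_add, Quaternion.star_smul⟩
  exact (LinearMap.toContinuousLinearMap (hl.mk' _)).contDiff.comp_contDiffOn ha.1

theorem contDiffOn_norm_apply (i : ι) : ContDiffOn ℝ 1 (fun x : ι → ℍ => ‖x i‖) (Off ι) :=
  fun x hx => ((contDiffAt_apply ℝ ℍ i x).norm ℝ (hx i)).contDiffWithinAt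

theorem sphMap_nrm (i : ι) : SphMap (fun x : ι → ℍ => nrm (x i)) := by
  refine ⟨?_, fun c hc x => nrm_smul (hc i) _⟩
  exact (((contDiffOn_norm_apply i).inv fun x hx => norm_ne_zero_iff.2 (hx i)).smul
    (contDiff_apply ℝ ℍ i).contDiffOn).congr fun x hx => coe_nrm (hx i)

theorem sphMap_wordMap (w : FreeGroup ι) : SphMap (wordMap w) := by
  induction w using FreeGroup.induction_on with
  | C1 => exact (funext fun x => map_one _ : wordMap (1 : FreeGroup ι) = fun _ => 1) ▸
      SphMap.const 1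
  | of i => exact (funext fun x => FreeGroup.lift_apply_of :
      wordMap (FreeGroup.of i) = fun x => nrm (x i)) ▸ sphMap_nrm i
  | inv_of i ih => exact (funext fun x => map_inv _ _ :
      wordMap (FreeGroup.of i)⁻¹ = (wordMap (FreeGroup.of i))⁻¹) ▸ ih.inv
  | mul a b ha hb => exact (funext fun x => map_mul _ _ _ :
      wordMap (a * b) = wordMap a * wordMap b) ▸ ha.mul hb

theorem contDiffOn_thick {a : ι → (ι → ℍ) → S3} (ha : ∀ i, SphMap (a i)) (y : ι → S3) :
    ContDiffOn ℝ 1 (thick a y) (Off ι) :=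
  contDiffOn_pi.2 fun i => ((contDiffOn_norm_apply i).smul (ha i).1).sub contDiffOn_const

omit [Fintype ι] in
theorem thick_eq_zero_iff' (a : ι → (ι → ℍ) → S3) (y : ι → S3) (x : ι → ℍ) :
    thick a y x = 0 ↔ ∀ i, ‖x i‖ = 1 ∧ a i x = y i := by
  refine ⟨fun h i => ?_, fun h => funext fun i => by simp [thick, h i]⟩
  have h1 : ‖x i‖ • (a i x : ℍ) = y i := sub_eq_zero.1 (congrFun h i)
  have h2 : ‖x i‖ = 1 := by simpa [norm_smul] using congrArg norm h1
  rw [h2, one_smul] at h1
  exact ⟨h2, Subtype.ext h1⟩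

theorem thick_eq_zero_iff (a : ι → (ι → ℍ) → S3) (y : ι → S3) (x : ι → ℍ) :
    thick a y x = 0 ↔ ∀ i, ‖x i‖ = 1 ∧ a i x = y i := thick_eq_zero_iff' a y x

theorem thick_htpy (D : Degree (ι → ℍ)) (a : ℝ → ι → (ι → ℍ) → S3) (y : ℝ → ι → S3)
    (ha : ∀ t ∈ Icc (0 : ℝ) 1, ∀ i, SphMap (a t i))
    (hc : ∀ i, ContinuousOn (fun p : ℝ × (ι → ℍ) => (a p.1 i p.2 : ℍ)) (Icc 0 1 ×ˢ Off ι))
    (hy : ContinuousOn y (Icc 0 1)) :
    D.deg (Shell ι) (thick (a 0) (y 0)) = D.deg (Shell ι) (thick (a 1) (y 1)) := by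
  refine D.htpy _ (fun t => thick (a t) (y t)) isOpen_shell isBounded_shell
    (continuousOn_pi.2 fun i => ?_)
    (fun t ht => (contDiffOn_thick (ha t ht) _).mono (subset_closure.trans closure_shell_subset_off))
    fun t _ x hx h => ?_
  · refine ContinuousOn.sub (((continuous_apply i).comp continuous_snd).norm.continuousOn.smul
      ((hc i).mono (prod_mono_right closure_shell_subset_off))) ?_
    have h : ContinuousOn (fun p : ℝ × (ι → ℍ) => y p.1) (Icc 0 1 ×ˢ closure (Shell ι)) :=
      hy.comp continuousOn_fst fun p hp => hp.1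
    exact (continuous_subtype_val.comp (continuous_apply i)).comp_continuousOn h
  · rw [isOpen_shell.frontier_eq] at hx
    refine hx.2 fun i => ?_
    rw [((thick_eq_zero_iff _ _ _).1 h i).1]
    norm_num

theorem thick_indep (D : Degree (ι → ℍ)) {a : ι → (ι → ℍ) → S3} (ha : ∀ i, SphMap (a i))
    (y y' : ι → S3) : D.deg (Shell ι) (thick a y) = D.deg (Shell ι) (thick a y') := by
  have : PathConnectedSpace S3 := isPathConnected_iff_pathConnectedSpace.1
    (isPathConnected_sphere (by rw [Quaternion.rank_eq_four]; norm_num) 0 zero_le_one)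
  have := thick_htpy D (fun _ => a)
    (fun t i => (PathConnectedSpace.somePath (y i) (y' i)).extend t) (fun _ _ => ha)
    (fun i => (ha i).1.continuousOn.comp continuousOn_snd fun p hp => hp.2)
    (continuous_pi fun i => Path.continuous_extend _).continuousOn
  simpa using this

theorem thick_alt (D : Degree (ι → ℍ)) {a : ι → (ι → ℍ) → S3} (ha : ∀ i, SphMap (a i))
    (y : ι → S3) {i j : ι} (hij : i ≠ j) (h : a i = a j) : D.deg (Shell ι) (thick a y) = 0 := by
  classical
  by_contra hne
  rw [thick_indep D ha y (Function.update 1 j (-1))] at hne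
  have hd := (contDiffOn_thick ha (Function.update 1 j (-1))).mono closure_shell_subset_off
  obtain ⟨x, -, hx⟩ := D.exists_zero isOpen_shell isBounded_shell (hd.mono subset_closure)
    hd.continuousOn hne
  rw [thick_eq_zero_iff] at hx
  have h1 := (hx i).2
  rw [h, (hx j).2, Function.update_self, Function.update_of_ne hij] at h1
  have := congrArg (fun z : S3 => (z : ℍ).re) h1
  norm_num at this

theorem thick_id (D : Degree (ι → ℍ)) (y : ι → S3) :
    D.deg (Shell ι) (thick (fun i x => nrm (x i)) y) ≠ 0 := by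
  have hy : (fun i => (y i : ℍ)) ∈ Shell ι := fun i => by
    rw [S3.norm_coe]
    norm_num
  rw [← D.congr (f := fun x => x - fun i => (y i : ℍ)) isOpen_shell isBounded_shell
    (by fun_prop) (by fun_prop) (fun x hx h => ?_) fun x hx => ?_]
  · exact D.norm _ _ isOpen_shell isBounded_shell hy
  · rw [isOpen_shell.frontier_eq, sub_eq_zero.1 h] at hx
    exact hx.2 hy
  · funext i
    have h0 := closure_shell_subset_off hx i
    simp [thick, coe_nrm h0, smul_smul, h0]

end Vale.Agent.P173
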