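import Vale.Agent.P173.Cont

/-!
P173 task Square (about 200 lines): reduction of the continuation theorem to the square case.
1. Every word of `FreeGroup X` is `FreeGroup.map Subtype.val w'` for a word `w'` over any finset
   containing its letters (induction on the word, or `FreeGroup.toWord`); pick one finset `E'` for
   all the words `w i, c j, q j`, put `ι = ↥E'`.
2. The exponent vectors `V k = fun a : ι => expo (Pi.single a 1) (W' k)` (`k : Φ ⊕ J`) are linearly
   independent over `ℝ`: `expo α (W k) = ∑ a, α a * V k a` (induction on the word), so `hind` gives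
   dual functionals.
3. `square_complete`: an independent family `V : K → (ι → ℝ)` can be completed by coordinate
   vectors `Pi.single d 1`, `d ∈ Dd`, to a basis, giving `e : (K ⊕ Dd) ≃ ι` with nonzero
   determinant (induction on `card ι - card K`: if the span is not everything some coordinate vector
   is outside it, `LinearIndependent.option`/`linearIndependent_sum`; or `LinearIndepOn.extend`;
   then `Fintype.equivOfCardEq`, `Matrix.linearIndependent_rows_iff_isUnit`).
4. Apply `continuation_sq` with `Φ' = Φ ⊕ Dd`, `w' (inr d) = FreeGroup.of d`.  For `A : ι → S3` use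
   the extension `Ā x = if h : x ∈ E' then A ⟨x, h⟩ else 1`, with
   `FreeGroup.lift Ā (FreeGroup.map val w') = FreeGroup.lift A w'`.
-/

namespace Vale.Agent.P173

open scoped Quaternion
open Set

theorem square_finset {X : Type*} (w : FreeGroup X) : ∃ s : Finset X, ∀ t : Finset X, s ⊆ t →
    ∃ w' : FreeGroup t, FreeGroup.map Subtype.val w' = w := by
  classical
  induction w using FreeGroup.induction_on with
  | C1 => exact ⟨∅, fun _ _ => ⟨1, map_one _⟩⟩
  | of x => exact ⟨{x}, fun t ht => ⟨FreeGroup.of ⟨x, ht (Finset.mem_singleton_self x)⟩, rfl⟩⟩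
  | inv_of x ih =>
    obtain ⟨s, hs⟩ := ih
    refine ⟨s, fun t ht => ?_⟩
    obtain ⟨w', h⟩ := hs t ht
    exact ⟨w'⁻¹, by rw [map_inv, h]⟩
  | mul a b iha ihb =>
    obtain ⟨s, hs⟩ := iha
    obtain ⟨s', hs'⟩ := ihb
    refine ⟨s ∪ s', fun t ht => ?_⟩
    obtain ⟨a', ha⟩ := hs t (Finset.subset_union_left.trans ht)
    obtain ⟨b', hb⟩ := hs' t (Finset.subset_union_right.trans ht)
    exact ⟨a' * b', by rw [map_mul, ha, hb]⟩

theorem square_family {X K : Type*} [Finite K] (W : K → FreeGroup X) :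
    ∃ (t : Finset X) (W' : K → FreeGroup t), ∀ k, FreeGroup.map Subtype.val (W' k) = W k := by
  classical
  have := Fintype.ofFinite K
  choose s hs using fun k => square_finset (W k)
  choose W' hW' using fun k => hs k (Finset.univ.biUnion s)
    (Finset.subset_biUnion_of_mem s (Finset.mem_univ k))
  exact ⟨_, W', hW'⟩

theorem square_expo {X ι : Type*} [Fintype ι] [DecidableEq ι] (f : ι → X) (α : X → ℝ)
    (w : FreeGroup ι) :
    expo α (FreeGroup.map f w) = ∑ a, α (f a) * expo (Pi.single a (1 : ℝ)) w := by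
  induction w using FreeGroup.induction_on with
  | C1 => simp
  | of x => simp [Pi.single_apply]
  | inv_of x ih => simp only [map_inv, expo_inv, ih, mul_neg, Finset.sum_neg_distrib]
  | mul a b iha ihb => simp only [map_mul, expo_mul, iha, ihb, mul_add, Finset.sum_add_distrib]

theorem square_indep {K ι : Type*} [Fintype ι] (V : K → ι → ℝ)
    (h : ∀ k, ∃ β : ι → ℝ, ∑ a, β a * V k a ≠ 0 ∧ ∀ k', k' ≠ k → ∑ a, β a * V k' a = 0) :
    LinearIndependent ℝ V := by
  refine linearIndependent_iff'.2 fun s g hg k hk => ?_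
  obtain ⟨β, h1, h2⟩ := h k
  have h3 : ∑ k' ∈ s, g k' * ∑ a, β a * V k' a = 0 := by
    have h4 : ∀ a, ∑ k' ∈ s, g k' * V k' a = 0 := fun a => by simpa using congrFun hg a
    simp only [Finset.mul_sum, mul_left_comm (g _)]
    rw [Finset.sum_comm]
    simp only [← Finset.mul_sum, h4, mul_zero, Finset.sum_const_zero]
  rw [Finset.sum_eq_single_of_mem k hk fun k' _ hk' => by rw [h2 k' hk', mul_zero]] at h3
  exact (mul_eq_zero.1 h3).resolve_right h1

theorem square_complete {Φ J ι : Type*} [Fintype ι] [DecidableEq ι] (V : Φ ⊕ J → ι → ℝ)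
    (hV : LinearIndependent ℝ V) : ∃ (D : Set ι) (e : (Φ ⊕ D) ⊕ J ≃ ι),
      (Matrix.of fun i => Sum.elim (Sum.elim (fun a => V (.inl a))
        (fun d : D => (Pi.single d.1 1 : ι → ℝ))) (fun j => V (.inr j)) (e.symm i)).det ≠ 0 := by
  let v : (Φ ⊕ J) ⊕ ι → ι → ℝ := Sum.elim V fun d => Pi.single d 1
  obtain ⟨b, -, hb1, hb2, hb3⟩ := exists_linearIndepOn_extension (K := ℝ) (v := v)
    (s := range Sum.inl) (t := univ)
    ((linearIndepOn_range_iff Sum.inl_injective v).2 hV) (subset_univ _)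
  let D : Set ι := {d | Sum.inr d ∈ b}
  let m : (Φ ⊕ D) ⊕ J → b := Sum.elim (Sum.elim (fun a => ⟨.inl (.inl a), hb1 ⟨_, rfl⟩⟩)
    fun d => ⟨.inr d.1, d.2⟩) fun j => ⟨.inl (.inr j), hb1 ⟨_, rfl⟩⟩
  have hm : Function.Injective m := by
    rintro ((a | a) | a) ((a' | a') | a') h <;> simp_all [m, Subtype.ext_iff]
  have hm' : Function.Surjective m := by
    rintro ⟨(a | a) | a, h⟩
    exacts [⟨.inl (.inl a), rfl⟩, ⟨.inr a, rfl⟩, ⟨.inl (.inr ⟨a, h⟩), rfl⟩]
  have hU : (Sum.elim (Sum.elim (fun a => V (.inl a)) (fun d : D => (Pi.single d.1 1 : ι → ℝ)))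
      fun j => V (.inr j)) = (fun x : b => v x) ∘ m := by
    funext x
    rcases x with (a | a) | a <;> rfl
  have h1 : LinearIndependent ℝ ((fun x : b => v x) ∘ m) := hb3.comp m hm
  have h2 : ⊤ ≤ Submodule.span ℝ (range ((fun x : b => v x) ∘ m)) := by
    rw [hm'.range_comp, ← image_eq_range, ← (Pi.basisFun ℝ ι).span_eq, Submodule.span_le]
    rintro _ ⟨i, rfl⟩
    exact hb2 ⟨.inr i, trivial, (Pi.basisFun_apply ℝ ι i).symm⟩
  let e := (Module.Basis.mk h1 h2).indexEquiv (Pi.basisFun ℝ ι)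
  refine ⟨D, e, ?_⟩
  rw [hU]
  exact ((Matrix.isUnit_iff_isUnit_det _).1 (Matrix.linearIndependent_rows_iff_isUnit.1
    (h1.comp e.symm e.symm.injective))).ne_zero

theorem square_lift {X G : Type*} [Group G] (t : Finset X) (A : t → G) :
    ∃ B : X → G, ∀ w : FreeGroup t,
      FreeGroup.lift B (FreeGroup.map Subtype.val w) = FreeGroup.lift A w := by
  classical
  refine ⟨fun x => if h : x ∈ t then A ⟨x, h⟩ else 1, fun w => ?_⟩
  induction w using FreeGroup.induction_on with
  | C1 => simp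
  | of x => simp
  | inv_of x ih => simp only [map_inv, ih]
  | mul a b iha ihb => simp only [map_mul, iha, ihb]

theorem continuation {X Φ J : Type*} [Finite Φ] [Fintype J]
    (w : Φ → FreeGroup X) (c q : J → FreeGroup X)
    (hind : ∀ k : Φ ⊕ J, ∃ α : X → ℝ, expo α (Sum.elim w c k) ≠ 0 ∧
      ∀ k', k' ≠ k → expo α (Sum.elim w c k') = 0)
    (T : (J → ℍ) →ₗ[ℝ] (J → ℍ)) (hT : Function.Injective T)
    (hTre : ∀ y : J → ℍ, (∀ j, (y j).re = 0) → ∀ j, (T y j).re = 0)
    (P : ℝ → J → S3) (hP : Continuous P) (hP0 : P 0 = 1) {δ : ℝ} (hδ : 0 < δ)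
    (ha : ∃ C : ℝ, ∀ (A : X → S3) (η : ℝ), 0 ≤ η → η ≤ 1 → (∀ i, FreeGroup.lift A (w i) = 1) →
      (∀ j, ‖((FreeGroup.lift A (c j) : S3) : ℍ) - 1‖ ≤ η) → ∀ j,
        ‖((FreeGroup.lift A (q j) : S3) : ℍ) - 1‖ ≤ C * η ∧
        ‖T (fun j' => ((FreeGroup.lift A (q j') : S3) : ℍ) - 1) j
          - (((FreeGroup.lift A (c j) : S3) : ℍ) - 1)‖ ≤ C * η ^ 2)
    (hb : ∀ s ∈ Icc (0 : ℝ) 1, ∀ A : X → S3, (∀ i, FreeGroup.lift A (w i) = 1) →
      (∀ j, ‖((FreeGroup.lift A (c j) : S3) : ℍ) - 1‖ ≤ δ) → (∀ j, FreeGroup.lift A (q j) = P s j) →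
      ∀ j, ‖((FreeGroup.lift A (c j) : S3) : ℍ) - 1‖ < δ)
    (hb0 : ∀ A : X → S3, (∀ i, FreeGroup.lift A (w i) = 1) →
      (∀ j, ‖((FreeGroup.lift A (c j) : S3) : ℍ) - 1‖ ≤ δ) → (∀ j, FreeGroup.lift A (q j) = 1) →
      ∀ j, FreeGroup.lift A (c j) = 1) :
    ∃ A : X → S3, (∀ i, FreeGroup.lift A (w i) = 1) ∧
      (∀ j, ‖((FreeGroup.lift A (c j) : S3) : ℍ) - 1‖ ≤ δ) ∧ ∀ j, FreeGroup.lift A (q j) = P 1 j := by
  classical
  obtain ⟨t, W, hW⟩ := square_family (Sum.elim (Sum.elim w c) q)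
  have hw : ∀ i, w i = FreeGroup.map Subtype.val (W (.inl (.inl i))) :=
    fun i => (hW (.inl (.inl i))).symm
  have hc : ∀ j, c j = FreeGroup.map Subtype.val (W (.inl (.inr j))) :=
    fun j => (hW (.inl (.inr j))).symm
  have hq : ∀ j, q j = FreeGroup.map Subtype.val (W (.inr j)) := fun j => (hW (.inr j)).symm
  obtain ⟨D, e, he⟩ := square_complete (fun k a => expo (Pi.single a (1 : ℝ)) (W (.inl k)))
    (square_indep _ fun k => by
      obtain ⟨α, h1, h2⟩ := hind k
      refine ⟨fun a => α a, ?_, fun k' hk' => ?_⟩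
      · rwa [← square_expo, hW]
      · rw [← square_expo, hW]
        exact h2 k' hk')
  obtain ⟨A, h1, h2, h3⟩ := continuation_sq e
    (Sum.elim (fun i => W (.inl (.inl i))) fun d : D => FreeGroup.of d.1)
    (fun j => W (.inl (.inr j))) (fun j => W (.inr j)) (by
      refine fun h => he (Eq.trans (congrArg Matrix.det ?_) h)
      ext i j
      simp only [Matrix.of_apply]
      rcases e.symm i with (a | a) | a
      · rfl
      · simp [Pi.single_apply, eq_comm]
      · rfl) T hT hTre P hP hP0 hδ (by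
      obtain ⟨C, hC⟩ := ha
      refine ⟨C, fun A η h0 h1 h2 h3 => ?_⟩
      obtain ⟨B, hB⟩ := square_lift t A
      simpa only [hq, hc, hB] using hC B η h0 h1 (fun i => by rw [hw, hB]; exact h2 (.inl i))
        (fun j => by rw [hc, hB]; exact h3 j)) (fun s hs A h2 h3 h4 => by
      obtain ⟨B, hB⟩ := square_lift t A
      simpa only [hc, hB] using hb s hs B (fun i => by rw [hw, hB]; exact h2 (.inl i))
        (fun j => by rw [hc, hB]; exact h3 j) (fun j => by rw [hq, hB]; exact h4 j))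
    (fun A h2 h3 h4 => by
      obtain ⟨B, hB⟩ := square_lift t A
      simpa only [hc, hB] using hb0 B (fun i => by rw [hw, hB]; exact h2 (.inl i))
        (fun j => by rw [hc, hB]; exact h3 j) (fun j => by rw [hq, hB]; exact h4 j))
  obtain ⟨B, hB⟩ := square_lift t A
  exact ⟨B, fun i => by rw [hw, hB]; exact h1 (.inl i), fun j => by rw [hc, hB]; exact h2 j,
    fun j => by rw [hq, hB]; exact h3 j⟩

end Vale.Agent.P173
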