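import Vale.Agent.P173.TopDefs

/-!
P173 task StageBasic (about 250 lines): open cells, coordinates, radial deformation.
* `isOpen_image`: apply `st.closed` to the complement `C`: `C ∩ A = A`; `χ j' ⁻¹' C ∩ closedBall` is the
  whole ball for `j' ≠ j` and `closedBall \ O` for `j' = j` (split `‖y‖ < 1` or `‖y‖ = 1`).
* `isOpen_punct`: the complement `C` (centres) has `C ∩ A = ∅` and `χ j ⁻¹' C ∩ closedBall = {0}`.
* `exists_coord`: `ψ = Function.invFunOn (χ j) (ball 0 1)`, continuity from `isOpen_image`.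
* `exists_deform`: `q : A ⊕ (Σ j, closedBall 0 1) → Z` is a quotient map (`isQuotientMap_iff_isClosed`),
  so is its restriction over the open set `punct` (`IsQuotientMap.restrictPreimage_isOpen`), and
  `IsQuotientMap.continuous_lift_prod_right` (the interval is locally compact) reduces the continuity of
  `(t, z) ↦ D t z` on `Icc 0 1 × punct` to continuity on `A` and on each punctured closed ball.
  Define `D t z = if h : ∃ j y, ‖y‖ < 1 ∧ χ j y = z then χ j (((1 - t) + t / ‖y‖) • y) else z`.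
  Note `‖((1 - t) + t / ‖y‖) • y‖ = (1 - t) ‖y‖ + t`.
-/

namespace Vale.Agent.P173

open Set Metric

variable {F : Type} [NormedAddCommGroup F] {Z : Type*} [TopologicalSpace Z] {J : Type*}

theorem Stage.isOpen_image (st : Stage F Z J) (j : J) {O : Set F} (hO : IsOpen O)
    (hs : O ⊆ ball 0 1) : IsOpen (st.χ j '' O) := by
  rw [← isClosed_compl_iff]
  apply st.closed
  · have : (st.χ j '' O)ᶜ ∩ st.A = st.A := by
      apply inter_eq_right.2
      rintro z hz ⟨y, hy, rfl⟩
      exact st.notMem j y (mem_ball_zero_iff.1 (hs hy)) hz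
    rw [this]
    exact st.isClosed_A
  · intro j'
    by_cases hj : j' = j
    · subst hj
      have : st.χ j' ⁻¹' (st.χ j' '' O)ᶜ ∩ closedBall 0 1 = Oᶜ ∩ closedBall 0 1 := by
        ext y
        simp only [mem_inter_iff, mem_preimage, mem_compl_iff, mem_closedBall_zero_iff]
        refine and_congr_left fun hy => not_congr ⟨?_, fun h => ⟨y, h, rfl⟩⟩
        rintro ⟨y', hy', he⟩
        have h1 := mem_ball_zero_iff.1 (hs hy')
        rcases hy.lt_or_eq with h | h
        · rw [← (st.inj _ _ _ _ h1 h he).2]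
          exact hy'
        · exact absurd (he ▸ st.bdry j' y h) (st.notMem j' y' h1)
      rw [this]
      exact hO.isClosed_compl.inter isClosed_closedBall
    · have : st.χ j' ⁻¹' (st.χ j '' O)ᶜ ∩ closedBall 0 1 = closedBall 0 1 := by
        apply inter_eq_right.2
        rintro y hy ⟨y', hy', he⟩
        have h1 := mem_ball_zero_iff.1 (hs hy')
        rcases (mem_closedBall_zero_iff.1 hy).lt_or_eq with h | h
        · exact hj (st.inj _ _ _ _ h1 h he).1.symm
        · exact st.notMem j y' h1 (he ▸ st.bdry j' y h)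
      rw [this]
      exact isClosed_closedBall

theorem Stage.subset_punct (st : Stage F Z J) : st.A ⊆ st.punct := by
  intro z hz j he
  exact st.notMem j 0 (by simp) (he ▸ hz)

theorem Stage.mem_punct (st : Stage F Z J) (j : J) {y : F} (h0 : y ≠ 0) (h1 : ‖y‖ ≤ 1) :
    st.χ j y ∈ st.punct := by
  rcases h1.lt_or_eq with h | h
  · intro j' he
    exact h0 (st.inj _ _ _ _ h (by simp) he).2
  · exact st.subset_punct (st.bdry j y h)

theorem Stage.isOpen_punct (st : Stage F Z J) : IsOpen st.punct := by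
  rw [← isClosed_compl_iff]
  apply st.closed
  · have : st.punctᶜ ∩ st.A = ∅ := by
      rw [eq_empty_iff_forall_notMem]
      rintro z ⟨h1, h2⟩
      exact h1 (st.subset_punct h2)
    rw [this]
    exact isClosed_empty
  · intro j
    have : st.χ j ⁻¹' st.punctᶜ ∩ closedBall 0 1 = {0} := by
      ext y
      simp only [mem_inter_iff, mem_preimage, mem_compl_iff, mem_closedBall_zero_iff,
        mem_singleton_iff]
      constructor
      · rintro ⟨h1, h2⟩
        by_contra h0
        exact h1 (st.mem_punct j h0 h2)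
      · rintro rfl
        exact ⟨fun h => h j rfl, by simp⟩
    rw [this]
    exact isClosed_singleton

theorem Stage.exists_coord (st : Stage F Z J) (j : J) :
    ∃ ψ : Z → F, ContinuousOn ψ (st.χ j '' ball 0 1) ∧ ∀ y, ‖y‖ < 1 → ψ (st.χ j y) = y := by
  have hinj : InjOn (st.χ j) (ball 0 1) := fun y hy y' hy' he =>
    (st.inj _ _ _ _ (mem_ball_zero_iff.1 hy) (mem_ball_zero_iff.1 hy') he).2
  have hleft : LeftInvOn (Function.invFunOn (st.χ j) (ball 0 1)) (st.χ j) (ball 0 1) :=
    hinj.leftInvOn_invFunOn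
  refine ⟨Function.invFunOn (st.χ j) (ball 0 1), ?_, fun y hy => hleft (mem_ball_zero_iff.2 hy)⟩
  refine continuousOn_iff'.2 fun t ht => ⟨st.χ j '' (t ∩ ball 0 1),
    st.isOpen_image j (ht.inter isOpen_ball) inter_subset_right, ?_⟩
  ext z
  constructor
  · rintro ⟨h1, y, hy, rfl⟩
    rw [mem_preimage, hleft hy] at h1
    exact ⟨⟨y, ⟨h1, hy⟩, rfl⟩, y, hy, rfl⟩
  · rintro ⟨⟨y, ⟨h1, hy⟩, rfl⟩, h2⟩
    refine ⟨?_, h2⟩
    rw [mem_preimage, hleft hy]
    exact h1

/-- continuity on an open set can be tested on `A` and on the cells -/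
theorem Stage.sb_continuousOn (st : Stage F Z J) {W : Type*} [TopologicalSpace W] {U : Set Z}
    (hU : IsOpen U) {g : Z → W} (hA : ContinuousOn g (st.A ∩ U))
    (hj : ∀ j, ContinuousOn (fun y => g (st.χ j y)) (closedBall 0 1 ∩ st.χ j ⁻¹' U)) :
    ContinuousOn g U := by
  refine continuousOn_iff_isClosed.2 fun t ht => ⟨g ⁻¹' t ∪ Uᶜ, ?_, ?_⟩
  · apply st.closed
    · obtain ⟨u, hu, he⟩ := continuousOn_iff_isClosed.1 hA t ht
      have : (g ⁻¹' t ∪ Uᶜ) ∩ st.A = (u ∪ Uᶜ) ∩ st.A := by
        ext z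
        have := Set.ext_iff.1 he z
        simp only [mem_inter_iff, mem_union, mem_compl_iff] at this ⊢
        tauto
      rw [this]
      exact (hu.union hU.isClosed_compl).inter st.isClosed_A
    · intro j
      obtain ⟨u, hu, he⟩ := continuousOn_iff_isClosed.1 (hj j) t ht
      have : st.χ j ⁻¹' (g ⁻¹' t ∪ Uᶜ) ∩ closedBall 0 1 =
          (u ∩ closedBall 0 1) ∪ (closedBall 0 1 ∩ st.χ j ⁻¹' Uᶜ) := by
        ext y
        have := Set.ext_iff.1 he y
        simp only [mem_inter_iff, mem_union, mem_compl_iff, mem_preimage] at this ⊢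
        tauto
      rw [this]
      exact (hu.inter isClosed_closedBall).union
        ((st.cont j).preimage_isClosed_of_isClosed isClosed_closedBall hU.isClosed_compl)
  · ext z
    simp only [mem_inter_iff, mem_union, mem_compl_iff]
    tauto

/-- the same with a locally compact parameter -/
theorem Stage.sb_continuousOn_prod (st : Stage F Z J) {W T : Type*} [TopologicalSpace W]
    [TopologicalSpace T] [LocallyCompactSpace T] {U : Set Z}
    (hU : IsOpen U) {g : Z → T → W} (hA : ContinuousOn (Function.uncurry g) ((st.A ∩ U) ×ˢ univ))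
    (hj : ∀ j, ContinuousOn (Function.uncurry fun y => g (st.χ j y))
      ((closedBall 0 1 ∩ st.χ j ⁻¹' U) ×ˢ univ)) :
    ContinuousOn (Function.uncurry g) (U ×ˢ univ) := by
  intro p hp
  let d : C(T, W) := ContinuousMap.const T (g p.1 p.2)
  have h1 : ContinuousOn (fun z => ContinuousMap.mkD (g z) d) U :=
    st.sb_continuousOn hU (ContinuousMap.continuousOn_mkD_of_uncurry g d hA) fun j =>
      ContinuousMap.continuousOn_mkD_of_uncurry (fun y => g (st.χ j y)) d (hj j)
  have h2 : ∀ z ∈ U, Continuous (g z) := by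
    intro z hz
    rcases st.cover z with h | ⟨j, y, hy, rfl⟩
    · exact hA.comp_continuous (Continuous.prodMk_right z) fun _ => ⟨⟨h, hz⟩, trivial⟩
    · exact (hj j).comp_continuous (Continuous.prodMk_right y) fun _ =>
        ⟨⟨mem_closedBall_zero_iff.2 hy.le, hz⟩, trivial⟩
  have h3 : ContinuousOn (fun q : Z × T => ContinuousMap.mkD (g q.1) d q.2) (U ×ˢ univ) :=
    continuous_eval.comp_continuousOn
      ((h1.comp continuousOn_fst fun q hq => hq.1).prodMk continuousOn_snd)
  refine (h3.congr fun q hq => ?_) p hp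
  rw [ContinuousMap.mkD_apply_of_continuous (h2 _ hq.1)]
  rfl

theorem sb_norm_smul [NormedSpace ℝ F] {t : ℝ} (h0 : 0 ≤ t) (h1 : t ≤ 1) {y : F} (hy : y ≠ 0) :
    ‖((1 - t) + t / ‖y‖) • y‖ = (1 - t) * ‖y‖ + t := by
  have hn : 0 < ‖y‖ := norm_pos_iff.2 hy
  have : 0 ≤ (1 - t) + t / ‖y‖ := add_nonneg (by linarith) (div_nonneg h0 hn.le)
  rw [norm_smul, Real.norm_eq_abs, abs_of_nonneg this]
  field_simp

theorem Stage.exists_deform [NormedSpace ℝ F] (st : Stage F Z J) :
    ∃ D : ℝ → Z → Z, ContinuousOn (fun p : ℝ × Z => D p.1 p.2) (Icc 0 1 ×ˢ st.punct) ∧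
      (∀ t, ∀ z ∈ st.A, D t z = z) ∧
      (∀ t j y, y ≠ 0 → ‖y‖ ≤ 1 → D t (st.χ j y) = st.χ j (((1 - t) + t / ‖y‖) • y)) ∧
      (∀ z ∈ st.punct, D 0 z = z) ∧ (∀ z ∈ st.punct, D 1 z ∈ st.A) := by
  classical
  let D : ℝ → Z → Z := fun t z =>
    if h : ∃ q : J × F, ‖q.2‖ < 1 ∧ st.χ q.1 q.2 = z then
      st.χ h.choose.1 (((1 - t) + t / ‖h.choose.2‖) • h.choose.2) else z
  have hA : ∀ t, ∀ z ∈ st.A, D t z = z := by
    intro t z hz
    refine dif_neg ?_
    rintro ⟨q, hq, rfl⟩
    exact st.notMem _ _ hq hz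
  have hχ : ∀ t j y, y ≠ 0 → ‖y‖ ≤ 1 → D t (st.χ j y) = st.χ j (((1 - t) + t / ‖y‖) • y) := by
    intro t j y h0 h1
    rcases h1.lt_or_eq with h | h
    · have hex : ∃ q : J × F, ‖q.2‖ < 1 ∧ st.χ q.1 q.2 = st.χ j y := ⟨(j, y), h, rfl⟩
      have hc := hex.choose_spec
      obtain ⟨e1, e2⟩ := st.inj _ _ _ _ hc.1 h hc.2
      simp only [D, dif_pos hex]
      rw [e1, e2]
    · rw [hA t _ (st.bdry j y h), h]
      simp
  have hne : ∀ j y, st.χ j y ∈ st.punct → y ≠ 0 := by
    rintro j y h rfl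
    exact h j rfl
  refine ⟨D, ?_, hA, hχ, ?_, ?_⟩
  · have key : ContinuousOn (Function.uncurry fun z (t : Icc (0 : ℝ) 1) => D t z)
        (st.punct ×ˢ univ) := by
      apply st.sb_continuousOn_prod st.isOpen_punct
      · refine continuousOn_fst.congr fun q hq => ?_
        exact hA _ _ hq.1.1
      · intro j
        have hc : ContinuousOn (fun q : F × Icc (0 : ℝ) 1 =>
            ((1 - (q.2 : ℝ)) + (q.2 : ℝ) / ‖q.1‖) • q.1)
            ((closedBall 0 1 ∩ st.χ j ⁻¹' st.punct) ×ˢ univ) := by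
          refine ContinuousOn.smul (ContinuousOn.add (by fun_prop)
            (ContinuousOn.div (by fun_prop) (by fun_prop) fun q hq => ?_)) continuousOn_fst
          exact norm_ne_zero_iff.2 (hne j _ hq.1.2)
        refine ((st.cont j).comp hc fun q hq => ?_).congr fun q hq => ?_
        · have h1 := mem_closedBall_zero_iff.1 hq.1.1
          rw [mem_closedBall_zero_iff, sb_norm_smul q.2.2.1 q.2.2.2 (hne j _ hq.1.2)]
          nlinarith [q.2.2.1, q.2.2.2]
        · exact hχ _ _ _ (hne j _ hq.1.2) (mem_closedBall_zero_iff.1 hq.1.1)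
    have hc : Continuous fun p : ℝ × Z => (p.2, projIcc (0 : ℝ) 1 zero_le_one p.1) :=
      continuous_snd.prodMk (continuous_projIcc.comp continuous_fst)
    refine (key.comp hc.continuousOn fun p hp => ⟨hp.2, trivial⟩).congr fun p hp => ?_
    simp only [Function.comp, Function.uncurry, projIcc_of_mem zero_le_one hp.1]
  · intro z hz
    rcases st.cover z with h | ⟨j, y, hy, rfl⟩
    · exact hA _ _ h
    · rw [hχ 0 j y (hne j y hz) hy.le]
      simp
  · intro z hz
    rcases st.cover z with h | ⟨j, y, hy, rfl⟩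
    · rw [hA _ _ h]
      exact h
    · rw [hχ 1 j y (hne j y hz) hy.le]
      apply st.bdry
      rw [sb_norm_smul zero_le_one le_rfl (hne j y hz)]
      ring

end Vale.Agent.P173
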