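import Vale.Agent.P173.Sph
import Vale.Agent.P173.Miss
import Vale.Agent.P173.Pinch

/-!
P173 task ThickAdd (about 300 lines): the degree is additive in each slot.
Write `δ c = deg (thick (update a i₀ c) y)` (independent of `y`, `thick_indep`).
1. For constants `z z' : S3`, `δ (z * c * z') = δ c` (`thick_htpy` along paths from `1` to `z`, `z'`;
   or: join `z` to `1` by a path in the sphere).
2. `exists_missed` gives `y, q` such that `(a, b)` misses `(y, q)` on `Off ι`.  Put `p = y i₀`,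
   `a' = -p⁻¹ * a i₀`, `b' = b * (-q⁻¹)` (the sphere has `Neg`; or use the element `⟨-1, _⟩`), so
   on the fibre `Z = {x ∈ closure Shell | ∀ i ≠ i₀, a i x = y i}` never both `a' = -1`, `b' = -1`.
   By compactness of `Z` there is `ε > 0` with `¬ (re a' ≤ -1 + ε ∧ re b' ≤ -1 + ε)` on `Z`
   (the continuous function `re a' + re b' + 2` is positive on `Z`; a unit quaternion with
   `re = -1` equals `-1`).
3. `exists_pinch`: `δ (a' * b') = δ (κ a' * κ b')`, `δ a' = δ (κ a')`, `δ b' = δ (κ b')` with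
   `κ = κ 1`, by `thick_htpy`.
4. Use the target `y' = update y i₀ (-1)`.  `Ω₁ = Shell ∩ {re a' < -1 + ε, re b' > -1 + ε}` and
   `Ω₂` symmetric are disjoint open sets; `κ z ≠ 1 → re z < -1 + ε`.  Zeros of the product map lie in
   `Ω₁ ∪ Ω₂` (`Degree.add`); on `closure Ω₁` we have `κ b' = 1` (`Degree.congr`), and the zeros of
   the map with `κ a'` in slot `i₀` lie in `Ω₁` (`Degree.excise`).  Same for `Ω₂`.
-/

namespace Vale.Agent.P173

open scoped Quaternion

open Set

section aux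

variable {ι : Type*} [Fintype ι]

theorem SphMap.contOn {c : (ι → ℍ) → S3} (hc : SphMap c) : ContinuousOn c (Off ι) :=
  Topology.IsInducing.subtypeVal.continuousOn_iff.2 hc.1.continuousOn

theorem SphMap.contOn_re {c : (ι → ℍ) → S3} (hc : SphMap c) :
    ContinuousOn (fun x => (c x : ℍ).re) (closure (Shell ι)) :=
  Quaternion.continuous_re.comp_continuousOn (hc.1.continuousOn.mono closure_shell_subset_off)

theorem SphMap.pinch {c : (ι → ℍ) → S3} (hc : SphMap c) {κ : S3 → S3}
    (hκ : ∃ k : ℍ → ℍ, ∀ z : S3, ContDiffAt ℝ 1 k (z : ℍ) ∧ k z = κ z) :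
    SphMap fun x => κ (c x) := by
  obtain ⟨k, hk⟩ := hκ
  refine ⟨fun x hx => ?_, fun r hr x => congrArg κ (hc.2 r hr x)⟩
  have h := (hk (c x)).1.comp_contDiffWithinAt x (hc.1 x hx)
  exact h.congr (fun z _ => (hk (c z)).2.symm) (hk (c x)).2.symm

theorem S3.neg_one_le_re (z : S3) : -1 ≤ (z : ℍ).re ∧ ((z : ℍ).re = -1 → z = -1) := by
  have h := Quaternion.normSq_eq_norm_mul_self (z : ℍ)
  rw [S3.norm_coe, Quaternion.normSq_def'] at h
  refine ⟨by nlinarith [sq_nonneg (z : ℍ).imI, sq_nonneg (z : ℍ).imJ, sq_nonneg (z : ℍ).imK],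
    fun h1 => Subtype.ext ?_⟩
  rw [h1] at h
  have e1 : (z : ℍ).imI = 0 := by nlinarith [sq_nonneg (z : ℍ).imJ, sq_nonneg (z : ℍ).imK]
  have e2 : (z : ℍ).imJ = 0 := by nlinarith [sq_nonneg (z : ℍ).imI, sq_nonneg (z : ℍ).imK]
  have e3 : (z : ℍ).imK = 0 := by nlinarith [sq_nonneg (z : ℍ).imI, sq_nonneg (z : ℍ).imJ]
  ext <;> simp [h1, e1, e2, e3]

theorem S3.neg_one_ne_one : (-1 : S3) ≠ 1 := fun h => by
  have := congrArg (fun z : S3 => (z : ℍ).re) h
  norm_num at this

theorem S3.exists_path (z : S3) : ∃ γ : ℝ → S3, Continuous γ ∧ γ 0 = 1 ∧ γ 1 = z := by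
  have : PathConnectedSpace S3 := isPathConnected_iff_pathConnectedSpace.1
    (isPathConnected_sphere (by rw [Quaternion.rank_eq_four]; norm_num) 0 zero_le_one)
  exact ⟨(PathConnectedSpace.somePath 1 z).extend, Path.continuous_extend _, by simp, by simp⟩

variable [DecidableEq ι] (D : Degree (ι → ℍ)) {a : ι → (ι → ℍ) → S3} (i₀ : ι)

theorem sphMap_update (ha : ∀ i, SphMap (a i)) {c : (ι → ℍ) → S3} (hc : SphMap c) (i : ι) :
    SphMap (Function.update a i₀ c i) := by
  rw [Function.update_apply]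
  split_ifs
  exacts [hc, ha i]

theorem slot_htpy (ha : ∀ i, SphMap (a i)) (y : ι → S3) (c : ℝ → (ι → ℍ) → S3)
    (hc : ∀ t, SphMap (c t))
    (hcc : ContinuousOn (fun p : ℝ × (ι → ℍ) => c p.1 p.2) (Icc 0 1 ×ˢ Off ι)) :
    D.deg (Shell ι) (thick (Function.update a i₀ (c 0)) y) =
      D.deg (Shell ι) (thick (Function.update a i₀ (c 1)) y) := by
  refine thick_htpy D (fun t => Function.update a i₀ (c t)) (fun _ => y)
    (fun t _ => sphMap_update i₀ ha (hc t)) (fun i => ?_) continuousOn_const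
  by_cases hi : i = i₀
  · simp only [hi, Function.update_self]
    exact continuous_subtype_val.comp_continuousOn hcc
  · simp only [Function.update_of_ne hi]
    exact (ha i).1.continuousOn.comp continuousOn_snd fun p hp => hp.2

theorem slot_const (ha : ∀ i, SphMap (a i)) (y : ι → S3) {c : (ι → ℍ) → S3} (hc : SphMap c)
    (z z' : S3) : D.deg (Shell ι) (thick (Function.update a i₀ fun x => z * c x * z') y) =
      D.deg (Shell ι) (thick (Function.update a i₀ c) y) := by
  obtain ⟨γ, h, h0, h1⟩ := S3.exists_path z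
  obtain ⟨γ', h', h0', h1'⟩ := S3.exists_path z'
  have := slot_htpy D i₀ ha y (fun t x => γ t * c x * γ' t)
    (fun t => ((SphMap.const (γ t)).mul hc).mul (SphMap.const (γ' t)))
    (((h.comp continuous_fst).continuousOn.mul
      (hc.contOn.comp continuousOn_snd fun p hp => hp.2)).mul
      (h'.comp continuous_fst).continuousOn)
  simpa only [h0, h1, h0', h1', one_mul, mul_one] using this.symm

theorem slot_zero {y : ι → S3} {c : (ι → ℍ) → S3} {x : ι → ℍ}
    (h : thick (Function.update a i₀ c) (Function.update y i₀ (-1)) x = 0) :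
    x ∈ Shell ι ∧ (∀ i, i ≠ i₀ → a i x = y i) ∧ c x = -1 := by
  rw [thick_eq_zero_iff] at h
  refine ⟨fun i => by rw [(h i).1]; norm_num, fun i hi => ?_, by simpa using (h i₀).2⟩
  simpa [Function.update_of_ne hi] using (h i).2

theorem slot_half (ha : ∀ i, SphMap (a i)) (y : ι → S3) {A c : (ι → ℍ) → S3} (hA : SphMap A)
    {Ω : Set (ι → ℍ)} (ho : IsOpen Ω) (hs : Ω ⊆ Shell ι)
    (hz : ∀ x ∈ closure (Shell ι), thick (Function.update a i₀ A) y x = 0 → x ∈ Ω)
    (he : ∀ x ∈ closure Ω, A x = c x) :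
    D.deg (Shell ι) (thick (Function.update a i₀ A) y) =
      D.deg Ω (thick (Function.update a i₀ c) y) := by
  have hd := (contDiffOn_thick (sphMap_update i₀ ha hA) y).mono closure_shell_subset_off
  have hcl := closure_mono hs
  rw [D.excise isOpen_shell isBounded_shell ho hs (hd.mono subset_closure) hd.continuousOn hz]
  refine D.congr ho (isBounded_shell.subset hs) (hd.mono (hs.trans subset_closure))
    (hd.continuousOn.mono hcl) (fun x hx h0 => ?_) fun x hx => ?_
  · rw [ho.frontier_eq] at hx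
    exact hx.2 (hz x (hcl hx.1) h0)
  · funext i
    simp only [thick, Function.update_apply]
    split_ifs
    · rw [he x hx]
    · rfl

/-- the cap region where `a'` is close to `-1` and `b'` is not -/
def capSet (ε : ℝ) (a' b' : (ι → ℍ) → S3) : Set (ι → ℍ) :=
  Shell ι ∩ (fun x => ((a' x : ℍ).re, (b' x : ℍ).re)) ⁻¹' Iio (-1 + ε) ×ˢ Ioi (-1 + ε)

omit [DecidableEq ι] in
theorem isOpen_capSet (ε : ℝ) {a' b' : (ι → ℍ) → S3} (ha' : SphMap a') (hb' : SphMap b') :
    IsOpen (capSet ε a' b') :=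
  ((ha'.contOn_re.prodMk hb'.contOn_re).mono subset_closure).isOpen_inter_preimage isOpen_shell
    (isOpen_Iio.prod isOpen_Ioi)

omit [DecidableEq ι] in
theorem closure_capSet {ε : ℝ} {a' b' : (ι → ℍ) → S3} (hb' : SphMap b') {x : ι → ℍ}
    (hx : x ∈ closure (capSet ε a' b')) : -1 + ε ≤ (b' x : ℍ).re := by
  refine (closure_minimal (fun z hz => ?_)
    (hb'.contOn_re.preimage_isClosed_of_isClosed isClosed_closure (isClosed_Ici (a := -1 + ε)))
    hx).2
  exact ⟨subset_closure hz.1, le_of_lt (mem_Ioi.1 hz.2.2)⟩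

theorem slot_add (ha : ∀ i, SphMap (a i)) (y : ι → S3) {a' b' : (ι → ℍ) → S3}
    (ha' : SphMap a') (hb' : SphMap b')
    (hm : ∀ x ∈ Off ι, (∀ i, i ≠ i₀ → a i x = y i) → a' x = -1 → b' x ≠ -1) :
    D.deg (Shell ι) (thick (Function.update a i₀ (a' * b')) y) =
      D.deg (Shell ι) (thick (Function.update a i₀ a') y) +
        D.deg (Shell ι) (thick (Function.update a i₀ b') y) := by
  have : ProperSpace (ι → ℍ) := FiniteDimensional.proper_real _
  obtain ⟨r, hr, hG⟩ := (isBounded_shell (ι := ι)).isCompact_closure.exists_forall_le'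
    (f := fun x => (a' x : ℍ).re + (b' x : ℍ).re + 2 +
      ∑ i ∈ Finset.univ.erase i₀, ‖(a i x : ℍ) - y i‖) (a := 0)
    (((ha'.contOn_re.add hb'.contOn_re).add continuousOn_const).add
      (continuousOn_finsetSum _ fun i _ =>
        (((ha i).1.continuousOn.mono closure_shell_subset_off).sub continuousOn_const).norm))
    (fun x hx => by
      by_contra hle
      have h1 := S3.neg_one_le_re (a' x)
      have h2 := S3.neg_one_le_re (b' x)
      have h3 : ∀ i ∈ Finset.univ.erase i₀, 0 ≤ ‖(a i x : ℍ) - y i‖ := fun _ _ => norm_nonneg _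
      have h4 := Finset.sum_nonneg h3
      have h5 := (Finset.sum_eq_zero_iff_of_nonneg h3).1 (by linarith [h1.1, h2.1])
      exact hm x (closure_shell_subset_off hx)
        (fun i hi => Subtype.ext (by simpa [sub_eq_zero] using h5 i (by simpa using hi)))
        (h1.2 (by linarith [h1.1, h2.1])) (h2.2 (by linarith [h1.1, h2.1])))
  have hε : ∀ x ∈ closure (Shell ι), (∀ i, i ≠ i₀ → a i x = y i) →
      r ≤ (a' x : ℍ).re + (b' x : ℍ).re + 2 := fun x hx h => by
    have := hG x hx
    rwa [Finset.sum_eq_zero fun i hi => by simp [h i (Finset.ne_of_mem_erase hi)], add_zero] at this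
  obtain ⟨κ, hκ, hk, hκ0, hκ1⟩ := exists_pinch (show 0 < r / 3 by positivity)
  have hA := fun t => ha'.pinch (hk t)
  have hB := fun t => hb'.pinch (hk t)
  have cc : ∀ {c : (ι → ℍ) → S3}, SphMap c →
      ContinuousOn (fun p : ℝ × (ι → ℍ) => κ p.1 (c p.2)) (Icc 0 1 ×ˢ Off ι) := fun hc =>
    hκ.comp_continuousOn
      (continuousOn_fst.prodMk (hc.contOn.comp continuousOn_snd fun p hp => hp.2))
  have e1 := slot_htpy D i₀ ha y _ hA (cc ha')
  have e2 := slot_htpy D i₀ ha y _ hB (cc hb')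
  have e3 := slot_htpy D i₀ ha y (fun t x => κ t (a' x) * κ t (b' x))
    (fun t => (hA t).mul (hB t)) ((cc ha').mul (cc hb'))
  simp only [hκ0] at e1 e2 e3
  have hlt : ∀ z : S3, κ 1 z ≠ 1 → (z : ℍ).re < -1 + r / 3 := fun z h =>
    not_le.1 fun h' => h (hκ1 z h')
  have m1 : ∀ x ∈ Shell ι, (∀ i, i ≠ i₀ → a i x = y i) → κ 1 (a' x) ≠ 1 →
      x ∈ capSet (r / 3) a' b' := fun x hx h h1 => by
    have h2 := hlt _ h1
    have h3 := hε x (subset_closure hx) h
    exact ⟨hx, h2, show -1 + r / 3 < _ by linarith⟩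
  have m2 : ∀ x ∈ Shell ι, (∀ i, i ≠ i₀ → a i x = y i) → κ 1 (b' x) ≠ 1 →
      x ∈ capSet (r / 3) b' a' := fun x hx h h1 => by
    have h2 := hlt _ h1
    have h3 := hε x (subset_closure hx) h
    exact ⟨hx, h2, show -1 + r / 3 < _ by linarith⟩
  have hAB : SphMap fun x => κ 1 (a' x) * κ 1 (b' x) := (hA 1).mul (hB 1)
  have hd := (contDiffOn_thick (sphMap_update i₀ ha hAB) (Function.update y i₀ (-1))).mono
    closure_shell_subset_off
  refine e3.trans ?_
  rw [e1, e2, thick_indep D (sphMap_update i₀ ha hAB) y (Function.update y i₀ (-1)),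
    thick_indep D (sphMap_update i₀ ha (hA 1)) y (Function.update y i₀ (-1)),
    thick_indep D (sphMap_update i₀ ha (hB 1)) y (Function.update y i₀ (-1)),
    slot_half D i₀ ha _ (c := fun x => κ 1 (a' x) * κ 1 (b' x)) (hA 1)
      (isOpen_capSet (r / 3) ha' hb') inter_subset_left
      (fun x _ h => (slot_zero i₀ h).elim fun h1 h2 =>
        m1 x h1 h2.1 (h2.2.trans_ne S3.neg_one_ne_one))
      (fun x hx => by rw [hκ1 _ (closure_capSet hb' hx), mul_one]),
    slot_half D i₀ ha _ (c := fun x => κ 1 (a' x) * κ 1 (b' x)) (hB 1)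
      (isOpen_capSet (r / 3) hb' ha') inter_subset_left
      (fun x _ h => (slot_zero i₀ h).elim fun h1 h2 =>
        m2 x h1 h2.1 (h2.2.trans_ne S3.neg_one_ne_one))
      (fun x hx => by rw [hκ1 _ (closure_capSet ha' hx), one_mul])]
  refine D.add _ _ _ _ isOpen_shell isBounded_shell (isOpen_capSet _ ha' hb')
    (isOpen_capSet _ hb' ha') inter_subset_left inter_subset_left
    (disjoint_left.2 fun x h1 h2 => lt_asymm (mem_Iio.1 h1.2.1) (mem_Ioi.1 h2.2.2)) (hd.mono subset_closure)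
    hd.continuousOn fun x _ h => ?_
  obtain ⟨h1, h2, h3⟩ := slot_zero i₀ h
  by_cases h4 : κ 1 (a' x) = 1
  · rw [h4, one_mul] at h3
    exact Or.inr (m2 x h1 h2 (h3.trans_ne S3.neg_one_ne_one))
  · exact Or.inl (m1 x h1 h2 h4)

end aux

theorem thick_add {ι : Type*} [Fintype ι] [DecidableEq ι] (D : Degree (ι → ℍ))
    {a : ι → (ι → ℍ) → S3} (ha : ∀ i, SphMap (a i)) {b : (ι → ℍ) → S3} (hb : SphMap b)
    (i₀ : ι) (y : ι → S3) :
    D.deg (Shell ι) (thick (Function.update a i₀ (a i₀ * b)) y) =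
      D.deg (Shell ι) (thick a y) + D.deg (Shell ι) (thick (Function.update a i₀ b) y) := by
  obtain ⟨y', q, hm⟩ := exists_missed ha hb
  have hab := (ha i₀).mul hb
  have key := slot_add D i₀ ha y' (a' := fun x => -1 * (y' i₀)⁻¹ * a i₀ x * 1)
    (b' := fun x => 1 * b x * (q⁻¹ * -1))
    (((SphMap.const _).mul (ha i₀)).mul (SphMap.const _))
    (((SphMap.const _).mul hb).mul (SphMap.const _)) fun x hx h h1 h2 => by
      refine hm x hx ⟨fun i => ?_, ?_⟩
      · by_cases hi : i = i₀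
        · rw [mul_one, mul_assoc, mul_eq_left, inv_mul_eq_one] at h1
          rw [hi, h1]
        · exact h i hi
      · rwa [one_mul, ← mul_assoc, mul_eq_right, mul_inv_eq_one] at h2
  have e : ((fun x => -1 * (y' i₀)⁻¹ * a i₀ x * 1) * fun x => 1 * b x * (q⁻¹ * -1))
      = fun x => -1 * (y' i₀)⁻¹ * (a i₀ * b) x * (q⁻¹ * -1) := by
    funext x
    simp only [Pi.mul_apply, mul_one, one_mul, mul_assoc]
  rw [e, slot_const D i₀ ha y' hab, slot_const D i₀ ha y' (ha i₀), slot_const D i₀ ha y' hb,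
    Function.update_eq_self] at key
  rw [thick_indep D (sphMap_update i₀ ha hab) y y', thick_indep D ha y y',
    thick_indep D (sphMap_update i₀ ha hb) y y', key]

end Vale.Agent.P173
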