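import Vale.Agent.P173.Basic

/-!
P173: topological definitions (complete, no gaps).
* `Stage F Z J`: `Z` is obtained from the closed set `A` by attaching closed unit balls of `F`.
* `PathHom Z G`: a functor from the fundamental groupoid of `Z` to the group `G`.
* `Atlas`: data of a flat principal bundle.
* `Rep`: a path in a graph is represented by a word in the edges.
* `Lab`: labelling of paths by the fundamental group together with the points of the cover.
-/

namespace Vale.Agent.P173

open Set Metric Topology unitInterval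

structure Stage (F : Type) [NormedAddCommGroup F] (Z : Type*) [TopologicalSpace Z] (J : Type*) where
  A : Set Z
  χ : J → F → Z
  cont : ∀ j, ContinuousOn (χ j) (closedBall 0 1)
  inj : ∀ j j' y y', ‖y‖ < 1 → ‖y'‖ < 1 → χ j y = χ j' y' → j = j' ∧ y = y'
  notMem : ∀ j y, ‖y‖ < 1 → χ j y ∉ A
  bdry : ∀ j y, ‖y‖ = 1 → χ j y ∈ A
  cover : ∀ z, z ∈ A ∨ ∃ j y, ‖y‖ < 1 ∧ χ j y = z
  isClosed_A : IsClosed A
  closed : ∀ C : Set Z, IsClosed (C ∩ A) → (∀ j, IsClosed (χ j ⁻¹' C ∩ closedBall 0 1)) → IsClosed C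

/-- the complement of the centres of the cells -/
def Stage.punct {F : Type} [NormedAddCommGroup F] {Z : Type*} [TopologicalSpace Z] {J : Type*}
    (st : Stage F Z J) : Set Z := {z | ∀ j, z ≠ st.χ j 0}

/-- the edge path of a one-dimensional cell -/
def Stage.edge {Z : Type*} [TopologicalSpace Z] {S : Type*} (st : Stage ℝ Z S) (s : S) :
    Path (st.χ s (-1)) (st.χ s 1) where
  toFun t := st.χ s (2 * (t : ℝ) - 1)
  continuous_toFun := (st.cont s).comp_continuous (by fun_prop) fun t => by
    rw [mem_closedBall_zero_iff, Real.norm_eq_abs, abs_le]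
    constructor <;> linarith [t.2.1, t.2.2]
  source' := by simp
  target' := by norm_num

theorem norm_exp_two_pi (t : ℝ) : ‖Complex.exp (2 * Real.pi * t * Complex.I)‖ = 1 := by
  have := Complex.norm_exp_ofReal_mul_I (2 * Real.pi * t)
  simpa using this

/-- base point on the boundary of a two-dimensional cell -/
def Stage.base {Z : Type*} [TopologicalSpace Z] {R : Type*} (st : Stage ℂ Z R) (r : R) : st.A :=
  ⟨st.χ r 1, st.bdry r 1 norm_one⟩

/-- the attaching loop of a two-dimensional cell -/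
noncomputable def Stage.att {Z : Type*} [TopologicalSpace Z] {R : Type*} (st : Stage ℂ Z R) (r : R) :
    Path (st.base r) (st.base r) where
  toFun t := ⟨st.χ r (Complex.exp (2 * Real.pi * (t : ℝ) * Complex.I)),
    st.bdry r _ (norm_exp_two_pi t)⟩
  continuous_toFun := Continuous.subtype_mk
    ((st.cont r).comp_continuous (by fun_prop) fun t => by
      rw [mem_closedBall_zero_iff, norm_exp_two_pi]) _
  source' := by simp [Stage.base]
  target' := by
    simp only [Stage.base, Icc.coe_one, Complex.ofReal_one, mul_one]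
    congr 2
    exact Complex.exp_two_pi_mul_I

structure PathHom (Z : Type*) [TopologicalSpace Z] (G : Type*) [Group G] where
  μ : ∀ {x y : Z}, Path x y → G
  trans : ∀ {x y z : Z} (γ : Path x y) (γ' : Path y z), μ (γ.trans γ') = μ γ * μ γ'
  htpy : ∀ {x y : Z} {γ γ' : Path x y}, γ.Homotopic γ' → μ γ = μ γ'

namespace PathHom

variable {Z : Type*} [TopologicalSpace Z] {G : Type*} [Group G] (m : PathHom Z G)

theorem refl (x : Z) : m.μ (Path.refl x) = 1 := by
  have h := m.trans (Path.refl x) (Path.refl x)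
  rw [Path.refl_trans_refl] at h
  exact (mul_eq_left.1 h.symm)

theorem symm {x y : Z} (γ : Path x y) : m.μ γ.symm = (m.μ γ)⁻¹ := by
  have h := m.trans γ γ.symm
  rw [← m.htpy ⟨Path.Homotopy.reflTransSymm γ⟩, m.refl] at h
  exact eq_inv_of_mul_eq_one_right h.symm

theorem cast {x y x' y' : Z} (γ : Path x y) (hx : x' = x) (hy : y' = y) :
    m.μ (γ.cast hx hy) = m.μ γ := by
  subst hx hy
  rfl

theorem congr {x y x' y' : Z} {γ : Path x y} {γ' : Path x' y'} (h : ∀ t, γ t = γ' t) :
    m.μ γ = m.μ γ' := by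
  have hx : x = x' := by rw [← γ.source, h, γ'.source]
  have hy : y = y' := by rw [← γ.target, h, γ'.target]
  subst hx hy
  congr 1
  ext t
  exact h t

/-- pull back along a continuous map -/
def comap {Y : Type*} [TopologicalSpace Y] {f : Y → Z} (hf : Continuous f) : PathHom Y G where
  μ γ := m.μ (γ.map hf)
  trans γ γ' := by rw [Path.map_trans, m.trans]
  htpy h := m.htpy (h.map ⟨f, hf⟩)

/-- push forward along a group homomorphism -/
def map {G' : Type*} [Group G'] (f : G →* G') : PathHom Z G' where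
  μ γ := f (m.μ γ)
  trans γ γ' := by rw [m.trans, map_mul]
  htpy h := by rw [m.htpy h]

end PathHom

structure Atlas (Z : Type*) [TopologicalSpace Z] (G : Type*) [Group G] (ι : Type*) where
  U : ι → Set Z
  isOpen : ∀ i, IsOpen (U i)
  cover : ∀ z, ∃ i, z ∈ U i
  φ : ι → Z → G
  lc : ∀ i j z, z ∈ U i → z ∈ U j →
    ∀ᶠ z' in 𝓝 z, φ i z' * (φ j z')⁻¹ = φ i z * (φ j z)⁻¹

def Atlas.Compat {Z : Type*} [TopologicalSpace Z] {G : Type*} [Group G] {ι : Type*}
    (𝒜 : Atlas Z G ι) (m : PathHom Z G) : Prop :=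
  ∀ (i : ι) {x y : Z} (γ : Path x y), (∀ t, γ t ∈ 𝒜.U i) → m.μ γ = (𝒜.φ i x)⁻¹ * 𝒜.φ i y

/-- `γ` is homotopic to the edge path spelled by `w` -/
inductive Rep {Z : Type*} [TopologicalSpace Z] {S : Type*} (st : Stage ℝ Z S) :
    ∀ {x y : Z}, Path x y → FreeGroup S → Prop
  | refl (v : Z) : v ∈ st.A → Rep st (Path.refl v) 1
  | edge (s : S) : Rep st (st.edge s) (FreeGroup.of s)
  | symm {x y : Z} {γ : Path x y} {w : FreeGroup S} : Rep st γ w → Rep st γ.symm w⁻¹
  | trans {x y z : Z} {γ : Path x y} {γ' : Path y z} {w w' : FreeGroup S} :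
      Rep st γ w → Rep st γ' w' → Rep st (γ.trans γ') (w * w')
  | htpy {x y : Z} {γ γ' : Path x y} {w : FreeGroup S} :
      Rep st γ w → γ.Homotopic γ' → Rep st γ' w

theorem Rep.eval {Z : Type*} [TopologicalSpace Z] {S : Type*} {st : Stage ℝ Z S} {G : Type*}
    [Group G] (m : PathHom Z G) {x y : Z} {γ : Path x y} {w : FreeGroup S} (h : Rep st γ w) :
    m.μ γ = FreeGroup.lift (fun s => m.μ (st.edge s)) w := by
  induction h with
  | refl v _ => simp [m.refl]
  | edge s => simp
  | symm _ ih => rw [m.symm, ih, map_inv]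
  | trans _ _ ih ih' => rw [m.trans, ih, ih', map_mul]
  | htpy _ hh ih => rw [← m.htpy hh, ih]

structure Lab {X E : Type*} [TopologicalSpace X] [TopologicalSpace E] (p : E → X) (Γ : Type*)
    [Group Γ] where
  lab : PathHom X Γ
  pt : Γ → X → E
  p_pt : ∀ g x, p (pt g x) = x
  pt_inj : ∀ g g' x, pt g x = pt g' x → g = g'
  lift : ∀ (g : Γ) {x y : X} (γ : Path x y),
    ∃ γ' : Path (pt g x) (pt (g * lab.μ γ) y), ∀ t, p (γ' t) = γ t
  surj : ∀ (x : X) (g : Γ), ∃ γ : Path x x, lab.μ γ = g
  null : ∀ (x : X) (γ : Path x x), lab.μ γ = 1 → γ.Homotopic (Path.refl x)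

open Classical in
/-- logarithmic increment of a nonvanishing function on the unit interval -/
noncomputable def inc (f : I → ℂ) : ℂ :=
  if h : ∃ L : I → ℂ, Continuous L ∧ ∀ t, Complex.exp (L t) = f t then h.choose 1 - h.choose 0
  else 0

end Vale.Agent.P173
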