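import Vale.Agent.P173.Basic

/-!
P173 task WordAlg (about 120 lines): a function of `N` words that is additive in each slot and
alternating is the determinant of the exponent matrix times its value at the generators.
Proof.  For fixed `w, i` the map `c ↦ δ (update w i c)` is a homomorphism
`FreeGroup ι →* Multiplicative ℝ`, so it equals `expo (fun j => δ (update w i (of j))) c
= ∑ j, expo (Pi.single j 1) c * δ (update w i (of j))` (induction on `c`).  Expanding all slots
(induction on a finset of expanded slots, or build a `MultilinearMap`),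
`δ w = ∑ τ : ι → ι, (∏ i, M i (τ i)) * δ (fun i => of (τ i))`.  Non injective `τ` give `0`; for a
permutation, `δ (of ∘ τ) = sign τ * δ of` (swap rule from alternating plus additive, then
`Equiv.Perm.swap_induction_on`).  Compare with `Matrix.det_apply'` (transpose).
Alternatively define `f : (ι → ℝ) [⋀^ι]→ₗ[ℝ] ℝ` by
`f v = ∑ τ, (∏ i, v i (τ i)) * δ (of ∘ τ)` and use `AlternatingMap.eq_smul_basis_det`.
-/

namespace Vale.Agent.P173

open Function

theorem word_alg_zero {ι : Type*} [Fintype ι] [DecidableEq ι] (ε : (ι → FreeGroup ι) → ℝ)
    (hadd : ∀ (w : ι → FreeGroup ι) (i : ι) (b : FreeGroup ι),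
      ε (update w i (w i * b)) = ε w + ε (update w i b))
    (halt : ∀ (w : ι → FreeGroup ι) (i j : ι), i ≠ j → w i = w j → ε w = 0)
    (h1 : ε FreeGroup.of = 0) (w : ι → FreeGroup ι) : ε w = 0 := by
  have hadd' : ∀ w i c b, ε (update w i (c * b)) = ε (update w i c) + ε (update w i b) := by
    intro w i c b
    simpa using hadd (update w i c) i b
  have hswap : ∀ (w : ι → FreeGroup ι) (i j : ι), i ≠ j → ε (w ∘ Equiv.swap i j) = -ε w := by
    intro w i j hij
    have hd : ∀ a, ε (update (update w j a) i a) = 0 := fun a =>
      halt _ i j hij (by simp [update_of_ne hij.symm])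
    have hl : ∀ a b c, ε (update (update w j (a * b)) i c)
        = ε (update (update w j a) i c) + ε (update (update w j b) i c) := fun a b c => by
      simp only [update_comm hij.symm, hadd']
    have h := hd (w i * w j)
    rw [hadd', hl, hl, hd, hd, update_eq_self, update_eq_self] at h
    rw [Equiv.comp_swap_eq_update]
    linarith
  have hperm : ∀ σ : Equiv.Perm ι, ε (FreeGroup.of ∘ σ) = 0 := fun σ => by
    induction σ using Equiv.Perm.swap_induction_on' with
    | one => exact h1
    | mul_swap σ i j hij ih =>
      rw [Equiv.Perm.coe_mul, ← comp_assoc, hswap _ i j hij, ih, neg_zero]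
  have key : ∀ (s : Finset ι) (w : ι → FreeGroup ι),
      (∀ i ∉ s, ∃ j, w i = FreeGroup.of j) → ε w = 0 := by
    intro s
    induction s using Finset.induction_on with
    | empty =>
      intro w hw
      choose τ hτ using fun i => hw i (Finset.notMem_empty i)
      by_cases hi : Injective τ
      · exact (congrArg ε (funext hτ)).trans
          (hperm (Equiv.ofBijective τ (Finite.injective_iff_bijective.1 hi)))
      · obtain ⟨i, j, h, hij⟩ := not_injective_iff.1 hi
        exact halt w i j hij (by rw [hτ, hτ, h])
    | insert i s _ ih =>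
      intro w hw
      have h0 : ε (update w i 1) = 0 := by simpa using hadd' w i 1 1
      have h2 : ∀ c, ε (update w i c) = 0 := fun c => by
        induction c using FreeGroup.induction_on with
        | C1 => exact h0
        | of j =>
          refine ih _ fun k hk => ?_
          by_cases hki : k = i
          · exact ⟨j, by rw [hki, update_self]⟩
          · rw [update_of_ne hki]
            exact hw k (by simp [hki, hk])
        | inv_of j hj => simpa [h0, hj] using (hadd' w i (FreeGroup.of j)⁻¹ (FreeGroup.of j)).symm
        | mul a b ha hb => rw [hadd', ha, hb, add_zero]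
      simpa using h2 (w i)
  exact key Finset.univ w fun i hi => absurd (Finset.mem_univ i) hi

theorem word_alg {ι : Type*} [Fintype ι] [DecidableEq ι] (δ : (ι → FreeGroup ι) → ℝ)
    (hadd : ∀ (w : ι → FreeGroup ι) (i : ι) (b : FreeGroup ι),
      δ (Function.update w i (w i * b)) = δ w + δ (Function.update w i b))
    (halt : ∀ (w : ι → FreeGroup ι) (i j : ι), i ≠ j → w i = w j → δ w = 0)
    (w : ι → FreeGroup ι) :
    δ w = (Matrix.of fun i j => expo (Pi.single j (1 : ℝ)) (w i)).det * δ FreeGroup.of := by
  have hup : ∀ (w : ι → FreeGroup ι) (i : ι) (c : FreeGroup ι),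
      (Matrix.of fun k j => expo (Pi.single j (1 : ℝ)) (update w i c k))
        = (Matrix.of fun k j => expo (Pi.single j (1 : ℝ)) (w k)).updateRow i
          fun j => expo (Pi.single j (1 : ℝ)) c := by
    intro w i c
    ext k j
    by_cases hk : k = i <;> simp [hk]
  refine sub_eq_zero.1 (word_alg_zero (fun w => δ w -
    (Matrix.of fun i j => expo (Pi.single j (1 : ℝ)) (w i)).det * δ FreeGroup.of)
    (fun w i b => ?_) (fun w i j hij h => ?_) ?_ w)
  · have e := Matrix.det_updateRow_add (Matrix.of fun k j => expo (Pi.single j (1 : ℝ)) (w k)) i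
      (fun j => expo (Pi.single j (1 : ℝ)) (w i)) fun j => expo (Pi.single j (1 : ℝ)) b
    rw [← hup, update_eq_self] at e
    simp only [hadd, hup, expo_mul]
    rw [show (fun j => expo (Pi.single j (1 : ℝ)) (w i) + expo (Pi.single j (1 : ℝ)) b) = _ + _
      from rfl, e]
    ring
  · simp only [halt w i j hij h]
    rw [Matrix.det_zero_of_row_eq hij (funext fun k => by simp [h]), zero_mul, sub_zero]
  · have : (Matrix.of fun i j : ι => expo (Pi.single j (1 : ℝ)) (FreeGroup.of i)) = 1 := by
      ext i j
      simp [Matrix.one_apply, Pi.single_apply]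
    simp only [this, Matrix.det_one, one_mul, sub_self]

end Vale.Agent.P173
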