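import Vale.Agent.P173.ThickAdd
import Vale.Agent.P173.WordAlg

namespace Vale.Agent.P173

open scoped Quaternion

theorem wordMap_mul {ι : Type*} (w w' : FreeGroup ι) :
    wordMap (w * w') = wordMap w * wordMap w' := by
  funext x
  simp [wordMap]

theorem word_deg {ι : Type*} [Fintype ι] [DecidableEq ι] (D : Degree (ι → ℍ))
    (w : ι → FreeGroup ι)
    (hw : (Matrix.of fun i j => expo (Pi.single j (1 : ℝ)) (w i)).det ≠ 0) :
    D.deg (Shell ι) (thick (fun i => wordMap (w i)) 1) ≠ 0 := by
  have key := word_alg (fun w : ι → FreeGroup ι => D.deg (Shell ι) (thick (fun i => wordMap (w i)) 1))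
    (fun w i b => by
      have h := thick_add D (a := fun i => wordMap (w i)) (fun i => sphMap_wordMap (w i))
        (sphMap_wordMap b) i 1
      have e : ∀ c : FreeGroup ι, (fun j => wordMap (Function.update w i c j)) =
          Function.update (fun j => wordMap (w j)) i (wordMap c) := fun c => by
        funext j
        by_cases hj : j = i
        · subst hj; simp
        · simp [Function.update_of_ne hj]
      simp only [e, wordMap_mul]
      exact h)
    (fun w i j hij h => thick_alt D (fun i => sphMap_wordMap (w i)) 1 hij (by simp only [h])) w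
  rw [key]
  refine mul_ne_zero hw ?_
  have e : (fun i : ι => wordMap (FreeGroup.of i)) = fun i x => nrm (x i) := by
    funext i x
    simp [wordMap]
  rw [e]
  exact thick_id D 1

end Vale.Agent.P173
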